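import Vale.Agent.P224.R2.H925.LamX

/-!
A universal relative bound of the tail with a very large constant.
-/

namespace Vale.Agent.P224.R2.H925

open MeasureTheory Set Filter Function Real Module Matrix Vale.Agent.P224
  Vale.Agent.P224.R2.H820 Vale.Agent.P224.R2.H582 Vale.Agent.P224.R2.H627
  Vale.Agent.P224.R2.H728 Vale.Agent.P224.R2.H484 Vale.Agent.P224.R2.H424.Tls
open Vale.Agent.P224.SM2 hiding ker
open scoped Topology RealInnerProductSpace ContDiff Manifold

set_option linter.unusedSectionVars false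

lemma Mo_le_two (q j : ℕ) : H869.Mo q j ≤ 2 := by
  unfold H869.Mo
  have h1 : √((j : ℝ) / (q + j)) ^ j ≤ 1 := by
    refine pow_le_one₀ (Real.sqrt_nonneg _) ?_
    rw [Real.sqrt_le_one]
    refine div_le_one_of_le₀ ?_ (by positivity)
    have : (0 : ℝ) ≤ q := q.cast_nonneg
    linarith
  have h2 : √((q : ℝ) / (q + j)) ^ q ≤ 1 := by
    refine pow_le_one₀ (Real.sqrt_nonneg _) ?_
    rw [Real.sqrt_le_one]
    refine div_le_one_of_le₀ ?_ (by positivity)
    have : (0 : ℝ) ≤ j := j.cast_nonneg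
    linarith
  have h3 := mul_le_one₀ h1 (by positivity) h2
  linarith

lemma tg_le_one {c : ℕ} (hc : c ≤ 20) : tg c ≤ 1 := by
  have h : (c : ℝ) ≤ 20 := by exact_mod_cast hc
  have h0 : (0 : ℝ) ≤ c := Nat.cast_nonneg c
  unfold tg
  rw [div_le_one (by positivity)]
  nlinarith [sq_nonneg ((c : ℝ) - 20)]

lemma kg_le_one (c : ℕ) : kg c ≤ 1 := by
  have h0 : (0 : ℝ) ≤ c := Nat.cast_nonneg c
  unfold kg
  rw [div_le_one (by positivity)]
  nlinarith

lemma kg_ge {c : ℕ} (hc : c ≤ 19) : 39 / 761 ≤ kg c := by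
  have h : (c : ℝ) ≤ 19 := by exact_mod_cast hc
  have h0 : (0 : ℝ) ≤ c := Nat.cast_nonneg c
  unfold kg
  rw [div_le_div_iff₀ (by norm_num) (by positivity)]
  nlinarith

lemma quot_le {c : ℕ} (hc : c < 19) : tg (c + 1) ^ 2 / kg (c + 1) ^ 2 ≤ 381 := by
  have h1 := tg_le_one (c := c + 1) (by omega)
  have h2 := kg_ge (c := c + 1) (by omega)
  have h3 := tg_nonneg (c + 1)
  have h4 : (39 / 761 : ℝ) ^ 2 ≤ kg (c + 1) ^ 2 := pow_le_pow_left₀ (by norm_num) h2 2
  rw [div_le_iff₀ (lt_of_lt_of_le (by norm_num) h4)]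
  nlinarith

lemma Gt_le_one {c : ℕ} (hc : c < 20) : Gt c ≤ 1 := by
  interval_cases c <;> (unfold Gt; norm_num)

/-- the cut constants -/
noncomputable def Cc (m c : ℕ) : ℝ := if c < 19 then m else 0

lemma relC_le {m : ℕ} (hm : 17 ≤ m) (hm2 : m ≤ 1000) :
    relC m 0 1 (fun _ => 1) (Cc m) ≤ 10 ^ 14 := by
  have h17 : (17 : ℝ) ≤ m := by exact_mod_cast hm
  have h1000 : (m : ℝ) ≤ 1000 := by exact_mod_cast hm2
  have hm0 : (0 : ℝ) < m := by linarith
  have hc : cM m ≤ 1 := by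
    unfold cM
    rw [div_le_one (by positivity)]
    have e : (1 + 6 / (5 * (m : ℝ))) * ((m + 1) * (m + 2))
        = (5 * m + 6) * ((m + 1) * (m + 2)) / (5 * m) := by
      field_simp
    rw [e, div_le_iff₀ (by positivity)]
    nlinarith [mul_nonneg (mul_nonneg hm0.le hm0.le) (by linarith : (0 : ℝ) ≤ m - 17),
      mul_nonneg hm0.le (by linarith : (0 : ℝ) ≤ m - 17)]
  have hterm : ∀ c ∈ Finset.range 20, Gt c * (kg c - kg (c + 1)) *
      (4 * m * Cc m c * ((1 + 1 * (tg (c + 1) ^ 2 / kg (c + 1) ^ 2))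
        * (H869.Mo (m - 1) (0 + 2) + 1 * H869.Mo (m - 1) (0 + 1))
      + 1 * (tg (c + 1) ^ 2 / kg (c + 1) ^ 2) * (H869.Mo (m - 1) 0 + H869.Mo (m - 1) (0 + 1) / 1)))
      ≤ 12208000000 := by
    intro c hc
    rw [Finset.mem_range] at hc
    unfold Cc
    split_ifs with h
    · have g0 := Gt_nonneg c hc
      have g1 := Gt_le_one hc
      have k0 : 0 ≤ kg c - kg (c + 1) := sub_nonneg.2 (kg_anti c hc)
      have k1 : kg c - kg (c + 1) ≤ 1 := by
        have := kg_nonneg (c + 1) (by omega)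
        have := kg_le_one c
        linarith
      have q0 : 0 ≤ tg (c + 1) ^ 2 / kg (c + 1) ^ 2 := by positivity
      have q1 := quot_le h
      set Q := tg (c + 1) ^ 2 / kg (c + 1) ^ 2
      have m2 := Mo_le_two (m - 1) (0 + 2)
      have m1 := Mo_le_two (m - 1) (0 + 1)
      have m0 := Mo_le_two (m - 1) 0
      have n2 := H869.Mo_nonneg (m - 1) (0 + 2)
      have n1 := H869.Mo_nonneg (m - 1) (0 + 1)
      have n0 := H869.Mo_nonneg (m - 1) 0
      have hX : (1 + 1 * Q) * (H869.Mo (m - 1) (0 + 2) + 1 * H869.Mo (m - 1) (0 + 1))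
          + 1 * Q * (H869.Mo (m - 1) 0 + H869.Mo (m - 1) (0 + 1) / 1) ≤ 3052 := by
        have a1 : (1 + 1 * Q) * (H869.Mo (m - 1) (0 + 2) + 1 * H869.Mo (m - 1) (0 + 1))
            ≤ 382 * 4 := by
          apply mul_le_mul <;> linarith
        have a2 : 1 * Q * (H869.Mo (m - 1) 0 + H869.Mo (m - 1) (0 + 1) / 1) ≤ 381 * 4 := by
          apply mul_le_mul <;> linarith
        linarith
      have hX0 : 0 ≤ (1 + 1 * Q) * (H869.Mo (m - 1) (0 + 2) + 1 * H869.Mo (m - 1) (0 + 1))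
          + 1 * Q * (H869.Mo (m - 1) 0 + H869.Mo (m - 1) (0 + 1) / 1) := by positivity
      have hGk : Gt c * (kg c - kg (c + 1)) ≤ 1 := mul_le_one₀ g1 k0 k1
      have hGk0 : 0 ≤ Gt c * (kg c - kg (c + 1)) := mul_nonneg g0 k0
      have h4 : 4 * (m : ℝ) * m ≤ 4000000 := by nlinarith
      have h5 := mul_le_mul h4 hX hX0 (by norm_num)
      have h6 := mul_le_mul hGk h5 (by positivity) (by norm_num)
      refine h6.trans (le_of_eq ?_)
      norm_num
    · simp
  have hsum := Finset.sum_le_card_nsmul _ _ _ hterm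
  rw [Finset.card_range, nsmul_eq_mul] at hsum
  unfold relC
  have hs0 := cM_nonneg m
  rcases le_or_gt 0 (∑ c ∈ Finset.range 20, Gt c * (kg c - kg (c + 1)) *
      (4 * m * Cc m c * ((1 + 1 * (tg (c + 1) ^ 2 / kg (c + 1) ^ 2))
        * (H869.Mo (m - 1) (0 + 2) + 1 * H869.Mo (m - 1) (0 + 1))
      + 1 * (tg (c + 1) ^ 2 / kg (c + 1) ^ 2)
        * (H869.Mo (m - 1) 0 + H869.Mo (m - 1) (0 + 1) / 1)))) with h | h
  · refine (mul_le_mul hc hsum h (by norm_num)).trans ?_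
    norm_num
  · refine le_trans (mul_nonpos_of_nonneg_of_nonpos hs0 h.le) (by norm_num)

section

variable {V W M : Type*} [NormedAddCommGroup V] [InnerProductSpace ℝ V] [FiniteDimensional ℝ V]
  [NormedAddCommGroup W] [InnerProductSpace ℝ W] [FiniteDimensional ℝ W]
  [TopologicalSpace M] [ChartedSpace V M]
  [MeasurableSpace V] [BorelSpace V] [MeasurableSpace M] [BorelSpace M]
  [MeasurableSpace W] [BorelSpace W] [IsManifold 𝓘(ℝ, V) ∞ M]
  [CompactSpace M] [T2Space M]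

/-- **a universal relative bound of the tail** for the thresholds `max c₁ (c₂ / (1 - T^2))` -/
theorem rel_any [Nonempty M] (hm : 17 ≤ finrank ℝ V) (hm2 : finrank ℝ V ≤ 1000)
    (hW : finrank ℝ W = finrank ℝ V + 2)
    {F : M → W} (hF : SphImm V F) (hmin : ∀ x n, IsUnitNormal V F x n → meanCurv V F x n = 0)
    {N : M → W} (hNs : ContMDiff 𝓘(ℝ, V) 𝓘(ℝ, W) ∞ N) (hN : ∀ x, IsUnitNormal V F x (N x))
    {ι : Type*} [Fintype ι] [DecidableEq ι] (b : OrthonormalBasis ι ℝ W) (j : ι → ℝ)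
    {m : ℕ} (hmm : m = finrank ℝ V) {c1 c2 : ℝ} (hc1 : 0 ≤ c1) (hc2 : 3 ≤ c2) :
    AbsTail (volM V F) m F N (fun T => (1 - T ^ 2) * lamX c1 c2 T)
      (10 ^ 14 * hh (nrm (volM V F)) (diagonal j) (co b F) (co b N)) := by
  have h1000 : (m : ℝ) ≤ 1000 := by exact_mod_cast (by omega : m ≤ 1000)
  have hC : ∀ c < 20, ∀ T ∈ Ioo (0 : ℝ) 1, tg c < T → T ≤ tg (c + 1) → ∀ t ∈ Icc (0 : ℝ) 1,
      m * t - (fun T => (1 - T ^ 2) * lamX c1 c2 T) T ≤ Cc m c * t ^ 0 := by
    intro c hc T hT t1 t2 t ht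
    have hk : 0 < 1 - T ^ 2 := by nlinarith [hT.1, hT.2]
    change m * t - (1 - T ^ 2) * lamX c1 c2 T ≤ Cc m c * t ^ 0
    rw [lamX_mul hT, pow_zero, mul_one]
    have hmt : (m : ℝ) * t ≤ m := by
      have : (0 : ℝ) ≤ m := m.cast_nonneg
      nlinarith [ht.2]
    unfold Cc
    split_ifs with h
    · have : c1 ≤ max c1 (c2 / (1 - T ^ 2)) := le_max_left _ _
      linarith
    · have hc19 : c = 19 := by omega
      have h4 : c2 / (1 - T ^ 2) ≤ max c1 (c2 / (1 - T ^ 2)) := le_max_right _ _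
      have h5 : (760 / 761 : ℝ) < T := by
        rw [hc19] at t1
        have e : tg 19 = 760 / 761 := by
          unfold tg
          norm_num
        linarith
      have h6 : 1 - T ^ 2 ≤ 3 / 1000 := by nlinarith
      have h7 : 1000 ≤ c2 / (1 - T ^ 2) := by
        rw [le_div_iff₀ hk]
        nlinarith
      linarith
  obtain ⟨τ, h1, h2, h3⟩ := H176.tls_min hm hW hF hmin hNs hN b j hmm (i := 0)
    (l := fun T => (1 - T ^ 2) * lamX c1 c2 T) (θ := fun _ => 1) (C := Cc m)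
    (fun c _ => one_pos) (fun c _ => by unfold Cc; split_ifs <;> positivity)
    hC (by unfold Cc; simp)
  refine ⟨τ, h1, h2, ?_⟩
  have hh0 : 0 ≤ hh (nrm (volM V F)) (diagonal j) (co b F) (co b N) := by
    rw [← H176.int_zf]
    exact div_nonneg (integral_nonneg fun x => by positivity) measureReal_nonneg
  rw [h3]
  exact mul_le_mul_of_nonneg_right (relC_le (by omega) (by omega)) hh0

end

end Vale.Agent.P224.R2.H925
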