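import Vale.Agent.P224.R2.H684.NxB
import Vale.Agent.P224.R2.H925.RelC

/-!
The near range of one dimension with the checker `nearX`; the pair `(1000, 10^14)` of the list of
relative tails needs no hypothesis.
-/

namespace Vale.Agent.P224.R2.H925

open MeasureTheory Set Filter Function Real Module Matrix Vale.Agent.P224
  Vale.Agent.P224.R2.H820 Vale.Agent.P224.R2.H582 Vale.Agent.P224.R2.H627
  Vale.Agent.P224.R2.H728 Vale.Agent.P224.R2.H484
open Vale.Agent.P224.SM2 hiding ker
open Vale.Agent.P224.R2.H684 (nearX near_XX)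
open Vale.Agent.P224.R2.H176 (NearData NearOut)
open scoped Topology RealInnerProductSpace ContDiff Manifold

set_option linter.unusedSectionVars false

/-- the pair of the law without relative tail -/
def relFree : ℚ × ℚ := (1000, 100000000000000)

/-- the relative tails of a block -/
def RelU (c1 c2 : ℚ) (V W M : Type*) [NormedAddCommGroup V] [InnerProductSpace ℝ V]
    [FiniteDimensional ℝ V] [NormedAddCommGroup W] [InnerProductSpace ℝ W]
    [FiniteDimensional ℝ W] [TopologicalSpace M] [ChartedSpace V M]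
    [MeasurableSpace V] [BorelSpace V] [MeasurableSpace M] [BorelSpace M]
    (rels : List (ℚ × ℚ)) (ν : ℝ) (m : ℕ) (F : M → W) : Prop :=
  ∀ (N : M → W) (b : OrthonormalBasis (Fin (finrank ℝ W)) ℝ W)
    (j : Fin (finrank ℝ W) → ℝ), NearData V F N b j ν →
    ∀ k ∈ rels, (∀ a, j a ^ 2 ≤ (k.1 : ℝ) * (m + 1)) →
      AbsTail (volM V F) m F N (fun T => (1 - T ^ 2) * lamX c1 c2 T)
      (k.2 * hh (nrm (volM V F)) (diagonal j) (co b F) (co b N))

section

variable {V W M : Type*} [NormedAddCommGroup V] [InnerProductSpace ℝ V] [FiniteDimensional ℝ V]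
  [NormedAddCommGroup W] [InnerProductSpace ℝ W] [FiniteDimensional ℝ W]
  [TopologicalSpace M] [ChartedSpace V M]
  [MeasurableSpace V] [BorelSpace V] [MeasurableSpace M] [BorelSpace M]
  [MeasurableSpace W] [BorelSpace W] [IsManifold 𝓘(ℝ, V) ∞ M]
  [CompactSpace M] [T2Space M]

/-- the list of relative tails may be enlarged by the pair without relative tail -/
theorem relU_free [Nonempty M] {c1 c2 : ℚ} (hc1 : 0 ≤ c1) (hc2 : 3 ≤ c2) {m : ℕ}
    (h17 : 17 ≤ m) (h1000 : m ≤ 1000) (hmm : m = finrank ℝ V)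
    (hW : finrank ℝ W = finrank ℝ V + 2) {F : M → W} (hF : SphImm V F)
    (hmin : ∀ x n, IsUnitNormal V F x n → meanCurv V F x n = 0)
    {rels : List (ℚ × ℚ)} {ν : ℝ} (hrel : RelU c1 c2 V W M rels ν m F) :
    RelU c1 c2 V W M (rels ++ [relFree]) ν m F := by
  intro N b j hd k hk hj
  rcases List.mem_append.1 hk with hk | hk
  · exact hrel N b j hd k hk hj
  · rw [List.mem_singleton] at hk
    subst hk
    have h1 : (0 : ℝ) ≤ c1 := by exact_mod_cast hc1
    have h2 : (3 : ℝ) ≤ c2 := by exact_mod_cast hc2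
    have h3 := rel_any (by omega) (by omega) hW hF hmin hd.smooth hd.unit b j hmm h1 h2
    have h4 : ((relFree.2 : ℚ) : ℝ) = 10 ^ 14 := by
      unfold relFree
      norm_num
    rw [h4]
    exact h3

/-- **the near range of one dimension**, checker `nearX`, thresholds `max c₁ (c₂ / (1 - T^2))`,
relative tails and the law without relative tail -/
theorem near_XXR [Nonempty M] {c1 c2 : ℚ} (hc2 : 3 ≤ c2) (hc : 4 / 3 * c2 ≤ c1)
    (hc1 : c1 ≤ 94 / 5) {ab : ℚ} {rels : List (ℚ × ℚ)} {m : ℕ} {nums : List NumE} {p : ParQ}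
    {laws : List LawQ} {els : List (ElQ × ℚ × ℚ)} {cols : List ColQ}
    (hin : inOK (blkX c1 ab (rels ++ [relFree])) m nums p laws = true)
    (hok : nearX p laws (els.map Prod.fst) cols = true) (hels : e7All p.m els = true)
    (hmm : m = finrank ℝ V) (hW : finrank ℝ W = finrank ℝ V + 2)
    {F : M → W} (hF : SphImm V F) (hmin : ∀ x n, IsUnitNormal V F x n → meanCurv V F x n = 0)
    (ha : AdmF m (lamX c1 c2))
    {m1 : ℕ} {x : ℚ} (hab : absOKg 200 wR m1 x (lcG kR c1 c2) ab = true) (h17 : 17 ≤ m1)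
    (hm1 : m1 ≤ m) (h1000 : m ≤ 1000) (hx : (x : ℝ) ≤ 1 / m) {ν : ℝ} (hν : ν ≤ p.ν)
    (hrel : RelU c1 c2 V W M rels ν m F)
    (N : M → W) (b : OrthonormalBasis (Fin (finrank ℝ W)) ℝ W) (j : Fin (finrank ℝ W) → ℝ)
    (hd : NearData V F N b j ν) : NearOut V F N b j p.gp p.h1 p.d1 := by
  have hc20 : 0 ≤ c2 := by linarith
  have hc10 : 0 ≤ c1 := by linarith
  exact near_XX hc20 hc hc1 hin hok hels hmm hW hF hmin ha hab h17 hm1 hx hν
    (relU_free hc10 hc2 (h17.trans hm1) h1000 hmm hW hF hmin hrel) N b j hd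

end

end Vale.Agent.P224.R2.H925
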