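import Vale.Agent.P224.R2.H582.LawT

/-!
The law with the tangent line below a level `T₁` and an arbitrary threshold function.
-/

namespace Vale.Agent.P224.R2.H925

open MeasureTheory Set Filter Function Real Module Vale.Agent.P224 Vale.Agent.P224.FV
open Vale.Agent.P224.SM2 Vale.Agent.P224.R2.H820 Vale.Agent.P224.R2.H728
open Vale.Agent.P224.R2.H627 Vale.Agent.P224.R2.H582
open scoped Topology RealInnerProductSpace ContDiff Manifold

set_option linter.unusedSectionVars false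

/-- a function cut at the level `T₁` -/
noncomputable def cut (T1 : ℝ) (f : ℝ → ℝ) : ℝ → ℝ := (Iio T1).indicator f

lemma cut_lt {T1 T : ℝ} (f : ℝ → ℝ) (h : T < T1) : cut T1 f T = f T :=
  indicator_of_mem (s := Iio T1) (mem_Iio.2 h) f

lemma cut_ge {T1 T : ℝ} (f : ℝ → ℝ) (h : T1 ≤ T) : cut T1 f T = 0 :=
  indicator_of_notMem (s := Iio T1) (fun h2 => absurd (mem_Iio.1 h2) (not_lt.2 h)) f

lemma int_cut {f : ℝ → ℝ} {T1 : ℝ} (h0 : 0 ≤ T1) (h1 : T1 ≤ 1)
    (hf : IntervalIntegrable f volume 0 T1) :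
    IntervalIntegrable (cut T1 f) volume 0 1 ∧ ∫ T in (0 : ℝ)..1, cut T1 f T
      = ∫ T in (0 : ℝ)..T1, f T := by
  have hf' := (intervalIntegrable_iff_integrableOn_Ioo_of_le h0).1 hf
  have e1 : Iio T1 ∩ Ioc 0 1 = Ioo 0 T1 := by
    ext x
    simp only [mem_inter_iff, mem_Iio, mem_Ioc, mem_Ioo]
    constructor
    · rintro ⟨a, b, -⟩
      exact ⟨b, a⟩
    · rintro ⟨a, b⟩
      exact ⟨b, a, by linarith⟩
  have e2 : Ioc (0 : ℝ) 1 ∩ Iio T1 = Ioo 0 T1 := by rw [inter_comm, e1]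
  refine ⟨?_, ?_⟩
  · rw [intervalIntegrable_iff_integrableOn_Ioc_of_le zero_le_one]
    unfold cut
    rw [integrableOn_indicator_iff measurableSet_Iio, e1]
    exact hf'
  · rw [intervalIntegral.integral_of_le zero_le_one, intervalIntegral.integral_of_le h0]
    unfold cut
    rw [setIntegral_indicator measurableSet_Iio, e2, integral_Ioc_eq_integral_Ioo]

section

variable {V W M : Type*} [NormedAddCommGroup V] [InnerProductSpace ℝ V] [FiniteDimensional ℝ V]
  [NormedAddCommGroup W] [InnerProductSpace ℝ W] [FiniteDimensional ℝ W]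
  [TopologicalSpace M] [ChartedSpace V M]
  [MeasurableSpace V] [BorelSpace V] [MeasurableSpace M] [BorelSpace M]
  [MeasurableSpace W] [BorelSpace W] [IsManifold 𝓘(ℝ, V) ∞ M]
  [CompactSpace M] [T2Space M]

/-- **the law with the tangent line below the level `T₁`**: `σ` is minus the base point of the
tangent, `(1 - T^2) * lam T` the threshold, `be'` a bound of the second coefficient, `τ` a bound of
the tail -/
theorem law_T1 [Nonempty M] (hm : 4 ≤ finrank ℝ V) (hW : finrank ℝ W = finrank ℝ V + 2)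
    {F : M → W} (hF : SphImm V F) (hmin : ∀ x n, IsUnitNormal V F x n → meanCurv V F x n = 0)
    {N : M → W} (hNs : ContMDiff 𝓘(ℝ, V) 𝓘(ℝ, W) ∞ N) (hN : ∀ x, IsUnitNormal V F x (N x))
    (hinj : Injective F) {ι : Type*} [Fintype ι] [DecidableEq ι] (b : OrthonormalBasis ι ℝ W)
    {σ T1 : ℝ} (hσ : 0 ≤ σ) (hT1 : 0 ≤ T1) (hT1' : T1 ≤ 1) {m : ℕ} (hmm : m = finrank ℝ V)
    {lam be' B0 B1 τ : ℝ → ℝ}
    (hβ : ∀ T ∈ Ioo (0 : ℝ) 1,
      m * (m + 1) * (T * |2 * rM m T - eM m T| - 2 * T ^ 2 * rM m T) ≤ be' T)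
    (hα : ∀ T ∈ Ioo (0 : ℝ) 1, 0 ≤ al m T (yM m T) (rM m T) (lam T))
    (hconv : ∀ T ∈ Ioo (0 : ℝ) T1, (m + 3) * be' T
      ≤ (m + 1) * al m T (yM m T) (rM m T) (lam T) * (1 - T))
    (hpos : ∀ T ∈ Ico T1 1, be' T ≤ al m T (yM m T) (rM m T) (lam T) * (1 - T))
    (i0 : IntervalIntegrable B0 volume 0 T1) (i1 : IntervalIntegrable B1 volume 0 T1)
    (hB0 : ∀ T ∈ Ioo (0 : ℝ) T1,
      B0 T ≤ 1 / 2 * ta (m + 1) T (al m T (yM m T) (rM m T) (lam T)) (be' T) (-σ))
    (hB1 : ∀ T ∈ Ioo (0 : ℝ) T1,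
      1 / 2 * tb (m + 1) T (al m T (yM m T) (rM m T) (lam T)) (be' T) (-σ) ≤ B1 T)
    (hτi : IntervalIntegrable τ volume 0 1)
    (hτ : ∀ T ∈ Ioo (0 : ℝ) 1, (m + 1) * (m + 2) * T ^ 2 * rM m T / (1 - T ^ 2) / 2
      * E2 (volM V F) F N (TK m T ((1 - T ^ 2) * lam T))
      ≤ τ T * (volM V F).real univ ^ 2) :
    2 * lamM m * (sphereVol m / (volM V F).real univ)
        + ((∫ T in (0 : ℝ)..T1, B0 T) * Qpt (nrm (volM V F)) m (co b F) (co b N)
        + (∫ T in (0 : ℝ)..T1, B1 T) * min (Qpts (nrm (volM V F)) m (co b F) (co b N)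
          + σ * Qpt (nrm (volM V F)) m (co b F) (co b N)) 0
        + m / ((m + 2) * (m + 4)) * Qcs (nrm (volM V F)) (co b F) (co b N)
        + m * (m + 1) * EM m 1 * Qcss (nrm (volM V F)) m (co b F) (co b N)
        - ∫ T in (0 : ℝ)..1, τ T)
      ≤ 1 + m * rM m 0 * ∑ i, m1 (nrm (volM V F)) (co b N) i ^ 2 := by
  subst hmm
  set m := finrank ℝ V with hmdef
  have hfin : IsFiniteMeasure (volM V F) := isFiniteMeasure_volM hF
  have hm1 : 1 ≤ m := by omega
  have hvpos : 0 < volM V F univ := volM_pos_of_isOpen hW hF isOpen_univ univ_nonempty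
  have hnz : NeZero (volM V F) := ⟨fun h => by rw [h] at hvpos; simp at hvpos⟩
  have hA : 0 < (volM V F).real univ := ENNReal.toReal_pos hvpos.ne' (measure_ne_top _ _)
  have hT0 : T0Data (nrm (volM V F)) m (co b F) (co b N) :=
    t0Data_of_min hm1 hW hF hmin hNs hN b
  have hmR : (m : ℝ) + 1 ≠ 0 := by positivity
  have h2p : Two (volM V F) m F N := two_of_min hW hF hmin hNs hN
  have hc := certO_M hm
  set A := (volM V F).real univ with hAdef
  have ce := contOn_eM hm
  obtain ⟨j0, e0⟩ := int_cut hT1 hT1' i0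
  obtain ⟨j1, e1⟩ := int_cut hT1 hT1' i1
  have e2 := E2_Xk b hmR hT0
  have e3 := E2_Xks b hmR hT0
  have e4 := E2_Ck b hT0
  have e5 := E2_Cks b hT0
  set X0 := E2 (volM V F) F N Xk with hX0
  set X1 := E2 (volM V F) F N (fun k => Xk k * k.1) with hX1
  set C0 := E2 (volM V F) F N Ck with hC0
  set C1 := E2 (volM V F) F N (fun k => Ck k * k.1) with hC1
  have q7 : ∀ T, ta (m + 1) T (m * eM m T) 0 0 = m * eM m T := by
    intro T
    unfold ta SM2.ker
    simp
  have q8 : ∀ T, tb (m + 1) T (m * eM m T) 0 0 = m * (m + 1) * (T ^ 1 * eM m T) := by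
    intro T
    unfold tb SM2.ker
    push_cast
    simp
    ring
  -- the pointwise bound
  have key : ∀ T ∈ Ioo (0 : ℝ) 1, cut T1 B0 T * X0 + cut T1 B1 T * min (X1 + σ * X0) 0
      + (m * (T ^ 0 * eM m T)) * C0 + (m * (m + 1) * (T ^ 1 * eM m T)) * C1 - τ T * A ^ 2
      ≤ DM V F N T := by
    intro T hT
    have he := hc.e0 T hT
    have hk : 0 < 1 - T ^ 2 := by nlinarith [hT.1, hT.2]
    have hX0n : 0 ≤ X0 := integral_nonneg fun q => sq_nonneg _
    have q9 := hτ T hT
    have hal : al m T (yM m T) (rM m T) (lam T) ≤ m * (T * yM m T + m * rM m T)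
        - (m + 1) * (m + 2) * T ^ 2 * rM m T / (1 - T ^ 2) * ((1 - T ^ 2) * lam T) := by
      unfold al
      rw [show (m + 1) * (m + 2) * T ^ 2 * rM m T / (1 - T ^ 2) * ((1 - T ^ 2) * lam T)
        = (m + 1) * (m + 2) * T ^ 2 * rM m T * lam T by
          field_simp]
    rcases lt_or_ge T T1 with hlt | hge
    · have hTT : T ∈ Ioo 0 T1 := ⟨hT.1, hlt⟩
      have q1 := DF_ge_zero h2p hc (T := T) (l := (1 - T ^ 2) * lam T)
        (α := al m T (yM m T) (rM m T) (lam T)) (β := be' T)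
        (ε := m * eM m T) (G := (m + 1) * (m + 2) * T ^ 2 * rM m T / (1 - T ^ 2) / 2)
        (s0 := -σ) (s1 := 0) hT hal (hβ T hT) le_rfl le_rfl (hα T hT) (by positivity)
        (by linarith) (by norm_num) (hconv T hTT)
      have q2 := hB0 T hTT
      have q3 := hB1 T hTT
      have q4 := tb_nonneg (m := m) (σ := σ) (T := T) hσ hT.1.le (hα T hT) (hconv T hTT)
      have q5 := mul_le_mul_of_nonneg_right q2 hX0n
      have q6 : B1 T * min (X1 + σ * X0) 0
          ≤ 1 / 2 * tb (m + 1) T (al m T (yM m T) (rM m T) (lam T)) (be' T) (-σ)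
            * (X1 + σ * X0) := by
        rcases le_total (X1 + σ * X0) 0 with h | h
        · rw [min_eq_left h]
          exact mul_le_mul_of_nonpos_right q3 h
        · rw [min_eq_right h, mul_zero]
          exact mul_nonneg (by linarith) h
      rw [q7, q8] at q1
      rw [cut_lt B0 hlt, cut_lt B1 hlt]
      unfold DM
      rw [← hmdef]
      refine le_trans ?_ q1
      have e7 : X1 - -σ * X0 = X1 + σ * X0 := by ring
      rw [e7, zero_mul, sub_zero, pow_zero, one_mul]
      linarith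
    · have q1 := DF_ge_C h2p hc (T := T) (l := (1 - T ^ 2) * lam T)
        (α := al m T (yM m T) (rM m T) (lam T)) (β := be' T)
        (ε := m * eM m T) (G := (m + 1) * (m + 2) * T ^ 2 * rM m T / (1 - T ^ 2) / 2)
        (s1 := 0) hT hal (hβ T hT) le_rfl le_rfl (hα T hT) (by positivity)
        (by norm_num) (hpos T ⟨hge, hT.2⟩)
      rw [q7, q8] at q1
      rw [cut_ge B0 hge, cut_ge B1 hge]
      unfold DM
      rw [← hmdef]
      refine le_trans ?_ q1
      rw [zero_mul, zero_mul, zero_mul, sub_zero, pow_zero, one_mul]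
      linarith
  have ie0 : IntervalIntegrable (fun T => T ^ 0 * eM m T) volume 0 1 := intble (contOn_pow_mul ce 0)
  have ie1 : IntervalIntegrable (fun T => T ^ 1 * eM m T) volume 0 1 := intble (contOn_pow_mul ce 1)
  have iB : IntervalIntegrable (fun T => cut T1 B0 T * X0 + cut T1 B1 T * min (X1 + σ * X0) 0
      + (m * (T ^ 0 * eM m T)) * C0 + (m * (m + 1) * (T ^ 1 * eM m T)) * C1 - τ T * A ^ 2)
      volume 0 1 :=
    ((((j0.mul_const _).add (j1.mul_const _)).add ((ie0.const_mul _).mul_const _)).add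
      ((ie1.const_mul _).mul_const _)).sub (hτi.mul_const _)
  have hL := sharp_defect hm hW hF hmin hNs hN hinj iB key
  have eI : ∫ T in (0 : ℝ)..1, (cut T1 B0 T * X0 + cut T1 B1 T * min (X1 + σ * X0) 0
      + (m * (T ^ 0 * eM m T)) * C0 + (m * (m + 1) * (T ^ 1 * eM m T)) * C1 - τ T * A ^ 2)
      = (∫ T in (0 : ℝ)..T1, B0 T) * X0 + (∫ T in (0 : ℝ)..T1, B1 T) * min (X1 + σ * X0) 0
        + m * EM m 0 * C0 + m * (m + 1) * EM m 1 * C1 - (∫ T in (0 : ℝ)..1, τ T) * A ^ 2 := by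
    rw [intervalIntegral.integral_sub ((((j0.mul_const _).add (j1.mul_const _)).add
      ((ie0.const_mul _).mul_const _)).add ((ie1.const_mul _).mul_const _)) (hτi.mul_const _),
      intervalIntegral.integral_add (((j0.mul_const _).add (j1.mul_const _)).add
      ((ie0.const_mul _).mul_const _)) ((ie1.const_mul _).mul_const _),
      intervalIntegral.integral_add ((j0.mul_const _).add (j1.mul_const _))
      ((ie0.const_mul _).mul_const _),
      intervalIntegral.integral_add (j0.mul_const _) (j1.mul_const _)]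
    simp only [intervalIntegral.integral_mul_const, intervalIntegral.integral_const_mul]
    rw [e0, e1]
    rfl
  have hcN : Continuous N := hNs.continuous
  have e6 : ‖∫ x, N x ∂(volM V F)‖ ^ 2 = A ^ 2 * ∑ i, m1 (nrm (volM V F)) (co b N) i ^ 2 :=
    sum_m1_sq b (hcN.integrable_of_hasCompactSupport (HasCompactSupport.of_compactSpace N))
  have hA2 : 0 < A ^ 2 := pow_pos hA 2
  have e7 : min (X1 + σ * X0) 0 = A ^ 2 * min (Qpts (nrm (volM V F)) m (co b F) (co b N)
      + σ * Qpt (nrm (volM V F)) m (co b F) (co b N)) 0 := by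
    have h5 : X1 + σ * X0 = A ^ 2 * (Qpts (nrm (volM V F)) m (co b F) (co b N)
      + σ * Qpt (nrm (volM V F)) m (co b F) (co b N)) := by
      rw [e2, e3]
      unfold Qpt Qpts
      ring
    rw [h5, mul_min_of_nonneg _ _ hA2.le, mul_zero]
  have e8 : X0 = A ^ 2 * Qpt (nrm (volM V F)) m (co b F) (co b N) := e2
  have e9 : C0 = A ^ 2 * Qcs (nrm (volM V F)) (co b F) (co b N) := e4
  rw [eI, e7, e8, e9, e5, e6, EM_zero hm] at hL
  refine le_of_mul_le_mul_left (a := A ^ 2) ?_ hA2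
  refine le_trans (le_of_eq ?_) (hL.trans (le_of_eq ?_))
  · have e10 : A ^ 2 * (2 * lamM m * (sphereVol m / A)) = 2 * lamM m * (sphereVol m * A) := by
      field_simp
    rw [mul_add, e10]
    ring
  · ring

end

end Vale.Agent.P224.R2.H925
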