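import Vale.Agent.P224.R2.H925.Sys

/-!
The limits of the adapted functional at T = 0 and T = 1.
-/

namespace Vale.Agent.P224.R2.H925

open MeasureTheory Set Filter Function Real Vale.Agent.P224.SM2
open scoped Topology

set_option linter.unusedSectionVars false

/-- behaviour at T = 0 -/
structure Lim0 (m : ℕ) (d : ℝ) (u : St) (ε0 r0 c0 : ℝ) : Prop where
  e : Tendsto u.e (𝓝[>] 0) (𝓝 0)
  h : Tendsto u.h (𝓝[>] 0) (𝓝 0)
  y : Tendsto (fun T => T * u.y T) (𝓝[>] 0) (𝓝 0)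
  ε : Tendsto u.ε (𝓝[>] 0) (𝓝 ε0)
  ερ : Tendsto (fun T => (u.ε T - u.ρ T) / T) (𝓝[>] 0) (𝓝 0)
  r : Tendsto u.r (𝓝[>] 0) (𝓝 r0)
  c : Tendsto (fun T => (1 - T ^ 2) * u.y T + u.B T / (m - 1) + (1 - T ^ 2) * d ^ 2 * u.f T / T)
    (𝓝[>] 0) (𝓝 c0)

/-- behaviour at T = 1 -/
structure Lim1 (m : ℕ) (u : St) (lam : ℝ) : Prop where
  y : Tendsto (fun φ => u.y (sin φ) / cos φ ^ (m - 2)) (𝓝[<] (π / 2)) (𝓝 lam)
  e : Tendsto (fun φ => u.e (sin φ) / cos φ ^ (m + 1)) (𝓝[<] (π / 2)) (𝓝 0)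
  h : Tendsto (fun φ => u.h (sin φ) / cos φ ^ (m + 1)) (𝓝[<] (π / 2)) (𝓝 0)
  B : Tendsto (fun φ => u.B (sin φ) / cos φ ^ m) (𝓝[<] (π / 2)) (𝓝 0)
  r : Tendsto (fun φ => u.r (sin φ) / cos φ ^ m) (𝓝[<] (π / 2)) (𝓝 0)
  ρ : Tendsto (fun φ => u.ρ (sin φ) / cos φ ^ (m + 2)) (𝓝[<] (π / 2)) (𝓝 0)
  ε : Tendsto (fun φ => u.ε (sin φ) / cos φ ^ (m + 2)) (𝓝[<] (π / 2)) (𝓝 0)

section

variable {m : ℕ} {d ε0 r0 c0 lam : ℝ} {u : St}

/-- the integrand at T = 0 -/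
noncomputable def f0K (m : ℕ) (d ε0 r0 c0 : ℝ) (k : R4) : ℝ :=
  c0 + m * r0 * k.2.2.2 + 2 * d * ε0 / (m + 1) *
    ((m + 3 - d ^ 2) * (k.2.2.2 * ((k.2.1 + k.2.2.1) / 2)) - k.1 * ((k.2.1 + k.2.2.1) / 2)
      - 2 * d * (m + 2) * ((k.2.1 ^ 2 + k.2.2.1 ^ 2) / 2))

lemma tt {f g : ℝ → ℝ} {F : Filter ℝ} {a b : ℝ} (h : Tendsto f F (𝓝 a)) (hfg : ∀ x, f x = g x)
    (hab : a = b) : Tendsto g F (𝓝 b) := by
  rw [← hab, ← funext hfg]
  exact h

lemma tt0 {f g : ℝ → ℝ} {a b : ℝ} (h : Tendsto f (𝓝[>] 0) (𝓝 a))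
    (hfg : ∀ T ∈ Ioo (0 : ℝ) 1, f T = g T) (hab : a = b) : Tendsto g (𝓝[>] 0) (𝓝 b) := by
  rw [← hab]
  refine h.congr' ?_
  have h2 : Ioo (0 : ℝ) 1 ∈ 𝓝[>] (0 : ℝ) := Ioo_mem_nhdsGT one_pos
  filter_upwards [h2] with T hT using hfg T hT

lemma T_to_zero : Tendsto (fun T : ℝ => T) (𝓝[>] 0) (𝓝 0) :=
  tendsto_id.mono_left nhdsWithin_le_nhds

lemma w_to_one : Tendsto (fun T : ℝ => 1 - T ^ 2) (𝓝[>] 0) (𝓝 1) := by
  have : Tendsto (fun T : ℝ => 1 - T ^ 2) (𝓝 0) (𝓝 (1 - 0 ^ 2)) := by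
    have hc : Continuous fun T : ℝ => 1 - T ^ 2 := by fun_prop
    exact hc.tendsto 0
  rw [show (1 : ℝ) - 0 ^ 2 = 1 by norm_num] at this
  exact this.mono_left nhdsWithin_le_nhds

lemma Ioo_ev : ∀ᶠ T in 𝓝[>] (0 : ℝ), T ∈ Ioo (0 : ℝ) 1 := Ioo_mem_nhdsGT one_pos

lemma Lim0.ρ (h : Lim0 m d u ε0 r0 c0) : Tendsto u.ρ (𝓝[>] 0) (𝓝 ε0) := by
  have h1 := h.ε.sub (h.ερ.mul T_to_zero)
  rw [mul_zero, sub_zero] at h1
  refine h1.congr' ?_
  filter_upwards [Ioo_ev] with T hT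
  have := hT.1.ne'
  field_simp
  ring

lemma Lim0.E (h : Lim0 m d u ε0 r0 c0) (hs : Sys m d u) (hm : 2 ≤ m) (hd : d ^ 2 < 4) :
    Tendsto u.E (𝓝[>] 0) (𝓝 0) := by
  have hmR : (2 : ℝ) ≤ m := by exact_mod_cast hm
  have h1 : Tendsto (fun T => (2 * m * (m + 1) * u.h T + m * d ^ 2 * (T * u.ε T)
      + 2 * m * ((u.ε T - u.ρ T) / T)) / (4 - d ^ 2 * (1 - T ^ 2))) (𝓝[>] 0) (𝓝 0) := by
    have h2 := ((h.h.const_mul (2 * (m : ℝ) * (m + 1))).add
      ((T_to_zero.mul h.ε).const_mul ((m : ℝ) * d ^ 2))).add (h.ερ.const_mul (2 * (m : ℝ)))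
    have h3 := (w_to_one.const_mul (d ^ 2)).const_sub 4
    have h4 := h2.div h3 (by nlinarith)
    exact tt h4 (fun T => rfl) (by simp)
  refine h1.congr' ?_
  filter_upwards [Ioo_ev] with T hT
  have hT0 := hT.1.ne'
  have hD : 4 - d ^ 2 * (1 - T ^ 2) ≠ 0 := by
    have : 0 < 4 - d ^ 2 * (1 - T ^ 2) := by nlinarith [sq_nonneg d, sq_nonneg (d * T)]
    exact this.ne'
  have a1 := hs.a1 T hT
  rw [div_eq_iff hD]
  have : T * (2 * m * (m + 1) * u.h T + m * d ^ 2 * (T * u.ε T)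
      + 2 * m * ((u.ε T - u.ρ T) / T)) = T * (u.E T * (4 - d ^ 2 * (1 - T ^ 2))) := by
    field_simp
    linarith
  exact mul_left_cancel₀ hT0 this

lemma Lim0.f (h : Lim0 m d u ε0 r0 c0) (hs : Sys m d u) (hm : 2 ≤ m) (hd : d ^ 2 < 4) :
    Tendsto u.f (𝓝[>] 0) (𝓝 0) := by
  have hmR : (2 : ℝ) ≤ m := by exact_mod_cast hm
  have h1 := (h.e.sub ((h.E hs hm hd).const_mul (8 / ((m : ℝ) * (m + 1))))).add
    (h.ερ.const_mul (4 / ((m : ℝ) + 1)))
  rw [mul_zero, mul_zero, sub_zero, add_zero] at h1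
  refine h1.congr' ?_
  filter_upwards [Ioo_ev] with T hT
  have hT0 := hT.1.ne'
  have hn : (m : ℝ) + 1 ≠ 0 := by linarith
  rw [hs.a2 T hT]
  field_simp

section

variable {Q : Type*} [MeasurableSpace Q] {ν : Measure Q} [IsFiniteMeasure ν] {κ : Q → R4}

/-- the functional tends to its value at T = 0 -/
theorem tendsto_GS_zero (hκ : Measurable κ) (hmem : ∀ x, κ x ∈ KK) (hm : 2 ≤ m)
    (hd : d ^ 2 < 4) (hs : Sys m d u) (h : Lim0 m d u ε0 r0 c0) :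
    Tendsto (GS ν m κ d u) (𝓝[>] 0) (𝓝 (∫ x, f0K m d ε0 r0 c0 (κ x) ∂ν)) := by
  have hmR : (2 : ℝ) ≤ m := by exact_mod_cast hm
  have hm0 : (m : ℝ) ≠ 0 := by linarith
  have hm1 : (m : ℝ) - 1 ≠ 0 := by linarith
  have hn : (m : ℝ) + 1 ≠ 0 := by linarith
  have hn2 : (m : ℝ) + 2 ≠ 0 := by linarith
  have tρ := h.ρ
  have tE := h.E hs hm hd
  have tf := h.f hs hm hd
  have tT := T_to_zero
  have tw := w_to_one
  -- F2, F3
  have tF2 : Tendsto (u.F2 m d) (𝓝[>] 0) (𝓝 (-(4 * d ^ 2 * ε0))) :=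
    tt (((tT.mul h.r).const_mul (-((m : ℝ) * (m + 1)))).sub (tρ.const_mul (4 * d ^ 2)))
      (fun T => rfl) (by ring)
  have tF3 : Tendsto (u.F3 m d) (𝓝[>] 0) (𝓝 0) :=
    tt ((tT.mul tρ).const_mul (-(d * ((m : ℝ) + 2)))) (fun T => rfl) (by ring)
  have tX1 : Tendsto (u.X1 m) (𝓝[>] 0) (𝓝 0) :=
    tt (h.e.const_mul (m : ℝ)) (fun T => rfl) (by ring)
  have tX2 : Tendsto (u.X2 d) (𝓝[>] 0) (𝓝 (d * ε0)) := h.ε.const_mul d
  have tH0 : Tendsto (u.H0 m) (𝓝[>] 0) (𝓝 (-(m * r0))) :=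
    tt (h.y.add (h.r.const_mul (m : ℝ))).neg (fun T => rfl) (by ring)
  set X : ℝ := 2 * d * ε0 / (m + 1) with hX
  set α : Fin 4 → ℝ := ![c0, 0, -(2 * d * (m + 2)) * X, 0] with hα
  set β : Fin 4 → ℝ := ![0, -X, 0, 0] with hβ
  set γ : Fin 4 → ℝ := ![m * r0, (m + 3 - d ^ 2) * X, 0, 0] with hγ
  have p1 : ∀ j, Tendsto (fun T => u.A m d j T + u.A1 m d j T) (𝓝[>] 0) (𝓝 (α j)) := by
    intro j
    fin_cases j
    · refine tt0 h.c (fun T hT => ?_) rfl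
      have hT0 := hT.1.ne'
      simp only [St.A, St.A1, aC, bC, St.F2, St.X1, St.K, St.H0, St.B0, Fin.zero_eta, Fin.isValue,
        Matrix.cons_val_zero]
      field_simp
      ring
    · refine tt0 (((w_to_one.mul h.ερ).const_mul (2 * d / (m + 1))).add
        ((h.h.sub h.e).const_mul (4 * d))) (fun T hT => ?_) ?_
      · have hT0 := hT.1.ne'
        simp only [St.A, St.A1, aC, bC, St.X2, St.B1, Fin.mk_one, Fin.isValue,
          Matrix.cons_val_one, Matrix.cons_val_zero]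
        field_simp
        ring
      · simp [hα]
    · refine tt0 ((w_to_one.mul tF2).sub (((w_to_one.mul tF2).add (tX2.const_mul (8 * d))).div_const
        ((m : ℝ) + 1))) (fun T hT => ?_) ?_
      · simp only [St.A, St.A1, aC, bC, Fin.reduceFinMk, Matrix.cons_val]
        ring
      · simp only [hα, hX, Fin.reduceFinMk, Matrix.cons_val]
        field_simp
        ring
    · refine tt0 ((w_to_one.mul tF3).sub ((((w_to_one.const_mul 2).mul tF3)).div_const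
        ((m : ℝ) + 2))) (fun T hT => ?_) ?_
      · simp only [St.A, St.A1, aC, bC, Fin.reduceFinMk, Matrix.cons_val]
        ring
      · simp [hα]
  have p2 : ∀ j, Tendsto (fun T => T * u.A m d j T) (𝓝[>] 0) (𝓝 (β j)) := by
    intro j
    fin_cases j
    · refine tt0 (((w_to_one.mul ((h.y.sub h.e).add (tf.const_mul (d ^ 2)))).sub
        ((((tT.mul tT).const_add 1).mul h.e)))) (fun T hT => ?_) ?_
      · have hT0 := hT.1.ne'
        simp only [St.A, aC, St.F2, St.X1, St.K, St.H0, Fin.zero_eta, Fin.isValue,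
          Matrix.cons_val_zero]
        field_simp
        ring
      · simp [hβ]
    · refine tt0 ((((tT.mul tT).const_add 1).mul tX2).const_mul (-(2 / ((m : ℝ) + 1))))
        (fun T hT => ?_) ?_
      · have hT0 := hT.1.ne'
        simp only [St.A, aC, St.X2, Fin.mk_one, Fin.isValue,
          Matrix.cons_val_one, Matrix.cons_val_zero]
        field_simp
      · simp only [hβ, hX, Fin.mk_one, Fin.isValue, Matrix.cons_val_one, Matrix.cons_val_zero]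
        ring
    · refine tt0 (tT.mul (w_to_one.mul tF2)) (fun T hT => rfl) ?_
      simp [hβ]
    · refine tt0 (tT.mul (w_to_one.mul tF3)) (fun T hT => rfl) ?_
      simp [hβ]
  have p3 : ∀ j, Tendsto (u.C m d j) (𝓝[>] 0) (𝓝 (γ j)) := by
    intro j
    fin_cases j
    · refine tt0 ((h.e.const_mul 2).sub (w_to_one.mul tH0)) (fun T hT => ?_) ?_
      · simp only [St.C, cC, St.X1, Fin.zero_eta, Fin.isValue, Matrix.cons_val_zero]
        field_simp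
      · simp only [hγ, Fin.zero_eta, Fin.isValue, Matrix.cons_val_zero]
        ring
    · refine tt0 ((tX2.const_mul (4 / ((m : ℝ) + 1))).add (w_to_one.mul
        (((tρ.const_mul (m : ℝ)).add (h.ε.const_mul (1 - d ^ 2))).const_mul (2 * d / (m + 1)))))
        (fun T hT => ?_) ?_
      · have hT0 := hT.1.ne'
        simp only [St.C, cC, St.X2, St.F3, Fin.mk_one, Fin.isValue,
          Matrix.cons_val_one, Matrix.cons_val_zero]
        field_simp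
        ring
      · simp only [hγ, hX, Fin.mk_one, Fin.isValue, Matrix.cons_val_one, Matrix.cons_val_zero]
        field_simp
        ring
    · refine tt0 ((tT.mul w_to_one).mul tF2) (fun T hT => rfl) ?_
      simp [hγ]
    · refine tt0 ((tT.mul w_to_one).mul tF3) (fun T hT => rfl) ?_
      simp [hγ]
  have key := tendsto_Gf_zero (ν := ν) (m := m) hκ hmem (by omega) p1 p2 p3
  have ct := continuous_tau
  have cc := continuous_ctau
  have ii : ∀ {f : R4 → ℝ}, Continuous f → Integrable (fun x => f (κ x)) ν := fun hf =>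
    integrable_param ν hκ isCompact_KK hmem hf.measurable hf.continuousOn
  have i1 : Integrable (fun x => tau 0 (κ x)) ν := ii (ct 0)
  have i2 : Integrable (fun x => (κ x).2.2.2 * tau 0 (κ x)) ν := ii (cc 0)
  have i3 : Integrable (fun x => (κ x).2.2.2 * tau 1 (κ x)) ν := ii (cc 1)
  have i4 : Integrable (fun x => (κ x).1 * tau 1 (κ x)) ν := ii (continuous_fst.mul (ct 1))
  have i5 : Integrable (fun x => tau 2 (κ x)) ν := ii (ct 2)
  have h6 := (integral_comb6 i1 i2 i3 i4 i5 i5 c0 (m * r0) ((m + 3 - d ^ 2) * X) (-X)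
    (-(2 * d * (m + 2)) * X) 0).2
  have e0 : G0 ν κ α β γ = ∫ x, f0K m d ε0 r0 c0 (κ x) ∂ν := by
    refine Eq.trans ?_ (h6.symm.trans ?_)
    · unfold G0
      simp only [Fin.sum_univ_four, hα, hβ, hγ, Matrix.cons_val_zero, Matrix.cons_val_one,
        Matrix.cons_val, Fin.val_zero, Fin.val_one, Fin.val_two, Fin.isValue]
      ring
    · refine integral_congr_ae (Eventually.of_forall fun x => ?_)
      simp only [f0K, tau, hX]
      ring
  rw [← e0]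
  exact key

end

end

end Vale.Agent.P224.R2.H925
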