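import Vale.Agent.P224.R2.H470.One

/-!
Moments of a coordinate of a minimal hypersurface of the sphere.
-/

namespace Vale.Agent.P224.R2.H925

open MeasureTheory Set Filter Function Real Vale.Agent.P224.R2.H470
open scoped RealInnerProductSpace Topology ContDiff

set_option linter.unusedSectionVars false

section

variable {X : Type*} {E : Type*} [NormedAddCommGroup E] [InnerProductSpace ℝ E]
variable [TopologicalSpace X] [MeasurableSpace X] [CompactSpace X] [BorelSpace X]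
  {μ : Measure X} [IsFiniteMeasure μ] {m : ℕ} {p n : X → E}

/-- the exact recursion for the moments of a coordinate -/
theorem mom_id (h : OneP μ m p n) (b : E) (j : ℕ) :
    ((m : ℝ) + j + 1) * ∫ x, ⟪p x, b⟫ ^ (j + 2) ∂μ + (j + 1) * ∫ x, ⟪p x, b⟫ ^ j * ⟪n x, b⟫ ^ 2 ∂μ
      = (j + 1) * ‖b‖ ^ 2 * ∫ x, ⟪p x, b⟫ ^ j ∂μ := by
  have cp := h.cp
  have cn := h.cn
  have hl : ∀ u : E, HasFDerivAt (fun u : E => ⟪u, b⟫) (innerSL ℝ b) u := by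
    intro u
    have h2 := (innerSL ℝ b).hasFDerivAt (x := u)
    refine h2.congr_of_eventuallyEq (Eventually.of_forall fun w => ?_)
    simp only [innerSL_apply_apply]
    rw [real_inner_comm]
  have hd : ∀ u : E, HasFDerivAt (fun u : E => ⟪u, b⟫ ^ (j + 1))
      (((j + 1 : ℕ) * ⟪u, b⟫ ^ j) • innerSL ℝ b) u := by
    intro u
    have := (hasDerivAt_pow (j + 1) (⟪u, b⟫)).comp_hasFDerivAt u (hl u)
    exact this
  have hc : ContDiff ℝ ∞ (fun u : E => ⟪u, b⟫ ^ (j + 1)) :=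
    (contDiff_id.inner ℝ contDiff_const).pow _
  have r := h.r1' hc hd b
  simp only [smul_apply, innerSL_apply_apply, smul_eq_mul] at r
  have e1 : ∀ x, ((j + 1 : ℕ) * ⟪p x, b⟫ ^ j) * ⟪b, b⟫ - ⟪p x, b⟫ * (((j + 1 : ℕ) * ⟪p x, b⟫ ^ j)
      * ⟪b, p x⟫) - ⟪n x, b⟫ * (((j + 1 : ℕ) * ⟪p x, b⟫ ^ j) * ⟪b, n x⟫)
      = (((j : ℝ) + 1) * ‖b‖ ^ 2 * ⟪p x, b⟫ ^ j - ((j : ℝ) + 1) * ⟪p x, b⟫ ^ (j + 2))
        - ((j : ℝ) + 1) * (⟪p x, b⟫ ^ j * ⟪n x, b⟫ ^ 2) := by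
    intro x
    rw [real_inner_self_eq_norm_sq, real_inner_comm (p x) b, real_inner_comm (n x) b]
    push_cast
    ring
  have e2 : ∀ x, ⟪p x, b⟫ * ⟪p x, b⟫ ^ (j + 1) = ⟪p x, b⟫ ^ (j + 2) := fun x => by ring
  simp only [e1, e2] at r
  have i1 : Integrable (fun x => ((j : ℝ) + 1) * ‖b‖ ^ 2 * ⟪p x, b⟫ ^ j) μ :=
    int_of_cont (by fun_prop)
  have i2 : Integrable (fun x => ((j : ℝ) + 1) * ⟪p x, b⟫ ^ (j + 2)) μ := int_of_cont (by fun_prop)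
  have i3 : Integrable (fun x => ((j : ℝ) + 1) * (⟪p x, b⟫ ^ j * ⟪n x, b⟫ ^ 2)) μ :=
    int_of_cont (by fun_prop)
  have i12 : Integrable (fun x => ((j : ℝ) + 1) * ‖b‖ ^ 2 * ⟪p x, b⟫ ^ j
      - ((j : ℝ) + 1) * ⟪p x, b⟫ ^ (j + 2)) μ := i1.sub i2
  rw [integral_sub i12 i3, integral_sub i1 i2, integral_const_mul, integral_const_mul,
    integral_const_mul] at r
  linarith

/-- one step of the moment bound -/
theorem mom_step (h : OneP μ m p n) (b : E) (k : ℕ) :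
    ((m : ℝ) + 2 * k + 1) * ∫ x, ⟪p x, b⟫ ^ (2 * (k + 1)) ∂μ
      ≤ (2 * k + 1) * ‖b‖ ^ 2 * ∫ x, ⟪p x, b⟫ ^ (2 * k) ∂μ := by
  have h1 := mom_id h b (2 * k)
  have h2 : 0 ≤ ∫ x, ⟪p x, b⟫ ^ (2 * k) * ⟪n x, b⟫ ^ 2 ∂μ := by
    refine integral_nonneg fun x => ?_
    have : 0 ≤ ⟪p x, b⟫ ^ (2 * k) := (even_two_mul k).pow_nonneg _
    simp only [Pi.zero_apply]
    positivity
  have e1 : 2 * (k + 1) = 2 * k + 2 := by ring
  rw [e1]
  push_cast at h1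
  have : 0 ≤ (2 * (k : ℝ) + 1) * ∫ x, ⟪p x, b⟫ ^ (2 * k) * ⟪n x, b⟫ ^ 2 ∂μ := by positivity
  linarith

/-- **the even moments of a coordinate**: `E x_b^(2k) ≤ |b|^(2k) (2k-1)!! / ((m+1)(m+3)...(m+2k-1))`
-/
theorem mom_even (h : OneP μ m p n) (b : E) (k : ℕ) :
    ∫ x, ⟪p x, b⟫ ^ (2 * k) ∂μ
      ≤ (∏ i ∈ Finset.range k, (2 * (i : ℝ) + 1) / (m + 2 * i + 1)) * ‖b‖ ^ (2 * k)
        * μ.real univ := by
  induction k with
  | zero => simp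
  | succ k ih =>
    have h1 := mom_step h b k
    have hp : (0 : ℝ) < m + 2 * k + 1 := by positivity
    rw [Finset.prod_range_succ]
    have h2 : ∫ x, ⟪p x, b⟫ ^ (2 * (k + 1)) ∂μ
        ≤ (2 * k + 1) / (m + 2 * k + 1) * ‖b‖ ^ 2 * ∫ x, ⟪p x, b⟫ ^ (2 * k) ∂μ := by
      rw [div_mul_eq_mul_div, div_mul_eq_mul_div, le_div_iff₀ hp]
      linarith
    refine h2.trans ?_
    have hc : 0 ≤ (2 * (k : ℝ) + 1) / (m + 2 * k + 1) * ‖b‖ ^ 2 := by positivity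
    refine (mul_le_mul_of_nonneg_left ih hc).trans (le_of_eq ?_)
    ring

end

end Vale.Agent.P224.R2.H925
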