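import Vale.Agent.P224.R2.H925.In
import Vale.Agent.P224.R2.H176.G.Tail
import Vale.Agent.P224.R2.H627.Inst
import Vale.Agent.P224.R2.H728.Nd

/-!
The near range in the dimensions from 17 to 36: from a row of numbers of the law, a checked table
and the relative tail to the output of the near range.
-/

namespace Vale.Agent.P224.R2.H925

open MeasureTheory Set Filter Function Real Module Matrix Vale.Agent.P224
  Vale.Agent.P224.R2.H820 Vale.Agent.P224.R2.H582 Vale.Agent.P224.R2.H627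
  Vale.Agent.P224.R2.H728 Vale.Agent.P224.R2.H484
open Vale.Agent.P224.SM2 hiding ker
open Vale.Agent.P224.R2.H176 (lam17 lam17_adm lam17_hl abQ abs17_min NearData NearOut)
open scoped Topology RealInnerProductSpace ContDiff Manifold

set_option linter.unusedSectionVars false

lemma lamS_eq : lamS = lam17 := by
  funext T
  unfold lamS lam17 lamP
  split_ifs
  · ring
  · rfl

/-- the conditions of the law for `lam17` -/
theorem fra17 {m : ℕ} (hm : 17 ≤ m) {T1 : ℝ} (hT1 : T1 ≤ 1) : Fra m lam17 (beM m) T1 where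
  hβ T hT := abs_M hm hT
  hrel T hT := by
    have h1 := pos_M hm hT (lam17_adm (2 / m) hT)
    have h2 : 0 ≤ al m T (yM m T) (rM m T) (lam17 T) * T :=
      mul_nonneg (al_nonneg_M hm hT (lam17_adm (2 / m) hT)) hT.1.le
    linarith
  hconv T hT := conv_M hm ⟨hT.1, hT.2.trans_le hT1⟩
    (lam17_adm (2 / m) ⟨hT.1, hT.2.trans_le hT1⟩)
  hpos T hT := by
    rcases eq_or_lt_of_le hT.1 with h | h
    · rw [← h]
      have hr : 0 ≤ m * rM m 0 := by
        rw [mr0_eq]
        exact le_trans (by norm_num) ((g_ge hm).trans (R0_ge hm))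
      unfold beM be al
      have : 0 ≤ (m : ℝ) * (m * rM m 0) := by positivity
      simpa using this
    · exact pos_M hm ⟨h, hT.2⟩ (lam17_adm (2 / m) ⟨h, hT.2⟩)

/-- the crude law for `lam17` -/
theorem cnum17 {m : ℕ} (hm : 17 ≤ m) {T1 : ℝ} (hT1 : 3 / 10 ≤ T1) :
    CNum m lam17 (beM m) T1 (9 / 50) := by
  obtain ⟨B0, i0, h1, h2⟩ := WU_ge (m := m) hm (κ := 31 / 10) (by norm_num) (lam := lam17)
    (fun T hT => lam17_hl hT)
  exact ⟨3 / 10, B0, by norm_num, hT1, i0, h2, h1⟩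

lemma absTail_mono {X E : Type*} [MeasurableSpace X] [NormedAddCommGroup E]
    [InnerProductSpace ℝ E] [MeasurableSpace E] [BorelSpace E] [SecondCountableTopology E]
    {μ : Measure X} [IsFiniteMeasure μ] {m : ℕ} {p n : X → E} {l : ℝ → ℝ} {ε1 ε2 : ℝ}
    (h : AbsTail μ m p n l ε1) (hε : ε1 ≤ ε2) : AbsTail μ m p n l ε2 := by
  obtain ⟨τ, h1, h2, h3⟩ := h
  exact ⟨τ, h1, h2, h3.trans hε⟩

/-- the table fits to the row of numbers -/
def rowOK (r : NRow) (p : ParQ) (laws : List LawQ) (rl : ℚ) : Bool :=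
  decide (p.m = r.m) && decide (p.EL ≤ r.e1) && decide (r.e2 ≤ p.E) && decide (r.g ≤ p.Γ)
    && decide (p.WU ≤ 9 / 50) && decide (abQ r.m ≤ p.tU) && decide (abQ r.m ≤ p.tV)
    && laws.all (fun q => decide (q.σ = sgQ r.m) && decide (q.W0 ≤ r.w0) && decide (r.w1 ≤ q.W1)
      && decide (abQ r.m ≤ q.ab) && decide (rl ≤ q.rel))

lemma castQ {a b : ℚ} (h : a ≤ b) : (a : ℝ) ≤ b := (Rat.cast_le (K := ℝ)).2 h

section

variable {V W M : Type*} [NormedAddCommGroup V] [InnerProductSpace ℝ V] [FiniteDimensional ℝ V]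
  [NormedAddCommGroup W] [InnerProductSpace ℝ W] [FiniteDimensional ℝ W]
  [TopologicalSpace M] [ChartedSpace V M]
  [MeasurableSpace V] [BorelSpace V] [MeasurableSpace M] [BorelSpace M]
  [MeasurableSpace W] [BorelSpace W] [IsManifold 𝓘(ℝ, V) ∞ M]
  [CompactSpace M] [T2Space M]

/-- all instances of the law for the checker, one dimension -/
theorem lawIn_row [Nonempty M] {r : NRow} (hr : nrowOK 17 17 17 17 17 r = true)
    (hmm : r.m = finrank ℝ V) (hm2 : r.m ≤ 36) (hW : finrank ℝ W = finrank ℝ V + 2)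
    {F : M → W} (hF : SphImm V F) (hmin : ∀ x n, IsUnitNormal V F x n → meanCurv V F x n = 0)
    {p : ParQ} {laws : List LawQ} {rl : ℚ} (hrow : rowOK r p laws rl = true)
    {N : M → W} (hNs : ContMDiff 𝓘(ℝ, V) 𝓘(ℝ, W) ∞ N) (hN : ∀ x, IsUnitNormal V F x (N x))
    (hinj : Injective F) (b : OrthonormalBasis (Fin (finrank ℝ W)) ℝ W)
    (j : Fin (finrank ℝ W) → ℝ)
    (hT : T0Data (nrm (volM V F)) (finrank ℝ V) (co b F) (co b N))
    (hrel : AbsTail (volM V F) (finrank ℝ V) F N (fun T => (1 - T ^ 2) * lam17 T)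
        (rl * hh (nrm (volM V F)) (diagonal j) (co b F) (co b N))) :
    LawIn V F N r.m p laws b j := by
  have hfin : IsFiniteMeasure (volM V F) := isFiniteMeasure_volM hF
  obtain ⟨hm17, -, -, -, -, -⟩ := nrow_sound hr
  simp only [rowOK, Bool.and_eq_true, decide_eq_true_eq, List.all_eq_true] at hrow
  obtain ⟨⟨⟨⟨⟨⟨⟨-, -⟩, -⟩, -⟩, c5⟩, c6⟩, c7⟩, c8⟩ := hrow
  have habs : AbsTail (volM V F) r.m F N (fun T => (1 - T ^ 2) * lam17 T) (abQ r.m) := by
    rw [hmm]
    exact abs17_min (by omega) (by omega) hW hF hmin hNs hN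
  rw [← hmm] at hrel
  have hh0 := hT.hh_nonneg (diagonal j)
  refine ⟨fun q hq _ _ => ?_, ?_, ?_⟩
  · obtain ⟨⟨⟨⟨d1, d2⟩, d3⟩, d4⟩, d5⟩ := c8 q hq
    obtain ⟨τ, hτi, hτ, t1, t2⟩ := tail_min hrel habs
    obtain ⟨W0, W1, k1, k2, k3⟩ := law_row hr hmm hW hF hmin hNs hN hinj b hτi
      (by rw [lamS_eq]; exact hτ)
    refine ⟨W0, W1, _, (castQ d2).trans k1, k2.trans (castQ d3), t1.trans ?_,
      t2.trans (castQ d4), ?_⟩
    · exact mul_le_mul_of_nonneg_right (castQ d5) hh0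
    · rw [d1]
      exact k3
  · refine crude_of (T1 := 1) (by omega) hW hF hmin hNs hN hinj b hmm le_rfl
      (fra17 hm17 le_rfl) ?_ (absTail_mono habs (castQ c6))
    obtain ⟨T0, B0, e1, e2, e3, e4, e5⟩ := cnum17 (T1 := 1) hm17 (by norm_num)
    have hWUR : (p.WU : ℝ) ≤ 9 / 50 := by
      have h' := castQ c5
      push_cast at h'
      exact h'
    exact ⟨T0, B0, e1, e2, e3, e4, hWUR.trans e5⟩
  · exact first_of (T1 := 1) (by omega) hW hF hmin hNs hN hinj b hmm (fra17 hm17 le_rfl)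
      (absTail_mono habs (castQ c7))

/-- **the near range, one dimension** `17 ≤ m ≤ 36` -/
theorem near_row [Nonempty M] {r : NRow} (hr : nrowOK 17 17 17 17 17 r = true)
    (hmm : r.m = finrank ℝ V) (hm2 : r.m ≤ 36) (hW : finrank ℝ W = finrank ℝ V + 2)
    {F : M → W} (hF : SphImm V F) (hmin : ∀ x n, IsUnitNormal V F x n → meanCurv V F x n = 0)
    {p : ParQ} {laws : List LawQ} {els : List (ElQ × ℚ × ℚ)} {cols : List ColQ} {rl : ℚ}
    (hrow : rowOK r p laws rl = true)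
    (hok : nearOK p laws (els.map Prod.fst) cols = true) (hels : e7All p.m els = true)
    {ν : ℝ} (hν : ν ≤ p.ν)
    (hrel : ∀ (N : M → W) (b : OrthonormalBasis (Fin (finrank ℝ W)) ℝ W)
      (j : Fin (finrank ℝ W) → ℝ), NearData V F N b j ν →
      AbsTail (volM V F) (finrank ℝ V) F N (fun T => (1 - T ^ 2) * lam17 T)
        (rl * hh (nrm (volM V F)) (diagonal j) (co b F) (co b N)))
    (N : M → W) (b : OrthonormalBasis (Fin (finrank ℝ W)) ℝ W) (j : Fin (finrank ℝ W) → ℝ)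
    (hd : NearData V F N b j ν) : NearOut V F N b j p.gp p.h1 p.d1 := by
  have hl := lawIn_row hr hmm hm2 hW hF hmin hrow hd.smooth hd.unit hd.inj b j hd.t0
    (hrel N b j hd)
  obtain ⟨-, -, -, n1, n2, n3⟩ := nrow_sound hr
  simp only [rowOK, Bool.and_eq_true, decide_eq_true_eq, List.all_eq_true] at hrow
  obtain ⟨⟨⟨⟨⟨⟨⟨c1, c2⟩, c3⟩, c4⟩, -⟩, -⟩, -⟩, -⟩ := hrow
  have hpmR : (p.m : ℝ) = (finrank ℝ V : ℝ) := by
    rw [c1, ← hmm]
    push_cast
    rfl
  exact nearOut_of hmm hok c1 (n3.trans (castQ c4)) ((castQ c2).trans n1) (n2.trans (castQ c3))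
    hν hd hl (e7All_sound els hels (by rw [hpmR]; exact hd.t0) hd.lsq)

end

end Vale.Agent.P224.R2.H925
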