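import Vale.Agent.P224.R2.H925.SLim

/-!
The limit of the adapted functional at T = 1.
-/

namespace Vale.Agent.P224.R2.H925

open MeasureTheory Set Filter Function Real Vale.Agent.P224.SM2
open scoped Topology

set_option linter.unusedSectionVars false

/-- smallness at T = 1, in the angle variable -/
def Sm (m k : ℕ) (G : ℝ → ℝ) : Prop :=
  Tendsto (fun φ => G φ / cos φ ^ (m + k)) (𝓝[<] (π / 2)) (𝓝 0)

lemma Ioo_pi : ∀ᶠ φ in 𝓝[<] (π / 2), φ ∈ Ioo 0 (π / 2) :=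
  Ioo_mem_nhdsLT (by have := pi_pos; positivity)

lemma cos_pos_Ioo {φ : ℝ} (hφ : φ ∈ Ioo 0 (π / 2)) : 0 < cos φ := by
  have := pi_pos
  exact cos_pos_of_mem_Ioo ⟨by linarith [hφ.1], hφ.2⟩

lemma sin_pos_Ioo {φ : ℝ} (hφ : φ ∈ Ioo 0 (π / 2)) : 0 < sin φ := by
  have := pi_pos
  exact sin_pos_of_pos_of_lt_pi hφ.1 (by linarith [hφ.2])

lemma sin_lt_one_Ioo {φ : ℝ} (hφ : φ ∈ Ioo 0 (π / 2)) : sin φ < 1 := by
  have := pi_pos
  exact (abs_lt.1 (FV.abs_sin_lt_one ⟨by linarith [hφ.1], hφ.2⟩)).2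

lemma tendsto_sin_one : Tendsto (fun φ => sin φ) (𝓝[<] (π / 2)) (𝓝 1) := by
  have := (continuous_sin.tendsto (π / 2)).mono_left (nhdsWithin_le_nhds (s := Iio (π / 2)))
  rwa [sin_pi_div_two] at this

lemma tendsto_cos_zero : Tendsto (fun φ => cos φ) (𝓝[<] (π / 2)) (𝓝 0) := by
  have := (continuous_cos.tendsto (π / 2)).mono_left (nhdsWithin_le_nhds (s := Iio (π / 2)))
  rwa [cos_pi_div_two] at this

lemma tt1 {f g : ℝ → ℝ} {a b : ℝ} (h : Tendsto f (𝓝[<] (π / 2)) (𝓝 a))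
    (hfg : ∀ φ ∈ Ioo 0 (π / 2), f φ = g φ) (hab : a = b) : Tendsto g (𝓝[<] (π / 2)) (𝓝 b) := by
  rw [← hab]
  refine h.congr' ?_
  filter_upwards [Ioo_pi] with φ hφ using hfg φ hφ

variable {m k l : ℕ} {G H : ℝ → ℝ}

lemma Sm.congr (h : Sm m k G) (hGH : ∀ φ ∈ Ioo 0 (π / 2), G φ = H φ) : Sm m k H :=
  tt1 h (fun φ hφ => by simp only [hGH φ hφ]) rfl

lemma Sm.add (h : Sm m k G) (h' : Sm m k H) : Sm m k (fun φ => G φ + H φ) :=
  tt1 (Tendsto.add h h') (fun φ _ => by ring) (by ring)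

lemma Sm.sub (h : Sm m k G) (h' : Sm m k H) : Sm m k (fun φ => G φ - H φ) :=
  tt1 (Tendsto.sub h h') (fun φ _ => by ring) (by ring)

lemma Sm.bmul (h : Sm m k G) {b : ℝ → ℝ} {L : ℝ} (hb : Tendsto b (𝓝[<] (π / 2)) (𝓝 L)) :
    Sm m k (fun φ => b φ * G φ) :=
  tt1 (hb.mul h) (fun φ _ => by ring) (by ring)

lemma Sm.cmul (h : Sm m k G) (b : ℝ) : Sm m k (fun φ => b * G φ) := h.bmul tendsto_const_nhds

lemma Sm.mono (h : Sm m k G) (hl : l ≤ k) : Sm m l G := by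
  obtain ⟨j, rfl⟩ := Nat.exists_eq_add_of_le hl
  refine tt1 ((tendsto_cos_zero.pow j).mul h) (fun φ hφ => ?_) (by ring)
  have := (cos_pos_Ioo hφ).ne'
  rw [← Nat.add_assoc, pow_add]
  field_simp

lemma Sm.w (h : Sm m k G) : Sm m (k + 2) (fun φ => (1 - sin φ ^ 2) * G φ) := by
  refine tt1 h (fun φ hφ => ?_) rfl
  have := (cos_pos_Ioo hφ).ne'
  have h2 : 1 - sin φ ^ 2 = cos φ ^ 2 := by
    have := sin_sq_add_cos_sq φ
    linarith
  simp only [h2]
  rw [← Nat.add_assoc, pow_add]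
  field_simp
  ring

lemma tendsto_inv_sin : Tendsto (fun φ => 1 / sin φ) (𝓝[<] (π / 2)) (𝓝 1) := by
  have := tendsto_sin_one.inv₀ one_ne_zero
  simpa using this

lemma tendsto_w : Tendsto (fun φ => 1 - sin φ ^ 2) (𝓝[<] (π / 2)) (𝓝 0) := by
  have := (tendsto_sin_one.pow 2).const_sub 1
  simpa using this

section

variable {d lam : ℝ} {u : St}

lemma Lim1.E (h : Lim1 m u lam) (hs : Sys m d u) (hd : d ^ 2 < 4) :
    Sm m 1 (fun φ => u.E (sin φ)) := by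
  have h1 : Sm m 1 (fun φ => u.h (sin φ)) := h.h
  have h2 : Sm m 1 (fun φ => u.ε (sin φ)) := Sm.mono (k := 2) h.ε (by norm_num)
  have h3 : Sm m 1 (fun φ => u.ρ (sin φ)) := Sm.mono (k := 2) h.ρ (by norm_num)
  have t1 : Tendsto (fun φ => 1 / (4 - d ^ 2 * (1 - sin φ ^ 2)) * (1 / sin φ)) (𝓝[<] (π / 2))
      (𝓝 (1 / (4 - d ^ 2 * 0) * 1)) := by
    have h5 := (tendsto_w.const_mul (d ^ 2)).const_sub 4
    have h6 := (h5.inv₀ (by norm_num)).mul tendsto_inv_sin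
    simpa using h6
  have h4 := (((h1.bmul tendsto_sin_one).cmul (2 * m * (m + 1))).add
    (h2.bmul (((tendsto_sin_one.pow 2).const_mul (d ^ 2)).const_add 2) |>.cmul m)).sub
    (h3.cmul (2 * m))
  refine (h4.bmul t1).congr fun φ hφ => ?_
  have hT : sin φ ∈ Ioo (0 : ℝ) 1 := ⟨sin_pos_Ioo hφ, sin_lt_one_Ioo hφ⟩
  have hs0 := hT.1.ne'
  have hD : 4 - d ^ 2 * (1 - sin φ ^ 2) ≠ 0 := by
    have : 0 < 4 - d ^ 2 * (1 - sin φ ^ 2) := by nlinarith [sq_nonneg d, sq_nonneg (d * sin φ)]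
    exact this.ne'
  have a1 := hs.a1 _ hT
  field_simp
  linarith

lemma Lim1.f (h : Lim1 m u lam) (hs : Sys m d u) (hm : 2 ≤ m) (hd : d ^ 2 < 4) :
    Sm m 1 (fun φ => u.f (sin φ)) := by
  have hmR : (2 : ℝ) ≤ m := by exact_mod_cast hm
  have hn : (m : ℝ) + 1 ≠ 0 := by linarith
  have h1 : Sm m 1 (fun φ => u.e (sin φ)) := h.e
  have h2 : Sm m 1 (fun φ => u.ε (sin φ)) := Sm.mono (k := 2) h.ε (by norm_num)
  have h3 : Sm m 1 (fun φ => u.ρ (sin φ)) := Sm.mono (k := 2) h.ρ (by norm_num)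
  have h4 := (h1.sub ((h.E hs hd).cmul (8 / (m * (m + 1))))).add
    (((h2.sub h3).bmul tendsto_inv_sin).cmul (4 / (m + 1)))
  refine h4.congr fun φ hφ => ?_
  have hT : sin φ ∈ Ioo (0 : ℝ) 1 := ⟨sin_pos_Ioo hφ, sin_lt_one_Ioo hφ⟩
  have hs0 := hT.1.ne'
  rw [hs.a2 _ hT]
  field_simp

section

variable {Q : Type*} [MeasurableSpace Q] {ν : Measure Q} [IsFiniteMeasure ν] {κ : Q → R4}

/-- the functional at T = 1 -/
theorem tendsto_GS_one (hP : PL ν m κ) (hm : 2 ≤ m) (hd : d ^ 2 < 4) (hs : Sys m d u)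
    (h : Lim1 m u lam) {M : ℝ} (hJ : ∀ᶠ φ in 𝓝[<] (π / 2), |Jf ν m κ φ| ≤ M)
    (hJB : Tendsto (fun φ => Jf ν m κ φ - Bf ν m κ φ) (𝓝[<] (π / 2)) (𝓝 0)) :
    Tendsto (fun φ => GS ν m κ d u (sin φ) - 2 * lam * Jf ν m κ φ) (𝓝[<] (π / 2)) (𝓝 0) := by
  have hmR : (2 : ℝ) ≤ m := by exact_mod_cast hm
  have hm0 : (m : ℝ) ≠ 0 := by linarith
  have hm1 : (m : ℝ) - 1 ≠ 0 := by linarith
  have hn : (m : ℝ) + 1 ≠ 0 := by linarith
  have hn2 : (m : ℝ) + 2 ≠ 0 := by linarith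
  have se : Sm m 1 (fun φ => u.e (sin φ)) := h.e
  have sh : Sm m 1 (fun φ => u.h (sin φ)) := h.h
  have sB : Sm m 0 (fun φ => u.B (sin φ)) := h.B
  have sr : Sm m 0 (fun φ => u.r (sin φ)) := h.r
  have sρ : Sm m 2 (fun φ => u.ρ (sin φ)) := h.ρ
  have sε : Sm m 2 (fun φ => u.ε (sin φ)) := h.ε
  have sf := h.f hs hm hd
  have ts := tendsto_sin_one
  have ti := tendsto_inv_sin
  -- F2, F3
  have sF2w : Sm m 2 (fun φ => (1 - sin φ ^ 2) * u.F2 m d (sin φ)) := by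
    have := (((sr.bmul ts).cmul (-((m : ℝ) * (m + 1)))).sub
      ((sρ.mono (by norm_num : 0 ≤ 2)).cmul (4 * d ^ 2))).w
    exact this.congr fun φ hφ => rfl
  have sF3 : Sm m 2 (fun φ => u.F3 m d (sin φ)) :=
    (sρ.bmul ts).cmul (-(d * ((m : ℝ) + 2)))
  have sX2 : Sm m 2 (fun φ => u.X2 d (sin φ)) := sε.cmul d
  have sF3w : Sm m 3 (fun φ => (1 - sin φ ^ 2) * u.F3 m d (sin φ)) := sF3.w.mono (by norm_num)
  have ty : Tendsto (fun φ => (1 - sin φ ^ 2) * u.y (sin φ) / cos φ ^ m) (𝓝[<] (π / 2))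
      (𝓝 lam) := by
    refine tt1 h.y (fun φ hφ => ?_) rfl
    have := (cos_pos_Ioo hφ).ne'
    have h2 : 1 - sin φ ^ 2 = cos φ ^ 2 := by
      have := sin_sq_add_cos_sq φ
      linarith
    rw [h2]
    obtain ⟨j, rfl⟩ := Nat.exists_eq_add_of_le hm
    rw [show 2 + j - 2 = j by omega, pow_add]
    field_simp
  refine tendsto_Gf_one hP (by omega) ?_ ?_ ?_ ?_ ?_ hJ hJB
  · -- A0
    have s1 := ((se.mono (by norm_num : 0 ≤ 1)).w.mono (by norm_num : 0 ≤ 2)).bmul ti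
    have s2 := (((sf.mono (by norm_num : 0 ≤ 1)).w.mono (by norm_num : 0 ≤ 2)).bmul ti).cmul (d ^ 2)
    have s3 := ((se.mono (by norm_num : 0 ≤ 1)).bmul ((ts.pow 2).const_add 1)).bmul ti
    have s4 : Sm m 0 _ := (s2.sub s1).sub s3
    refine tt1 (ty.add s4) (fun φ hφ => ?_) (by ring)
    have hs0 := (sin_pos_Ioo hφ).ne'
    have hc0 := (cos_pos_Ioo hφ).ne'
    simp only [St.A, aC, St.F2, St.X1, St.K, St.H0, Fin.isValue, Matrix.cons_val_zero, add_zero]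
    field_simp
    ring
  · -- C0
    have s1 := (se.mono (by norm_num : 0 ≤ 1)).cmul 2
    have s2 := (sr.w.mono (by norm_num : 0 ≤ 2)).cmul m
    have s4 : Sm m 0 _ := s1.add s2
    refine tt1 ((ts.mul ty).add s4) (fun φ hφ => ?_) (by ring)
    have hc0 := (cos_pos_Ioo hφ).ne'
    simp only [St.C, cC, St.X1, St.H0, Fin.isValue, Matrix.cons_val_zero, add_zero]
    field_simp
    ring
  · intro j
    fin_cases j
    · have s4 : Sm m 0 _ := (sB.cmul (1 / ((m : ℝ) - 1))).add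
        (((se.mono (by norm_num : 0 ≤ 1)).bmul ti).cmul 2)
      refine s4.congr fun φ hφ => ?_
      have hs0 := (sin_pos_Ioo hφ).ne'
      simp only [St.A1, bC, St.B0, Fin.zero_eta, Fin.isValue, Matrix.cons_val_zero]
      field_simp
    · have s4 : Sm m 1 _ := ((((sh.cmul (4 * (m + 1))).add
        (((sε.mono (by norm_num : 1 ≤ 2)).bmul ti).cmul 4)).sub
        (((sρ.mono (by norm_num : 0 ≤ 2)).w.mono (by norm_num : 1 ≤ 2)).bmul ti |>.cmul 2)).sub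
        (se.cmul (4 * (m + 1)))).cmul (d / (m + 1))
      refine s4.congr fun φ hφ => ?_
      have hs0 := (sin_pos_Ioo hφ).ne'
      simp only [St.A1, bC, St.B1, Fin.mk_one, Fin.isValue, Matrix.cons_val_one,
        Matrix.cons_val_zero]
      field_simp
    · have s4 : Sm m 2 _ := (sF2w.add (sX2.cmul (8 * d))).cmul (-(1 / (m + 1)))
      refine s4.congr fun φ hφ => ?_
      simp only [St.A1, bC, Fin.reduceFinMk, Matrix.cons_val]
      field_simp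
    · have s4 : Sm m 3 _ := sF3w.cmul (-(2 / (m + 2)))
      refine s4.congr fun φ hφ => ?_
      simp only [St.A1, bC, Fin.reduceFinMk, Matrix.cons_val]
      field_simp
  · intro j hj
    fin_cases j
    · exact absurd rfl hj
    · have s4 : Sm m 1 _ := (((sX2.mono (by norm_num : 1 ≤ 2)).bmul
        ((ts.pow 2).const_add 1)).bmul ti).cmul (-(2 / (m + 1)))
      refine s4.congr fun φ hφ => ?_
      have hs0 := (sin_pos_Ioo hφ).ne'
      simp only [St.A, aC, Fin.mk_one, Fin.isValue, Matrix.cons_val_one, Matrix.cons_val_zero]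
      field_simp
    · exact sF2w
    · exact sF3w
  · intro j hj
    fin_cases j
    · exact absurd rfl hj
    · have s4 : Sm m 1 _ := ((sX2.mono (by norm_num : 1 ≤ 2)).cmul (4 / (m + 1))).sub
        (((((sF3.mono (by norm_num : 0 ≤ 2)).bmul ti).cmul (m / (m + 2))).sub
          ((sX2.mono (by norm_num : 0 ≤ 2)).cmul (1 - d ^ 2))).cmul (2 / (m + 1)) |>.w.mono
          (by norm_num : 1 ≤ 2))
      refine s4.congr fun φ hφ => ?_
      have hs0 := (sin_pos_Ioo hφ).ne'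
      simp only [St.C, cC, Fin.mk_one, Fin.isValue, Matrix.cons_val_one, Matrix.cons_val_zero]
      field_simp
    · have s4 : Sm m 2 _ := sF2w.bmul ts
      refine s4.congr fun φ hφ => ?_
      simp only [St.C, cC, Fin.reduceFinMk, Matrix.cons_val]
      ring
    · have s4 : Sm m 3 _ := sF3w.bmul ts
      refine s4.congr fun φ hφ => ?_
      simp only [St.C, cC, Fin.reduceFinMk, Matrix.cons_val]
      ring

end

end

end Vale.Agent.P224.R2.H925
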