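import Mathlib

/-!
The relations between the coefficients, from the differential system.
-/

namespace Vale.Agent.P224.R2.H925

section

variable {m d T e y B r ρ ε E h Z f f' : ℝ}

/-- derivatives of the unknown functions -/
noncomputable def eD (m T e Z : ℝ) : ℝ := (m / 2 * e - T / 2 * Z) / T
noncomputable def yD (m T y Z : ℝ) : ℝ :=
  (Z - m * T ^ 2 * y - (1 - 3 * T ^ 2) * y) / (T * (1 - T ^ 2))
noncomputable def BD (m T B Z : ℝ) : ℝ := (m - 1) * (B + Z) / T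
noncomputable def rD (m T e r : ℝ) : ℝ := -(e + (m - 2) * T ^ 2 * r) / (T * (1 - T ^ 2))
noncomputable def pD (m T ρ ε : ℝ) : ℝ := ((1 - (m - 1) * T ^ 2) * ρ - ε) / (T * (1 - T ^ 2))
noncomputable def hD (m d T ε E h Z : ℝ) : ℝ :=
  (m / 2 * h - T / 2 * Z - d ^ 2 / (4 * (m + 1)) * (m * T * ε + (1 - T ^ 2) * E)) / T

lemma rel1 (hT : T ≠ 0) (hw : 1 - T ^ 2 ≠ 0) :
    -(d * (m + 2)) * (ρ + T * pD m T ρ ε)
      = ((2 - (m + 2) * T ^ 2) * (-(d * (m + 2)) * (T * ρ)) + (m + 2) * T * (d * ε)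
        + 2 * T ^ 2 * (-(d * (m + 2)) * (T * ρ))) / (T * (1 - T ^ 2)) := by
  unfold pD
  field_simp
  ring

lemma rel3 (hT : T ≠ 0) (hm : m ≠ 0) (hn : m + 1 ≠ 0) (hn2 : m + 2 ≠ 0)
    (a1 : (4 - d ^ 2 * (1 - T ^ 2)) * T * E
      = 2 * m * (m + 1) * T * h + m * (2 + d ^ 2 * T ^ 2) * ε - 2 * m * ρ) :
    d * (4 * (m + 1) * h + 4 * ε / T - 2 * (1 - T ^ 2) * ρ / T - 4 * (m + 1) * e) / (m + 1)
      = -(2 * (1 + T ^ 2) / ((m + 1) * (m + 2) * T ^ 2)) * (-(d * (m + 2)) * (T * ρ))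
        - 2 * d ^ 2 * T / (m + 1) * (d * ε)
        + 2 * (4 - d ^ 2 * (1 - T ^ 2)) / (m * (m + 1)) * (d * E) - 4 / m * d * (m * e) := by
  have h1 : 2 * (4 - d ^ 2 * (1 - T ^ 2)) / (m * (m + 1)) * (d * E)
      = 2 * d / (m * (m + 1) * T)
        * (2 * m * (m + 1) * T * h + m * (2 + d ^ 2 * T ^ 2) * ε - 2 * m * ρ) := by
    rw [← a1]
    field_simp
  rw [h1]
  field_simp
  ring

lemma rel4 (hT : T ≠ 0) (hw : 1 - T ^ 2 ≠ 0) (hm : m ≠ 0) (hn : m + 1 ≠ 0)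
    (a1 : (4 - d ^ 2 * (1 - T ^ 2)) * T * E
      = 2 * m * (m + 1) * T * h + m * (2 + d ^ 2 * T ^ 2) * ε - 2 * m * ρ) :
    d * (4 * (m + 1) * hD m d T ε E h Z + 4 * (E / T - ε / T ^ 2)
        - 2 * (-(2 * T) * ρ / T + (1 - T ^ 2) * (pD m T ρ ε / T - ρ / T ^ 2))
        - 4 * (m + 1) * eD m T e Z) / (m + 1)
      = m / T * (d * (4 * (m + 1) * h + 4 * ε / T - 2 * (1 - T ^ 2) * ρ / T - 4 * (m + 1) * e)
        / (m + 1)) - 2 * (d * ε) / T ^ 2 + 2 * d / T * (m * e) := by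
  unfold hD pD eD
  have h1 : h = ((4 - d ^ 2 * (1 - T ^ 2)) * T * E - m * (2 + d ^ 2 * T ^ 2) * ε + 2 * m * ρ)
      / (2 * m * (m + 1) * T) := by
    rw [a1]
    field_simp
    ring
  subst h1
  field_simp
  ring

lemma rel5 (hT : T ≠ 0) (hw : 1 - T ^ 2 ≠ 0) :
    -(m * (m + 1)) * (r + T * rD m T e r) - 4 * d ^ 2 * pD m T ρ ε
      = ((1 - (m + 1) * T ^ 2) * (-(m * (m + 1)) * (T * r) - 4 * d ^ 2 * ρ) + 4 * d * (d * ε)
        + (m + 1) * T * (m * e) + 2 * T ^ 2 * (-(m * (m + 1)) * (T * r) - 4 * d ^ 2 * ρ))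
      / (T * (1 - T ^ 2)) := by
  unfold rD pD
  field_simp
  ring

lemma relk (hT : T ≠ 0) (hm : m ≠ 0) (hn : m + 1 ≠ 0)
    (a2 : f = e - 8 / (m * (m + 1)) * E + 4 / ((m + 1) * T) * (ε - ρ)) :
    d ^ 2 * f - d ^ 2 * e + 4 * d ^ 2 * ρ / ((m + 1) * T)
      = 4 * d / ((m + 1) * T) * (d * ε) - 8 * d / (m * (m + 1)) * (d * E) := by
  subst a2
  field_simp
  ring

lemma rel7 (hT : T ≠ 0) (hw : 1 - T ^ 2 ≠ 0) (hm : m ≠ 0) (hm1 : m - 1 ≠ 0) (hn : m + 1 ≠ 0)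
    (a3 : (1 - T ^ 2) * y - 2 * Z - B
      = d ^ 2 * ((1 - T ^ 2) * f' + ((m - 1) * T - 1 / T) * f)) :
    d ^ 2 * f' - d ^ 2 * eD m T e Z + 4 * d ^ 2 / (m + 1) * (pD m T ρ ε / T - ρ / T ^ 2)
      = ((1 - T ^ 2) * (-(m * (m + 1)) * (T * r) - 4 * d ^ 2 * ρ) / ((m + 1) * T ^ 2)
        + (4 - d ^ 2 * (1 - T ^ 2)) / m * (m * eD m T e Z)
        - (2 / (m * T) + d ^ 2 / m * ((m - 1) * T - 1 / T)) * (m * e)
        - (m - 1) * (B / (m - 1) + 2 * e / T)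
        - 4 * d * (d * ε) / ((m + 1) * T ^ 2)
        - ((m + 1) * T ^ 2 - 1) / T * (d ^ 2 * f - d ^ 2 * e + 4 * d ^ 2 * ρ / ((m + 1) * T))
        - (1 - T ^ 2) / T * (-(T * y + m * r))
        + 2 * T * (d ^ 2 * f - d ^ 2 * e + 4 * d ^ 2 * ρ / ((m + 1) * T))) / (1 - T ^ 2) := by
  have h1 : B = (1 - T ^ 2) * y - 2 * Z - d ^ 2 * ((1 - T ^ 2) * f' + ((m - 1) * T - 1 / T) * f) := by
    linarith
  subst h1
  unfold eD pD
  field_simp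
  ring

lemma rel8 (hT : T ≠ 0) (hm1 : m - 1 ≠ 0) :
    BD m T B Z / (m - 1) + 2 * (eD m T e Z / T - e / T ^ 2)
      = (m - 1) / T * (B / (m - 1) + 2 * e / T) - m * e / T ^ 2 := by
  unfold BD eD
  field_simp
  ring

lemma rel9 (hT : T ≠ 0) (hw : 1 - T ^ 2 ≠ 0) (hm : m ≠ 0) :
    -(y + T * yD m T y Z + m * rD m T e r)
      = (2 * (m * eD m T e Z) / m - m * T * (-(T * y + m * r)) + 2 * T * (-(T * y + m * r)))
        / (1 - T ^ 2) := by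
  unfold yD rD eD
  field_simp
  ring

end

end Vale.Agent.P224.R2.H925
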