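import Vale.Agent.P224.R2.H925.Coef
import Vale.Agent.P224.R2.H925.Rel

/-!
The flow adapted to a Clifford product: the differential system and the derivative of the
functional.
-/

namespace Vale.Agent.P224.R2.H925

open MeasureTheory Set Filter Function Real Vale.Agent.P224.SM2
open scoped Topology

set_option linter.unusedSectionVars false

/-- the unknown functions of the flow -/
structure St where
  e : ℝ → ℝ
  y : ℝ → ℝ
  B : ℝ → ℝ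
  r : ℝ → ℝ
  ρ : ℝ → ℝ
  ε : ℝ → ℝ
  E : ℝ → ℝ
  h : ℝ → ℝ
  Z : ℝ → ℝ
  f : ℝ → ℝ
  f' : ℝ → ℝ

/-- the differential system -/
structure Sys (m : ℕ) (d : ℝ) (u : St) : Prop where
  he : ∀ T ∈ Ioo (0 : ℝ) 1, HasDerivAt u.e (eD m T (u.e T) (u.Z T)) T
  hy : ∀ T ∈ Ioo (0 : ℝ) 1, HasDerivAt u.y (yD m T (u.y T) (u.Z T)) T
  hB : ∀ T ∈ Ioo (0 : ℝ) 1, HasDerivAt u.B (BD m T (u.B T) (u.Z T)) T
  hr : ∀ T ∈ Ioo (0 : ℝ) 1, HasDerivAt u.r (rD m T (u.e T) (u.r T)) T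
  hρ : ∀ T ∈ Ioo (0 : ℝ) 1, HasDerivAt u.ρ (pD m T (u.ρ T) (u.ε T)) T
  hε : ∀ T ∈ Ioo (0 : ℝ) 1, HasDerivAt u.ε (u.E T) T
  hh : ∀ T ∈ Ioo (0 : ℝ) 1, HasDerivAt u.h (hD m d T (u.ε T) (u.E T) (u.h T) (u.Z T)) T
  hf : ∀ T ∈ Ioo (0 : ℝ) 1, HasDerivAt u.f (u.f' T) T
  a1 : ∀ T ∈ Ioo (0 : ℝ) 1, (4 - d ^ 2 * (1 - T ^ 2)) * T * u.E T
    = 2 * m * (m + 1) * T * u.h T + m * (2 + d ^ 2 * T ^ 2) * u.ε T - 2 * m * u.ρ T
  a2 : ∀ T ∈ Ioo (0 : ℝ) 1, u.f T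
    = u.e T - 8 / (m * (m + 1)) * u.E T + 4 / ((m + 1) * T) * (u.ε T - u.ρ T)
  a3 : ∀ T ∈ Ioo (0 : ℝ) 1, (1 - T ^ 2) * u.y T - 2 * u.Z T - u.B T
    = d ^ 2 * ((1 - T ^ 2) * u.f' T + ((m - 1) * T - 1 / T) * u.f T)

namespace St

variable (u : St) (m d : ℝ)

/-- the functions of the key identity -/
noncomputable def F2 : ℝ → ℝ := fun T => -(m * (m + 1)) * (T * u.r T) - 4 * d ^ 2 * u.ρ T
noncomputable def F3 : ℝ → ℝ := fun T => -(d * (m + 2)) * (T * u.ρ T)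
noncomputable def X1 : ℝ → ℝ := fun T => m * u.e T
noncomputable def X2 : ℝ → ℝ := fun T => d * u.ε T
noncomputable def H0 : ℝ → ℝ := fun T => -(T * u.y T + m * u.r T)
noncomputable def K : ℝ → ℝ := fun T =>
  d ^ 2 * u.f T - d ^ 2 * u.e T + 4 * d ^ 2 * u.ρ T / ((m + 1) * T)
noncomputable def B0 : ℝ → ℝ := fun T => u.B T / (m - 1) + 2 * u.e T / T
noncomputable def B1 : ℝ → ℝ := fun T =>
  d * (4 * (m + 1) * u.h T + 4 * u.ε T / T - 2 * (1 - T ^ 2) * u.ρ T / T - 4 * (m + 1) * u.e T)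
    / (m + 1)
noncomputable def K1 : ℝ → ℝ := fun T =>
  2 / (m + 1) * (m * u.F3 m d T / ((m + 2) * T) - (1 - d ^ 2) * u.X2 d T)

/-- the coefficients of the functional -/
noncomputable def A : Fin 4 → ℝ → ℝ :=
  aC m d (u.F2 m d) (u.F3 m d) (u.X1 m) (u.X2 d) (u.H0 m) (u.K m d)
noncomputable def A1 : Fin 4 → ℝ → ℝ :=
  bC m d (u.F2 m d) (u.F3 m d) (u.X2 d) (u.B0 m) (u.B1 m d)
noncomputable def C : Fin 4 → ℝ → ℝ :=
  cC m d (u.F2 m d) (u.F3 m d) (u.X1 m) (u.X2 d) (u.H0 m)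

end St

/-- the defect at level T -/
noncomputable def dK (m : ℕ) (d : ℝ) (u : St) (T : ℝ) (k : R4) : ℝ :=
  fK m T d (m * u.e T) (d * u.ε T) (-(T * u.y T + m * u.r T)) (u.K1 m d T) (u.F2 m d T)
    (u.F3 m d T) k

section

variable {Q : Type*} [MeasurableSpace Q] {ν : Measure Q} [IsFiniteMeasure ν] {m : ℕ} {κ : Q → R4}
  {d : ℝ} {u : St}

/-- the two point functional -/
noncomputable def GS (ν : Measure Q) (m : ℕ) (κ : Q → R4) (d : ℝ) (u : St) : ℝ → ℝ :=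
  Gf ν m κ (u.A m d) (u.A1 m d) (u.C m d)

/-- the integrated defect -/
noncomputable def DS (ν : Measure Q) (m : ℕ) (κ : Q → R4) (d : ℝ) (u : St) (T : ℝ) : ℝ :=
  ∫ x, dK m d u T (κ x) ∂ν

lemma integral_half {A B C : Q → ℝ} (iA : Integrable A ν) (iB : Integrable B ν)
    (iC : Integrable C ν) (eA : ∫ x, A x ∂ν = 0) (eB : ∫ x, B x ∂ν = 0) :
    ∫ x, (-(A x + B x) / 2 - C x) ∂ν = -∫ x, C x ∂ν := by
  have i1 : Integrable (fun x => A x + B x) ν := iA.add iB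
  have i2 : Integrable (fun x => -(A x + B x)) ν := i1.neg
  have i3 : Integrable (fun x => -(A x + B x) / 2) ν := i2.div_const 2
  rw [integral_sub i3 iC, integral_div, integral_neg, integral_add iA iB, eA, eB]
  norm_num

theorem hasDerivAt_GS (h : PL ν m κ) (hm : 2 ≤ m) (hu : Sys m d u) {T : ℝ}
    (hT : T ∈ Ioo (0 : ℝ) 1) : HasDerivAt (GS ν m κ d u) (-DS ν m κ d u T) T := by
  have hT' : T ∈ Ico (0 : ℝ) 1 := ⟨hT.1.le, hT.2⟩
  have hT0 : T ≠ 0 := hT.1.ne'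
  have hw : 1 - T ^ 2 ≠ 0 := by
    have : 0 < 1 - T ^ 2 := by nlinarith [hT.1, hT.2]
    exact this.ne'
  have hmR : (2 : ℝ) ≤ m := by exact_mod_cast hm
  have hm0 : (m : ℝ) ≠ 0 := by linarith
  have hm1 : (m : ℝ) - 1 ≠ 0 := by linarith
  have hn : (m : ℝ) + 1 ≠ 0 := by linarith
  have hn2 : (m : ℝ) + 2 ≠ 0 := by linarith
  have hid : HasDerivAt (fun T : ℝ => T) 1 T := hasDerivAt_id T
  have hw' : HasDerivAt (fun T : ℝ => 1 - T ^ 2) (-(2 * T)) T := by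
    simpa using (hasDerivAt_pow 2 T).const_sub 1
  have de := hu.he T hT
  have dy := hu.hy T hT
  have dB := hu.hB T hT
  have dr := hu.hr T hT
  have dρ := hu.hρ T hT
  have dε := hu.hε T hT
  have dh := hu.hh T hT
  have df := hu.hf T hT
  have a1 := hu.a1 T hT
  have a2 := hu.a2 T hT
  have a3 := hu.a3 T hT
  -- the derivatives of the functions of the key identity
  have d2 : HasDerivAt (u.F2 m d) (-((m : ℝ) * (m + 1)) * (u.r T + T * rD m T (u.e T) (u.r T))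
      - 4 * d ^ 2 * pD m T (u.ρ T) (u.ε T)) T := by
    refine (((hid.fun_mul dr).const_mul (-((m : ℝ) * (m + 1)))).fun_sub
      (dρ.const_mul (4 * d ^ 2))).congr_deriv ?_
    ring
  have d3 : HasDerivAt (u.F3 m d) (-(d * (m + 2)) * (u.ρ T + T * pD m T (u.ρ T) (u.ε T))) T := by
    refine ((hid.fun_mul dρ).const_mul (-(d * (m + 2)))).congr_deriv ?_
    ring
  have dX1 : HasDerivAt (u.X1 m) (m * eD m T (u.e T) (u.Z T)) T := de.const_mul _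
  have dX2 : HasDerivAt (u.X2 d) (d * u.E T) T := dε.const_mul _
  have dH0 : HasDerivAt (u.H0 m) (-(u.y T + T * yD m T (u.y T) (u.Z T)
      + m * rD m T (u.e T) (u.r T))) T := by
    refine ((hid.fun_mul dy).fun_add (dr.const_mul (m : ℝ))).fun_neg.congr_deriv ?_
    ring
  have dKK : HasDerivAt (u.K m d) (d ^ 2 * u.f' T - d ^ 2 * eD m T (u.e T) (u.Z T)
      + 4 * d ^ 2 / (m + 1) * (pD m T (u.ρ T) (u.ε T) / T - u.ρ T / T ^ 2)) T := by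
    refine (((df.const_mul (d ^ 2)).fun_sub (de.const_mul (d ^ 2))).fun_add
      ((dρ.const_mul (4 * d ^ 2)).fun_div (hid.const_mul ((m : ℝ) + 1))
        (mul_ne_zero hn hT0))).congr_deriv ?_
    field_simp
  have dB0 : HasDerivAt (u.B0 m) (BD m T (u.B T) (u.Z T) / (m - 1)
      + 2 * (eD m T (u.e T) (u.Z T) / T - u.e T / T ^ 2)) T := by
    refine ((dB.div_const ((m : ℝ) - 1)).fun_add ((de.const_mul 2).fun_div hid hT0)).congr_deriv ?_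
    field_simp
  have dB1 : HasDerivAt (u.B1 m d) (d * (4 * (m + 1) * hD m d T (u.ε T) (u.E T) (u.h T) (u.Z T)
        + 4 * (u.E T / T - u.ε T / T ^ 2)
        - 2 * (-(2 * T) * u.ρ T / T
          + (1 - T ^ 2) * (pD m T (u.ρ T) (u.ε T) / T - u.ρ T / T ^ 2))
        - 4 * (m + 1) * eD m T (u.e T) (u.Z T)) / (m + 1)) T := by
    have q := (((((dh.const_mul (4 * ((m : ℝ) + 1))).fun_add
      ((dε.const_mul 4).fun_div hid hT0)).fun_sub
      (((hw'.const_mul 2).fun_mul dρ).fun_div hid hT0)).fun_sub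
      (de.const_mul (4 * ((m : ℝ) + 1)))).const_mul d).div_const ((m : ℝ) + 1)
    refine q.congr_deriv ?_
    field_simp
    ring
  have hA := hasDerivAt_aC (d := d) hT0 hm0 hn d2 d3 dX1 dX2 dH0 dKK
  have hB' := hasDerivAt_bC (m := (m : ℝ)) (d := d) d2 d3 dX2 dB0 dB1
  have hC := hasDerivAt_cC (d := d) hT0 hn2 d2 d3 dX1 dX2 dH0
  have hG := hasDerivAt_Gf (ν := ν) h.meas h.mem (by omega : 1 ≤ m) hT hA hB' hC
  refine hG.congr_deriv ?_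
  -- the key identity
  set f0 : ℝ := (u.F2 m d T / ((m + 1) * T) - (1 - d ^ 2) / m * u.X1 m T + u.K m d T - u.H0 m T) / T
    with hf0
  set k1' : ℝ := 2 / (m + 1) * (m * (-(d * (m + 2)) * (u.ρ T + T * pD m T (u.ρ T) (u.ε T)) / T
    - u.F3 m d T / T ^ 2) / (m + 2) - (1 - d ^ 2) * (d * u.E T)) with hk1'
  set x0 : ℝ := (4 * (d * u.E T) / (m + 1) - (1 - T ^ 2) * k1' - (m - 1) * T * u.K1 m d T
    - 2 * d * u.X1 m T) / (m * T) with hx0
  have hkey : ∀ k ∈ KK, gf' m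
      (fun j => aC m d (u.F2 m d) (u.F3 m d) (u.X1 m) (u.X2 d) (u.H0 m) (u.K m d) j T)
      (fun j => bC m d (u.F2 m d) (u.F3 m d) (u.X2 d) (u.B0 m) (u.B1 m d) j T)
      (fun j => cC m d (u.F2 m d) (u.F3 m d) (u.X1 m) (u.X2 d) (u.H0 m) j T)
      (aC' m d T (u.F2 m d T) (u.F3 m d T) (u.X1 m T) (u.X2 d T) (u.H0 m T) (u.K m d T)
        (-((m : ℝ) * (m + 1)) * (u.r T + T * rD m T (u.e T) (u.r T))
          - 4 * d ^ 2 * pD m T (u.ρ T) (u.ε T))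
        (-(d * (m + 2)) * (u.ρ T + T * pD m T (u.ρ T) (u.ε T)))
        (m * eD m T (u.e T) (u.Z T)) (d * u.E T)
        (-(u.y T + T * yD m T (u.y T) (u.Z T) + m * rD m T (u.e T) (u.r T)))
        (d ^ 2 * u.f' T - d ^ 2 * eD m T (u.e T) (u.Z T)
          + 4 * d ^ 2 / (m + 1) * (pD m T (u.ρ T) (u.ε T) / T - u.ρ T / T ^ 2)))
      (bC' m d T (u.F2 m d T) (u.F3 m d T)
        (-((m : ℝ) * (m + 1)) * (u.r T + T * rD m T (u.e T) (u.r T))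
          - 4 * d ^ 2 * pD m T (u.ρ T) (u.ε T))
        (-(d * (m + 2)) * (u.ρ T + T * pD m T (u.ρ T) (u.ε T))) (d * u.E T)
        (BD m T (u.B T) (u.Z T) / (m - 1)
          + 2 * (eD m T (u.e T) (u.Z T) / T - u.e T / T ^ 2))
        (d * (4 * (m + 1) * hD m d T (u.ε T) (u.E T) (u.h T) (u.Z T)
          + 4 * (u.E T / T - u.ε T / T ^ 2)
          - 2 * (-(2 * T) * u.ρ T / T
            + (1 - T ^ 2) * (pD m T (u.ρ T) (u.ε T) / T - u.ρ T / T ^ 2))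
          - 4 * (m + 1) * eD m T (u.e T) (u.Z T)) / (m + 1)))
      (cC' m d T (u.F2 m d T) (u.F3 m d T) (u.X2 d T) (u.H0 m T)
        (-((m : ℝ) * (m + 1)) * (u.r T + T * rD m T (u.e T) (u.r T))
          - 4 * d ^ 2 * pD m T (u.ρ T) (u.ε T))
        (-(d * (m + 2)) * (u.ρ T + T * pD m T (u.ρ T) (u.ε T)))
        (m * eD m T (u.e T) (u.Z T)) (d * u.E T)
        (-(u.y T + T * yD m T (u.y T) (u.Z T) + m * rD m T (u.e T) (u.r T)))) T k
      = -(rK m T f0 (u.F2 m d T) (u.F3 m d T) x0 (u.X1 m T) (u.X2 d T) (u.H0 m T) (u.K1 m d T)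
          (-(T * u.F2 m d T)) (-(T * u.F3 m d T)) k
        + rK m T f0 (u.F2 m d T) (u.F3 m d T) x0 (u.X1 m T) (u.X2 d T) (u.H0 m T) (u.K1 m d T)
          (-(T * u.F2 m d T)) (-(T * u.F3 m d T)) (sw k)) / 2
        - dK m d u T k := by
    intro k hk
    have hv := (one_sub_pos' hT' hk.1.2).ne'
    have hkey := key (m : ℝ) T d (1 - T * k.1) (SM2.ker T m k.1) k.1 k.2.1
      k.2.2.1 k.2.2.2 (u.F2 m d T) (u.F3 m d T) (u.X1 m T) (m * eD m T (u.e T) (u.Z T)) (u.X2 d T)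
      (d * u.E T) (u.H0 m T) (u.B0 m T) _ _ _ _ _ _ _ _ _ _ _ _ _ _ _ hT0 hw hm0 hn hn2 hv rfl
      (rel1 hT0 hw) (rel3 (e := u.e T) hT0 hm0 hn hn2 a1)
      (rel4 (e := u.e T) (Z := u.Z T) hT0 hw hm0 hn a1)
      (rel5 (e := u.e T) (r := u.r T) hT0 hw) (relk hT0 hm0 hn a2)
      (rel7 (r := u.r T) hT0 hw hm0 hm1 hn a3) (rel8 (Z := u.Z T) hT0 hm1)
      (rel9 (Z := u.Z T) hT0 hw hm0) rfl rfl rfl rfl rfl rfl rfl
    refine Eq.trans ?_ (hkey.trans ?_)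
    · unfold gf'
      congr 1
    · have hab : ∀ a b c : ℝ, -((a + b) / 2 + c) = -(a + b) / 2 - c := fun a b c => by ring
      exact hab _ _ _
  simp only [fun x => hkey (κ x) (h.mem x)]
  have i1 := integrable_rK h hT' f0 (u.F2 m d T) (u.F3 m d T) x0 (u.X1 m T) (u.X2 d T) (u.H0 m T)
    (u.K1 m d T) (-(T * u.F2 m d T)) (-(T * u.F3 m d T))
  have i2 := integrable_rK' h hT' f0 (u.F2 m d T) (u.F3 m d T) x0 (u.X1 m T) (u.X2 d T) (u.H0 m T)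
    (u.K1 m d T) (-(T * u.F2 m d T)) (-(T * u.F3 m d T))
  have i3 : Integrable (fun x => dK m d u T (κ x)) ν := integrable_fK h hT' _ _ _ _ _ _ _
  have e1 := h.row T hT f0 (u.F2 m d T) (u.F3 m d T) x0 (u.X1 m T) (u.X2 d T) (u.H0 m T)
    (u.K1 m d T) (-(T * u.F2 m d T)) (-(T * u.F3 m d T))
  have e2 := h.row' T hT f0 (u.F2 m d T) (u.F3 m d T) x0 (u.X1 m T) (u.X2 d T) (u.H0 m T)
    (u.K1 m d T) (-(T * u.F2 m d T)) (-(T * u.F3 m d T))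
  exact integral_half i1 i2 i3 e1 e2

end

end Vale.Agent.P224.R2.H925
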