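import Vale.Agent.P224.R2.H925.Inst
import Vale.Agent.P224.R2.H925.SOne

/-!
The two point law of the flow adapted to a Clifford product, with its defect.
-/

namespace Vale.Agent.P224.R2.H925

open MeasureTheory Set Filter Function Real Module Vale.Agent.P224 Vale.Agent.P224.FV
  Vale.Agent.P224.SM2
open scoped RealInnerProductSpace Topology ContDiff Manifold

set_option linter.unusedSectionVars false

section

variable {Q : Type*} [MeasurableSpace Q] {ν : Measure Q} [IsFiniteMeasure ν] {m : ℕ} {κ : Q → R4}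
  {d ε0 r0 c0 lam : ℝ} {u : St}

lemma continuousOn_GS (h : PL ν m κ) (hm : 2 ≤ m) (hs : Sys m d u) :
    ContinuousOn (GS ν m κ d u) (Ioo 0 1) := fun _ hT =>
  (hasDerivAt_GS h hm hs hT).continuousAt.continuousWithinAt

/-- the inequality on a compact interval -/
lemma integral_le_GS (h : PL ν m κ) (hm : 2 ≤ m) (hs : Sys m d u) {B : ℝ → ℝ}
    (hBi : IntervalIntegrable B volume 0 1)
    (hB : ∀ T ∈ Ioo (0 : ℝ) 1, B T ≤ DS ν m κ d u T) {T1 T2 : ℝ} (h1 : 0 < T1) (h12 : T1 ≤ T2)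
    (h2 : T2 < 1) :
    ∫ T in T1..T2, B T ≤ GS ν m κ d u T1 - GS ν m κ d u T2 := by
  have hsub : Icc T1 T2 ⊆ Ioo 0 1 := fun x hx => ⟨h1.trans_le hx.1, hx.2.trans_lt h2⟩
  have hi : IntegrableOn B (Icc T1 T2) volume := by
    have h3 := (intervalIntegrable_iff_integrableOn_Ioc_of_le zero_le_one).1 hBi
    have h4 : IntegrableOn B (Icc 0 1) volume := (integrableOn_Icc_iff_integrableOn_Ioc).2 h3
    exact h4.mono_set (Icc_subset_Icc h1.le h2.le)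
  have h5 := intervalIntegral.integral_le_sub_of_hasDeriv_right_of_le h12
    (g := fun T => -GS ν m κ d u T) (g' := fun T => DS ν m κ d u T) (φ := B)
    ((continuousOn_GS h hm hs).mono hsub).neg
    (fun x hx => by
      have := (hasDerivAt_GS h hm hs (hsub ⟨hx.1.le, hx.2.le⟩)).neg
      rw [neg_neg] at this
      exact this.hasDerivWithinAt) hi
    (fun x hx => hB x (hsub ⟨hx.1.le, hx.2.le⟩))
  linarith

lemma continuousOn_prim {B : ℝ → ℝ} (hBi : IntervalIntegrable B volume 0 1) :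
    ContinuousOn (fun T => ∫ τ in (0 : ℝ)..T, B τ) (Icc 0 1) := by
  have h1 : IntegrableOn B (uIcc 0 1) volume := by
    rw [uIcc_of_le zero_le_one]
    exact (integrableOn_Icc_iff_integrableOn_Ioc).2
      ((intervalIntegrable_iff_integrableOn_Ioc_of_le zero_le_one).1 hBi)
  have := intervalIntegral.continuousOn_primitive_interval h1
  rwa [uIcc_of_le zero_le_one] at this

/-- the inequality from T = 0 -/
lemma integral_le_GS0 (h : PL ν m κ) (hm : 2 ≤ m) (hd : d ^ 2 < 4) (hs : Sys m d u)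
    (h0 : Lim0 m d u ε0 r0 c0) {B : ℝ → ℝ} (hBi : IntervalIntegrable B volume 0 1)
    (hB : ∀ T ∈ Ioo (0 : ℝ) 1, B T ≤ DS ν m κ d u T) {T2 : ℝ} (hT2 : T2 ∈ Ioo (0 : ℝ) 1) :
    GS ν m κ d u T2 + ∫ T in (0 : ℝ)..T2, B T ≤ ∫ x, f0K m d ε0 r0 c0 (κ x) ∂ν := by
  have hlim := tendsto_GS_zero (ν := ν) h.meas h.mem hm hd hs h0
  have hprim : Tendsto (fun T => ∫ τ in (0 : ℝ)..T, B τ) (𝓝[>] 0) (𝓝 0) := by
    have h1 := (continuousOn_prim hBi) 0 ⟨le_rfl, zero_le_one⟩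
    unfold ContinuousWithinAt at h1
    simp only [intervalIntegral.integral_same] at h1
    refine h1.mono_left ?_
    rw [← nhdsWithin_Ioo_eq_nhdsGT (one_pos : (0 : ℝ) < 1)]
    exact nhdsWithin_mono _ Ioo_subset_Icc_self
  have hL : Tendsto (fun T => GS ν m κ d u T2 + ((∫ τ in (0 : ℝ)..T2, B τ)
      - ∫ τ in (0 : ℝ)..T, B τ)) (𝓝[>] 0)
      (𝓝 (GS ν m κ d u T2 + ((∫ τ in (0 : ℝ)..T2, B τ) - 0))) :=
    (hprim.const_sub _).const_add _
  rw [sub_zero] at hL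
  refine le_of_tendsto_of_tendsto hL hlim ?_
  have hev : Ioo (0 : ℝ) T2 ∈ 𝓝[>] (0 : ℝ) := Ioo_mem_nhdsGT hT2.1
  filter_upwards [hev] with T hT
  have h1 := integral_le_GS h hm hs hBi hB hT.1 hT.2.le hT2.2
  have i1 : IntervalIntegrable B volume 0 T := by
    refine hBi.mono_set ?_
    rw [uIcc_of_le hT.1.le, uIcc_of_le zero_le_one]
    exact Icc_subset_Icc le_rfl (hT.2.trans hT2.2).le
  have i2 : IntervalIntegrable B volume T T2 := by
    refine hBi.mono_set ?_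
    rw [uIcc_of_le hT.2.le, uIcc_of_le zero_le_one]
    exact Icc_subset_Icc hT.1.le hT2.2.le
  have h2 := intervalIntegral.integral_add_adjacent_intervals i1 i2
  linarith

/-- the sharp inequality with an integrable lower bound of the defect, for a pair law -/
theorem law_defect (h : PL ν m κ) (hm : 2 ≤ m) (hd : d ^ 2 < 4) (hs : Sys m d u)
    (h0 : Lim0 m d u ε0 r0 c0) (h1 : Lim1 m u lam) (hlam : 0 ≤ lam) {M S : ℝ}
    (hJ : ∀ᶠ φ in 𝓝[<] (π / 2), |Jf ν m κ φ| ≤ M)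
    (hJB : Tendsto (fun φ => Jf ν m κ φ - Bf ν m κ φ) (𝓝[<] (π / 2)) (𝓝 0))
    (hS : ∀ ε > 0, ∀ᶠ φ in 𝓝[<] (π / 2), S - ε ≤ Jf ν m κ φ) {B : ℝ → ℝ}
    (hBi : IntervalIntegrable B volume 0 1)
    (hB : ∀ T ∈ Ioo (0 : ℝ) 1, B T ≤ DS ν m κ d u T) :
    2 * lam * S + ∫ T in (0 : ℝ)..1, B T ≤ ∫ x, f0K m d ε0 r0 c0 (κ x) ∂ν := by
  refine le_of_forall_pos_le_add fun ε hε => ?_
  have hlim := tendsto_GS_one h hm hd hs h1 hJ hJB
  have hsin : Tendsto (fun φ => sin φ) (𝓝[<] (π / 2)) (𝓝[Icc 0 1] 1) := by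
    refine tendsto_nhdsWithin_iff.2 ⟨tendsto_sin_one, ?_⟩
    filter_upwards [Ioo_pi] with φ hφ
    exact ⟨(sin_pos_Ioo hφ).le, sin_le_one φ⟩
  have hBlim : Tendsto (fun φ => ∫ τ in (0 : ℝ)..(sin φ), B τ) (𝓝[<] (π / 2))
      (𝓝 (∫ τ in (0 : ℝ)..1, B τ)) :=
    ((continuousOn_prim hBi) 1 ⟨zero_le_one, le_rfl⟩).tendsto.comp hsin
  have e1 : ∀ᶠ φ in 𝓝[<] (π / 2), (∫ τ in (0 : ℝ)..1, B τ) - ε / 3
      < ∫ τ in (0 : ℝ)..(sin φ), B τ := (tendsto_order.1 hBlim).1 _ (by linarith)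
  have e2 : ∀ᶠ φ in 𝓝[<] (π / 2), -(ε / 3) < GS ν m κ d u (sin φ) - 2 * lam * Jf ν m κ φ :=
    (tendsto_order.1 hlim).1 _ (by linarith)
  have e3 := hS (ε / (6 * (lam + 1))) (by positivity)
  obtain ⟨φ, hφ, w1, w2, w3⟩ := (Ioo_pi.and (e1.and (e2.and e3))).exists
  have hT : sin φ ∈ Ioo (0 : ℝ) 1 := ⟨sin_pos_Ioo hφ, sin_lt_one_Ioo hφ⟩
  have h4 := integral_le_GS0 h hm hd hs h0 hBi hB hT
  have h5 : 2 * lam * (S - ε / (6 * (lam + 1))) ≤ 2 * lam * Jf ν m κ φ :=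
    mul_le_mul_of_nonneg_left w3 (by positivity)
  have h6 : 2 * lam * (ε / (6 * (lam + 1))) ≤ ε / 3 := by
    rw [← mul_div_assoc, div_le_div_iff₀ (by positivity) (by positivity)]
    nlinarith
  linarith

/-- the exact value when the defect vanishes -/
theorem law_exact (h : PL ν m κ) (hm : 2 ≤ m) (hd : d ^ 2 < 4) (hs : Sys m d u)
    (h0 : Lim0 m d u ε0 r0 c0) (h1 : Lim1 m u lam) {M S : ℝ}
    (hJ : ∀ᶠ φ in 𝓝[<] (π / 2), |Jf ν m κ φ| ≤ M)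
    (hJB : Tendsto (fun φ => Jf ν m κ φ - Bf ν m κ φ) (𝓝[<] (π / 2)) (𝓝 0))
    (hS : Tendsto (Jf ν m κ) (𝓝[<] (π / 2)) (𝓝 S))
    (hD : ∀ T ∈ Ioo (0 : ℝ) 1, DS ν m κ d u T = 0) :
    2 * lam * S = ∫ x, f0K m d ε0 r0 c0 (κ x) ∂ν := by
  have hc : ∀ T1 ∈ Ioo (0 : ℝ) 1, ∀ T2 ∈ Ioo (0 : ℝ) 1, T1 ≤ T2 →
      GS ν m κ d u T2 = GS ν m κ d u T1 := by
    intro T1 h1' T2 h2' h12
    have hsub : Icc T1 T2 ⊆ Ioo 0 1 := fun x hx => ⟨h1'.1.trans_le hx.1, hx.2.trans_lt h2'.2⟩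
    refine constant_of_has_deriv_right_zero ((continuousOn_GS h hm hs).mono hsub) ?_ T2
      ⟨h12, le_rfl⟩
    intro x hx
    have h3 := hasDerivAt_GS h hm hs (hsub ⟨hx.1, hx.2.le⟩)
    rw [hD x (hsub ⟨hx.1, hx.2.le⟩), neg_zero] at h3
    exact h3.hasDerivWithinAt
  have hlim := tendsto_GS_zero (ν := ν) h.meas h.mem hm hd hs h0
  have hconst : ∀ T ∈ Ioo (0 : ℝ) 1, GS ν m κ d u T = ∫ x, f0K m d ε0 r0 c0 (κ x) ∂ν := by
    intro T hT
    refine tendsto_nhds_unique (f := fun _ => GS ν m κ d u T) tendsto_const_nhds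
      (hlim.congr' ?_)
    have hev : Ioo (0 : ℝ) T ∈ 𝓝[>] (0 : ℝ) := Ioo_mem_nhdsGT hT.1
    filter_upwards [hev] with T' hT'
    exact (hc T' ⟨hT'.1, hT'.2.trans hT.2⟩ T hT hT'.2.le).symm
  have hlim1 := tendsto_GS_one h hm hd hs h1 hJ hJB
  have h4 : Tendsto (fun φ => (∫ x, f0K m d ε0 r0 c0 (κ x) ∂ν) - 2 * lam * Jf ν m κ φ)
      (𝓝[<] (π / 2)) (𝓝 0) :=
    tt1 hlim1 (fun φ hφ => by rw [hconst _ ⟨sin_pos_Ioo hφ, sin_lt_one_Ioo hφ⟩]) rfl
  have h5 : Tendsto (fun φ => (∫ x, f0K m d ε0 r0 c0 (κ x) ∂ν) - 2 * lam * Jf ν m κ φ)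
      (𝓝[<] (π / 2)) (𝓝 ((∫ x, f0K m d ε0 r0 c0 (κ x) ∂ν) - 2 * lam * S)) :=
    (hS.const_mul _).const_sub _
  have h6 := tendsto_nhds_unique h4 h5
  linarith

end

section

variable {V W M : Type*} [NormedAddCommGroup V] [InnerProductSpace ℝ V] [FiniteDimensional ℝ V]
  [NormedAddCommGroup W] [InnerProductSpace ℝ W] [FiniteDimensional ℝ W]
  [TopologicalSpace M] [ChartedSpace V M]
  [MeasurableSpace V] [BorelSpace V] [MeasurableSpace M] [BorelSpace M]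

lemma Jf_eq (F N : M → W) (m : ℕ) (φ : ℝ) :
    Jf ((volM V F).prod (volM V F)) m (SM2.pr F N) φ = JJ (volM V F) m F φ := by
  unfold Jf Mo JJ
  simp only [cf_ker, one_mul]
  rw [← integral_const_mul]
  rfl

lemma Bf_eq (F N : M → W) (m : ℕ) (φ : ℝ) :
    Bf ((volM V F).prod (volM V F)) m (SM2.pr F N) φ = BB (volM V F) m F N φ := by
  unfold Bf Mo BB
  simp only [cf_ker]
  rw [← integral_const_mul]
  refine integral_congr_ae (Eventually.of_forall fun q => ?_)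
  simp only [SM2.pr]
  ring

/-- the two point law adapted to a Clifford product, for an injective minimal immersion -/
theorem adapted_defect [MeasurableSpace W] [BorelSpace W] [IsManifold 𝓘(ℝ, V) ∞ M]
    [CompactSpace M] [T2Space M] (hm : 2 ≤ finrank ℝ V) (hW : finrank ℝ W = finrank ℝ V + 2)
    {F : M → W} (hF : SphImm V F) (hmin : ∀ x n, IsUnitNormal V F x n → meanCurv V F x n = 0)
    {N : M → W} (hNs : ContMDiff 𝓘(ℝ, V) 𝓘(ℝ, W) ∞ N) (hN : ∀ x, IsUnitNormal V F x (N x))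
    (hinj : Injective F) {d ε0 r0 c0 lam : ℝ} {u : St} (hd : d ^ 2 < 4)
    (hs : Sys (finrank ℝ V) d u) (h0 : Lim0 (finrank ℝ V) d u ε0 r0 c0)
    (h1 : Lim1 (finrank ℝ V) u lam) (hlam : 0 ≤ lam) {B : ℝ → ℝ}
    (hBi : IntervalIntegrable B volume 0 1)
    (hB : ∀ T ∈ Ioo (0 : ℝ) 1, B T
      ≤ DS ((volM V F).prod (volM V F)) (finrank ℝ V) (SM2.pr F N) d u T) :
    2 * lam * (sphereVol (finrank ℝ V) * (volM V F).real univ) + ∫ T in (0 : ℝ)..1, B T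
      ≤ ∫ q, f0K (finrank ℝ V) d ε0 r0 c0 (SM2.pr F N q) ∂((volM V F).prod (volM V F)) := by
  have hfin : IsFiniteMeasure (volM V F) := isFiniteMeasure_volM hF
  have hm1 : 1 ≤ finrank ℝ V := by omega
  have hT := twoPt_of_min hm1 hW hF hmin hNs hN
  have hP := PL_of_min hW hF hmin hNs hN
  have hcF : Continuous F := hF.smooth.continuous
  have hcN : Continuous N := hNs.continuous
  obtain ⟨hL, hJB⟩ := limits hm1 hW hF hcN hT hinj
  have hJle := JJ_le hF hT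
  have hM : ∀ᶠ φ in 𝓝[<] (π / 2), |Jf ((volM V F).prod (volM V F)) (finrank ℝ V)
      (SM2.pr F N) φ| ≤ (volM V F).real univ ^ 2 := by
    filter_upwards [Ioo_pi] with φ hφ
    rw [Jf_eq, abs_of_nonneg (JJ_nonneg hF.unit ⟨by linarith [hφ.1, pi_pos], hφ.2⟩)]
    exact hJle φ ⟨hφ.1.le, hφ.2⟩
  refine law_defect hP hm hd hs h0 h1 hlam hM ?_ ?_ hBi hB
  · refine tendsto_zero_of_eventually_le fun ε hε => ?_
    filter_upwards [hJB ε hε] with φ hφ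
    rw [Jf_eq, Bf_eq]
    exact hφ
  · intro ε hε
    filter_upwards [hL ε hε] with φ hφ
    rw [Jf_eq]
    exact hφ

end

end Vale.Agent.P224.R2.H925
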