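import Vale.Agent.P224.R2.H925.GBlk
import Vale.Agent.P224.R2.H484.AbsW
import Vale.Agent.P224.R2.H582.Bw

/-!
The threshold functions `max c₁ (c₂ / (1 - T^2))`: conditions of the law, polynomials above and
below, absolute tails.
-/

namespace Vale.Agent.P224.R2.H925

open MeasureTheory Set Filter Function Real Module Matrix Vale.Agent.P224
  Vale.Agent.P224.R2.H820 Vale.Agent.P224.R2.H582 Vale.Agent.P224.R2.H627
  Vale.Agent.P224.R2.H728 Vale.Agent.P224.R2.H484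
open Vale.Agent.P224.SM2 hiding ker
open scoped Topology RealInnerProductSpace ContDiff Manifold

set_option linter.unusedSectionVars false

/-- the threshold, divided by `1 - T^2` -/
noncomputable def lamX (c1 c2 T : ℝ) : ℝ := max c1 (c2 / (1 - T ^ 2)) / (1 - T ^ 2)

lemma lamX_mul {c1 c2 T : ℝ} (hT : T ∈ Ioo (0 : ℝ) 1) :
    (1 - T ^ 2) * lamX c1 c2 T = max c1 (c2 / (1 - T ^ 2)) := by
  have hk : 0 < 1 - T ^ 2 := by nlinarith [hT.1, hT.2]
  unfold lamX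
  exact mul_div_cancel₀ _ hk.ne'

lemma lamX_half {c1 c2 T : ℝ} (hT : T ∈ Ioo (0 : ℝ) (1 / 2)) (hc2 : 0 ≤ c2)
    (hc : 4 / 3 * c2 ≤ c1) : (1 - T ^ 2) * lamX c1 c2 T = c1 := by
  rw [lamX_mul ⟨hT.1, by linarith [hT.2]⟩]
  have hk : 3 / 4 ≤ 1 - T ^ 2 := by nlinarith [hT.1, hT.2]
  refine max_eq_left ?_
  rw [div_le_iff₀ (by linarith)]
  nlinarith

/-- the threshold is admissible, first block -/
theorem admX1 {m : ℕ} (hm : 36 ≤ m) : AdmF m (lamX (91 / 5) (61 / 5)) := by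
  intro T hT
  have hk : 0 < 1 - T ^ 2 := by nlinarith [hT.1, hT.2]
  have hmR : (36 : ℝ) ≤ m := by exact_mod_cast hm
  rw [lamX_mul hT]
  refine Or.inr (Or.inl ⟨?_, ?_⟩)
  · rw [div_le_div_iff₀ (by linarith) (by norm_num)]
    linarith
  · rcases le_total (61 / 5 / (1 - T ^ 2)) (91 / 5) with h | h
    · rw [max_eq_left h]
      exact Or.inl le_rfl
    · rw [max_eq_right h, mul_div_cancel₀ _ hk.ne']
      exact Or.inr le_rfl

/-- the threshold is admissible, second block -/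
theorem admX2 {m : ℕ} (hm : 100 ≤ m) : AdmF m (lamX (93 / 5) (63 / 5)) := by
  intro T hT
  have hk : 0 < 1 - T ^ 2 := by nlinarith [hT.1, hT.2]
  have hmR : (100 : ℝ) ≤ m := by exact_mod_cast hm
  rw [lamX_mul hT]
  refine Or.inr (Or.inr ⟨?_, ?_⟩)
  · rw [div_le_div_iff₀ (by linarith) (by norm_num)]
    linarith
  · rcases le_total (63 / 5 / (1 - T ^ 2)) (93 / 5) with h | h
    · rw [max_eq_left h]
      exact Or.inl le_rfl
    · rw [max_eq_right h, mul_div_cancel₀ _ hk.ne']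
      exact Or.inr le_rfl

/-- the list of `c₁ (1 + T^2 + T^4 + T^6 + c T^8)` -/
def laL (c1 c : ℚ) : List ℚ := [c1, 0, c1, 0, c1, 0, c1, 0, c1 * c]

lemma pe_laL (c1 c : ℚ) (T : ℝ) :
    pe (laL c1 c) 0 T = c1 * (1 + T ^ 2 + T ^ 4 + T ^ 6 + c * T ^ 8) := by
  unfold laL
  simp only [pe]
  push_cast
  ring

/-- upper polynomial -/
lemma lamX_le {c1 : ℚ} {c2 : ℝ} (hc1 : 0 ≤ c1) (hc2 : 0 ≤ c2) (hc : 4 / 3 * c2 ≤ c1) {T : ℝ}
    (hT : T ∈ Ioo (0 : ℝ) (1 / 2)) : lamX c1 c2 T ≤ pe (laL c1 (4 / 3)) 0 T := by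
  have h := lamX_half hT hc2 hc
  have hk : 3 / 4 ≤ 1 - T ^ 2 := by nlinarith [hT.1, hT.2]
  have h0 : (0 : ℝ) ≤ c1 := by exact_mod_cast hc1
  rw [pe_laL]
  refine le_of_mul_le_mul_left (a := 1 - T ^ 2) ?_ (by linarith)
  rw [h]
  push_cast
  have e : (1 - T ^ 2) * ((c1 : ℝ) * (1 + T ^ 2 + T ^ 4 + T ^ 6 + 4 / 3 * T ^ 8))
      = c1 + c1 * (T ^ 8 * (4 / 3 * (1 - T ^ 2) - 1)) := by ring
  rw [e]
  have : 0 ≤ (c1 : ℝ) * (T ^ 8 * (4 / 3 * (1 - T ^ 2) - 1)) :=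
    mul_nonneg h0 (mul_nonneg (by positivity) (by linarith))
  linarith

/-- lower polynomial -/
lemma le_lamX {c1 : ℚ} {c2 : ℝ} (hc1 : 0 ≤ c1) (hc2 : 0 ≤ c2) (hc : 4 / 3 * c2 ≤ c1) {T : ℝ}
    (hT : T ∈ Ioo (0 : ℝ) (1 / 2)) : pe (laL c1 1) 0 T ≤ lamX c1 c2 T := by
  have h := lamX_half hT hc2 hc
  have hk : 3 / 4 ≤ 1 - T ^ 2 := by nlinarith [hT.1, hT.2]
  have h0 : (0 : ℝ) ≤ c1 := by exact_mod_cast hc1
  rw [pe_laL]
  refine le_of_mul_le_mul_left (a := 1 - T ^ 2) ?_ (by linarith)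
  rw [h]
  push_cast
  have e : (1 - T ^ 2) * ((c1 : ℝ) * (1 + T ^ 2 + T ^ 4 + T ^ 6 + 1 * T ^ 8))
      = c1 - c1 * T ^ 10 := by ring
  rw [e]
  have : 0 ≤ (c1 : ℝ) * T ^ 10 := mul_nonneg h0 (by positivity)
  linarith

/-- condition of the crude law -/
lemma lamX_hl {c1 c2 : ℝ} (hc2 : 0 ≤ c2) (hc : 4 / 3 * c2 ≤ c1) (h1 : c1 ≤ 94 / 5) :
    ∀ T ∈ Ioo (0 : ℝ) (3 / 10), (1 - T ^ 2) * lamX c1 c2 T ≤ 94 / 5 := by
  intro T hT
  rw [lamX_half ⟨hT.1, by linarith [hT.2]⟩ hc2 hc]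
  exact h1

/-- the block of the threshold functions with levels `c₁` -/
def blkX (c1 ab : ℚ) (rels : List (ℚ × ℚ)) : BlkQ :=
  ⟨1 / 2, laL c1 (4 / 3), laL c1 1, ab, rels⟩

section

variable {V W M : Type*} [NormedAddCommGroup V] [InnerProductSpace ℝ V] [FiniteDimensional ℝ V]
  [NormedAddCommGroup W] [InnerProductSpace ℝ W] [FiniteDimensional ℝ W]
  [TopologicalSpace M] [ChartedSpace V M]
  [MeasurableSpace V] [BorelSpace V] [MeasurableSpace M] [BorelSpace M]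
  [MeasurableSpace W] [BorelSpace W] [IsManifold 𝓘(ℝ, V) ∞ M]
  [CompactSpace M] [T2Space M]

/-- the absolute tail of a minimal hypersurface, a block -/
theorem abs_X (hW : finrank ℝ W = finrank ℝ V + 2)
    {F : M → W} (hF : SphImm V F) (hmin : ∀ x n, IsUnitNormal V F x n → meanCurv V F x n = 0)
    {N : M → W} (hNs : ContMDiff 𝓘(ℝ, V) 𝓘(ℝ, W) ∞ N) (hN : ∀ x, IsUnitNormal V F x (N x))
    {m : ℕ} (hmm : m = finrank ℝ V) {m1 : ℕ} {x ε c1 c2 : ℚ}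
    (hok : absOKg 200 wR m1 x (lcG kR c1 c2) ε = true) (h17 : 17 ≤ m1)
    (hm1 : m1 ≤ m) (hx : (x : ℝ) ≤ 1 / m) (hc2 : 0 ≤ c2) :
    AbsTail (volM V F) m F N (fun T => (1 - T ^ 2) * lamX c1 c2 T) ε := by
  have hfin : IsFiniteMeasure (volM V F) := isFiniteMeasure_volM hF
  have hnt : Nontrivial W := by
    apply Module.nontrivial_of_finrank_pos (R := ℝ)
    omega
  have h2 : Two (volM V F) m F N := by
    rw [hmm]
    exact two_of_min hW hF hmin hNs hN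
  have h1 : H869.MinRow (volM V F) m F N := by
    rw [hmm]
    exact H176.minRow_of_min (by omega) hW hF hmin hNs hN
  refine tail_max h2 h1 hok h17 hm1 hx hc2 (fun T hT => ?_) fun T hT => ?_
  · rw [lamX_mul hT]
    exact le_max_left _ _
  · rw [lamX_mul hT]
    exact le_max_right _ _

/-- **the near range of one dimension**, thresholds `max c₁ (c₂ / (1 - T^2))` -/
theorem near_X [Nonempty M] {c1 c2 : ℚ} (hc2 : 0 ≤ c2) (hc : 4 / 3 * c2 ≤ c1)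
    (hc1 : c1 ≤ 94 / 5) {ab : ℚ} {rels : List (ℚ × ℚ)} {m : ℕ} {nums : List NumE} {p : ParQ}
    {laws : List LawQ} {els : List (ElQ × ℚ × ℚ)} {cols : List ColQ}
    (hin : inOK (blkX c1 ab rels) m nums p laws = true)
    (hok : nearOK p laws (els.map Prod.fst) cols = true) (hels : e7All p.m els = true)
    (hmm : m = finrank ℝ V) (hW : finrank ℝ W = finrank ℝ V + 2)
    {F : M → W} (hF : SphImm V F) (hmin : ∀ x n, IsUnitNormal V F x n → meanCurv V F x n = 0)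
    (ha : AdmF m (lamX c1 c2))
    {m1 : ℕ} {x : ℚ} (hab : absOKg 200 wR m1 x (lcG kR c1 c2) ab = true) (h17 : 17 ≤ m1)
    (hm1 : m1 ≤ m) (hx : (x : ℝ) ≤ 1 / m) {ν : ℝ} (hν : ν ≤ p.ν)
    (hrel : ∀ (N : M → W) (b : OrthonormalBasis (Fin (finrank ℝ W)) ℝ W)
      (j : Fin (finrank ℝ W) → ℝ), H176.NearData V F N b j ν →
      ∀ k ∈ rels, (∀ a, j a ^ 2 ≤ (k.1 : ℝ) * (m + 1)) →
        AbsTail (volM V F) m F N (fun T => (1 - T ^ 2) * lamX c1 c2 T)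
        (k.2 * hh (nrm (volM V F)) (diagonal j) (co b F) (co b N)))
    (N : M → W) (b : OrthonormalBasis (Fin (finrank ℝ W)) ℝ W) (j : Fin (finrank ℝ W) → ℝ)
    (hd : H176.NearData V F N b j ν) : H176.NearOut V F N b j p.gp p.h1 p.d1 := by
  have hc2R : (0 : ℝ) ≤ c2 := by exact_mod_cast hc2
  have hcR : (4 / 3 : ℝ) * c2 ≤ c1 := by
    have h' := castQ hc
    push_cast at h'
    exact h'
  have hc1R : (c1 : ℝ) ≤ 94 / 5 := by
    have h' := castQ hc1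
    push_cast at h'
    exact h'
  have hc10 : 0 ≤ c1 := le_trans (by positivity) hc
  have ht : (((blkX c1 ab rels).t1 : ℚ) : ℝ) = 1 / 2 := by
    unfold blkX
    push_cast
    rfl
  refine near_blk hin hok hels hmm hW hF hmin (lam := lamX c1 c2)
    (fraM (by omega) ha (by rw [ht]; norm_num)) (lamX_hl hc2R hcR hc1R)
    (fun T hT => lamX_le hc10 hc2R hcR (by rw [ht] at hT; exact hT))
    (fun T hT => le_lamX hc10 hc2R hcR (by rw [ht] at hT; exact hT)) hν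
    (fun N' b' j' hd' => ⟨?_, hrel N' b' j' hd'⟩) N b j hd
  exact abs_X hW hF hmin hd'.smooth hd'.unit hmm hab h17 hm1 hx hc2

end

end Vale.Agent.P224.R2.H925
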