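import Vale.Agent.P224.R2.H925.WU
import Vale.Agent.P224.R2.H627.LawR
import Vale.Agent.P224.R2.H484.AbsV
import Vale.Agent.P224.R2.H728.Ne
import Vale.Agent.P224.R2.H176.G.Glue0

/-!
From the laws with thresholds to the instances used by the checked table, and to the output of the
near range.
-/

namespace Vale.Agent.P224.R2.H925

open MeasureTheory Set Filter Function Real Module Matrix Vale.Agent.P224
  Vale.Agent.P224.R2.H820 Vale.Agent.P224.R2.H582 Vale.Agent.P224.R2.H627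
  Vale.Agent.P224.R2.H728 Vale.Agent.P224.R2.H484
open Vale.Agent.P224.SM2 hiding ker
open scoped Topology RealInnerProductSpace ContDiff Manifold

set_option linter.unusedSectionVars false

/-- the conditions on the thresholds -/
structure Fra (m : ℕ) (lam be' : ℝ → ℝ) (T1 : ℝ) : Prop where
  hβ : ∀ T ∈ Ioo (0 : ℝ) 1,
    m * (m + 1) * (T * |2 * rM m T - eM m T| - 2 * T ^ 2 * rM m T) ≤ be' T
  hrel : ∀ T ∈ Ioo (0 : ℝ) 1, be' T ≤ al m T (yM m T) (rM m T) (lam T) * (1 + T)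
  hconv : ∀ T ∈ Ioo (0 : ℝ) T1, (m + 3) * be' T
    ≤ (m + 1) * al m T (yM m T) (rM m T) (lam T) * (1 - T)
  hpos : ∀ T ∈ Ico (0 : ℝ) 1, be' T ≤ al m T (yM m T) (rM m T) (lam T) * (1 - T)

/-- the numbers of the law with the tangent at `-σ` -/
def WNum (m : ℕ) (lam be' : ℝ → ℝ) (T1 σ w0 w1 : ℝ) : Prop :=
  ∃ B0 B1 : ℝ → ℝ, IntervalIntegrable B0 volume 0 T1 ∧ IntervalIntegrable B1 volume 0 T1 ∧
    (∀ T ∈ Ioo (0 : ℝ) T1,
      B0 T ≤ 1 / 2 * ta (m + 1) T (al m T (yM m T) (rM m T) (lam T)) (be' T) (-σ)) ∧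
    (∀ T ∈ Ioo (0 : ℝ) T1,
      1 / 2 * tb (m + 1) T (al m T (yM m T) (rM m T) (lam T)) (be' T) (-σ) ≤ B1 T) ∧
    w0 ≤ ∫ T in (0 : ℝ)..T1, B0 T ∧ ∫ T in (0 : ℝ)..T1, B1 T ≤ w1

/-- the number of the crude law -/
def CNum (m : ℕ) (lam be' : ℝ → ℝ) (T1 w : ℝ) : Prop :=
  ∃ (T0 : ℝ) (B0 : ℝ → ℝ), 0 ≤ T0 ∧ T0 ≤ T1 ∧ IntervalIntegrable B0 volume 0 T0 ∧
    (∀ T ∈ Ioo (0 : ℝ) T0,
      B0 T ≤ 1 / 2 * (al m T (yM m T) (rM m T) (lam T) * ((1 + T) ^ (m + 1))⁻¹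
        - be' T * ((1 + T) ^ (m + 2))⁻¹)) ∧
    w ≤ ∫ T in (0 : ℝ)..T0, B0 T

section

variable {X : Type*} [MeasurableSpace X] {E : Type*} [NormedAddCommGroup E]
  [InnerProductSpace ℝ E] [MeasurableSpace E] [BorelSpace E] [SecondCountableTopology E]
  {μ : Measure X} [IsFiniteMeasure μ] {m : ℕ} {p n : X → E}

/-- two bounds of the tail at the same time -/
lemma tail_min {l : ℝ → ℝ} {ε1 ε2 : ℝ} (h1 : AbsTail μ m p n l ε1) (h2 : AbsTail μ m p n l ε2) :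
    ∃ τ : ℝ → ℝ, IntervalIntegrable τ volume 0 1 ∧
      (∀ T ∈ Ioo (0 : ℝ) 1, (m + 1) * (m + 2) * T ^ 2 * rM m T / (1 - T ^ 2) / 2
        * E2 μ p n (TK m T (l T)) ≤ τ T * (μ.real univ) ^ 2) ∧
      ∫ T in (0 : ℝ)..1, τ T ≤ ε1 ∧ ∫ T in (0 : ℝ)..1, τ T ≤ ε2 := by
  obtain ⟨τ1, i1, b1, c1⟩ := h1
  obtain ⟨τ2, i2, b2, c2⟩ := h2
  have i3 : IntervalIntegrable (fun T => min (τ1 T) (τ2 T)) volume 0 1 :=
    ⟨i1.1.inf i2.1, i1.2.inf i2.2⟩
  refine ⟨fun T => min (τ1 T) (τ2 T), i3, fun T hT => ?_, ?_, ?_⟩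
  · have k1 := b1 T hT
    have k2 := b2 T hT
    have k3 : min (τ1 T) (τ2 T) * μ.real univ ^ 2
        = min (τ1 T * μ.real univ ^ 2) (τ2 T * μ.real univ ^ 2) :=
      min_mul_of_nonneg _ _ (sq_nonneg _)
    change _ ≤ min (τ1 T) (τ2 T) * μ.real univ ^ 2
    rw [k3]
    exact le_min k1 k2
  · exact (intervalIntegral.integral_mono_on (by norm_num) i3 i1 fun T _ => min_le_left _ _).trans
      c1
  · exact (intervalIntegral.integral_mono_on (by norm_num) i3 i2 fun T _ => min_le_right _ _).trans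
      c2

end

section

variable {V W M : Type*} [NormedAddCommGroup V] [InnerProductSpace ℝ V] [FiniteDimensional ℝ V]
  [NormedAddCommGroup W] [InnerProductSpace ℝ W] [FiniteDimensional ℝ W]
  [TopologicalSpace M] [ChartedSpace V M]
  [MeasurableSpace V] [BorelSpace V] [MeasurableSpace M] [BorelSpace M]
  [MeasurableSpace W] [BorelSpace W] [IsManifold 𝓘(ℝ, V) ∞ M]
  [CompactSpace M] [T2Space M]

/-- an instance of the law for the checker -/
def LawI (V : Type*) [NormedAddCommGroup V] [InnerProductSpace ℝ V]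
    [FiniteDimensional ℝ V] [MeasurableSpace V] [BorelSpace V]
    {W M : Type*} [NormedAddCommGroup W] [InnerProductSpace ℝ W] [FiniteDimensional ℝ W]
    [MeasurableSpace W] [BorelSpace W] [TopologicalSpace M] [ChartedSpace V M]
    [MeasurableSpace M] [BorelSpace M] (F N : M → W) (m : ℕ)
    {ι : Type*} [Fintype ι] [DecidableEq ι] (b : OrthonormalBasis ι ℝ W) (j : ι → ℝ)
    (q : LawQ) : Prop :=
  ∃ W0 W1 τ : ℝ, (q.W0 : ℝ) ≤ W0 ∧ W1 ≤ q.W1
      ∧ τ ≤ q.rel * hh (nrm (volM V F)) (diagonal j) (co b F) (co b N) ∧ τ ≤ q.ab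
      ∧ 2 * lamM m * (sphereVol m / (volM V F).real univ)
        + (W0 * Qpt (nrm (volM V F)) m (co b F) (co b N)
        + W1 * min (Qpts (nrm (volM V F)) m (co b F) (co b N)
          + q.σ * Qpt (nrm (volM V F)) m (co b F) (co b N)) 0
        + m / ((m + 2) * (m + 4)) * Qcs (nrm (volM V F)) (co b F) (co b N)
        + m * (m + 1) * EM m 1 * Qcss (nrm (volM V F)) m (co b F) (co b N) - τ)
      ≤ 1 + m * rM m 0 * ∑ i, m1 (nrm (volM V F)) (co b N) i ^ 2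

/-- the main instance of the law -/
theorem lawI_of [Nonempty M] (hm : 4 ≤ finrank ℝ V) (hW : finrank ℝ W = finrank ℝ V + 2)
    {F : M → W} (hF : SphImm V F) (hmin : ∀ x n, IsUnitNormal V F x n → meanCurv V F x n = 0)
    {N : M → W} (hNs : ContMDiff 𝓘(ℝ, V) 𝓘(ℝ, W) ∞ N) (hN : ∀ x, IsUnitNormal V F x (N x))
    (hinj : Injective F) {ι : Type*} [Fintype ι] [DecidableEq ι] (b : OrthonormalBasis ι ℝ W)
    (j : ι → ℝ) {m : ℕ} (hmm : m = finrank ℝ V) {lam be' : ℝ → ℝ} {T1 : ℝ} (hT1 : 0 ≤ T1)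
    (hT1' : T1 ≤ 1) (hfr : Fra m lam be' T1) {q : LawQ} (hσ : 0 ≤ q.σ) (hσ1 : q.σ ≤ 1)
    (hnum : WNum m lam be' T1 q.σ q.W0 q.W1)
    (hab : AbsTail (volM V F) m F N (fun T => (1 - T ^ 2) * lam T) q.ab)
    (hrl : AbsTail (volM V F) m F N (fun T => (1 - T ^ 2) * lam T)
      (q.rel * hh (nrm (volM V F)) (diagonal j) (co b F) (co b N))) :
    LawI V F N m b j q := by
  have hfin : IsFiniteMeasure (volM V F) := isFiniteMeasure_volM hF
  obtain ⟨B0, B1, i0, i1, hB0, hB1, h0, h1⟩ := hnum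
  obtain ⟨τ, hτi, hτ, hr, ha⟩ := tail_min hrl hab
  have hσR : (0 : ℝ) ≤ q.σ := by exact_mod_cast hσ
  have hσ1R : (q.σ : ℝ) ≤ 1 := by exact_mod_cast hσ1
  refine ⟨_, _, _, h0, h1, hr, ha, ?_⟩
  exact law_T1r hm hW hF hmin hNs hN hinj b hσR hσ1R hT1 hT1' hmm hfr.hβ hfr.hrel hfr.hconv
    (fun T hT => hfr.hpos T ⟨hT1.trans hT.1, hT.2⟩) i0 i1 hB0 hB1 hτi hτ

/-- the instance of the crude law -/
theorem crude_of [Nonempty M] (hm : 4 ≤ finrank ℝ V) (hW : finrank ℝ W = finrank ℝ V + 2)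
    {F : M → W} (hF : SphImm V F) (hmin : ∀ x n, IsUnitNormal V F x n → meanCurv V F x n = 0)
    {N : M → W} (hNs : ContMDiff 𝓘(ℝ, V) 𝓘(ℝ, W) ∞ N) (hN : ∀ x, IsUnitNormal V F x (N x))
    (hinj : Injective F) {ι : Type*} [Fintype ι] [DecidableEq ι] (b : OrthonormalBasis ι ℝ W)
    {m : ℕ} (hmm : m = finrank ℝ V) {lam be' : ℝ → ℝ} {T1 : ℝ}
    (hT1' : T1 ≤ 1) (hfr : Fra m lam be' T1) {w ε : ℝ}
    (hnum : CNum m lam be' T1 w)
    (hab : AbsTail (volM V F) m F N (fun T => (1 - T ^ 2) * lam T) ε) :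
    ∃ WU τ : ℝ, w ≤ WU ∧ τ ≤ ε
      ∧ 2 * lamM m * (sphereVol m / (volM V F).real univ)
        + (WU * Qpt (nrm (volM V F)) m (co b F) (co b N) - τ)
      ≤ 1 + m * rM m 0 * ∑ i, m1 (nrm (volM V F)) (co b N) i ^ 2 := by
  obtain ⟨T0, B0, hT0, hT01, i0, hB0, h0⟩ := hnum
  obtain ⟨τ, hτi, hτ, ha⟩ := hab
  refine ⟨_, _, h0, ha, ?_⟩
  exact law_Ur hm hW hF hmin hNs hN hinj b hT0 (hT01.trans hT1') hmm hfr.hβ hfr.hrel
    (fun T hT => hfr.hconv T ⟨hT.1, hT.2.trans_le hT01⟩)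
    (fun T hT => hfr.hpos T ⟨hT0.trans hT.1, hT.2⟩) i0 hB0 hτi hτ

/-- the instance with the second square only -/
theorem first_of [Nonempty M] (hm : 4 ≤ finrank ℝ V) (hW : finrank ℝ W = finrank ℝ V + 2)
    {F : M → W} (hF : SphImm V F) (hmin : ∀ x n, IsUnitNormal V F x n → meanCurv V F x n = 0)
    {N : M → W} (hNs : ContMDiff 𝓘(ℝ, V) 𝓘(ℝ, W) ∞ N) (hN : ∀ x, IsUnitNormal V F x (N x))
    (hinj : Injective F) {ι : Type*} [Fintype ι] [DecidableEq ι] (b : OrthonormalBasis ι ℝ W)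
    {m : ℕ} (hmm : m = finrank ℝ V) {lam be' : ℝ → ℝ} {T1 : ℝ}
    (hfr : Fra m lam be' T1) {ε : ℝ}
    (hab : AbsTail (volM V F) m F N (fun T => (1 - T ^ 2) * lam T) ε) :
    ∃ τ : ℝ, τ ≤ ε
      ∧ 2 * lamM m * (sphereVol m / (volM V F).real univ)
        + (m / ((m + 2) * (m + 4)) * Qcs (nrm (volM V F)) (co b F) (co b N)
        + m * (m + 1) * EM m 1 * Qcss (nrm (volM V F)) m (co b F) (co b N) - τ)
      ≤ 1 + m * rM m 0 * ∑ i, m1 (nrm (volM V F)) (co b N) i ^ 2 := by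
  obtain ⟨τ, hτi, hτ, ha⟩ := hab
  refine ⟨_, ha, ?_⟩
  have h := law_T1r hm hW hF hmin hNs hN hinj b (σ := 0) (T1 := 0) le_rfl (by norm_num) le_rfl
    (by norm_num) hmm (B0 := fun _ => 0) (B1 := fun _ => 0) hfr.hβ hfr.hrel
    (fun T hT => absurd (hT.1.trans hT.2) (lt_irrefl _)) hfr.hpos
    (by simp) (by simp)
    (fun T hT => absurd (hT.1.trans hT.2) (lt_irrefl _))
    (fun T hT => absurd (hT.1.trans hT.2) (lt_irrefl _)) hτi hτ
  simp only [intervalIntegral.integral_same, zero_mul, zero_add] at h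
  exact h

/-- **all instances for the checker** with one threshold function -/
theorem lawIn_of [Nonempty M] (hm : 4 ≤ finrank ℝ V) (hW : finrank ℝ W = finrank ℝ V + 2)
    {F : M → W} (hF : SphImm V F) (hmin : ∀ x n, IsUnitNormal V F x n → meanCurv V F x n = 0)
    {N : M → W} (hNs : ContMDiff 𝓘(ℝ, V) 𝓘(ℝ, W) ∞ N) (hN : ∀ x, IsUnitNormal V F x (N x))
    (hinj : Injective F) {ι : Type*} [Fintype ι] [DecidableEq ι] (b : OrthonormalBasis ι ℝ W)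
    (j : ι → ℝ) {m : ℕ} (hmm : m = finrank ℝ V) {lam be' : ℝ → ℝ} {T1 : ℝ} (hT1 : 0 ≤ T1)
    (hT1' : T1 ≤ 1) (hfr : Fra m lam be' T1) {p : ParQ} {laws : List LawQ}
    (hlaws : ∀ q ∈ laws, 0 ≤ q.σ ∧ q.σ ≤ 1 ∧ WNum m lam be' T1 q.σ q.W0 q.W1 ∧
      AbsTail (volM V F) m F N (fun T => (1 - T ^ 2) * lam T) q.ab ∧
      (√(fro (De (nrm (volM V F)) (co b F) (co b N))) ≤ q.d →
        hh (nrm (volM V F)) (diagonal j) (co b F) (co b N) ≤ q.h →
        AbsTail (volM V F) m F N (fun T => (1 - T ^ 2) * lam T)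
          (q.rel * hh (nrm (volM V F)) (diagonal j) (co b F) (co b N))))
    (hcr : CNum m lam be' T1 p.WU)
    (htU : AbsTail (volM V F) m F N (fun T => (1 - T ^ 2) * lam T) p.tU)
    (htV : AbsTail (volM V F) m F N (fun T => (1 - T ^ 2) * lam T) p.tV) :
    LawIn V F N m p laws b j where
  main q hq hd hh1 := by
    obtain ⟨k1, k2, k3, k4, k5⟩ := hlaws q hq
    exact lawI_of hm hW hF hmin hNs hN hinj b j hmm hT1 hT1' hfr k1 k2 k3 k4 (k5 hd hh1)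
  crude := crude_of hm hW hF hmin hNs hN hinj b hmm hT1' hfr hcr htU
  first := first_of hm hW hF hmin hNs hN hinj b hmm hfr htV

/-- **The output of the near range** from a checked table, for given basis and weights. -/
theorem nearOut_of {F : M → W} {m : ℕ} (hmm : m = finrank ℝ V)
    {p : ParQ} {laws : List LawQ} {els : List ElQ} {cols : List ColQ}
    (hok : nearOK p laws els cols = true) (hpm : p.m = m)
    (hγ : m * rM m 0 ≤ p.Γ) (hEL : (p.EL : ℝ) ≤ m * (m + 1) * EM m 1)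
    (hE : m * (m + 1) * EM m 1 ≤ p.E) {ν : ℝ} (hν : ν ≤ p.ν)
    {N : M → W} {b : OrthonormalBasis (Fin (finrank ℝ W)) ℝ W} {j : Fin (finrank ℝ W) → ℝ}
    (hd : H176.NearData V F N b j ν)
    (hl : LawIn V F N m p laws b j)
    (hel : ∀ f ∈ els, √(fro (De (nrm (volM V F)) (co b F) (co b N))) ≤ f.d →
        hh (nrm (volM V F)) (diagonal j) (co b F) (co b N) ≤ f.h →
        f.L * √(uu (nrm (volM V F)) (co b N))
          ≤ f.K * hh (nrm (volM V F)) (diagonal j) (co b F) (co b N)) :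
    H176.NearOut V F N b j p.gp p.h1 p.d1 := by
  subst hmm
  by_cases hcase : 2 * lamM (finrank ℝ V) * (sphereVol (finrank ℝ V) / (volM V F).real univ)
      + p.gp ≤ 1
  · exact Or.inl hcase
  refine Or.inr ?_
  push Not at hcase
  have hpmR : (p.m : ℝ) = (finrank ℝ V : ℝ) := by
    rw [hpm]
    push_cast
    rfl
  have huu : uu (nrm (volM V F)) (co b N) = ∑ i, m1 (nrm (volM V F)) (co b N) i ^ 2 := rfl
  have H : NearHyp (nrm (volM V F)) p laws els (co b F) (co b N) j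
      (finrank ℝ V * rM (finrank ℝ V) 0)
      (finrank ℝ V * (finrank ℝ V + 1) * EM (finrank ℝ V) 1) := by
    refine ⟨by rw [hpmR]; exact hd.t0, hd.lsq, hγ, hEL, hE, hd.mean.le.trans hν, ?_, hel⟩
    intro q hq hdq hh1
    obtain ⟨W0, W1, τ, k1, k2, k3, k4, k5⟩ := hl.main q hq hdq hh1
    refine ⟨W0, W1, τ, k1, k2, k3, k4, ?_⟩
    unfold XL
    rw [wQ_cast, hpmR, huu]
    linarith
  obtain ⟨WU, τU, u1, u2, u3⟩ := hl.crude
  obtain ⟨τV, v1, v2⟩ := hl.first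
  exact near_sound hok H u1 u2 v1 (by rw [hpmR, huu]; linarith)
    (by unfold XL; rw [wQ_cast, hpmR, huu]; linarith)

end

end Vale.Agent.P224.R2.H925
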