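import Vale.Agent.P224.R2.H925.WU

/-!
A lower bound of the weight of the crude law for higher thresholds, all `m ≥ 100`.
-/

namespace Vale.Agent.P224.R2.H925.W2

open MeasureTheory Set Filter Function Real Module Vale.Agent.P224 Vale.Agent.P224.FV
open Vale.Agent.P224.SM2 Vale.Agent.P224.R2.H820 Vale.Agent.P224.R2.H728
open Vale.Agent.P224.R2.H627 Vale.Agent.P224.R2.H582
open scoped Topology RealInnerProductSpace ContDiff Manifold

set_option linter.unusedSectionVars false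

/-- the polynomial of the lower bound -/
noncomputable def qw (m R0 s1 w : ℝ) : ℝ :=
  m * R0 * w * (1 + w) - m * (s1 - 19 / 20) * w * (1 - w)
    - 97 / 5 * (m + 1) * (m + 2) / (4 * m) * (1 - w) ^ 2 * (1 + w)
      * (R0 - 89 / 200 + 89 / 200 * w)
    - 2 * (m + 1) * w ^ 2 * (1 - w) * (R0 - 89 / 200 + 89 / 200 * w)

/-- the lower bound of the weight -/
noncomputable def B0w (m R0 s1 T : ℝ) : ℝ :=
  1 / 8 * (om T ^ (m / 2 - 2) * qw m R0 s1 (om T)) * (2 / (1 + T) ^ 2)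

lemma B0w_eq {m R0 s1 T : ℝ} (hm : 0 < m) (hT : T ∈ Ico (0 : ℝ) 1) :
    B0w m R0 s1 T = 1 / 2 * (om T ^ (m / 2 - 1) * ((1 + T) ^ 3)⁻¹ * (m * (R0 - s1 * T)
      + 19 / 20 * m * T
      - 97 / 5 * ((m + 1) * (m + 2) / m) * (T ^ 2 / (1 - T ^ 2))
        * (R0 - 89 / 200 * (1 - om T))
      - 2 * (m + 1) * T * om T * (R0 - 89 / 200 * (1 - om T)))) := by
  have h1 : (0 : ℝ) < 1 + T := by linarith [hT.1]
  have h2 : (0 : ℝ) < 1 - T := by linarith [hT.2]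
  have h3 : 1 - T ^ 2 = (1 - T) * (1 + T) := by ring
  have e1 : om T ^ (m / 2 - 1) = om T ^ (m / 2 - 2) * om T := by
    rw [← rpow_add_one (om_pos hT).ne']
    ring_nf
  rw [e1, h3]
  unfold B0w
  generalize om T ^ (m / 2 - 2) = W
  unfold qw om
  have h4 := h1.ne'
  have h5 := h2.ne'
  field_simp
  ring

/-- the primitive of the lower bound -/
noncomputable def Gw (m R0 s1 T : ℝ) : ℝ :=
  1 / 8 * (m * R0 * (Pn (m / 2) 1 T + Pn (m / 2) 2 T)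
    - m * (s1 - 19 / 20) * (Pn (m / 2) 1 T - Pn (m / 2) 2 T)
    - 97 / 5 * (m + 1) * (m + 2) / (4 * m) * ((R0 - 89 / 200) * (Pn (m / 2) 0 T - Pn (m / 2) 1 T
      - Pn (m / 2) 2 T + Pn (m / 2) 3 T) + 89 / 200 * (Pn (m / 2) 1 T - Pn (m / 2) 2 T
      - Pn (m / 2) 3 T + Pn (m / 2) 4 T))
    - 2 * (m + 1) * ((R0 - 89 / 200) * (Pn (m / 2) 2 T - Pn (m / 2) 3 T)
      + 89 / 200 * (Pn (m / 2) 3 T - Pn (m / 2) 4 T)))

lemma hasDerivAt_Gw {m R0 s1 T : ℝ} (hm : 2 < m) (hT : T ∈ Ico (0 : ℝ) 1) :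
    HasDerivAt (Gw m R0 s1) (-B0w m R0 s1 T) T := by
  have ha : 1 < m / 2 := by linarith
  have p0 := hasDerivAt_Pn ha 0 hT
  have p1 := hasDerivAt_Pn ha 1 hT
  have p2 := hasDerivAt_Pn ha 2 hT
  have p3 := hasDerivAt_Pn ha 3 hT
  have p4 := hasDerivAt_Pn ha 4 hT
  have h := ((((p1.fun_add p2).const_mul (m * R0)).fun_sub ((p1.fun_sub p2).const_mul
    (m * (s1 - 19 / 20)))).fun_sub (((((p0.fun_sub p1).fun_sub p2).fun_add p3).const_mul
      (R0 - 89 / 200)).fun_add ((((p1.fun_sub p2).fun_sub p3).fun_add p4).const_mul (89 / 200))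
      |>.const_mul (97 / 5 * (m + 1) * (m + 2) / (4 * m)))).fun_sub
    ((((p2.fun_sub p3).const_mul (R0 - 89 / 200)).fun_add
      ((p3.fun_sub p4).const_mul (89 / 200))).const_mul (2 * (m + 1)))
  have h2 := h.const_mul (1 / 8)
  refine h2.congr_deriv ?_
  unfold B0w qw
  ring

lemma contOn_B0w {m R0 s1 : ℝ} : ContinuousOn (B0w m R0 s1) (Ico 0 1) := by
  have hc : ContinuousOn om (Ico 0 1) := fun T hT =>
    (hasDerivAt_om hT.1).continuousAt.continuousWithinAt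
  have h1 : ContinuousOn (fun T => om T ^ (m / 2 - 2)) (Ico 0 1) :=
    hc.rpow_const fun T hT => Or.inl (om_pos hT).ne'
  have h2 : ContinuousOn (fun T => qw m R0 s1 (om T)) (Ico 0 1) := by
    have : Continuous (qw m R0 s1) := by
      unfold qw
      fun_prop
    exact this.comp_continuousOn hc
  have h3 : ContinuousOn (fun T : ℝ => 2 / (1 + T) ^ 2) (Ico 0 1) := by
    refine ContinuousOn.div (by fun_prop) (by fun_prop) fun T hT => ?_
    have : (0 : ℝ) < 1 + T := by linarith [hT.1]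
    positivity
  unfold B0w
  exact ((h1.mul h2).const_smul (1 / 8 : ℝ)).mul h3

lemma int_B0w {m R0 s1 T0 : ℝ} (hm : 2 < m) (h0 : 0 ≤ T0) (h1 : T0 < 1) :
    IntervalIntegrable (B0w m R0 s1) volume 0 T0 ∧
      ∫ T in (0 : ℝ)..T0, B0w m R0 s1 T = Gw m R0 s1 0 - Gw m R0 s1 T0 := by
  have hi : IntervalIntegrable (B0w m R0 s1) volume 0 T0 := by
    refine ContinuousOn.intervalIntegrable ?_
    rw [uIcc_of_le h0]
    exact contOn_B0w.mono fun T hT => ⟨hT.1, by linarith [hT.2]⟩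
  refine ⟨hi, ?_⟩
  have h := intervalIntegral.integral_eq_sub_of_hasDerivAt (f := fun T => -Gw m R0 s1 T)
    (f' := B0w m R0 s1) (a := 0) (b := T0) (fun T hT => ?_) hi
  · rw [h]
    ring
  · rw [uIcc_of_le h0] at hT
    have := (hasDerivAt_Gw (R0 := R0) (s1 := s1) hm ⟨hT.1, by linarith [hT.2]⟩).neg
    rw [neg_neg] at this
    exact this

/-- the value of the lower bound -/
noncomputable def Fw (m R0 s1 : ℝ) : ℝ :=
  1 / 8 * (m * R0 * ((1 / (m / 2) + 1 / (m / 2 + 1)) * (189 / 190))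
    - m * (s1 - 19 / 20) * (1 / (m / 2) - 1 / (m / 2 + 1))
    - 97 / 5 * (m + 1) * (m + 2) / (4 * m) * ((R0 - 89 / 200) * (1 / (m / 2 - 1) - 1 / (m / 2)
      - 1 / (m / 2 + 1) + 1 / (m / 2 + 2)) + 89 / 200 * (1 / (m / 2) - 1 / (m / 2 + 1)
      - 1 / (m / 2 + 2) + 1 / (m / 2 + 3)))
    - 2 * (m + 1) * ((R0 - 89 / 200) * (1 / (m / 2 + 1) - 1 / (m / 2 + 2))
      + 89 / 200 * (1 / (m / 2 + 2) - 1 / (m / 2 + 3))))

lemma Fw_le {m R0 s1 : ℝ} (hm : 100 ≤ m) (hR : 89 / 200 ≤ R0) (hs : 19 / 20 ≤ s1) :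
    Fw m R0 s1 ≤ Gw m R0 s1 0 - Gw m R0 s1 (3 / 10) := by
  have hT : (3 / 10 : ℝ) ∈ Ico (0 : ℝ) 1 := by constructor <;> norm_num
  have ha : 1 < m / 2 := by linarith
  have n0 := Pn_nonneg ha 0 hT
  have n1 := Pn_nonneg ha 1 hT
  have n2 := Pn_nonneg ha 2 hT
  have n3 := Pn_nonneg ha 3 hT
  have n4 := Pn_nonneg ha 4 hT
  have s0 := Pn_succ ha 0 hT
  have s1' := Pn_succ ha 1 hT
  have s2 := Pn_succ ha 2 hT
  have s3 := Pn_succ ha 3 hT
  rw [om_three] at s0 s1' s2 s3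
  simp only [zero_add, Nat.reduceAdd] at s0 s1' s2 s3
  -- the tail of the positive term
  have hp1 : Pn (m / 2) 1 (3 / 10) ≤ 1 / 190 * (1 / (m / 2)) := by
    unfold Pn
    rw [om_three, show m / 2 - 1 + ((1 : ℕ) : ℝ) = m / 2 by push_cast; ring, div_eq_mul_one_div]
    exact mul_le_mul_of_nonneg_right (pow_small (by linarith)) (by positivity)
  have hp2 : Pn (m / 2) 2 (3 / 10) ≤ 1 / 190 * (1 / (m / 2 + 1)) := by
    unfold Pn
    rw [om_three, show m / 2 - 1 + ((2 : ℕ) : ℝ) = m / 2 + 1 by push_cast; ring,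
      div_eq_mul_one_div]
    refine mul_le_mul_of_nonneg_right ?_ (by positivity)
    exact (rpow_le_rpow_of_exponent_ge (by norm_num) (by norm_num) (by linarith)).trans
      (pow_small (by linarith))
  have q1 : 0 ≤ Pn (m / 2) 0 (3 / 10) - Pn (m / 2) 1 (3 / 10) - Pn (m / 2) 2 (3 / 10)
      + Pn (m / 2) 3 (3 / 10) := by linarith
  have q2 : 0 ≤ Pn (m / 2) 1 (3 / 10) - Pn (m / 2) 2 (3 / 10) - Pn (m / 2) 3 (3 / 10)
      + Pn (m / 2) 4 (3 / 10) := by linarith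
  have q3 : 0 ≤ Pn (m / 2) 1 (3 / 10) - Pn (m / 2) 2 (3 / 10) := by linarith
  have q4 : 0 ≤ Pn (m / 2) 2 (3 / 10) - Pn (m / 2) 3 (3 / 10) := by linarith
  have q5 : 0 ≤ Pn (m / 2) 3 (3 / 10) - Pn (m / 2) 4 (3 / 10) := by linarith
  have hm0 : 0 < m := by linarith
  have hR0 : 0 ≤ R0 := by linarith
  have hR1 : 0 ≤ R0 - 89 / 200 := by linarith
  have hs1 : 0 ≤ s1 - 19 / 20 := by linarith
  have t1 : m * R0 * (Pn (m / 2) 1 (3 / 10) + Pn (m / 2) 2 (3 / 10))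
      ≤ m * R0 * ((1 / (m / 2) + 1 / (m / 2 + 1)) * (1 / 190)) :=
    mul_le_mul_of_nonneg_left (by linarith) (by positivity)
  have t2 : 0 ≤ m * (s1 - 19 / 20) * (Pn (m / 2) 1 (3 / 10) - Pn (m / 2) 2 (3 / 10)) := by
    positivity
  have t3 : 0 ≤ 97 / 5 * (m + 1) * (m + 2) / (4 * m) * ((R0 - 89 / 200)
      * (Pn (m / 2) 0 (3 / 10) - Pn (m / 2) 1 (3 / 10) - Pn (m / 2) 2 (3 / 10)
      + Pn (m / 2) 3 (3 / 10)) + 89 / 200 * (Pn (m / 2) 1 (3 / 10) - Pn (m / 2) 2 (3 / 10)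
      - Pn (m / 2) 3 (3 / 10) + Pn (m / 2) 4 (3 / 10))) := by
    positivity
  have t4 : 0 ≤ 2 * (m + 1) * ((R0 - 89 / 200) * (Pn (m / 2) 2 (3 / 10) - Pn (m / 2) 3 (3 / 10))
      + 89 / 200 * (Pn (m / 2) 3 (3 / 10) - Pn (m / 2) 4 (3 / 10))) := by
    positivity
  unfold Fw Gw
  simp only [Pn_zero]
  push_cast
  rw [show m / 2 - 1 + 0 = m / 2 - 1 by ring, show m / 2 - 1 + 1 = m / 2 by ring,
    show m / 2 - 1 + 2 = m / 2 + 1 by ring, show m / 2 - 1 + 3 = m / 2 + 2 by ring,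
    show m / 2 - 1 + 4 = m / 2 + 3 by ring]
  linarith

lemma Fw_mono {m R0 R1 s1 : ℝ} (hm : 100 ≤ m) (hR : R0 ≤ R1) : Fw m R0 s1 ≤ Fw m R1 s1 := by
  obtain ⟨x, rfl, hx⟩ : ∃ x : ℝ, m = x + 100 ∧ 0 ≤ x := ⟨m - 100, by ring, by linarith⟩
  have e : Fw (x + 100) R1 s1 - Fw (x + 100) R0 s1
      = (475066974814 / 95 + 4749906757 / 19 * x + 94937598 / 19 * x ^ 2
        + 499123 / 10 * x ^ 3 + 94687 / 380 * x ^ 4 + 189 / 380 * x ^ 5)
        / ((x + 100) ^ 2 * (x + 100 - 2) * (x + 100 + 2) * (x + 100 + 4)) * (R1 - R0) := by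
    unfold Fw
    have h1 : (x + 100) / 2 - 1 ≠ 0 := by linarith
    have h2 : x + 100 - 2 ≠ 0 := by linarith
    have h3 : x + 98 ≠ 0 := by linarith
    field_simp
    ring
  have h4 : 0 < x + 100 - 2 := by linarith
  have h5 : 0 ≤ R1 - R0 := by linarith
  have : 0 ≤ Fw (x + 100) R1 s1 - Fw (x + 100) R0 s1 := by
    rw [e]
    positivity
  linarith

lemma Fw_ge {m : ℝ} (hm : 100 ≤ m) :
    11 / 50 ≤ Fw m (7071 / 10000 * (2 / 3 + 7 / 10 / m - 105134 / 86625 / m ^ 2))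
      (1 + 3 / 2 * (2 / m) + 59 / 25 * (2 / m) ^ 2) := by
  obtain ⟨x, rfl, hx⟩ : ∃ x : ℝ, m = x + 100 ∧ 0 ≤ x := ⟨m - 100, by ring, by linarith⟩
  have e : Fw (x + 100) (7071 / 10000 * (2 / 3 + 7 / 10 / (x + 100) - 105134 / 86625 / (x + 100) ^ 2))
      (1 + 3 / 2 * (2 / (x + 100)) + 59 / 25 * (2 / (x + 100)) ^ 2) - 11 / 50
      = (168322151447835568437938 / 1714453125 + 38630371003651456308623 / 4571875000 * x
        + 86459818218673619053 / 274312500 * x ^ 2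
        + 365705804248984418099 / 54862500000 * x ^ 3
        + 1600559270174578867 / 18287500000 * x ^ 4
        + 20058175910013863 / 27431250000 * x ^ 5 + 39698298306091 / 10450000000 * x ^ 6
        + 426644873 / 38000000 * x ^ 7 + 27473 / 1900000 * x ^ 8)
        / ((x + 100) ^ 4 * (x + 100 - 2) * (x + 100 + 2) * (x + 100 + 4) * (x + 100 + 6)) := by
    unfold Fw
    have h1 : (x + 100) / 2 - 1 ≠ 0 := by linarith
    have h2 : x + 100 - 2 ≠ 0 := by linarith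
    have h3 : x + 98 ≠ 0 := by linarith
    field_simp
    ring
  have h4 : 0 < x + 100 - 2 := by linarith
  have : 0 ≤ Fw (x + 100) (7071 / 10000 * (2 / 3 + 7 / 10 / (x + 100)
      - 105134 / 86625 / (x + 100) ^ 2)) (1 + 3 / 2 * (2 / (x + 100))
      + 59 / 25 * (2 / (x + 100)) ^ 2) - 11 / 50 := by
    rw [e]
    positivity
  linarith

/-- the first coefficient -/
lemma al_low {m : ℕ} (hm : 100 ≤ m) {T lamT : ℝ} (hT : T ∈ Ioo (0 : ℝ) (3 / 10))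
    (hl : (1 - T ^ 2) * lamT ≤ 97 / 5) :
    (1 - T ^ 2) ^ ((m : ℝ) / 2 - 1) * (19 / 20 * m * T + m * Rf (m / 2) (cn m) T
      - 97 / 5 * ((m + 1) * (m + 2) / m) * (T ^ 2 / (1 - T ^ 2)) * Rf (m / 2) (cn m) T)
      ≤ al m T (yM m T) (rM m T) lamT := by
  have h17 : (17 : ℝ) ≤ m := by exact_mod_cast (by omega : 17 ≤ m)
  have hm0 : (0 : ℝ) < m := by linarith
  have hT' : T ∈ Ioo (0 : ℝ) 1 := ⟨hT.1, by linarith [hT.2]⟩
  have hk : 0 < 1 - T ^ 2 := by nlinarith [hT.1, hT'.2]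
  have hT0 := hT.1
  have ey := yM_eq (m := m) T
  have er := rM_eq (m := m) T
  have hy := yh_ge (m := m) (by omega) hT
  have er' : rh m T = Rf (m / 2) (cn m) T := rfl
  rw [er'] at er
  have hr : 0 ≤ rM m T := (certO_M (m := m) (by omega)).r0 T hT'
  set R := Rf (m / 2) (cn m) T with hR
  set K := (1 - T ^ 2) ^ ((m : ℝ) / 2 - 1) with hK
  have hK0 : 0 < K := rpow_pos_of_pos hk _
  have er2 : rM m T = K * R / m := by
    rw [← er]
    field_simp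
  have h1 : lamT ≤ 97 / 5 / (1 - T ^ 2) := by
    rw [le_div_iff₀ hk]
    linarith
  have h2 : 0 ≤ ((m : ℝ) + 1) * (m + 2) * T ^ 2 * rM m T := by positivity
  have h3 := mul_le_mul_of_nonneg_left h1 h2
  have h4 : K * (19 / 20) ≤ yM m T := by
    rw [ey]
    exact mul_le_mul_of_nonneg_left hy hK0.le
  have h5 : m * T * (K * (19 / 20)) ≤ m * T * yM m T :=
    mul_le_mul_of_nonneg_left h4 (by positivity)
  have h6 : ((m : ℝ) + 1) * (m + 2) * T ^ 2 * rM m T * (97 / 5 / (1 - T ^ 2))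
      = K * (97 / 5 * ((m + 1) * (m + 2) / m) * (T ^ 2 / (1 - T ^ 2)) * R) := by
    rw [er2]
    field_simp
  unfold al
  rw [h6] at h3
  have h7 : m * (T * yM m T + m * rM m T) = m * T * yM m T + m * (K * R) := by
    rw [← er]
    ring
  rw [h7]
  linarith

/-- comparison of the brackets -/
lemma br_le {m : ℕ} (hm : 100 ≤ m) {T : ℝ} (hT : T ∈ Ioo (0 : ℝ) (3 / 10)) :
    m * (Rf (m / 2) (cn m) 0 - (1 + 3 / 2 * (2 / m) + 59 / 25 * (2 / m) ^ 2) * T)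
      + 19 / 20 * m * T
      - 97 / 5 * ((m + 1) * (m + 2) / m) * (T ^ 2 / (1 - T ^ 2))
        * (Rf (m / 2) (cn m) 0 - 89 / 200 * (1 - om T))
      - 2 * (m + 1) * T * om T * (Rf (m / 2) (cn m) 0 - 89 / 200 * (1 - om T))
      ≤ 19 / 20 * m * T + m * Rf (m / 2) (cn m) T
        - 97 / 5 * ((m + 1) * (m + 2) / m) * (T ^ 2 / (1 - T ^ 2)) * Rf (m / 2) (cn m) T
        - 2 * (m + 1) * T * om T * Rf (m / 2) (cn m) T := by
  have h17 : (17 : ℝ) ≤ m := by exact_mod_cast (by omega : 17 ≤ m)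
  have hm0 : (0 : ℝ) < m := by linarith
  have ha := half17_le (m := m) (by omega)
  have hn := nrm_cn (m := m) (by omega)
  have ht := inv_bds ha
  rw [one_div_half] at ht
  have hT0 := hT.1
  have hT' : T ∈ Ioo (0 : ℝ) 1 := ⟨hT.1, by linarith [hT.2]⟩
  have hT2 : T ∈ Ico (0 : ℝ) 1 := ⟨hT.1.le, hT'.2⟩
  have hTc : T ∈ Icc (0 : ℝ) 1 := ⟨hT.1.le, hT'.2.le⟩
  have h1T : 0 < 1 + T := by linarith [hT.1]
  have hk : 0 < 1 - T ^ 2 := by nlinarith [hT.1, hT'.2]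
  have hRl := Rf_ge_X ha hn hTc
  have hRu := Rf_le_X ha hn hTc
  rw [one_div_half] at hRl hRu
  have hXU := XpU_le hT.1.le hT.2.le ht.1.le
  have hXL := XpL_ge hT.1.le hT.2.le ht.1.le ht.2
  have hom0 := om_pos hT2
  have hTom : (1 - om T) / 2 ≤ T := by
    have : (1 - om T) / 2 = T / (1 + T) := by
      unfold om
      field_simp
      ring
    rw [this, div_le_iff₀ h1T]
    have := mul_nonneg hT0.le hT0.le
    linarith
  set R := Rf (m / 2) (cn m) T with hR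
  set R0 := Rf (m / 2) (cn m) 0 with hR0
  have hRup : R ≤ R0 - 89 / 200 * (1 - om T) := by linarith
  have hRlo : R0 - (1 + 3 / 2 * (2 / m) + 59 / 25 * (2 / m) ^ 2) * T ≤ R := by linarith
  refine fin_aux2 (mul_le_mul_of_nonneg_left hRlo hm0.le)
    (mul_le_mul_of_nonneg_left hRup (by positivity))
    (mul_le_mul_of_nonneg_left hRup (by positivity)) rfl

/-- **the weight of the crude law** -/
theorem WU_ge {m : ℕ} (hm : 100 ≤ m) {κ : ℝ} (hκ : κ ≤ 100) {lam : ℝ → ℝ}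
    (hl : ∀ T ∈ Ioo (0 : ℝ) (3 / 10), (1 - T ^ 2) * lam T ≤ 97 / 5) :
    ∃ B0 : ℝ → ℝ, IntervalIntegrable B0 volume 0 (3 / 10) ∧
      11 / 50 ≤ ∫ T in (0 : ℝ)..(3 / 10), B0 T ∧
      ∀ T ∈ Ioo (0 : ℝ) (3 / 10), B0 T ≤ 1 / 2 * (al m T (yM m T) (rM m T) (lam T)
        * ((1 + T) ^ (m + 1))⁻¹ - be m κ T (eM m T) (rM m T) * ((1 + T) ^ (m + 2))⁻¹) := by
  have h17 : (17 : ℝ) ≤ m := by exact_mod_cast (by omega : 17 ≤ m)
  have hm0 : (0 : ℝ) < m := by linarith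
  have h100 : (100 : ℝ) ≤ m := by exact_mod_cast hm
  have hR0g := R0_ge (m := m) (by omega)
  have hs1g : (19 / 20 : ℝ) ≤ 1 + 3 / 2 * (2 / m) + 59 / 25 * (2 / m) ^ 2 := by
    have : 0 ≤ 3 / 2 * (2 / (m : ℝ)) := by positivity
    have : 0 ≤ 59 / 25 * (2 / (m : ℝ)) ^ 2 := by positivity
    linarith
  have hRg : 89 / 200 ≤ Rf (m / 2) (cn m) 0 := (g_ge (m := m) (by omega)).trans hR0g
  obtain ⟨hi, e1⟩ := int_B0w (m := m) (R0 := Rf (m / 2) (cn m) 0)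
    (s1 := 1 + 3 / 2 * (2 / m) + 59 / 25 * (2 / m) ^ 2) (T0 := 3 / 10) (by linarith)
    (by norm_num) (by norm_num)
  refine ⟨_, hi, ?_, fun T hT => ?_⟩
  · rw [e1]
    exact (Fw_ge h100).trans ((Fw_mono h100 hR0g).trans (Fw_le h100 hRg hs1g))
  · have hT2 : T ∈ Ico (0 : ℝ) 1 := ⟨hT.1.le, by linarith [hT.2]⟩
    have h1T : 0 < 1 + T := by linarith [hT.1]
    have hk : 0 < 1 - T ^ 2 := by nlinarith [hT2.1, hT2.2]
    have V1 : 0 < ((1 + T) ^ (m + 1))⁻¹ := by positivity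
    have g1 := mul_le_mul_of_nonneg_right (al_low hm hT (hl T hT)) V1.le
    have hKV : 0 < (1 - T ^ 2) ^ ((m : ℝ) / 2 - 1) * ((1 + T) ^ (m + 1))⁻¹ :=
      mul_pos (rpow_pos_of_pos hk _) V1
    rw [B0w_eq hm0 hT2, ← kap_om hT2]
    refine fin_aux hKV.le (br_le hm hT) ?_ (be_up (m := m) (by omega) hκ hT)
    refine le_trans (le_of_eq ?_) g1
    ring

end Vale.Agent.P224.R2.H925.W2
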