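import Vale.Agent.P224.R2.H925.Cl5

/-!
The flux ratio of the adapted flow: `Θ F₀(C_{k,l}) = 2 λ`.
-/

namespace Vale.Agent.P224.R2.H925

open MeasureTheory Set Filter Function Real Vale.Agent.P224 Vale.Agent.P224.SM2
open scoped Topology

section

variable {k l m : ℕ} {a b q : ℝ}

/-- the existence of the data of a Clifford product -/
lemma CD_of {k l : ℕ} (hk : 1 ≤ k) (hl : 1 ≤ l) {m : ℕ} (hm : k + l = m) :
    CD k l m ((k : ℝ) / m) ((l : ℝ) / m) (√(k * l) / m) := by
  have hkR : (0 : ℝ) < k := by exact_mod_cast hk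
  have hlR : (0 : ℝ) < l := by exact_mod_cast hl
  have hmR : (k : ℝ) + l = m := by exact_mod_cast hm
  have hm0 : (0 : ℝ) < m := by linarith
  refine { hk := hk, hl := hl, ha := by positivity, hb := by positivity, hab := ?_, hq := ?_,
           hka := ?_, hlb := ?_ }
  · field_simp
    linarith
  · rw [div_pow, sq_sqrt (by positivity)]
    field_simp
  · field_simp
  · field_simp

/-- **the flux ratio**: for the flow adapted to `C_{k,l}` (`d = (a-b)/q`), the normalised value at
`T = 0` of the Clifford product times its volume is `2 λ` times the volume of the round sphere -/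
theorem CD.ratio (h : CD k l m a b q) (hm2 : 2 ≤ m) {d ε0 r0 c0 lam : ℝ} {u : St}
    (hd : d = (a - b) / q) (hd2 : d ^ 2 < 4) (hs : Sys m d u) (h0 : Lim0 m d u ε0 r0 c0)
    (h1 : Lim1 m u lam) :
    F0C m d ε0 c0 (q * a / (l + 1) - q * b / (k + 1)) (b ^ 2 / (k + 1) + a ^ 2 / (l + 1))
      * cliffordVol m k = 2 * lam * sphereVol m := by
  have e1 := h.flux hm2 hd hd2 hs h0 h1
  rw [h.value] at e1
  have e2 := LC_mul h.hk h.hl h.kl
  rw [← h.a_eq, ← h.b_eq] at e2
  have e3 := mass_pos h.hk h.hl
  have e4 : (F0C m d ε0 c0 (q * a / (l + 1) - q * b / (k + 1))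
      (b ^ 2 / (k + 1) + a ^ 2 / (l + 1)) * cliffordVol m k) * (nuC k l).real univ
      = (2 * lam * sphereVol m) * (nuC k l).real univ := by
    calc _ = (F0C m d ε0 c0 (q * a / (l + 1) - q * b / (k + 1))
          (b ^ 2 / (k + 1) + a ^ 2 / (l + 1)) * (nuC k l).real univ) * cliffordVol m k := by ring
      _ = (2 * lam * LC k l m a b) * cliffordVol m k := by rw [← e1]
      _ = 2 * lam * (LC k l m a b * cliffordVol m k) := by ring
      _ = (2 * lam * sphereVol m) * (nuC k l).real univ := by
        rw [e2]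
        ring
  exact mul_right_cancel₀ e3.ne' e4

end

end Vale.Agent.P224.R2.H925
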