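import Vale.Agent.P224.R2.H925.Gen
import Vale.Agent.P224.SM2.Geo

/-!
The pair law of a minimal hypersurface.
-/

namespace Vale.Agent.P224.R2.H925

open MeasureTheory Set Filter Function Real Module Vale.Agent.P224 Vale.Agent.P224.FV
  Vale.Agent.P224.SM2
open scoped RealInnerProductSpace Topology ContDiff Manifold

set_option linter.unusedSectionVars false

/-- integrable with integral zero -/
def ZI {X : Type*} [MeasurableSpace X] (μ : Measure X) (f : X → ℝ) : Prop :=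
  Integrable f μ ∧ ∫ x, f x ∂μ = 0

lemma ZI.add {X : Type*} [MeasurableSpace X] {μ : Measure X} {f g : X → ℝ} (hf : ZI μ f)
    (hg : ZI μ g) : ZI μ (fun x => f x + g x) :=
  ⟨hf.1.add hg.1, by rw [integral_add hf.1 hg.1, hf.2, hg.2, add_zero]⟩

lemma ZI.cmul {X : Type*} [MeasurableSpace X] {μ : Measure X} {f : X → ℝ} (hf : ZI μ f) (a : ℝ) :
    ZI μ (fun x => a * f x) :=
  ⟨hf.1.const_mul a, by rw [integral_const_mul, hf.2, mul_zero]⟩

lemma ZI.congr {X : Type*} [MeasurableSpace X] {μ : Measure X} {f g : X → ℝ} (hf : ZI μ f)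
    (h : ∀ x, f x = g x) : ZI μ g := by
  have : f = g := funext h
  rwa [← this]

section

variable {V W M : Type*} [NormedAddCommGroup V] [InnerProductSpace ℝ V] [FiniteDimensional ℝ V]
  [NormedAddCommGroup W] [InnerProductSpace ℝ W] [FiniteDimensional ℝ W]
  [TopologicalSpace M] [ChartedSpace V M]
  [MeasurableSpace V] [BorelSpace V] [MeasurableSpace M] [BorelSpace M]
  [IsManifold 𝓘(ℝ, V) ∞ M] [CompactSpace M] [T2Space M]

/-- the row with all coefficients -/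
theorem row_rV (hW : finrank ℝ W = finrank ℝ V + 2) {F : M → W}
    (hF : SphImm V F) (hmin : ∀ x n, IsUnitNormal V F x n → meanCurv V F x n = 0)
    {N : M → W} (hNs : ContMDiff 𝓘(ℝ, V) 𝓘(ℝ, W) ∞ N) (hN : ∀ x, IsUnitNormal V F x (N x)) (z : M)
    {T : ℝ} (hT : T ∈ Ioo (0 : ℝ) 1) (f0 f2 f3 x0 x1 x2 h0 h1 h2 h3 : ℝ) :
    ∫ x, rV (finrank ℝ V) T f0 f2 f3 x0 x1 x2 h0 h1 h2 h3 ⟪F x, F z⟫ ⟪F x, N z⟫ ⟪N x, F z⟫
      ⟪N x, N z⟫ (1 - T * ⟪F x, F z⟫) (SM2.ker T (finrank ℝ V) ⟪F x, F z⟫) ∂(volM V F) = 0 := by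
  have hv : ∀ x, 1 - T * ⟪F x, F z⟫ ≠ 0 := fun x => (one_sub_pos hF hT x z).ne'
  obtain ⟨a0, b0⟩ := kernel_data hF N z hv (finrank ℝ V) 0
  obtain ⟨a1, b1⟩ := kernel_data hF N z hv (finrank ℝ V + 1) 1
  obtain ⟨a2, b2⟩ := kernel_data hF N z hv (finrank ℝ V + 2) 2
  obtain ⟨a3, b3⟩ := kernel_data hF N z hv (finrank ℝ V + 3) 3
  have s0 := row_S1 hW hF hmin hN z a0 b0
  have s2 := row_S1 hW hF hmin hN z a2 b2
  have s3 := row_S1 hW hF hmin hN z a3 b3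
  have t0 := row_S2 hW hF hmin hN z a0 b0
  have t1 := row_S2 hW hF hmin hN z a1 b1
  have t2 := row_S2 hW hF hmin hN z a2 b2
  have c0 := row_CC hW hF hmin hNs hN z a0 b0
  have c1 := row_CC hW hF hmin hNs hN z a1 b1
  have c2 := row_CC hW hF hmin hNs hN z a2 b2
  have c3 := row_CC hW hF hmin hNs hN z a3 b3
  have key := (((((((((ZI.cmul s0 f0).add (ZI.cmul s2 f2)).add (ZI.cmul s3 f3)).add
    (ZI.cmul t0 x0)).add (ZI.cmul t1 x1)).add (ZI.cmul t2 x2)).add (ZI.cmul c0 h0)).add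
    (ZI.cmul c1 h1)).add (ZI.cmul c2 h2)).add (ZI.cmul c3 h3)
  refine Eq.trans ?_ key.2
  refine integral_congr_ae (Filter.Eventually.of_forall fun x => ?_)
  have k1 := ker_succ_div T ⟪F x, F z⟫ (finrank ℝ V) 1
  have k2 := ker_succ_div T ⟪F x, F z⟫ (finrank ℝ V) 2
  have k3 := ker_succ_div T ⟪F x, F z⟫ (finrank ℝ V) 3
  have k4 := ker_succ_div T ⟪F x, F z⟫ (finrank ℝ V) 4
  have k2' : SM2.ker T (finrank ℝ V + 1 + 1) ⟪F x, F z⟫ = _ := k2
  have k3' : SM2.ker T (finrank ℝ V + 2 + 1) ⟪F x, F z⟫ = _ := k3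
  have k4' : SM2.ker T (finrank ℝ V + 3 + 1) ⟪F x, F z⟫ = _ := k4
  simp only [rV, k1, k2, k3, k4']
  push_cast
  simp only [pow_one, pow_zero, one_mul]
  norm_num

/-- the pair law of a minimal hypersurface has all the rows -/
theorem PL_of_min [MeasurableSpace W] [BorelSpace W] (hW : finrank ℝ W = finrank ℝ V + 2)
    {F : M → W} (hF : SphImm V F) (hmin : ∀ x n, IsUnitNormal V F x n → meanCurv V F x n = 0)
    {N : M → W} (hNs : ContMDiff 𝓘(ℝ, V) 𝓘(ℝ, W) ∞ N) (hN : ∀ x, IsUnitNormal V F x (N x)) :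
    PL ((volM V F).prod (volM V F)) (finrank ℝ V) (SM2.pr F N) := by
  have hfin : IsFiniteMeasure (volM V F) := isFiniteMeasure_volM hF
  have h2 := two_of_min hW hF hmin hNs hN
  have hrow : ∀ T ∈ Ioo (0 : ℝ) 1, ∀ f0 f2 f3 x0 x1 x2 h0 h1 h2 h3 : ℝ,
      ∫ x, rK (finrank ℝ V) T f0 f2 f3 x0 x1 x2 h0 h1 h2 h3 (SM2.pr F N x)
        ∂((volM V F).prod (volM V F)) = 0 := by
    intro T hT f0 f2 f3 x0 x1 x2 h0 h1 h2' h3
    have hi := integrable_param ((volM V F).prod (volM V F)) h2.measurable_pr isCompact_KK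
      h2.pr_mem (measurable_rK (m := finrank ℝ V) T f0 f2 f3 x0 x1 x2 h0 h1 h2' h3)
      (contOn_rK T f0 f2 f3 x0 x1 x2 h0 h1 h2' h3 ⟨hT.1.le, hT.2⟩)
    rw [integral_prod_symm _ hi]
    have : ∀ z, ∫ x, rK (finrank ℝ V) T f0 f2 f3 x0 x1 x2 h0 h1 h2' h3 (SM2.pr F N (x, z))
        ∂(volM V F) = 0 := fun z =>
      row_rV hW hF hmin hNs hN z hT f0 f2 f3 x0 x1 x2 h0 h1 h2' h3
    simp only [this, integral_zero]
  refine ⟨h2.measurable_pr, h2.pr_mem, ?_, ?_, hrow, ?_⟩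
  · intro q
    exact bessel (h2.np _) (h2.np _) (h2.nn _) (h2.pn _)
  · intro q
    have h5 := bessel (a := F q.2) (h2.np _) (h2.np q.1) (h2.nn q.1) (h2.pn _)
    rw [real_inner_comm, real_inner_comm (N q.1)] at h5
    exact h5
  · intro T hT f0 f2 f3 x0 x1 x2 h0 h1 h2' h3
    have h0' := hrow T hT f0 f2 f3 x0 x1 x2 h0 h1 h2' h3
    have e0 : (fun q => rK (finrank ℝ V) T f0 f2 f3 x0 x1 x2 h0 h1 h2' h3 (sw (SM2.pr F N q)))
        = fun q : M × M => rK (finrank ℝ V) T f0 f2 f3 x0 x1 x2 h0 h1 h2' h3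
          (SM2.pr F N q.swap) := by
      funext q
      congr 1
      simp only [sw, SM2.pr, Prod.fst_swap, Prod.snd_swap]
      rw [real_inner_comm (F q.2) (F q.1), real_inner_comm (F q.2) (N q.1),
        real_inner_comm (N q.2) (F q.1), real_inner_comm (N q.2) (N q.1)]
    rw [e0, ← h0']
    exact integral_prod_swap (fun q : M × M => rK (finrank ℝ V) T f0 f2 f3 x0 x1 x2 h0 h1 h2' h3
      (SM2.pr F N q))

end

end Vale.Agent.P224.R2.H925
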