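import Vale.Agent.P224.R2.H925.Gen
import Vale.Agent.P224.R2.H925.Inst

/-!
The pair law of a minimal Clifford product.
-/

namespace Vale.Agent.P224.R2.H925

open MeasureTheory Set Filter Function Real Vale.Agent.P224.SM2
open scoped Topology NNReal ENNReal

set_option linter.unusedSectionVars false

/-- the density -/
noncomputable def wt (k l : ℕ) (x : ℝ × ℝ) : ℝ := sin x.1 ^ (k - 1) * sin x.2 ^ (l - 1)

/-- the square -/
def Sq : Set (ℝ × ℝ) := Ioc 0 π ×ˢ Ioc 0 π

/-- the law of the two angles -/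
noncomputable def nuC (k l : ℕ) : Measure (ℝ × ℝ) :=
  ((volume : Measure (ℝ × ℝ)).restrict Sq).withDensity
    fun x => ((Real.toNNReal (wt k l x) : ℝ≥0) : ℝ≥0∞)

lemma measurableSet_Sq : MeasurableSet Sq := measurableSet_Ioc.prod measurableSet_Ioc

lemma continuous_wt (k l : ℕ) : Continuous (wt k l) := by
  unfold wt
  fun_prop

lemma wt_nonneg {k l : ℕ} {x : ℝ × ℝ} (hx : x ∈ Sq) : 0 ≤ wt k l x :=
  mul_nonneg (pow_nonneg (sin_nonneg_of_nonneg_of_le_pi hx.1.1.le hx.1.2) _)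
    (pow_nonneg (sin_nonneg_of_nonneg_of_le_pi hx.2.1.le hx.2.2) _)

lemma int_nuC (k l : ℕ) (g : ℝ × ℝ → ℝ) :
    ∫ x, g x ∂(nuC k l) = ∫ x in Sq, wt k l x * g x := by
  unfold nuC
  rw [integral_withDensity_eq_integral_smul (continuous_wt k l).measurable.real_toNNReal]
  refine setIntegral_congr_fun measurableSet_Sq fun x hx => ?_
  simp only [NNReal.smul_def, smul_eq_mul, Real.coe_toNNReal _ (wt_nonneg hx)]

lemma volume_Sq_lt : (volume : Measure (ℝ × ℝ)) Sq < ⊤ := by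
  rw [Measure.volume_eq_prod, Sq, Measure.prod_prod]
  exact ENNReal.mul_lt_top measure_Ioc_lt_top measure_Ioc_lt_top

instance (k l : ℕ) : IsFiniteMeasure (nuC k l) := by
  refine isFiniteMeasure_withDensity (μ := (volume : Measure (ℝ × ℝ)).restrict Sq) ?_
  have h1 : ∫⁻ x in Sq, ((Real.toNNReal (wt k l x) : ℝ≥0) : ℝ≥0∞) ≤ ∫⁻ _ in Sq, 1 := by
    refine setLIntegral_mono measurable_const fun x hx => ?_
    have h2 : wt k l x ≤ 1 := by
      unfold wt
      have a1 := sin_nonneg_of_nonneg_of_le_pi hx.1.1.le hx.1.2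
      have a2 := sin_nonneg_of_nonneg_of_le_pi hx.2.1.le hx.2.2
      exact mul_le_one₀ (pow_le_one₀ a1 (sin_le_one _)) (pow_nonneg a2 _)
        (pow_le_one₀ a2 (sin_le_one _))
    have h3 : Real.toNNReal (wt k l x) ≤ 1 := by
      rw [← Real.toNNReal_one]
      exact Real.toNNReal_le_toNNReal h2
    exact_mod_cast h3
  have h4 : ∫⁻ _ in Sq, (1 : ℝ≥0∞) = (volume : Measure (ℝ × ℝ)) Sq := by simp
  rw [h4] at h1
  exact (h1.trans_lt volume_Sq_lt).ne

lemma integrableOn_Sq {g : ℝ × ℝ → ℝ} (hg : Continuous g) : IntegrableOn g Sq volume := by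
  have h1 : IntegrableOn g (Icc 0 π ×ˢ Icc 0 π) volume :=
    hg.continuousOn.integrableOn_compact (isCompact_Icc.prod isCompact_Icc)
  exact h1.mono_set (prod_mono Ioc_subset_Icc_self Ioc_subset_Icc_self)

/-- a divergence in the first variable has integral zero -/
lemma div_first {k l : ℕ} {g G : ℝ × ℝ → ℝ} (hg : Continuous g)
    (hd : ∀ x y, HasDerivAt (fun t => G (t, y)) (sin x ^ (k - 1) * g (x, y)) x)
    (h0 : ∀ y, G (0, y) = 0) (hpi : ∀ y, G (π, y) = 0) :
    ∫ x in Sq, wt k l x * g x = 0 := by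
  have hc : Continuous fun x => wt k l x * g x := (continuous_wt k l).mul hg
  have hi := integrableOn_Sq hc
  have e1 : ((volume : Measure (ℝ × ℝ)).restrict Sq)
      = (volume.restrict (Ioc 0 π)).prod (volume.restrict (Ioc 0 π)) := by
    rw [Measure.prod_restrict]
    rfl
  have hi' : Integrable (fun x => wt k l x * g x)
      ((volume.restrict (Ioc 0 π)).prod (volume.restrict (Ioc 0 π))) := by
    rw [← e1]
    exact hi
  rw [e1, integral_prod_symm _ hi']
  have h2 : ∀ y, ∫ x in Ioc 0 π, wt k l (x, y) * g (x, y) = 0 := by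
    intro y
    rw [← intervalIntegral.integral_of_le pi_pos.le]
    have h3 : ∀ x, wt k l (x, y) * g (x, y)
        = sin y ^ (l - 1) * (sin x ^ (k - 1) * g (x, y)) := by
      intro x
      unfold wt
      ring
    simp only [h3]
    rw [intervalIntegral.integral_const_mul,
      intervalIntegral.integral_eq_sub_of_hasDerivAt (fun x _ => hd x y)
        (Continuous.intervalIntegrable (by fun_prop) _ _), h0, hpi]
    ring
  simp only [h2, integral_zero]

/-- a divergence in the second variable has integral zero -/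
lemma div_second {k l : ℕ} {g G : ℝ × ℝ → ℝ} (hg : Continuous g)
    (hd : ∀ x y, HasDerivAt (fun t => G (x, t)) (sin y ^ (l - 1) * g (x, y)) y)
    (h0 : ∀ x, G (x, 0) = 0) (hpi : ∀ x, G (x, π) = 0) :
    ∫ x in Sq, wt k l x * g x = 0 := by
  have hc : Continuous fun x => wt k l x * g x := (continuous_wt k l).mul hg
  have hi := integrableOn_Sq hc
  have e1 : ((volume : Measure (ℝ × ℝ)).restrict Sq)
      = (volume.restrict (Ioc 0 π)).prod (volume.restrict (Ioc 0 π)) := by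
    rw [Measure.prod_restrict]
    rfl
  have hi' : Integrable (fun x => wt k l x * g x)
      ((volume.restrict (Ioc 0 π)).prod (volume.restrict (Ioc 0 π))) := by
    rw [← e1]
    exact hi
  rw [e1, integral_prod _ hi']
  have h2 : ∀ x, ∫ y in Ioc 0 π, wt k l (x, y) * g (x, y) = 0 := by
    intro x
    rw [← intervalIntegral.integral_of_le pi_pos.le]
    have h3 : ∀ y, wt k l (x, y) * g (x, y)
        = sin x ^ (k - 1) * (sin y ^ (l - 1) * g (x, y)) := by
      intro y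
      unfold wt
      ring
    simp only [h3]
    rw [intervalIntegral.integral_const_mul,
      intervalIntegral.integral_eq_sub_of_hasDerivAt (fun y _ => hd x y)
        (Continuous.intervalIntegrable (by fun_prop) _ _), h0, hpi]
    ring
  simp only [h2, integral_zero]

/-- the pair data of the Clifford product; a = k / m, b = l / m, q = √(a b) -/
noncomputable def prC (a b q : ℝ) (x : ℝ × ℝ) : R4 :=
  (a * cos x.1 + b * cos x.2, q * (cos x.2 - cos x.1), q * (cos x.2 - cos x.1),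
    b * cos x.1 + a * cos x.2)

lemma continuous_prC (a b q : ℝ) : Continuous (prC a b q) := by
  unfold prC
  fun_prop

section

variable {k l : ℕ} {a b q m T : ℝ}

/-- the data of a Clifford product -/
structure CD (k l : ℕ) (m a b q : ℝ) : Prop where
  hk : 1 ≤ k
  hl : 1 ≤ l
  ha : 0 < a
  hb : 0 < b
  hab : a + b = 1
  hq : q ^ 2 = a * b
  hka : (k : ℝ) = m * a
  hlb : (l : ℝ) = m * b

lemma abs_comb_le (ha : 0 ≤ a) (hb : 0 ≤ b) (hab : a + b = 1) {x y : ℝ} (hx : |x| ≤ 1)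
    (hy : |y| ≤ 1) : a * x + b * y ∈ Icc (-1 : ℝ) 1 := by
  obtain ⟨h1, h2⟩ := abs_le.1 hx
  obtain ⟨h3, h4⟩ := abs_le.1 hy
  constructor <;> nlinarith

lemma CD.q_le (h : CD k l m a b q) : |q| ≤ 1 / 2 := by
  have h1 : q ^ 2 ≤ (1 / 2) ^ 2 := by
    rw [h.hq]
    have : b = 1 - a := by linarith [h.hab]
    rw [this]
    nlinarith [sq_nonneg (a - 1 / 2)]
  exact abs_le_of_sq_le_sq h1 (by norm_num)

lemma CD.mem (h : CD k l m a b q) (x : ℝ × ℝ) : prC a b q x ∈ KK := by
  have h1 := abs_cos_le_one x.1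
  have h2 := abs_cos_le_one x.2
  have h3 : q * (cos x.2 - cos x.1) ∈ Icc (-1 : ℝ) 1 := by
    refine abs_le.1 ?_
    rw [abs_mul]
    have h4 : |cos x.2 - cos x.1| ≤ 2 := (abs_sub _ _).trans (by linarith)
    calc |q| * |cos x.2 - cos x.1| ≤ 1 / 2 * 2 :=
          mul_le_mul h.q_le h4 (abs_nonneg _) (by norm_num)
      _ = 1 := by norm_num
  refine ⟨abs_comb_le h.ha.le h.hb.le h.hab h1 h2, h3, h3, ?_⟩
  exact abs_comb_le h.hb.le h.ha.le (by linarith [h.hab]) h1 h2

lemma CD.sq_le (h : CD k l m a b q) (x : ℝ × ℝ) :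
    (prC a b q x).1 ^ 2 + (prC a b q x).2.1 ^ 2 ≤ 1 := by
  unfold prC
  simp only
  have h1 : cos x.1 ^ 2 ≤ 1 := cos_sq_le_one _
  have h2 : cos x.2 ^ 2 ≤ 1 := cos_sq_le_one _
  have e1 : (a * cos x.1 + b * cos x.2) ^ 2 + (q * (cos x.2 - cos x.1)) ^ 2
      = a * cos x.1 ^ 2 + b * cos x.2 ^ 2 := by
    rw [mul_pow, h.hq, show b = 1 - a by linarith [h.hab]]
    ring
  rw [e1]
  have h3 := mul_le_mul_of_nonneg_left h1 h.ha.le
  have h4 := mul_le_mul_of_nonneg_left h2 h.hb.le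
  linarith [h.hab]

/-- the first divergence, in terms of the partial derivatives of a function of s and t -/
noncomputable def D1 (k : ℕ) (a q : ℝ) (x : ℝ) (f fs ft : ℝ) : ℝ :=
  sin x ^ 2 * (a * fs - q * ft) - k * cos x * f

/-- the second divergence -/
noncomputable def D2 (l : ℕ) (b q : ℝ) (y : ℝ) (f fs ft : ℝ) : ℝ :=
  sin y ^ 2 * (b * fs + q * ft) - l * cos y * f

lemma CD.S1_eq (h : CD k l m a b q) (x : ℝ × ℝ) (f fs ft : ℝ) :
    S1 m (prC a b q x).1 (prC a b q x).2.1 (prC a b q x).2.2.1 (prC a b q x).2.2.2 f fs ft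
      = D1 k a q x.1 f fs ft + D2 l b q x.2 f fs ft := by
  unfold S1 D1 D2 prC
  simp only
  rw [sin_sq x.1, sin_sq x.2, h.hka, h.hlb]
  have hb : b = 1 - a := by linarith [h.hab]
  have hq := h.hq
  subst hb
  linear_combination (-(fs * (cos x.2 - cos x.1) ^ 2)) * hq

lemma CD.S2_eq (h : CD k l m a b q) (x : ℝ × ℝ) (f fs ft : ℝ) :
    S2 m (prC a b q x).1 (prC a b q x).2.1 (prC a b q x).2.2.1 (prC a b q x).2.2.2 f fs ft
      = -(q / a) * D1 k a q x.1 f fs ft + q / b * D2 l b q x.2 f fs ft := by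
  unfold S2 D1 D2 prC
  simp only
  rw [sin_sq x.1, sin_sq x.2, h.hka, h.hlb]
  have hb : b = 1 - a := by linarith [h.hab]
  have ha0 := h.ha.ne'
  have hb0 := h.hb.ne'
  have hq := h.hq
  subst hb
  field_simp
  linear_combination (ft * (-a * (1 - a) * (cos x.2 - cos x.1) ^ 2
    - (1 - a) * (1 - cos x.1 ^ 2) - a * (1 - cos x.2 ^ 2))) * hq

lemma CD.CC_eq (h : CD k l m a b q) (x : ℝ × ℝ) (f fs ft : ℝ) :
    CC m (prC a b q x).1 (prC a b q x).2.1 (prC a b q x).2.2.1 (prC a b q x).2.2.2 f fs ft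
      = -cos x.2 * D1 k a q x.1 f fs ft + -cos x.1 * D2 l b q x.2 f fs ft := by
  unfold CC D1 D2 prC
  simp only
  rw [sin_sq x.1, sin_sq x.2, h.hka, h.hlb]
  have hb : b = 1 - a := by linarith [h.hab]
  have hq := h.hq
  subst hb
  linear_combination (-((cos x.2 - cos x.1) ^ 2 * (a * cos x.1 + (1 - a) * cos x.2) * fs)
    - q * (cos x.2 - cos x.1) ^ 3 * ft - m * (cos x.2 - cos x.1) ^ 2 * f) * hq

/-- the kernel, its partial derivatives, on the Clifford product -/
noncomputable def fC (a b q T : ℝ) (j p : ℕ) (x : ℝ × ℝ) : ℝ :=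
  (prC a b q x).2.1 ^ j * SM2.ker T p (prC a b q x).1

lemma CD.hasDerivAt_fC1 (h : CD k l m a b q) (hT : T ∈ Ioo (0 : ℝ) 1) (j p : ℕ) (x y : ℝ) :
    HasDerivAt (fun t => fC a b q T j p (t, y))
      (-sin x * (a * ((prC a b q (x, y)).2.1 ^ j
          * (p * T * SM2.ker T (p + 1) (prC a b q (x, y)).1))
        - q * (j * (prC a b q (x, y)).2.1 ^ (j - 1) * SM2.ker T p (prC a b q (x, y)).1))) x := by
  have hs : HasDerivAt (fun t => (prC a b q (t, y)).1) (a * -sin x) x := by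
    simpa [prC] using ((hasDerivAt_cos x).const_mul a).add_const (b * cos y)
  have ht : HasDerivAt (fun t => (prC a b q (t, y)).2.1) (q * sin x) x := by
    have := (((hasDerivAt_cos x).const_sub (cos y)).const_mul q)
    simpa [prC] using this
  have hv : 1 - T * (prC a b q (x, y)).1 ≠ 0 :=
    (one_sub_pos' ⟨hT.1.le, hT.2⟩ (h.mem (x, y)).1.2).ne'
  have h1 := (ht.fun_pow j).fun_mul ((hasDerivAt_ker (q := p) hv).comp x hs)
  refine h1.congr_deriv ?_
  simp only [comp_apply]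
  ring

lemma CD.hasDerivAt_fC2 (h : CD k l m a b q) (hT : T ∈ Ioo (0 : ℝ) 1) (j p : ℕ) (x y : ℝ) :
    HasDerivAt (fun t => fC a b q T j p (x, t))
      (-sin y * (b * ((prC a b q (x, y)).2.1 ^ j
          * (p * T * SM2.ker T (p + 1) (prC a b q (x, y)).1))
        + q * (j * (prC a b q (x, y)).2.1 ^ (j - 1) * SM2.ker T p (prC a b q (x, y)).1))) y := by
  have hs : HasDerivAt (fun t => (prC a b q (x, t)).1) (b * -sin y) y := by
    simpa [prC] using ((hasDerivAt_cos y).const_mul b).const_add (a * cos x)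
  have ht : HasDerivAt (fun t => (prC a b q (x, t)).2.1) (q * -sin y) y := by
    have := (((hasDerivAt_cos y).sub_const (cos x)).const_mul q)
    simpa [prC] using this
  have hv : 1 - T * (prC a b q (x, y)).1 ≠ 0 :=
    (one_sub_pos' ⟨hT.1.le, hT.2⟩ (h.mem (x, y)).1.2).ne'
  have h1 := (ht.fun_pow j).fun_mul ((hasDerivAt_ker (q := p) hv).comp y hs)
  refine h1.congr_deriv ?_
  simp only [comp_apply]
  ring

lemma CD.continuous_kerC (h : CD k l m a b q) (hT : T ∈ Ioo (0 : ℝ) 1) (p : ℕ) :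
    Continuous fun x => SM2.ker T p (prC a b q x).1 := by
  unfold SM2.ker
  refine Continuous.inv₀ ?_ fun x => ?_
  · have := (continuous_prC a b q).fst
    fun_prop
  · exact pow_ne_zero _ (one_sub_pos' ⟨hT.1.le, hT.2⟩ (h.mem x).1.2).ne'

/-- first divergence has integral zero -/
lemma CD.int_D1 (h : CD k l m a b q) (hT : T ∈ Ioo (0 : ℝ) 1) (j p : ℕ) {A : ℝ → ℝ}
    (hA : Continuous A) :
    ∫ x in Sq, wt k l x * (A x.2 * D1 k a q x.1 (fC a b q T j p x)
      ((prC a b q x).2.1 ^ j * (p * T * SM2.ker T (p + 1) (prC a b q x).1))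
      (j * (prC a b q x).2.1 ^ (j - 1) * SM2.ker T p (prC a b q x).1)) = 0 := by
  have c0 := h.continuous_kerC hT p
  have c1 := h.continuous_kerC hT (p + 1)
  have c2 : Continuous fun x => (prC a b q x).2.1 := (continuous_prC a b q).snd.fst
  have c3 : Continuous fun x : ℝ × ℝ => A x.2 := hA.comp continuous_snd
  refine div_first (G := fun x => -(sin x.1 ^ k * (A x.2 * fC a b q T j p x))) ?_ ?_ ?_ ?_
  · unfold D1 fC
    fun_prop
  · intro x y
    have h1 := (((hasDerivAt_sin x).fun_pow k).fun_mul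
      ((h.hasDerivAt_fC1 hT j p x y).const_mul (A y))).fun_neg
    refine h1.congr_deriv ?_
    obtain ⟨k', rfl⟩ := Nat.exists_eq_add_of_le h.hk
    rw [show 1 + k' - 1 = k' by omega, pow_add, pow_one]
    unfold D1
    ring
  · intro y
    simp [show k ≠ 0 by have := h.hk; omega]
  · intro y
    simp [show k ≠ 0 by have := h.hk; omega]

/-- second divergence has integral zero -/
lemma CD.int_D2 (h : CD k l m a b q) (hT : T ∈ Ioo (0 : ℝ) 1) (j p : ℕ) {A : ℝ → ℝ}
    (hA : Continuous A) :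
    ∫ x in Sq, wt k l x * (A x.1 * D2 l b q x.2 (fC a b q T j p x)
      ((prC a b q x).2.1 ^ j * (p * T * SM2.ker T (p + 1) (prC a b q x).1))
      (j * (prC a b q x).2.1 ^ (j - 1) * SM2.ker T p (prC a b q x).1)) = 0 := by
  have c0 := h.continuous_kerC hT p
  have c1 := h.continuous_kerC hT (p + 1)
  have c2 : Continuous fun x => (prC a b q x).2.1 := (continuous_prC a b q).snd.fst
  have c3 : Continuous fun x : ℝ × ℝ => A x.1 := hA.comp continuous_fst
  refine div_second (G := fun x => -(sin x.2 ^ l * (A x.1 * fC a b q T j p x))) ?_ ?_ ?_ ?_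
  · unfold D2 fC
    fun_prop
  · intro x y
    have h1 := (((hasDerivAt_sin y).fun_pow l).fun_mul
      ((h.hasDerivAt_fC2 hT j p x y).const_mul (A x))).fun_neg
    refine h1.congr_deriv ?_
    obtain ⟨l', rfl⟩ := Nat.exists_eq_add_of_le h.hl
    rw [show 1 + l' - 1 = l' by omega, pow_add, pow_one]
    unfold D2
    ring
  · intro y
    simp [show l ≠ 0 by have := h.hl; omega]
  · intro y
    simp [show l ≠ 0 by have := h.hl; omega]

lemma CD.int_D12 (h : CD k l m a b q) (hT : T ∈ Ioo (0 : ℝ) 1) (j p : ℕ) {A B : ℝ → ℝ}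
    (hA : Continuous A) (hB : Continuous B) :
    ∫ x, (A x.2 * D1 k a q x.1 (fC a b q T j p x)
      ((prC a b q x).2.1 ^ j * (p * T * SM2.ker T (p + 1) (prC a b q x).1))
      (j * (prC a b q x).2.1 ^ (j - 1) * SM2.ker T p (prC a b q x).1)
      + B x.1 * D2 l b q x.2 (fC a b q T j p x)
      ((prC a b q x).2.1 ^ j * (p * T * SM2.ker T (p + 1) (prC a b q x).1))
      (j * (prC a b q x).2.1 ^ (j - 1) * SM2.ker T p (prC a b q x).1)) ∂(nuC k l) = 0 := by
  have c0 := h.continuous_kerC hT p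
  have c1 := h.continuous_kerC hT (p + 1)
  have c2 : Continuous fun x => (prC a b q x).2.1 := (continuous_prC a b q).snd.fst
  have c3 : Continuous fun x : ℝ × ℝ => A x.2 := hA.comp continuous_snd
  have c4 : Continuous fun x : ℝ × ℝ => B x.1 := hB.comp continuous_fst
  have c5 := continuous_wt k l
  rw [int_nuC]
  simp only [mul_add]
  have i1 : IntegrableOn (fun x => wt k l x * (A x.2 * D1 k a q x.1 (fC a b q T j p x)
      ((prC a b q x).2.1 ^ j * (p * T * SM2.ker T (p + 1) (prC a b q x).1))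
      (j * (prC a b q x).2.1 ^ (j - 1) * SM2.ker T p (prC a b q x).1))) Sq volume := by
    refine integrableOn_Sq ?_
    unfold D1 fC
    fun_prop
  have i2 : IntegrableOn (fun x => wt k l x * (B x.1 * D2 l b q x.2 (fC a b q T j p x)
      ((prC a b q x).2.1 ^ j * (p * T * SM2.ker T (p + 1) (prC a b q x).1))
      (j * (prC a b q x).2.1 ^ (j - 1) * SM2.ker T p (prC a b q x).1))) Sq volume := by
    refine integrableOn_Sq ?_
    unfold D2 fC
    fun_prop
  rw [integral_add i1 i2, h.int_D1 hT j p hA, h.int_D2 hT j p hB, add_zero]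

end

/-- the rows as functions on the cube -/
noncomputable def k1K (m T : ℝ) (j p : ℕ) (k : R4) : ℝ :=
  S1 m k.1 k.2.1 k.2.2.1 k.2.2.2 (k.2.1 ^ j * SM2.ker T p k.1)
    (k.2.1 ^ j * (p * T * SM2.ker T (p + 1) k.1)) (j * k.2.1 ^ (j - 1) * SM2.ker T p k.1)
noncomputable def k2K (m T : ℝ) (j p : ℕ) (k : R4) : ℝ :=
  S2 m k.1 k.2.1 k.2.2.1 k.2.2.2 (k.2.1 ^ j * SM2.ker T p k.1)
    (k.2.1 ^ j * (p * T * SM2.ker T (p + 1) k.1)) (j * k.2.1 ^ (j - 1) * SM2.ker T p k.1)
noncomputable def k3K (m T : ℝ) (j p : ℕ) (k : R4) : ℝ :=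
  CC m k.1 k.2.1 k.2.2.1 k.2.2.2 (k.2.1 ^ j * SM2.ker T p k.1)
    (k.2.1 ^ j * (p * T * SM2.ker T (p + 1) k.1)) (j * k.2.1 ^ (j - 1) * SM2.ker T p k.1)

section

variable {k l : ℕ} {a b q m T : ℝ}

/-- continuity of the rows on the cube -/
lemma contOn_k1K (m : ℝ) (hT : T ∈ Ioo (0 : ℝ) 1) (j p : ℕ) : ContinuousOn (k1K m T j p) KK := by
  have c0 := contOn_ker' ⟨hT.1.le, hT.2⟩ p
  have c1 := contOn_ker' ⟨hT.1.le, hT.2⟩ (p + 1)
  unfold k1K S1
  fun_prop

lemma contOn_k2K (m : ℝ) (hT : T ∈ Ioo (0 : ℝ) 1) (j p : ℕ) : ContinuousOn (k2K m T j p) KK := by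
  have c0 := contOn_ker' ⟨hT.1.le, hT.2⟩ p
  have c1 := contOn_ker' ⟨hT.1.le, hT.2⟩ (p + 1)
  unfold k2K S2
  fun_prop

lemma contOn_k3K (m : ℝ) (hT : T ∈ Ioo (0 : ℝ) 1) (j p : ℕ) : ContinuousOn (k3K m T j p) KK := by
  have c0 := contOn_ker' ⟨hT.1.le, hT.2⟩ p
  have c1 := contOn_ker' ⟨hT.1.le, hT.2⟩ (p + 1)
  unfold k3K CC
  fun_prop

lemma measurable_k1K (m T : ℝ) (j p : ℕ) : Measurable (k1K m T j p) := by
  have c0 := measurable_ker T p
  have c1 := measurable_ker T (p + 1)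
  unfold k1K S1
  fun_prop

lemma measurable_k2K (m T : ℝ) (j p : ℕ) : Measurable (k2K m T j p) := by
  have c0 := measurable_ker T p
  have c1 := measurable_ker T (p + 1)
  unfold k2K S2
  fun_prop

lemma measurable_k3K (m T : ℝ) (j p : ℕ) : Measurable (k3K m T j p) := by
  have c0 := measurable_ker T p
  have c1 := measurable_ker T (p + 1)
  unfold k3K CC
  fun_prop

lemma CD.ziS1 (h : CD k l m a b q) (hT : T ∈ Ioo (0 : ℝ) 1) (j p : ℕ) :
    ZI (nuC k l) (fun x => k1K m T j p (prC a b q x)) := by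
  refine ⟨integrable_param (nuC k l) (continuous_prC a b q).measurable isCompact_KK h.mem
    (measurable_k1K m T j p) (contOn_k1K m hT j p), ?_⟩
  refine Eq.trans ?_ (h.int_D12 hT j p (A := fun _ => 1) (B := fun _ => 1) continuous_const
    continuous_const)
  refine integral_congr_ae (Eventually.of_forall fun x => ?_)
  simp only [k1K]
  rw [h.S1_eq]
  simp only [fC, one_mul]

lemma CD.ziS2 (h : CD k l m a b q) (hT : T ∈ Ioo (0 : ℝ) 1) (j p : ℕ) :
    ZI (nuC k l) (fun x => k2K m T j p (prC a b q x)) := by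
  refine ⟨integrable_param (nuC k l) (continuous_prC a b q).measurable isCompact_KK h.mem
    (measurable_k2K m T j p) (contOn_k2K m hT j p), ?_⟩
  refine Eq.trans ?_ (h.int_D12 hT j p (A := fun _ => -(q / a)) (B := fun _ => q / b)
    continuous_const continuous_const)
  refine integral_congr_ae (Eventually.of_forall fun x => ?_)
  simp only [k2K]
  rw [h.S2_eq]
  simp only [fC]

lemma CD.ziCC (h : CD k l m a b q) (hT : T ∈ Ioo (0 : ℝ) 1) (j p : ℕ) :
    ZI (nuC k l) (fun x => k3K m T j p (prC a b q x)) := by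
  refine ⟨integrable_param (nuC k l) (continuous_prC a b q).measurable isCompact_KK h.mem
    (measurable_k3K m T j p) (contOn_k3K m hT j p), ?_⟩
  refine Eq.trans ?_ (h.int_D12 hT j p (A := fun y => -cos y) (B := fun x => -cos x)
    (by fun_prop) (by fun_prop))
  refine integral_congr_ae (Eventually.of_forall fun x => ?_)
  simp only [k3K]
  rw [h.CC_eq]
  simp only [fC]

end

lemma rK_eq (M : ℕ) (T f0 f2 f3 x0 x1 x2 h0 h1 h2 h3 : ℝ) (κ : R4) :
    rK M T f0 f2 f3 x0 x1 x2 h0 h1 h2 h3 κ = f0 * k1K M T 0 M κ + f2 * k1K M T 2 (M + 2) κ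
      + f3 * k1K M T 3 (M + 3) κ + x0 * k2K M T 0 M κ + x1 * k2K M T 1 (M + 1) κ
      + x2 * k2K M T 2 (M + 2) κ + h0 * k3K M T 0 M κ + h1 * k3K M T 1 (M + 1) κ
      + h2 * k3K M T 2 (M + 2) κ + h3 * k3K M T 3 (M + 3) κ := by
  have k1 := ker_succ_div T κ.1 M 1
  have k2 := ker_succ_div T κ.1 M 2
  have k3 := ker_succ_div T κ.1 M 3
  have k4 := ker_succ_div T κ.1 M 4
  have k4' : SM2.ker T (M + 3 + 1) κ.1 = _ := k4
  simp only [rK, rV, k1K, k2K, k3K, k1, k2, k3, k4']
  push_cast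
  simp only [pow_one, pow_zero, one_mul]
  norm_num

/-- the pair law of a minimal Clifford product has all the rows -/
theorem CD.PL {k l M : ℕ} {a b q : ℝ} (h : CD k l M a b q) : PL (nuC k l) M (prC a b q) := by
  have hrow : ∀ T ∈ Ioo (0 : ℝ) 1, ∀ f0 f2 f3 x0 x1 x2 h0 h1 h2 h3 : ℝ,
      ∫ x, rK M T f0 f2 f3 x0 x1 x2 h0 h1 h2 h3 (prC a b q x) ∂(nuC k l) = 0 := by
    intro T hT f0 f2 f3 x0 x1 x2 h0 h1 h2 h3
    have key := (((((((((ZI.cmul (h.ziS1 hT 0 M) f0).add (ZI.cmul (h.ziS1 hT 2 (M + 2)) f2)).add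
      (ZI.cmul (h.ziS1 hT 3 (M + 3)) f3)).add
      (ZI.cmul (h.ziS2 hT 0 M) x0)).add (ZI.cmul (h.ziS2 hT 1 (M + 1)) x1)).add
      (ZI.cmul (h.ziS2 hT 2 (M + 2)) x2)).add (ZI.cmul (h.ziCC hT 0 M) h0)).add
      (ZI.cmul (h.ziCC hT 1 (M + 1)) h1)).add (ZI.cmul (h.ziCC hT 2 (M + 2)) h2)).add
      (ZI.cmul (h.ziCC hT 3 (M + 3)) h3)
    refine Eq.trans ?_ key.2
    exact integral_congr_ae (Filter.Eventually.of_forall fun x => rK_eq ..)
  have hsw : ∀ x, sw (prC a b q x) = prC a b q x := fun x => rfl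
  exact ⟨(continuous_prC a b q).measurable, h.mem, h.sq_le, h.sq_le, hrow, by
    simpa only [hsw] using hrow⟩

end Vale.Agent.P224.R2.H925
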