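import Mathlib

/-!
The limit integral of a Clifford product at the diagonal.
-/

namespace Vale.Agent.P224.R2.H925

open MeasureTheory Set Filter Function Real
open scoped Topology

set_option linter.unusedSectionVars false

/-- the half Gaussian moment -/
lemma half_gauss {k : ℕ} (hk : 1 ≤ k) {c : ℝ} (hc : 0 < c) :
    IntegrableOn (fun u : ℝ => u ^ (k - 1) * exp (-c * u ^ 2)) (Ioi 0) ∧
    ∫ u in Ioi (0 : ℝ), u ^ (k - 1) * exp (-c * u ^ 2)
      = c ^ (-(k : ℝ) / 2) * (1 / 2) * Gamma (k / 2) := by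
  have hkR : (1 : ℝ) ≤ k := by exact_mod_cast hk
  have e0 : ∀ u ∈ Ioi (0 : ℝ), u ^ (k - 1) * exp (-c * u ^ 2)
      = u ^ ((k : ℝ) - 1) * exp (-c * u ^ (2 : ℝ)) := by
    intro u hu
    have h1 : u ^ ((k : ℝ) - 1) = u ^ (k - 1) := by
      rw [show (k : ℝ) - 1 = ((k - 1 : ℕ) : ℝ) by rw [Nat.cast_sub hk]; simp, rpow_natCast]
    rw [h1, show u ^ (2 : ℝ) = u ^ 2 by rw [← Nat.cast_two, rpow_natCast]]
  have h1 := integrableOn_rpow_mul_exp_neg_mul_rpow (p := 2) (s := (k : ℝ) - 1) (b := c)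
    (by linarith) (by norm_num) hc
  have h2 := integral_rpow_mul_exp_neg_mul_rpow (p := 2) (q := (k : ℝ) - 1) (b := c)
    (by norm_num) (by linarith) hc
  constructor
  · exact h1.congr_fun (fun u hu => (e0 u hu).symm) measurableSet_Ioi
  · rw [setIntegral_congr_fun measurableSet_Ioi e0, h2]
    rw [show (k : ℝ) - 1 + 1 = k by ring]

/-- the open quadrant -/
def Qd : Set (ℝ × ℝ) := Ioi 0 ×ˢ Ioi 0

/-- the quadratic form -/
noncomputable def qf (a b : ℝ) (u : ℝ × ℝ) : ℝ := 1 + a * u.1 ^ 2 + b * u.2 ^ 2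

lemma qf_pos {a b : ℝ} (ha : 0 ≤ a) (hb : 0 ≤ b) (u : ℝ × ℝ) : 0 < qf a b u := by
  unfold qf
  positivity

lemma measurableSet_Qd : MeasurableSet Qd := measurableSet_Ioi.prod measurableSet_Ioi

lemma restrict_Qd : ((volume : Measure (ℝ × ℝ)).restrict Qd)
    = (volume.restrict (Ioi 0)).prod (volume.restrict (Ioi 0)) := by
  rw [Measure.prod_restrict]
  rfl

/-- the limit integral -/
theorem quad_integral {k l m : ℕ} (hk : 1 ≤ k) (hl : 1 ≤ l) (hm : k + l = m) {a b : ℝ}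
    (ha : 0 < a) (hb : 0 < b) :
    IntegrableOn (fun u : ℝ × ℝ => u.1 ^ (k - 1) * u.2 ^ (l - 1) * (qf a b u ^ m)⁻¹) Qd ∧
    ∫ u in Qd, u.1 ^ (k - 1) * u.2 ^ (l - 1) * (qf a b u ^ m)⁻¹
      = a ^ (-(k : ℝ) / 2) * b ^ (-(l : ℝ) / 2) * Gamma (k / 2) * Gamma (l / 2) * Gamma (m / 2)
        / (4 * Gamma m) := by
  have hkR : (1 : ℝ) ≤ k := by exact_mod_cast hk
  have hlR : (1 : ℝ) ≤ l := by exact_mod_cast hl
  have hmR : (k : ℝ) + l = m := by exact_mod_cast hm
  have hm0 : (0 : ℝ) < m := by linarith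
  have hG : 0 < Gamma (m : ℝ) := Gamma_pos_of_pos hm0
  set μ : Measure (ℝ × ℝ) := (volume : Measure (ℝ × ℝ)).restrict Qd with hμ
  set ν : Measure ℝ := volume.restrict (Ioi 0) with hν
  -- the triple integrand
  set F : ℝ × (ℝ × ℝ) → ℝ := fun z => z.1 ^ (m - 1) * exp (-z.1)
    * ((z.2.1 ^ (k - 1) * exp (-(z.1 * a) * z.2.1 ^ 2))
      * (z.2.2 ^ (l - 1) * exp (-(z.1 * b) * z.2.2 ^ 2))) with hF
  have hFc : Continuous F := by
    rw [hF]
    fun_prop
  have hprod : μ = ν.prod ν := restrict_Qd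
  -- for fixed λ
  have hin : ∀ t ∈ Ioi (0 : ℝ), Integrable (fun u => F (t, u)) μ ∧
      ∫ u, F (t, u) ∂μ = (a ^ (-(k : ℝ) / 2) * b ^ (-(l : ℝ) / 2) * Gamma (k / 2) * Gamma (l / 2)
        / 4) * (t ^ ((m : ℝ) / 2 - 1) * exp (-(1 * t))) := by
    intro t ht
    have ht' : 0 < t := ht
    obtain ⟨i1, v1⟩ := half_gauss hk (mul_pos ht' ha)
    obtain ⟨i2, v2⟩ := half_gauss hl (mul_pos ht' hb)
    have i3 : Integrable (fun u : ℝ × ℝ => (u.1 ^ (k - 1) * exp (-(t * a) * u.1 ^ 2))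
      * (u.2 ^ (l - 1) * exp (-(t * b) * u.2 ^ 2))) (ν.prod ν) :=
      Integrable.mul_prod (f := fun u : ℝ => u ^ (k - 1) * exp (-(t * a) * u ^ 2))
        (g := fun u : ℝ => u ^ (l - 1) * exp (-(t * b) * u ^ 2)) i1 i2
    constructor
    · rw [hprod]
      exact i3.const_mul (t ^ (m - 1) * exp (-t))
    · rw [hprod]
      simp only [hF]
      rw [integral_const_mul, integral_prod_mul (fun u : ℝ => u ^ (k - 1) * exp (-(t * a) * u ^ 2))
        (fun u : ℝ => u ^ (l - 1) * exp (-(t * b) * u ^ 2)), hν, v1, v2]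
      have e1 : t ^ (m - 1) = t ^ ((m : ℝ) - 1) := by
        rw [show (m : ℝ) - 1 = ((m - 1 : ℕ) : ℝ) by
          rw [Nat.cast_sub (by omega : 1 ≤ m)]; simp, rpow_natCast]
      have e2 : t ^ ((m : ℝ) / 2 - 1) = t ^ ((m : ℝ) - 1) * t ^ (-(k : ℝ) / 2)
          * t ^ (-(l : ℝ) / 2) := by
        rw [← rpow_add ht', ← rpow_add ht']
        congr 1
        rw [← hmR]
        ring
      rw [mul_rpow ht'.le ha.le, mul_rpow ht'.le hb.le, e1, e2, one_mul]
      ring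
  have hFm : AEStronglyMeasurable F (ν.prod μ) := hFc.aestronglyMeasurable
  have hout : IntegrableOn (fun t : ℝ => t ^ ((m : ℝ) / 2 - 1) * exp (-(1 * t))) (Ioi 0) := by
    have h1 := integrableOn_rpow_mul_exp_neg_mul_rpow (p := 1) (s := (m : ℝ) / 2 - 1) (b := 1)
      (by linarith) (by norm_num) one_pos
    refine h1.congr_fun (fun t _ => ?_) measurableSet_Ioi
    simp only [rpow_one, neg_mul]
  have hFi : Integrable F (ν.prod μ) := by
    rw [integrable_prod_iff hFm]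
    constructor
    · rw [hν]
      filter_upwards [self_mem_ae_restrict measurableSet_Ioi] with t ht using (hin t ht).1
    · have h1 : ∀ t ∈ Ioi (0 : ℝ), ∫ u, ‖F (t, u)‖ ∂μ
          = (a ^ (-(k : ℝ) / 2) * b ^ (-(l : ℝ) / 2) * Gamma (k / 2) * Gamma (l / 2)
            / 4) * (t ^ ((m : ℝ) / 2 - 1) * exp (-(1 * t))) := by
        intro t ht
        rw [← (hin t ht).2, hμ]
        refine setIntegral_congr_fun measurableSet_Qd fun u hu => ?_
        have hu1 : 0 < u.1 := hu.1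
        have hu2 : 0 < u.2 := hu.2
        have ht' : 0 < t := ht
        simp only [hF]
        rw [Real.norm_eq_abs, abs_of_nonneg (by positivity)]
      have h2 := hout.const_mul (a ^ (-(k : ℝ) / 2) * b ^ (-(l : ℝ) / 2) * Gamma (k / 2)
        * Gamma (l / 2) / 4)
      exact IntegrableOn.congr_fun h2 (fun t ht => (h1 t ht).symm) measurableSet_Ioi
  -- the other order
  have hin2 : ∀ u ∈ Qd, ∫ t, F (t, u) ∂ν
      = Gamma m * (u.1 ^ (k - 1) * u.2 ^ (l - 1) * (qf a b u ^ m)⁻¹) := by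
    intro u hu
    have hq := qf_pos ha.le hb.le u
    have h1 := Real.integral_rpow_mul_exp_neg_mul_Ioi (a := (m : ℝ)) (r := qf a b u) hm0 hq
    have h2 : ∀ t ∈ Ioi (0 : ℝ), F (t, u) = (u.1 ^ (k - 1) * u.2 ^ (l - 1))
        * (t ^ ((m : ℝ) - 1) * exp (-(qf a b u * t))) := by
      intro t ht
      have e1 : t ^ (m - 1) = t ^ ((m : ℝ) - 1) := by
        rw [show (m : ℝ) - 1 = ((m - 1 : ℕ) : ℝ) by
          rw [Nat.cast_sub (by omega : 1 ≤ m)]; simp, rpow_natCast]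
      have e3 : exp (-(qf a b u * t)) = exp (-t) * exp (-(t * a) * u.1 ^ 2)
          * exp (-(t * b) * u.2 ^ 2) := by
        rw [← exp_add, ← exp_add]
        congr 1
        unfold qf
        ring
      simp only [hF]
      rw [e1, e3]
      ring
    rw [hν, setIntegral_congr_fun measurableSet_Ioi h2, integral_const_mul, h1]
    rw [one_div, inv_rpow hq.le, rpow_natCast]
    ring
  have hswap := integral_integral_swap (μ := ν) (ν := μ) (f := fun t u => F (t, u)) hFi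
  have hL : ∫ t, (∫ u, F (t, u) ∂μ) ∂ν
      = (a ^ (-(k : ℝ) / 2) * b ^ (-(l : ℝ) / 2) * Gamma (k / 2) * Gamma (l / 2) / 4)
        * Gamma (m / 2) := by
    rw [hν, setIntegral_congr_fun measurableSet_Ioi fun t ht => (hin t ht).2,
      integral_const_mul, Real.integral_rpow_mul_exp_neg_mul_Ioi (by linarith) one_pos]
    simp
  have hR : ∫ u, (∫ t, F (t, u) ∂ν) ∂μ
      = Gamma m * ∫ u in Qd, u.1 ^ (k - 1) * u.2 ^ (l - 1) * (qf a b u ^ m)⁻¹ := by
    rw [hμ, setIntegral_congr_fun measurableSet_Qd hin2,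
      integral_const_mul]
  constructor
  · have h1 : Integrable (fun u => ∫ t, F (t, u) ∂ν) μ := hFi.integral_prod_right
    have h2 : IntegrableOn (fun u : ℝ × ℝ => Gamma m
        * (u.1 ^ (k - 1) * u.2 ^ (l - 1) * (qf a b u ^ m)⁻¹)) Qd :=
      IntegrableOn.congr_fun h1 hin2 measurableSet_Qd
    have h3 := h2.const_mul (Gamma (m : ℝ))⁻¹
    refine IntegrableOn.congr_fun h3 (fun u _ => ?_) measurableSet_Qd
    field_simp
  · have h4 : Gamma m * ∫ u in Qd, u.1 ^ (k - 1) * u.2 ^ (l - 1) * (qf a b u ^ m)⁻¹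
        = (a ^ (-(k : ℝ) / 2) * b ^ (-(l : ℝ) / 2) * Gamma (k / 2) * Gamma (l / 2) / 4)
        * Gamma (m / 2) := by
      rw [← hR, ← hL, hswap]
    rw [eq_div_iff (by positivity)]
    linear_combination 4 * h4

end Vale.Agent.P224.R2.H925
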