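import Vale.Agent.P224.R2.H925.Cl1
import Vale.Agent.P224.R2.H925.Cl2

/-!
The limit of the comparison integral of a Clifford product.
-/

namespace Vale.Agent.P224.R2.H925

open MeasureTheory Set Filter Function Real Vale.Agent.P224.SM2
open scoped Topology

set_option linter.unusedSectionVars false

lemma tendsto_sin_mul_div (c : ℝ) : Tendsto (fun ψ : ℝ => sin (ψ * c) / ψ) (𝓝[>] 0) (𝓝 c) := by
  have h1 : HasDerivAt (fun ψ : ℝ => sin (ψ * c)) c 0 := by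
    have h2 : HasDerivAt (fun ψ : ℝ => ψ * c) c 0 := by
      simpa using (hasDerivAt_id (0 : ℝ)).mul_const c
    have h3 := h2.sin
    rw [zero_mul, cos_zero, one_mul] at h3
    exact h3
  have h4 := h1.tendsto_slope_zero
  simp only [zero_add, zero_mul, sin_zero, sub_zero, smul_eq_mul] at h4
  have h5 := h4.mono_left (nhdsWithin_mono (0 : ℝ) (fun x (hx : x ∈ Ioi 0) => ne_of_gt hx))
  refine h5.congr fun ψ => ?_
  rw [div_eq_inv_mul]

lemma tendsto_one_sub_cos (c : ℝ) :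
    Tendsto (fun ψ : ℝ => (1 - cos (ψ * c)) / ψ ^ 2) (𝓝[>] 0) (𝓝 (c ^ 2 / 2)) := by
  have h1 := ((tendsto_sin_mul_div (c / 2)).pow 2).const_mul 2
  have e1 : 2 * (c / 2) ^ 2 = c ^ 2 / 2 := by ring
  rw [e1] at h1
  refine h1.congr fun ψ => ?_
  have h2 : cos (ψ * c) = 1 - 2 * sin (ψ * (c / 2)) ^ 2 := by
    have h3 := cos_two_mul (ψ * (c / 2))
    have h4 := sin_sq_add_cos_sq (ψ * (c / 2))
    rw [show 2 * (ψ * (c / 2)) = ψ * c by ring] at h3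
    linarith
  rw [h2]
  ring

/-- the rescaled integrand -/
noncomputable def Hr (k l m : ℕ) (a b : ℝ) (g : ℝ × ℝ → ℝ) (ψ : ℝ) (u : ℝ × ℝ) : ℝ :=
  ψ ^ 2 * Sq.indicator (fun x => wt k l x * (g x
    * (sin ψ ^ m * SM2.ker (cos ψ) m (a * cos x.1 + b * cos x.2)))) (ψ • u)

section

variable {k l m : ℕ} {a b : ℝ}

lemma mem_Sq_smul {ψ : ℝ} (hψ : 0 < ψ) {u : ℝ × ℝ} (h : ψ • u ∈ Sq) : u ∈ Qd := by
  obtain ⟨h1, h2⟩ := h
  have h3 : 0 < ψ * u.1 := h1.1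
  have h4 : 0 < ψ * u.2 := h2.1
  exact ⟨(mul_pos_iff_of_pos_left hψ).1 h3, (mul_pos_iff_of_pos_left hψ).1 h4⟩

/-- lower bound of the denominator -/
lemma den_ge (ha : 0 ≤ a) (hb : 0 ≤ b) (hab : a + b = 1) {ψ : ℝ} (hψ : ψ ∈ Ioo (0 : ℝ) 1)
    {u : ℝ × ℝ} (hu : ψ • u ∈ Sq) :
    ψ ^ 2 / π ^ 2 * qf a b u ≤ 1 - cos ψ * (a * cos (ψ * u.1) + b * cos (ψ * u.2)) := by
  have hpi := pi_pos
  have hpi3 := pi_gt_three
  have h1 : cos ψ ≤ 1 - 2 / π ^ 2 * ψ ^ 2 :=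
    cos_le_one_sub_mul_cos_sq (by rw [abs_of_pos hψ.1]; linarith [hψ.2])
  have p1 : 0 < ψ * u.1 := hu.1.1
  have p2 : 0 < ψ * u.2 := hu.2.1
  have p3 : ψ * u.1 ≤ π := hu.1.2
  have p4 : ψ * u.2 ≤ π := hu.2.2
  have h2 : cos (ψ * u.1) ≤ 1 - 2 / π ^ 2 * (ψ * u.1) ^ 2 :=
    cos_le_one_sub_mul_cos_sq (by rw [abs_of_pos p1]; exact p3)
  have h3 : cos (ψ * u.2) ≤ 1 - 2 / π ^ 2 * (ψ * u.2) ^ 2 :=
    cos_le_one_sub_mul_cos_sq (by rw [abs_of_pos p2]; exact p4)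
  have h4 : 1 / 2 ≤ cos ψ := by
    have h5 := one_sub_sq_div_two_le_cos (x := ψ)
    nlinarith [hψ.1, hψ.2]
  have h6 : 2 / π ^ 2 * (a * (ψ * u.1) ^ 2 + b * (ψ * u.2) ^ 2)
      ≤ 1 - (a * cos (ψ * u.1) + b * cos (ψ * u.2)) := by
    have e1 := mul_le_mul_of_nonneg_left h2 ha
    have e2 := mul_le_mul_of_nonneg_left h3 hb
    linarith
  have h7 : 0 ≤ 2 / π ^ 2 * (a * (ψ * u.1) ^ 2 + b * (ψ * u.2) ^ 2) := by positivity
  have h8 : 1 / 2 * (2 / π ^ 2 * (a * (ψ * u.1) ^ 2 + b * (ψ * u.2) ^ 2))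
      ≤ cos ψ * (1 - (a * cos (ψ * u.1) + b * cos (ψ * u.2))) :=
    mul_le_mul h4 h6 h7 (by linarith)
  have h9 : 0 ≤ 1 / π ^ 2 * ψ ^ 2 := by positivity
  have e3 : ψ ^ 2 / π ^ 2 * qf a b u = 1 / π ^ 2 * ψ ^ 2
      + 1 / 2 * (2 / π ^ 2 * (a * (ψ * u.1) ^ 2 + b * (ψ * u.2) ^ 2)) := by
    unfold qf
    ring
  have e4 : 2 / π ^ 2 * ψ ^ 2 = 2 * (1 / π ^ 2 * ψ ^ 2) := by ring
  rw [e3]
  linarith

/-- the dominating function -/
lemma Hr_le (hk : 1 ≤ k) (hl : 1 ≤ l) (hm : k + l = m) (ha : 0 ≤ a) (hb : 0 ≤ b)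
    (hab : a + b = 1) {g : ℝ × ℝ → ℝ} (hg1 : ∀ x, |g x| ≤ 1) {ψ : ℝ} (hψ : ψ ∈ Ioo (0 : ℝ) 1)
    (u : ℝ × ℝ) :
    ‖Hr k l m a b g ψ u‖ ≤ Qd.indicator (fun u => (π ^ 2) ^ m
      * (u.1 ^ (k - 1) * u.2 ^ (l - 1) * (qf a b u ^ m)⁻¹)) u := by
  have hpi := pi_pos
  unfold Hr
  by_cases hu : ψ • u ∈ Sq
  · have huQ := mem_Sq_smul hψ.1 hu
    have hu1 : 0 < u.1 := huQ.1
    have hu2 : 0 < u.2 := huQ.2
    rw [indicator_of_mem hu, indicator_of_mem huQ]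
    have hq := qf_pos ha hb u
    have hD := den_ge ha hb hab hψ hu
    have hD0 : 0 < ψ ^ 2 / π ^ 2 * qf a b u := by
      have := hψ.1
      positivity
    set D := 1 - cos ψ * (a * cos (ψ * u.1) + b * cos (ψ * u.2)) with hDdef
    have hDp : 0 < D := hD0.trans_le hD
    have hs0 : 0 ≤ sin ψ := sin_nonneg_of_nonneg_of_le_pi hψ.1.le (by linarith [pi_gt_three, hψ.2])
    have hs1 : sin ψ ≤ ψ := sin_le hψ.1.le
    have hw0 : 0 ≤ wt k l (ψ • u) := wt_nonneg hu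
    have hw1 : wt k l (ψ • u) ≤ (ψ * u.1) ^ (k - 1) * (ψ * u.2) ^ (l - 1) := by
      unfold wt
      have a1 : 0 ≤ sin (ψ * u.1) := sin_nonneg_of_nonneg_of_le_pi hu.1.1.le hu.1.2
      have a2 : 0 ≤ sin (ψ * u.2) := sin_nonneg_of_nonneg_of_le_pi hu.2.1.le hu.2.2
      have a3 : 0 < ψ * u.1 := hu.1.1
      have a4 : 0 < ψ * u.2 := hu.2.1
      exact mul_le_mul (pow_le_pow_left₀ a1 (sin_le a3.le) _)
        (pow_le_pow_left₀ a2 (sin_le a4.le) _) (pow_nonneg a2 _) (pow_nonneg a3.le _)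
    have hker : SM2.ker (cos ψ) m (a * cos (ψ • u).1 + b * cos (ψ • u).2) = (D ^ m)⁻¹ := rfl
    have hK : sin ψ ^ m * (D ^ m)⁻¹ ≤ ψ ^ m * ((ψ ^ 2 / π ^ 2 * qf a b u) ^ m)⁻¹ := by
      refine mul_le_mul (pow_le_pow_left₀ hs0 hs1 m) ?_ (by positivity) (pow_nonneg hψ.1.le m)
      exact inv_anti₀ (pow_pos hD0 m) (pow_le_pow_left₀ hD0.le hD m)
    rw [hker, Real.norm_eq_abs, abs_mul, abs_mul, abs_mul, abs_of_nonneg hw0,
      abs_of_nonneg (sq_nonneg ψ), abs_of_nonneg (by positivity : 0 ≤ sin ψ ^ m * (D ^ m)⁻¹)]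
    have hgK : |g (ψ • u)| * (sin ψ ^ m * (D ^ m)⁻¹)
        ≤ 1 * (ψ ^ m * ((ψ ^ 2 / π ^ 2 * qf a b u) ^ m)⁻¹) :=
      mul_le_mul (hg1 _) hK (by positivity) zero_le_one
    calc ψ ^ 2 * (wt k l (ψ • u) * (|g (ψ • u)| * (sin ψ ^ m * (D ^ m)⁻¹)))
        ≤ ψ ^ 2 * (((ψ * u.1) ^ (k - 1) * (ψ * u.2) ^ (l - 1))
          * (1 * (ψ ^ m * ((ψ ^ 2 / π ^ 2 * qf a b u) ^ m)⁻¹))) := by
          refine mul_le_mul_of_nonneg_left ?_ (sq_nonneg ψ)
          exact mul_le_mul hw1 hgK (by positivity)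
            (mul_nonneg (pow_nonneg hu.1.1.le _) (pow_nonneg hu.2.1.le _))
      _ = (π ^ 2) ^ m * (u.1 ^ (k - 1) * u.2 ^ (l - 1) * (qf a b u ^ m)⁻¹) := by
          obtain ⟨k', rfl⟩ := Nat.exists_eq_add_of_le hk
          obtain ⟨l', rfl⟩ := Nat.exists_eq_add_of_le hl
          have hψ0 := hψ.1.ne'
          have hq0 := hq.ne'
          subst hm
          rw [show 1 + k' - 1 = k' by omega, show 1 + l' - 1 = l' by omega]
          simp only [mul_pow, div_pow, mul_inv, inv_div]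
          field_simp
          ring
  · rw [indicator_of_notMem hu, mul_zero, norm_zero]
    refine indicator_nonneg (fun u hu => ?_) u
    have hu1 : 0 < u.1 := hu.1
    have hu2 : 0 < u.2 := hu.2
    have hq := qf_pos ha hb u
    positivity

/-- the pointwise limit -/
lemma Hr_lim (hk : 1 ≤ k) (hl : 1 ≤ l) (hm : k + l = m) (ha : 0 ≤ a) (hb : 0 ≤ b)
    (hab : a + b = 1) {g : ℝ × ℝ → ℝ} (hg : Continuous g) (u : ℝ × ℝ) :
    Tendsto (fun ψ => Hr k l m a b g ψ u) (𝓝[>] 0) (𝓝 (Qd.indicator (fun u => g 0 * (2 ^ m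
      * (u.1 ^ (k - 1) * u.2 ^ (l - 1) * (qf a b u ^ m)⁻¹))) u)) := by
  have hpi := pi_pos
  by_cases hu : u ∈ Qd
  · rw [indicator_of_mem hu]
    have hu1 : 0 < u.1 := hu.1
    have hu2 : 0 < u.2 := hu.2
    have hq := qf_pos ha hb u
    have t1 := (tendsto_sin_mul_div u.1).pow (k - 1)
    have t2 := (tendsto_sin_mul_div u.2).pow (l - 1)
    have t3 := (tendsto_sin_mul_div 1).pow m
    have t4 : Tendsto (fun ψ : ℝ => g (ψ • u)) (𝓝[>] 0) (𝓝 (g 0)) := by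
      have h1 : Continuous fun ψ : ℝ => g (ψ • u) := hg.comp (by fun_prop)
      have h2 := (h1.tendsto 0).mono_left (nhdsWithin_le_nhds (s := Ioi 0))
      rwa [zero_smul] at h2
    have t5 : Tendsto (fun ψ : ℝ => cos ψ) (𝓝[>] 0) (𝓝 1) := by
      have h2 := (continuous_cos.tendsto 0).mono_left (nhdsWithin_le_nhds (s := Ioi 0))
      rwa [cos_zero] at h2
    have t6 := (tendsto_one_sub_cos 1).add (t5.mul (((tendsto_one_sub_cos u.1).const_mul a).add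
      ((tendsto_one_sub_cos u.2).const_mul b)))
    have e6 : (1 : ℝ) ^ 2 / 2 + 1 * (a * (u.1 ^ 2 / 2) + b * (u.2 ^ 2 / 2)) = qf a b u / 2 := by
      unfold qf
      ring
    rw [e6] at t6
    have t7 := (t6.inv₀ (by positivity)).pow m
    have t8 := ((t1.mul t2).mul (t4.mul (t3.mul t7)))
    have e8 : u.1 ^ (k - 1) * u.2 ^ (l - 1) * (g 0 * (1 ^ m * (qf a b u / 2)⁻¹ ^ m))
        = g 0 * (2 ^ m * (u.1 ^ (k - 1) * u.2 ^ (l - 1) * (qf a b u ^ m)⁻¹)) := by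
      rw [inv_div, div_pow, one_pow]
      ring
    rw [e8] at t8
    refine t8.congr' ?_
    have hev : Ioo (0 : ℝ) (min (π / u.1) (π / u.2)) ∈ 𝓝[>] (0 : ℝ) :=
      Ioo_mem_nhdsGT (lt_min (by positivity) (by positivity))
    filter_upwards [hev] with ψ hψ
    have hψ0 := hψ.1
    have h1 : ψ * u.1 ≤ π := ((lt_div_iff₀ hu1).1 (hψ.2.trans_le (min_le_left _ _))).le
    have h2 : ψ * u.2 ≤ π := ((lt_div_iff₀ hu2).1 (hψ.2.trans_le (min_le_right _ _))).le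
    have hS : ψ • u ∈ Sq := ⟨⟨mul_pos hψ0 hu1, h1⟩, ⟨mul_pos hψ0 hu2, h2⟩⟩
    unfold Hr
    rw [indicator_of_mem hS]
    have hker : SM2.ker (cos ψ) m (a * cos (ψ • u).1 + b * cos (ψ • u).2)
        = ((1 - cos ψ * (a * cos (ψ * u.1) + b * cos (ψ * u.2))) ^ m)⁻¹ := rfl
    have hwt : wt k l (ψ • u) = sin (ψ * u.1) ^ (k - 1) * sin (ψ * u.2) ^ (l - 1) := rfl
    rw [hker, hwt]
    have eD : (1 - cos (ψ * 1)) / ψ ^ 2 + cos ψ * (a * ((1 - cos (ψ * u.1)) / ψ ^ 2)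
        + b * ((1 - cos (ψ * u.2)) / ψ ^ 2))
        = (1 - cos ψ * (a * cos (ψ * u.1) + b * cos (ψ * u.2))) / ψ ^ 2 := by
      rw [show b = 1 - a by linarith, mul_one]
      field_simp
      ring
    rw [eD, mul_one]
    obtain ⟨k', rfl⟩ := Nat.exists_eq_add_of_le hk
    obtain ⟨l', rfl⟩ := Nat.exists_eq_add_of_le hl
    subst hm
    rw [show 1 + k' - 1 = k' by omega, show 1 + l' - 1 = l' by omega]
    simp only [div_pow, inv_div]
    rw [div_eq_mul_inv ((ψ ^ 2) ^ (1 + k' + (1 + l')))]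
    generalize ((1 - cos ψ * (a * cos (ψ * u.1) + b * cos (ψ * u.2)))
      ^ (1 + k' + (1 + l')))⁻¹ = D
    field_simp
    ring
  · rw [indicator_of_notMem hu]
    refine tendsto_const_nhds.congr' ?_
    filter_upwards [self_mem_nhdsWithin] with ψ hψ
    unfold Hr
    rw [indicator_of_notMem (fun h => hu (mem_Sq_smul hψ h)), mul_zero]

/-- the limit of the comparison integrals -/
theorem tendsto_comp (hk : 1 ≤ k) (hl : 1 ≤ l) (hm : k + l = m) (ha : 0 < a) (hb : 0 < b)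
    (hab : a + b = 1) {g : ℝ × ℝ → ℝ} (hg : Continuous g) (hg1 : ∀ x, |g x| ≤ 1) :
    Tendsto (fun ψ => ∫ x in Sq, wt k l x * (g x
      * (sin ψ ^ m * SM2.ker (cos ψ) m (a * cos x.1 + b * cos x.2)))) (𝓝[>] 0)
      (𝓝 (g 0 * (2 ^ m * ∫ u in Qd, u.1 ^ (k - 1) * u.2 ^ (l - 1) * (qf a b u ^ m)⁻¹))) := by
  obtain ⟨hI, -⟩ := quad_integral hk hl hm ha hb
  have hdom := tendsto_integral_filter_of_dominated_convergence (μ := (volume : Measure (ℝ × ℝ)))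
    (l := 𝓝[>] (0 : ℝ)) (F := fun ψ u => Hr k l m a b g ψ u)
    (f := Qd.indicator (fun u => g 0 * (2 ^ m
      * (u.1 ^ (k - 1) * u.2 ^ (l - 1) * (qf a b u ^ m)⁻¹))))
    (Qd.indicator (fun u => (π ^ 2) ^ m
      * (u.1 ^ (k - 1) * u.2 ^ (l - 1) * (qf a b u ^ m)⁻¹))) ?_ ?_ ?_ ?_
  · rw [integral_indicator measurableSet_Qd, integral_const_mul, integral_const_mul] at hdom
    refine hdom.congr' ?_
    filter_upwards [self_mem_nhdsWithin] with ψ hψ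
    have hψ0 : 0 < ψ := hψ
    unfold Hr
    rw [integral_const_mul, Measure.integral_comp_smul, integral_indicator measurableSet_Sq]
    have hf : Module.finrank ℝ (ℝ × ℝ) = 2 := by simp
    rw [hf, smul_eq_mul, abs_of_pos (by positivity), ← mul_assoc,
      mul_inv_cancel₀ (by positivity), one_mul]
  · refine Eventually.of_forall fun ψ => Measurable.aestronglyMeasurable ?_
    unfold Hr
    refine measurable_const.mul ?_
    have h1 : Measurable (Sq.indicator (fun x => wt k l x * (g x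
        * (sin ψ ^ m * SM2.ker (cos ψ) m (a * cos x.1 + b * cos x.2))))) := by
      refine Measurable.indicator ?_ measurableSet_Sq
      have h2 := (continuous_wt k l).measurable
      have h3 := hg.measurable
      have h4 := (measurable_ker (cos ψ) m)
      fun_prop
    exact h1.comp (by fun_prop)
  · have hev : Ioo (0 : ℝ) 1 ∈ 𝓝[>] (0 : ℝ) := Ioo_mem_nhdsGT one_pos
    filter_upwards [hev] with ψ hψ
    exact Eventually.of_forall fun u => Hr_le hk hl hm ha.le hb.le hab hg1 hψ u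
  · rw [integrable_indicator_iff measurableSet_Qd]
    exact hI.const_mul _
  · exact Eventually.of_forall fun u => Hr_lim hk hl hm ha.le hb.le hab hg u

end

end Vale.Agent.P224.R2.H925
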