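import Vale.Agent.P224.R2.H925.Cl3
import Vale.Agent.P224.R2.H925.Law

/-!
The constant of the adapted flow from the Clifford product itself.
-/

namespace Vale.Agent.P224.R2.H925

open MeasureTheory Set Filter Function Real Vale.Agent.P224 Vale.Agent.P224.SM2
open scoped Topology

set_option linter.unusedSectionVars false

/-- the Wallis integral -/
lemma wallis (n : ℕ) :
    (∫ x in (0 : ℝ)..π, sin x ^ n) = √π * Gamma (((n : ℝ) + 1) / 2) / Gamma ((n : ℝ) / 2 + 1) := by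
  induction n using Nat.twoStepInduction with
  | zero =>
    simp only [pow_zero, intervalIntegral.integral_const, sub_zero, smul_eq_mul, mul_one,
      CharP.cast_eq_zero, zero_add, zero_div, Gamma_one, div_one, Gamma_one_half_eq]
    exact (mul_self_sqrt pi_pos.le).symm
  | one =>
    have h1 : Gamma ((1 : ℝ) / 2 + 1) = 1 / 2 * √π := by
      rw [Gamma_add_one (by norm_num), Gamma_one_half_eq]
    have h2 : √π ≠ 0 := (sqrt_pos.2 pi_pos).ne'
    simp only [pow_one, integral_sin, cos_zero, cos_pi, Nat.cast_one]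
    rw [h1, show ((1 : ℝ) + 1) / 2 = 1 by norm_num, Gamma_one]
    field_simp
    norm_num
  | more n ih _ =>
    have hn : (0 : ℝ) ≤ n := Nat.cast_nonneg n
    rw [integral_sin_pow, ih]
    simp only [sin_zero, sin_pi, Nat.cast_add, Nat.cast_ofNat]
    have h1 : Gamma (((n : ℝ) + 2 + 1) / 2) = ((n : ℝ) + 1) / 2 * Gamma (((n : ℝ) + 1) / 2) := by
      rw [show ((n : ℝ) + 2 + 1) / 2 = ((n : ℝ) + 1) / 2 + 1 by ring, Gamma_add_one (by positivity)]
    have h2 : Gamma (((n : ℝ) + 2) / 2 + 1) = ((n : ℝ) / 2 + 1) * Gamma ((n : ℝ) / 2 + 1) := by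
      rw [show ((n : ℝ) + 2) / 2 + 1 = ((n : ℝ) / 2 + 1) + 1 by ring, Gamma_add_one (by positivity)]
    rw [h1, h2]
    have h3 := (Gamma_pos_of_pos (by positivity : 0 < (n : ℝ) / 2 + 1)).ne'
    have h4 : (n : ℝ) + 2 ≠ 0 := by positivity
    have h5 : (n : ℝ) / 2 + 1 ≠ 0 := by positivity
    rw [zero_pow (by omega)]
    field_simp
    ring

lemma wallis_pred {k : ℕ} (hk : 1 ≤ k) :
    (∫ x in (0 : ℝ)..π, sin x ^ (k - 1)) = √π * Gamma ((k : ℝ) / 2) / Gamma (((k : ℝ) + 1) / 2) := by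
  rw [wallis, Nat.cast_sub hk, Nat.cast_one]
  congr 2
  · ring_nf
  · ring_nf

section

variable {k l : ℕ}

/-- an integral of a product -/
lemma int_Sq_mul (f g : ℝ → ℝ) :
    ∫ x in Sq, f x.1 * g x.2 = (∫ x in (0 : ℝ)..π, f x) * ∫ x in (0 : ℝ)..π, g x := by
  have e1 : ((volume : Measure (ℝ × ℝ)).restrict Sq)
      = (volume.restrict (Ioc 0 π)).prod (volume.restrict (Ioc 0 π)) := by
    rw [Measure.prod_restrict]
    rfl
  rw [e1, integral_prod_mul, intervalIntegral.integral_of_le pi_pos.le,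
    intervalIntegral.integral_of_le pi_pos.le]

/-- the total mass -/
lemma mass_nuC (hk : 1 ≤ k) (hl : 1 ≤ l) : (nuC k l).real univ
    = (√π * Gamma ((k : ℝ) / 2) / Gamma (((k : ℝ) + 1) / 2))
      * (√π * Gamma ((l : ℝ) / 2) / Gamma (((l : ℝ) + 1) / 2)) := by
  have h1 : (nuC k l).real univ = ∫ _, (1 : ℝ) ∂(nuC k l) := by simp
  rw [h1, int_nuC]
  simp only [mul_one]
  unfold wt
  rw [int_Sq_mul (fun x => sin x ^ (k - 1)) (fun x => sin x ^ (l - 1)), wallis_pred hk,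
    wallis_pred hl]

lemma mass_pos (hk : 1 ≤ k) (hl : 1 ≤ l) : 0 < (nuC k l).real univ := by
  have hkR : (1 : ℝ) ≤ k := by exact_mod_cast hk
  have hlR : (1 : ℝ) ≤ l := by exact_mod_cast hl
  rw [mass_nuC hk hl]
  have h0 : 0 < √π := sqrt_pos.2 pi_pos
  have h1 := Gamma_pos_of_pos (by linarith : 0 < (k : ℝ) / 2)
  have h2 := Gamma_pos_of_pos (by linarith : 0 < ((k : ℝ) + 1) / 2)
  have h3 := Gamma_pos_of_pos (by linarith : 0 < (l : ℝ) / 2)
  have h4 := Gamma_pos_of_pos (by linarith : 0 < ((l : ℝ) + 1) / 2)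
  positivity

/-- the limit value -/
noncomputable def LC (k l m : ℕ) (a b : ℝ) : ℝ :=
  2 ^ m * (a ^ (-(k : ℝ) / 2) * b ^ (-(l : ℝ) / 2) * Gamma (k / 2) * Gamma (l / 2) * Gamma (m / 2)
        / (4 * Gamma m))

/-- the limit value and the volumes -/
theorem LC_mul {m : ℕ} (hk : 1 ≤ k) (hl : 1 ≤ l) (hm : k + l = m) :
    LC k l m ((k : ℝ) / m) ((l : ℝ) / m) * cliffordVol m k
      = sphereVol m * (nuC k l).real univ := by
  have hkR : (1 : ℝ) ≤ k := by exact_mod_cast hk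
  have hlR : (1 : ℝ) ≤ l := by exact_mod_cast hl
  have hmR : (k : ℝ) + l = m := by exact_mod_cast hm
  have hm0 : (0 : ℝ) < m := by linarith
  have hmk : m - k = l := by omega
  rw [mass_nuC hk hl]
  unfold LC cliffordVol sphereVol
  rw [hmk]
  set a : ℝ := (k : ℝ) / m with ha
  set b : ℝ := (l : ℝ) / m with hb
  have ha0 : 0 < a := by positivity
  have hb0 : 0 < b := by positivity
  have hG1 := Gamma_pos_of_pos (by linarith : 0 < (k : ℝ) / 2)
  have hG2 := Gamma_pos_of_pos (by linarith : 0 < ((k : ℝ) + 1) / 2)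
  have hG3 := Gamma_pos_of_pos (by linarith : 0 < (l : ℝ) / 2)
  have hG4 := Gamma_pos_of_pos (by linarith : 0 < ((l : ℝ) + 1) / 2)
  have hG5 := Gamma_pos_of_pos hm0
  have hG6 := Gamma_pos_of_pos (by linarith : 0 < ((m : ℝ) + 1) / 2)
  have hdup := Gamma_mul_Gamma_add_half ((m : ℝ) / 2)
  rw [show (m : ℝ) / 2 + 1 / 2 = ((m : ℝ) + 1) / 2 by ring, show 2 * ((m : ℝ) / 2) = m by ring]
    at hdup
  have e1 : a ^ (-(k : ℝ) / 2) * a ^ ((k : ℝ) / 2) = 1 := by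
    rw [← rpow_add ha0, show -(k : ℝ) / 2 + (k : ℝ) / 2 = 0 by ring, rpow_zero]
  have e2 : b ^ (-(l : ℝ) / 2) * b ^ ((l : ℝ) / 2) = 1 := by
    rw [← rpow_add hb0, show -(l : ℝ) / 2 + (l : ℝ) / 2 = 0 by ring, rpow_zero]
  have e3 : (2 : ℝ) ^ (1 - (m : ℝ)) * 2 ^ m = 2 := by
    rw [← rpow_natCast 2 m, ← rpow_add two_pos, show 1 - (m : ℝ) + m = 1 by ring, rpow_one]
  have e4 : π ^ (((k : ℝ) + 1) / 2) * π ^ (((l : ℝ) + 1) / 2) = √π * π ^ (((m : ℝ) + 1) / 2) := by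
    rw [sqrt_eq_rpow, ← rpow_add pi_pos, ← rpow_add pi_pos]
    congr 1
    rw [← hmR]
    ring
  have hsq : √π * √π = π := mul_self_sqrt pi_pos.le
  set A1 := a ^ (-(k : ℝ) / 2)
  set A2 := a ^ ((k : ℝ) / 2)
  set B1 := b ^ (-(l : ℝ) / 2)
  set B2 := b ^ ((l : ℝ) / 2)
  set P1 := π ^ (((k : ℝ) + 1) / 2)
  set P2 := π ^ (((l : ℝ) + 1) / 2)
  set P3 := π ^ (((m : ℝ) + 1) / 2)
  set g1 := Gamma ((k : ℝ) / 2)
  set g2 := Gamma (((k : ℝ) + 1) / 2)
  set g3 := Gamma ((l : ℝ) / 2)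
  set g4 := Gamma (((l : ℝ) + 1) / 2)
  set g5 := Gamma (m : ℝ)
  set g6 := Gamma (((m : ℝ) + 1) / 2)
  set g7 := Gamma ((m : ℝ) / 2)
  have h1 : 2 ^ m * (A1 * B1 * g1 * g3 * g7 / (4 * g5)) * (A2 * B2 * (2 * P1 / g2) * (2 * P2 / g4))
      = (A1 * A2) * (B1 * B2) * (P1 * P2) * (2 ^ m * g7 * g1 * g3 / (g5 * g2 * g4)) := by
    field_simp
    ring
  rw [h1, e1, e2, e4]
  have h2 : g7 = g5 * (2 : ℝ) ^ (1 - (m : ℝ)) * √π / g6 := by
    rw [eq_div_iff hG6.ne']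
    exact hdup
  rw [h2]
  have h3 : 1 * 1 * (√π * P3) * (2 ^ m * (g5 * (2 : ℝ) ^ (1 - (m : ℝ)) * √π / g6) * g1 * g3
      / (g5 * g2 * g4)) = ((2 : ℝ) ^ (1 - (m : ℝ)) * 2 ^ m) * (√π * √π) * P3 * (g1 * g3
      / (g6 * g2 * g4)) := by
    field_simp
  rw [h3, e3]
  field_simp

end

end Vale.Agent.P224.R2.H925
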