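import Vale.Agent.P224.R2.H925.Cl4

/-!
The flux constant of the adapted flow.
-/

namespace Vale.Agent.P224.R2.H925

open MeasureTheory Set Filter Function Real Vale.Agent.P224 Vale.Agent.P224.SM2
open scoped Topology

set_option linter.unusedSectionVars false

section

variable {k l m : ℕ} {a b q : ℝ}

lemma CD.kl (h : CD k l m a b q) : k + l = m := by
  have h1 : (k : ℝ) + l = m := by
    rw [h.hka, h.hlb, ← mul_add, h.hab, mul_one]
  exact_mod_cast h1

lemma CD.m_pos (h : CD k l m a b q) : (0 : ℝ) < m := by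
  have h1 := h.hk
  have h2 := h.kl
  exact_mod_cast (by omega : 0 < m)

lemma CD.a_eq (h : CD k l m a b q) : a = (k : ℝ) / m := by
  rw [h.hka]
  have := h.m_pos.ne'
  field_simp

lemma CD.b_eq (h : CD k l m a b q) : b = (l : ℝ) / m := by
  rw [h.hlb]
  have := h.m_pos.ne'
  field_simp

lemma CD.q_ne (h : CD k l m a b q) : q ≠ 0 := by
  intro h0
  have h1 := h.hq
  rw [h0] at h1
  have h2 := mul_pos h.ha h.hb
  nlinarith

lemma tendsto_half_pi_sub : Tendsto (fun φ : ℝ => π / 2 - φ) (𝓝[<] (π / 2)) (𝓝[>] 0) := by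
  refine tendsto_nhdsWithin_iff.2 ⟨?_, ?_⟩
  · have h1 : Continuous fun φ : ℝ => π / 2 - φ := by fun_prop
    have h2 := (h1.tendsto (π / 2)).mono_left (nhdsWithin_le_nhds (s := Iio (π / 2)))
    rwa [sub_self] at h2
  · filter_upwards [self_mem_nhdsWithin] with φ hφ
    exact mem_Ioi.2 (sub_pos.2 (mem_Iio.1 hφ))

/-- the limit of a moment -/
lemma CD.tendsto_moment (h : CD k l m a b q) {f : R4 → ℝ} (hf : Continuous f)
    (hf1 : ∀ k ∈ KK, |f k| ≤ 1) (h0 : f (1, 0, 0, 1) = 1) :
    Tendsto (fun φ => cos φ ^ m * Mo (nuC k l) (prC a b q) f m (sin φ)) (𝓝[<] (π / 2))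
      (𝓝 (LC k l m a b)) := by
  have hk := h.hk
  have hl := h.hl
  have hm := h.kl
  have key := tendsto_comp (k := k) (l := l) (m := m) hk hl hm h.ha h.hb h.hab
    (g := fun x => f (prC a b q x)) (hf.comp (continuous_prC a b q))
    (fun x => hf1 _ (h.mem x))
  have e0 : prC a b q 0 = (1, 0, 0, 1) := by
    unfold prC
    simp only [Prod.fst_zero, Prod.snd_zero, cos_zero, mul_one, sub_self, mul_zero]
    rw [h.hab, add_comm b a, h.hab]
  have e1 : 2 ^ m * ∫ u in Qd, u.1 ^ (k - 1) * u.2 ^ (l - 1) * (qf a b u ^ m)⁻¹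
      = LC k l m a b := by
    rw [(quad_integral hk hl hm h.ha h.hb).2]
    rfl
  simp only [e0, h0, one_mul] at key
  rw [e1] at key
  refine (key.comp tendsto_half_pi_sub).congr fun φ => ?_
  simp only [comp_apply, sin_pi_div_two_sub, cos_pi_div_two_sub]
  unfold Mo
  rw [← integral_const_mul, int_nuC]
  refine setIntegral_congr_fun measurableSet_Sq fun x _ => ?_
  simp only [prC]
  ring

/-- the adapted defect vanishes on the Clifford product -/
lemma CD.defect_zero (h : CD k l m a b q) {d : ℝ} (hd : d = (a - b) / q) (u : St) (T : ℝ) :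
    DS (nuC k l) m (prC a b q) d u T = 0 := by
  unfold DS
  have h1 : ∀ x, dK m d u T (prC a b q x) = 0 := by
    intro x
    have hq := h.q_ne
    have h2 : (prC a b q x).2.2.2 - (prC a b q x).1 - d * (prC a b q x).2.1 = 0 := by
      unfold prC
      simp only
      rw [hd]
      field_simp
      ring
    have h3 : (prC a b q x).2.2.1 = (prC a b q x).2.1 := rfl
    unfold dK fK fV
    rw [h3, h2]
    ring
  simp only [h1, integral_zero]

/-- the value at T = 0 of the Clifford product is the flux -/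
theorem CD.flux (h : CD k l m a b q) (hm2 : 2 ≤ m) {d ε0 r0 c0 lam : ℝ} {u : St}
    (hd : d = (a - b) / q) (hd2 : d ^ 2 < 4) (hs : Sys m d u) (h0 : Lim0 m d u ε0 r0 c0)
    (h1 : Lim1 m u lam) :
    2 * lam * LC k l m a b = ∫ x, f0K m d ε0 r0 c0 (prC a b q x) ∂(nuC k l) := by
  have hJ : Tendsto (Jf (nuC k l) m (prC a b q)) (𝓝[<] (π / 2)) (𝓝 (LC k l m a b)) :=
    h.tendsto_moment continuous_const (fun _ _ => by simp) rfl
  have hB : Tendsto (Bf (nuC k l) m (prC a b q)) (𝓝[<] (π / 2)) (𝓝 (LC k l m a b)) :=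
    h.tendsto_moment (by fun_prop) (fun k hk => abs_le.2 hk.2.2.2) rfl
  refine law_exact h.PL hm2 hd2 hs h0 h1 (M := |LC k l m a b| + 1) ?_ ?_ hJ
    (fun T _ => h.defect_zero hd u T)
  · have h2 := (tendsto_order.1 hJ.abs).2 (|LC k l m a b| + 1) (by linarith)
    filter_upwards [h2] with φ hφ using hφ.le
  · have := hJ.sub hB
    rwa [sub_self] at this

/-- moments of the law of a Clifford product -/
lemma CD.moment1 (h : CD k l m a b q) {g : ℝ → ℝ} (hg : Continuous g) :
    ∫ x in Sq, wt k l x * (cos x.1 * g x.2) = 0 := by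
  refine div_first (g := fun x => cos x.1 * g x.2) (G := fun x => sin x.1 ^ k / k * g x.2)
    (by fun_prop) ?_ ?_ ?_
  · intro x y
    have hk0 : (k : ℝ) ≠ 0 := by
      have := h.hk
      positivity
    refine ((((hasDerivAt_sin x).fun_pow k).div_const (k : ℝ)).mul_const (g y)).congr_deriv ?_
    field_simp
  · intro y
    simp [show k ≠ 0 by have := h.hk; omega]
  · intro y
    simp [show k ≠ 0 by have := h.hk; omega]

lemma CD.moment2 (h : CD k l m a b q) {g : ℝ → ℝ} (hg : Continuous g) :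
    ∫ x in Sq, wt k l x * (cos x.2 * g x.1) = 0 := by
  refine div_second (g := fun x => cos x.2 * g x.1) (G := fun x => sin x.2 ^ l / l * g x.1)
    (by fun_prop) ?_ ?_ ?_
  · intro x y
    have hk0 : (l : ℝ) ≠ 0 := by
      have := h.hl
      positivity
    refine ((((hasDerivAt_sin y).fun_pow l).div_const (l : ℝ)).mul_const (g x)).congr_deriv ?_
    field_simp
  · intro y
    simp [show l ≠ 0 by have := h.hl; omega]
  · intro y
    simp [show l ≠ 0 by have := h.hl; omega]

lemma CD.mass_eq : (nuC k l).real univ = ∫ x in Sq, wt k l x := by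
  have h1 : (nuC k l).real univ = ∫ _, (1 : ℝ) ∂(nuC k l) := by simp
  rw [h1, int_nuC]
  simp only [mul_one]

lemma CD.sq1 (h : CD k l m a b q) :
    ∫ x in Sq, wt k l x * cos x.1 ^ 2 = (nuC k l).real univ / (k + 1) := by
  have h1 : ∫ x in Sq, wt k l x * ((k + 1) * cos x.1 ^ 2 - 1) = 0 := by
    refine div_first (g := fun x => (k + 1) * cos x.1 ^ 2 - 1)
      (G := fun x => sin x.1 ^ k * cos x.1) (by fun_prop) ?_ ?_ ?_
    · intro x y
      refine (((hasDerivAt_sin x).fun_pow k).fun_mul (hasDerivAt_cos x)).congr_deriv ?_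
      obtain ⟨k', rfl⟩ := Nat.exists_eq_add_of_le h.hk
      rw [show 1 + k' - 1 = k' by omega, pow_add, pow_one]
      have := sin_sq_add_cos_sq x
      push_cast
      linear_combination (-(sin x ^ k')) * this
    · intro y
      simp [show k ≠ 0 by have := h.hk; omega]
    · intro y
      simp [show k ≠ 0 by have := h.hk; omega]
  have i1 : IntegrableOn (fun x => wt k l x * cos x.1 ^ 2) Sq volume :=
    integrableOn_Sq (by have := continuous_wt k l; fun_prop)
  have i2 : IntegrableOn (fun x => wt k l x) Sq volume := integrableOn_Sq (continuous_wt k l)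
  have e1 : ∀ x, wt k l x * ((k + 1) * cos x.1 ^ 2 - 1)
      = (k + 1) * (wt k l x * cos x.1 ^ 2) - wt k l x := fun x => by ring
  simp only [e1] at h1
  rw [integral_sub (i1.const_mul _) i2, integral_const_mul, ← CD.mass_eq] at h1
  have : (k : ℝ) + 1 ≠ 0 := by positivity
  field_simp
  linarith

lemma CD.sq2 (h : CD k l m a b q) :
    ∫ x in Sq, wt k l x * cos x.2 ^ 2 = (nuC k l).real univ / (l + 1) := by
  have h1 : ∫ x in Sq, wt k l x * ((l + 1) * cos x.2 ^ 2 - 1) = 0 := by
    refine div_second (g := fun x => (l + 1) * cos x.2 ^ 2 - 1)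
      (G := fun x => sin x.2 ^ l * cos x.2) (by fun_prop) ?_ ?_ ?_
    · intro x y
      refine (((hasDerivAt_sin y).fun_pow l).fun_mul (hasDerivAt_cos y)).congr_deriv ?_
      obtain ⟨k', rfl⟩ := Nat.exists_eq_add_of_le h.hl
      rw [show 1 + k' - 1 = k' by omega, pow_add, pow_one]
      have := sin_sq_add_cos_sq y
      push_cast
      linear_combination (-(sin y ^ k')) * this
    · intro y
      simp [show l ≠ 0 by have := h.hl; omega]
    · intro y
      simp [show l ≠ 0 by have := h.hl; omega]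
  have i1 : IntegrableOn (fun x => wt k l x * cos x.2 ^ 2) Sq volume :=
    integrableOn_Sq (by have := continuous_wt k l; fun_prop)
  have i2 : IntegrableOn (fun x => wt k l x) Sq volume := integrableOn_Sq (continuous_wt k l)
  have e1 : ∀ x, wt k l x * ((l + 1) * cos x.2 ^ 2 - 1)
      = (l + 1) * (wt k l x * cos x.2 ^ 2) - wt k l x := fun x => by ring
  simp only [e1] at h1
  rw [integral_sub (i1.const_mul _) i2, integral_const_mul, ← CD.mass_eq] at h1
  have : (l : ℝ) + 1 ≠ 0 := by positivity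
  field_simp
  linarith

end

/-- the normalised value at T = 0 of a Clifford product; τ = tr (G_N C), ν = |G_N|² -/
noncomputable def F0C (m : ℕ) (d ε0 c0 τ ν : ℝ) : ℝ :=
  c0 + 2 * d * ε0 / (m + 1) * ((m + 3 - d ^ 2 + 1 / (m + 1)) * τ
    - 2 * d * (m + 2) * ((1 - ν) / (m + 1)))

section

variable {k l m : ℕ} {a b q : ℝ}

/-- the value at T = 0 -/
theorem CD.value (h : CD k l m a b q) (d ε0 r0 c0 : ℝ) :
    ∫ x, f0K m d ε0 r0 c0 (prC a b q x) ∂(nuC k l)
      = F0C m d ε0 c0 (q * a / (l + 1) - q * b / (k + 1)) (b ^ 2 / (k + 1) + a ^ 2 / (l + 1))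
        * (nuC k l).real univ := by
  rw [int_nuC]
  have hk0 : (k : ℝ) + 1 ≠ 0 := by positivity
  have hl0 : (l : ℝ) + 1 ≠ 0 := by positivity
  have hm0 : (m : ℝ) + 1 ≠ 0 := by positivity
  set X : ℝ := 2 * d * ε0 / (m + 1) with hX
  set c1 : ℝ := X * ((m + 3 - d ^ 2) * (-(q * b)) + q * a - 2 * d * (m + 2) * q ^ 2) with hc1
  set c2 : ℝ := X * ((m + 3 - d ^ 2) * (q * a) - q * b - 2 * d * (m + 2) * q ^ 2) with hc2
  set c3 : ℝ := X * ((m + 3 - d ^ 2) * (q * b - q * a) - (q * a - q * b)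
    + 4 * d * (m + 2) * q ^ 2) with hc3
  have e1 : ∀ x : ℝ × ℝ, wt k l x * f0K m d ε0 r0 c0 (prC a b q x)
      = c0 * wt k l x + m * r0 * b * (wt k l x * (cos x.1 * 1))
        + m * r0 * a * (wt k l x * (cos x.2 * 1))
        + c1 * (wt k l x * cos x.1 ^ 2) + c2 * (wt k l x * cos x.2 ^ 2)
        + c3 * (wt k l x * (cos x.1 * cos x.2)) := by
    intro x
    unfold f0K prC
    simp only [hc1, hc2, hc3, hX]
    ring
  simp only [e1]
  have cw := continuous_wt k l
  have i1 : IntegrableOn (fun x => wt k l x) Sq volume := integrableOn_Sq cw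
  have i2 : IntegrableOn (fun x => wt k l x * (cos x.1 * 1)) Sq volume :=
    integrableOn_Sq (by fun_prop)
  have i3 : IntegrableOn (fun x => wt k l x * (cos x.2 * 1)) Sq volume :=
    integrableOn_Sq (by fun_prop)
  have i4 : IntegrableOn (fun x => wt k l x * cos x.1 ^ 2) Sq volume :=
    integrableOn_Sq (by fun_prop)
  have i5 : IntegrableOn (fun x => wt k l x * cos x.2 ^ 2) Sq volume :=
    integrableOn_Sq (by fun_prop)
  have i6 : IntegrableOn (fun x => wt k l x * (cos x.1 * cos x.2)) Sq volume :=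
    integrableOn_Sq (by fun_prop)
  have m1 : ∫ x in Sq, wt k l x * (cos x.1 * 1) = 0 :=
    h.moment1 (g := fun _ => 1) continuous_const
  have m2 : ∫ x in Sq, wt k l x * (cos x.2 * 1) = 0 :=
    h.moment2 (g := fun _ => 1) continuous_const
  have m3 : ∫ x in Sq, wt k l x * (cos x.1 * cos x.2) = 0 :=
    h.moment1 (g := fun y => cos y) continuous_cos
  have : IsFiniteMeasure ((volume : Measure (ℝ × ℝ)).restrict Sq) :=
    ⟨by rw [Measure.restrict_apply_univ]; exact volume_Sq_lt⟩
  have h6 := (integral_comb6 (ν := (volume : Measure (ℝ × ℝ)).restrict Sq) i1 i2 i3 i4 i5 i6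
    c0 (m * r0 * b) (m * r0 * a) c1 c2 c3).2
  rw [h6, m1, m2, m3, h.sq1, h.sq2, ← CD.mass_eq]
  have hq := h.hq
  have hb : b = 1 - a := by linarith [h.hab]
  have n1 : (m : ℝ) * a + 1 ≠ 0 := by rw [← h.hka]; exact hk0
  have n2 : (m : ℝ) * b + 1 ≠ 0 := by rw [← h.hlb]; exact hl0
  have t1 : q * a / (k + 1) - q * b / (l + 1) = (q * a / (l + 1) - q * b / (k + 1)) / (m + 1) := by
    rw [h.hka, h.hlb, div_sub_div _ _ n1 n2, div_sub_div _ _ n2 n1, div_div,
      div_eq_div_iff (mul_ne_zero n1 n2) (mul_ne_zero (mul_ne_zero n2 n1) hm0)]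
    subst hb
    ring
  have t2 : q ^ 2 * (1 / (k + 1) + 1 / (l + 1))
      = (1 - (b ^ 2 / (k + 1) + a ^ 2 / (l + 1))) / (m + 1) := by
    rw [h.hka, h.hlb, hq, div_add_div _ _ n1 n2, div_add_div _ _ n1 n2, one_sub_div
      (mul_ne_zero n1 n2), div_div, ← mul_div_assoc,
      div_eq_div_iff (mul_ne_zero n1 n2) (mul_ne_zero (mul_ne_zero n1 n2) hm0)]
    subst hb
    ring
  unfold F0C
  rw [← t2, hc1, hc2, ← hX]
  have t3 : (m + 3 - d ^ 2 + 1 / (m + 1)) * (q * a / (l + 1) - q * b / (k + 1))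
      = (m + 3 - d ^ 2) * (q * a / (l + 1) - q * b / (k + 1))
        + (q * a / (k + 1) - q * b / (l + 1)) := by
    rw [t1]
    ring
  rw [t3]
  ring

end

end Vale.Agent.P224.R2.H925
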