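import Vale.Agent.P224.R2.H925.Lim

/-!
The coefficients of the flow adapted to a Clifford product.
-/

namespace Vale.Agent.P224.R2.H925

open MeasureTheory Set Filter Function Real Vale.Agent.P224.SM2
open scoped Topology

set_option linter.unusedSectionVars false

/-- first coefficients -/
noncomputable def aC (m d : ℝ) (F2 F3 X1 X2 H0 K : ℝ → ℝ) : Fin 4 → ℝ → ℝ :=
  ![fun T => (1 - T ^ 2) * ((F2 T / ((m + 1) * T) - (1 - d ^ 2) / m * X1 T + K T - H0 T) / T)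
      - (1 + T ^ 2) * X1 T / (m * T),
    fun T => -(2 * (1 + T ^ 2) * X2 T / ((m + 1) * T)),
    fun T => (1 - T ^ 2) * F2 T,
    fun T => (1 - T ^ 2) * F3 T]

/-- second coefficients -/
noncomputable def bC (m d : ℝ) (F2 F3 X2 B0 B1 : ℝ → ℝ) : Fin 4 → ℝ → ℝ :=
  ![B0, B1, fun T => -((1 - T ^ 2) * F2 T + 8 * d * X2 T) / (m + 1),
    fun T => -(2 * (1 - T ^ 2) * F3 T) / (m + 2)]

/-- third coefficients -/
noncomputable def cC (m d : ℝ) (F2 F3 X1 X2 H0 : ℝ → ℝ) : Fin 4 → ℝ → ℝ :=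
  ![fun T => 2 * X1 T / m - (1 - T ^ 2) * H0 T,
    fun T => 4 * X2 T / (m + 1)
      - (1 - T ^ 2) * (2 / (m + 1) * (m * F3 T / ((m + 2) * T) - (1 - d ^ 2) * X2 T)),
    fun T => T * (1 - T ^ 2) * F2 T,
    fun T => T * (1 - T ^ 2) * F3 T]

/-- derivative of the first coefficients -/
noncomputable def aC' (m d T : ℝ) (f2 f3 x1 x2 h0 k f2' f3' x1' x2' h0' k' : ℝ) : Fin 4 → ℝ :=
  ![-(2 * T) * ((f2 / ((m + 1) * T) - (1 - d ^ 2) / m * x1 + k - h0) / T)
      + (1 - T ^ 2) * (((f2' / T - f2 / T ^ 2) / (m + 1) - (1 - d ^ 2) / m * x1' + k' - h0') / T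
        - (f2 / ((m + 1) * T) - (1 - d ^ 2) / m * x1 + k - h0) / T ^ 2)
      - 2 * T * x1 / (m * T) - (1 + T ^ 2) * (x1' / T - x1 / T ^ 2) / m,
    -(2 * (2 * T) * x2 / ((m + 1) * T)) - 2 * (1 + T ^ 2) * (x2' / T - x2 / T ^ 2) / (m + 1),
    -(2 * T) * f2 + (1 - T ^ 2) * f2', -(2 * T) * f3 + (1 - T ^ 2) * f3']

/-- derivative of the second coefficients -/
noncomputable def bC' (m d T : ℝ) (f2 f3 f2' f3' x2' b0' b1' : ℝ) : Fin 4 → ℝ :=
  ![b0', b1', -(-(2 * T) * f2 + (1 - T ^ 2) * f2' + 8 * d * x2') / (m + 1),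
    -(2 * (-(2 * T) * f3 + (1 - T ^ 2) * f3')) / (m + 2)]

/-- derivative of the third coefficients -/
noncomputable def cC' (m d T : ℝ) (f2 f3 x2 h0 f2' f3' x1' x2' h0' : ℝ) : Fin 4 → ℝ :=
  ![2 * x1' / m + 2 * T * h0 - (1 - T ^ 2) * h0',
    4 * x2' / (m + 1) + 2 * T * (2 / (m + 1) * (m * f3 / ((m + 2) * T) - (1 - d ^ 2) * x2))
      - (1 - T ^ 2) * (2 / (m + 1) * (m * (f3' / T - f3 / T ^ 2) / (m + 2) - (1 - d ^ 2) * x2')),
    (1 - 3 * T ^ 2) * f2 + T * (1 - T ^ 2) * f2', (1 - 3 * T ^ 2) * f3 + T * (1 - T ^ 2) * f3']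

section

variable {m d T : ℝ} {F2 F3 X1 X2 H0 K B0 B1 : ℝ → ℝ} {f2' f3' x1' x2' h0' k' b0' b1' : ℝ}

lemma hasDerivAt_aC (hT : T ≠ 0) (hm : m ≠ 0) (hn : m + 1 ≠ 0)
    (h2 : HasDerivAt F2 f2' T) (h3 : HasDerivAt F3 f3' T) (hx1 : HasDerivAt X1 x1' T)
    (hx2 : HasDerivAt X2 x2' T) (hh : HasDerivAt H0 h0' T) (hk : HasDerivAt K k' T) (j : Fin 4) :
    HasDerivAt (aC m d F2 F3 X1 X2 H0 K j)
      (aC' m d T (F2 T) (F3 T) (X1 T) (X2 T) (H0 T) (K T) f2' f3' x1' x2' h0' k' j) T := by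
  have hw : HasDerivAt (fun T : ℝ => 1 - T ^ 2) (-(2 * T)) T := by
    simpa using (hasDerivAt_pow 2 T).const_sub 1
  have hw2 : HasDerivAt (fun T : ℝ => 1 + T ^ 2) (2 * T) T := by
    simpa using (hasDerivAt_pow 2 T).const_add 1
  have hid : HasDerivAt (fun T : ℝ => T) 1 T := hasDerivAt_id T
  fin_cases j
  · have q1 := ((((h2.fun_div (hid.const_mul (m + 1)) (mul_ne_zero hn hT)).fun_sub
      (hx1.const_mul ((1 - d ^ 2) / m))).fun_add hk).fun_sub hh).fun_div hid hT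
    have q2 := (hw.fun_mul q1).fun_sub ((hw2.fun_mul hx1).fun_div (hid.const_mul m)
      (mul_ne_zero hm hT))
    refine q2.congr_deriv ?_
    simp only [aC', Fin.zero_eta, Fin.isValue, Matrix.cons_val_zero]
    field_simp
    ring
  · have q := (((hw2.const_mul 2).fun_mul hx2).fun_div (hid.const_mul (m + 1))
      (mul_ne_zero hn hT)).fun_neg
    refine q.congr_deriv ?_
    simp only [aC', Fin.mk_one, Fin.isValue, Matrix.cons_val_one, Matrix.cons_val_zero]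
    field_simp
    ring
  · refine (hw.fun_mul h2).congr_deriv ?_
    simp only [aC', Fin.reduceFinMk, Matrix.cons_val]
  · refine (hw.fun_mul h3).congr_deriv ?_
    simp only [aC', Fin.reduceFinMk, Matrix.cons_val]

lemma hasDerivAt_bC (h2 : HasDerivAt F2 f2' T) (h3 : HasDerivAt F3 f3' T)
    (hx2 : HasDerivAt X2 x2' T) (hb0 : HasDerivAt B0 b0' T) (hb1 : HasDerivAt B1 b1' T)
    (j : Fin 4) :
    HasDerivAt (bC m d F2 F3 X2 B0 B1 j) (bC' m d T (F2 T) (F3 T) f2' f3' x2' b0' b1' j) T := by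
  have hw : HasDerivAt (fun T : ℝ => 1 - T ^ 2) (-(2 * T)) T := by
    simpa using (hasDerivAt_pow 2 T).const_sub 1
  fin_cases j
  · exact hb0
  · exact hb1
  · refine (((hw.fun_mul h2).fun_add (hx2.const_mul (8 * d))).fun_neg.div_const
      (m + 1)).congr_deriv ?_
    simp only [bC', Fin.reduceFinMk, Matrix.cons_val]
  · refine (((hw.const_mul 2).fun_mul h3).fun_neg.div_const (m + 2)).congr_deriv ?_
    simp only [bC', Fin.reduceFinMk, Matrix.cons_val]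
    ring

lemma hasDerivAt_cC (hT : T ≠ 0) (hn2 : m + 2 ≠ 0)
    (h2 : HasDerivAt F2 f2' T) (h3 : HasDerivAt F3 f3' T) (hx1 : HasDerivAt X1 x1' T)
    (hx2 : HasDerivAt X2 x2' T) (hh : HasDerivAt H0 h0' T) (j : Fin 4) :
    HasDerivAt (cC m d F2 F3 X1 X2 H0 j)
      (cC' m d T (F2 T) (F3 T) (X2 T) (H0 T) f2' f3' x1' x2' h0' j) T := by
  have hw : HasDerivAt (fun T : ℝ => 1 - T ^ 2) (-(2 * T)) T := by
    simpa using (hasDerivAt_pow 2 T).const_sub 1
  have hid : HasDerivAt (fun T : ℝ => T) 1 T := hasDerivAt_id T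
  fin_cases j
  · refine (((hx1.const_mul 2).div_const m).fun_sub (hw.fun_mul hh)).congr_deriv ?_
    simp only [cC', Fin.zero_eta, Fin.isValue, Matrix.cons_val_zero]
    ring
  · have q := ((hx2.const_mul 4).div_const (m + 1)).fun_sub (hw.fun_mul
      ((((h3.const_mul m).fun_div (hid.const_mul (m + 2)) (mul_ne_zero hn2 hT)).fun_sub
        (hx2.const_mul (1 - d ^ 2))).const_mul (2 / (m + 1))))
    refine q.congr_deriv ?_
    simp only [cC', Fin.mk_one, Fin.isValue, Matrix.cons_val_one, Matrix.cons_val_zero]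
    field_simp
    ring
  · refine ((hid.fun_mul hw).fun_mul h2).congr_deriv ?_
    simp only [cC', Fin.reduceFinMk, Matrix.cons_val]
    ring
  · refine ((hid.fun_mul hw).fun_mul h3).congr_deriv ?_
    simp only [cC', Fin.reduceFinMk, Matrix.cons_val]
    ring

end

end Vale.Agent.P224.R2.H925
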