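import Vale.Agent.P224.Bdl.B2

/-!
The conformal density of an immersed piece at one of its points, the exact local limit.
-/

namespace Vale.Agent.P224.R2.H925

open MeasureTheory Filter Topology Set Vale.Agent.P224
open scoped RealInnerProductSpace ContDiff ENNReal

set_option linter.unusedSectionVars false

/-- a dominating function -/
lemma lint_bound {m : ℕ} (hm : 0 < m) {c : ℝ} (hc : 0 < c) (C : ℝ) :
    ∫⁻ z : EuclideanSpace ℝ (Fin m), ENNReal.ofReal ((2 / (1 + (c * ‖z‖) ^ 2)) ^ m * C) ≠ ⊤ := by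
  have h1 := lint_linear (m := m) (n := m) hm (c • ContinuousLinearMap.id ℝ _) (by
    intro x y hxy
    simp only [_root_.smul_apply, ContinuousLinearMap.id_apply] at hxy
    exact smul_right_injective _ hc.ne' hxy)
  have h2 : ∀ z : EuclideanSpace ℝ (Fin m), ENNReal.ofReal ((2 / (1 + (c * ‖z‖) ^ 2)) ^ m * C)
      = ENNReal.ofReal ((2 / (1 + (c * ‖z‖) ^ 2)) ^ m) * ENNReal.ofReal C := fun z => by
    rw [ENNReal.ofReal_mul (by positivity)]
  set S := Real.sqrt (Matrix.det (Matrix.of fun i j =>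
        ⟪(c • ContinuousLinearMap.id ℝ (EuclideanSpace ℝ (Fin m))) (EuclideanSpace.single i 1),
          (c • ContinuousLinearMap.id ℝ (EuclideanSpace ℝ (Fin m))) (EuclideanSpace.single j 1)⟫))
    with hS
  have h3 : ∀ z : EuclideanSpace ℝ (Fin m), ENNReal.ofReal ((2 / (1 +
      ‖(c • ContinuousLinearMap.id ℝ (EuclideanSpace ℝ (Fin m))) z‖ ^ 2)) ^ m * S)
      = ENNReal.ofReal ((2 / (1 + (c * ‖z‖) ^ 2)) ^ m) * ENNReal.ofReal S := fun z => by
    rw [ENNReal.ofReal_mul (by positivity)]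
    simp only [_root_.smul_apply, ContinuousLinearMap.id_apply, norm_smul, Real.norm_eq_abs,
      abs_of_pos hc]
  have hS0 : ENNReal.ofReal S ≠ 0 := by
    intro h0
    rw [lintegral_congr h3, h0] at h1
    simp only [mul_zero, lintegral_const, zero_mul] at h1
    have hs0 : 0 < sphereVol m := sphereVol_pos' m
    have := (ENNReal.ofReal_eq_zero.1 h1.symm)
    linarith
  rw [lintegral_congr h2, lintegral_mul_const' _ _ ENNReal.ofReal_ne_top]
  rw [lintegral_congr h3, lintegral_mul_const' _ _ ENNReal.ofReal_ne_top] at h1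
  refine ENNReal.mul_ne_top ?_ ENNReal.ofReal_ne_top
  intro h0
  rw [h0, ENNReal.top_mul hS0] at h1
  exact ENNReal.ofReal_ne_top h1.symm

/-- The conformal density of an immersed piece at one of its points: exact local limit. -/
theorem density_local_lim {m n : ℕ} (hm : 0 < m)
    (f : EuclideanSpace ℝ (Fin m) → EuclideanSpace ℝ (Fin n))
    (U : Set (EuclideanSpace ℝ (Fin m))) (hU : IsOpen U) (u₀ : EuclideanSpace ℝ (Fin m))
    (hu : u₀ ∈ U) (hf : ContDiffOn ℝ 1 f U) (hn : ∀ u ∈ U, ‖f u‖ = 1)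
    (hinj : Function.Injective (fderiv ℝ f u₀)) {δ : ℝ} (hδ : 0 < δ)
    (hsub : Metric.ball u₀ δ ⊆ U) {c C : ℝ} (hc0 : 0 < c)
    (hlow : ∀ u ∈ Metric.ball u₀ δ, c * ‖u - u₀‖ ≤ ‖f u - f u₀‖)
    (hDle : ∀ u ∈ Metric.ball u₀ δ, Real.sqrt (Matrix.det (Matrix.of fun i j =>
      ⟪fderiv ℝ f u (EuclideanSpace.single i 1), fderiv ℝ f u (EuclideanSpace.single j 1)⟫)) ≤ C) :
    Tendsto (fun φ => ∫⁻ u in Metric.ball u₀ δ,
        ENNReal.ofReal (Real.cos φ ^ m / (1 - Real.sin φ * ⟪f u, f u₀⟫) ^ m *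
          Real.sqrt (Matrix.det (Matrix.of fun i j => ⟪fderiv ℝ f u (EuclideanSpace.single i 1),
            fderiv ℝ f u (EuclideanSpace.single j 1)⟫))))
      (nhdsWithin (Real.pi / 2) (Set.Iio (Real.pi / 2))) (𝓝 (ENNReal.ofReal (sphereVol m))) := by
  set L := fderiv ℝ f u₀ with hL
  set D : EuclideanSpace ℝ (Fin m) → ℝ := fun u => Real.sqrt (Matrix.det (Matrix.of fun i j =>
    ⟪fderiv ℝ f u (EuclideanSpace.single i 1), fderiv ℝ f u (EuclideanSpace.single j 1)⟫)) with hD
  set g : ℝ → EuclideanSpace ℝ (Fin m) → ℝ≥0∞ := fun φ u =>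
    ENNReal.ofReal (Real.cos φ ^ m / (1 - Real.sin φ * ⟪f u, f u₀⟫) ^ m * D u) with hg
  set cc : ℝ → ℝ := fun φ => Real.sqrt (2 * (1 - Real.sin φ)) with hcc
  set K : ℝ → EuclideanSpace ℝ (Fin m) → ℝ≥0∞ := fun φ z =>
    ENNReal.ofReal (cc φ ^ m) * (Metric.ball u₀ δ).indicator (g φ) (u₀ + cc φ • z) with hK
  have hfc : ContinuousOn f (Metric.ball u₀ δ) := (hf.continuousOn).mono hsub
  have hfdc : ContinuousOn (fderiv ℝ f) U := by
    have := hf.fderiv_of_isOpen (m := 0) hU (by norm_num)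
    exact this.continuousOn
  have hDc : ContinuousOn D U := by
    apply Continuous.comp_continuousOn Real.continuous_sqrt
    apply (continuous_id.matrix_det).comp_continuousOn
    apply continuousOn_mat
    intro i j
    exact (hfdc.clm_apply continuousOn_const).inner (𝕜 := ℝ) (hfdc.clm_apply continuousOn_const)
  -- measurability
  have hmeas : ∀ φ, AEMeasurable (K φ) volume := by
    intro φ
    have h1 : AEMeasurable ((Metric.ball u₀ δ).indicator (g φ)) volume := by
      rw [aemeasurable_indicator_iff Metric.isOpen_ball.measurableSet]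
      apply ENNReal.measurable_ofReal.comp_aemeasurable
      apply AEMeasurable.mul
      · apply AEMeasurable.div aemeasurable_const
        apply AEMeasurable.pow_const
        have h2 : ContinuousOn (fun u => 1 - Real.sin φ * ⟪f u, f u₀⟫) (Metric.ball u₀ δ) :=
          continuousOn_const.sub (continuousOn_const.mul (hfc.inner (𝕜 := ℝ) continuousOn_const))
        exact h2.aemeasurable Metric.isOpen_ball.measurableSet
      · exact (hDc.mono hsub).aemeasurable Metric.isOpen_ball.measurableSet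
    by_cases hc : cc φ = 0
    · have : K φ = fun _ => ENNReal.ofReal (cc φ ^ m) *
          (Metric.ball u₀ δ).indicator (g φ) u₀ := by
        funext z
        simp only [hK, hc, zero_smul, add_zero]
      rw [this]
      exact aemeasurable_const
    · apply AEMeasurable.const_mul
      have hmap := Measure.map_addHaar_smul (volume : Measure (EuclideanSpace ℝ (Fin m))) hc
      have hq1 : Measure.QuasiMeasurePreserving (fun z : EuclideanSpace ℝ (Fin m) => cc φ • z)
          volume volume := by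
        refine ⟨by (clear * -; fun_prop), ?_⟩
        rw [hmap]
        exact Measure.smul_absolutelyContinuous
      have hq2 : Measure.QuasiMeasurePreserving (fun z : EuclideanSpace ℝ (Fin m) => u₀ + z)
          volume volume := (measurePreserving_add_left volume u₀).quasiMeasurePreserving
      exact h1.comp_quasiMeasurePreserving (hq2.comp hq1)
  -- pointwise limits
  have hsin : ∀ᶠ φ in nhdsWithin (Real.pi / 2) (Set.Iio (Real.pi / 2)),
      0 < Real.sin φ ∧ Real.sin φ < 1 ∧ 0 < Real.cos φ := by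
    have h1 : ∀ᶠ φ in nhdsWithin (Real.pi / 2) (Set.Iio (Real.pi / 2)), 0 < φ :=
      nhdsWithin_le_nhds (lt_mem_nhds (by have := Real.pi_pos; linarith only [this]))
    filter_upwards [h1, self_mem_nhdsWithin] with φ hp1 hp2
    have hp2' : φ < Real.pi / 2 := hp2
    have hcos : 0 < Real.cos φ := Real.cos_pos_of_mem_Ioo ⟨by linarith only [hp1, hp2'], hp2'⟩
    refine ⟨Real.sin_pos_of_pos_of_lt_pi hp1 (by linarith only [hp1, hp2']), ?_, hcos⟩
    have := Real.sin_sq_add_cos_sq φ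
    nlinarith only [this, hcos]
  have hsint : Tendsto Real.sin (nhdsWithin (Real.pi / 2) (Set.Iio (Real.pi / 2))) (𝓝 1) := by
    have := (Real.continuous_sin.tendsto (Real.pi / 2)).mono_left
      (nhdsWithin_le_nhds (s := Set.Iio (Real.pi / 2)))
    rwa [Real.sin_pi_div_two] at this
  have hcct : Tendsto cc (nhdsWithin (Real.pi / 2) (Set.Iio (Real.pi / 2))) (𝓝 0) := by
    have h1 : Tendsto (fun φ => Real.sqrt (2 * (1 - Real.sin φ)))
        (nhdsWithin (Real.pi / 2) (Set.Iio (Real.pi / 2))) (𝓝 (Real.sqrt (2 * (1 - 1)))) :=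
      (Real.continuous_sqrt.tendsto _).comp ((hsint.const_sub 1).const_mul 2)
    have h0 : Real.sqrt (2 * (1 - 1)) = 0 := by norm_num
    rw [h0] at h1
    exact h1
  have hccpos : ∀ᶠ φ in nhdsWithin (Real.pi / 2) (Set.Iio (Real.pi / 2)), 0 < cc φ := by
    filter_upwards [hsin] with φ hφ
    exact Real.sqrt_pos.mpr (by linarith only [hφ])
  have hfd : HasFDerivAt f L u₀ :=
    ((hf.differentiableOn (by norm_num)).differentiableAt (hU.mem_nhds hu)).hasFDerivAt
  have hlim : ∀ z, Tendsto (fun φ => K φ z) (nhdsWithin (Real.pi / 2) (Set.Iio (Real.pi / 2)))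
      (𝓝 (ENNReal.ofReal ((2 / (1 + ‖L z‖ ^ 2)) ^ m * D u₀))) := by
    intro z
    have hu' : Tendsto (fun φ => u₀ + cc φ • z) (nhdsWithin (Real.pi / 2) (Set.Iio (Real.pi / 2)))
        (𝓝 u₀) := by
      have := (tendsto_const_nhds (x := u₀)).add (hcct.smul_const z)
      simpa only [zero_smul, add_zero] using this
    have hball : ∀ᶠ φ in nhdsWithin (Real.pi / 2) (Set.Iio (Real.pi / 2)),
        u₀ + cc φ • z ∈ Metric.ball u₀ δ := hu'.eventually (Metric.ball_mem_nhds u₀ hδ)
    have hquot : Tendsto (fun φ => (cc φ)⁻¹ • (f (u₀ + cc φ • z) - f u₀))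
        (nhdsWithin (Real.pi / 2) (Set.Iio (Real.pi / 2))) (𝓝 (L z)) := by
      have hne : ∀ᶠ φ in nhdsWithin (Real.pi / 2) (Set.Iio (Real.pi / 2)), cc φ ≠ 0 :=
        hccpos.mono fun φ h => h.ne'
      have h2 : Tendsto (fun φ => (cc φ)⁻¹ • (f (u₀ + cc φ • z) - f u₀))
          (nhdsWithin (Real.pi / 2) (Set.Iio (Real.pi / 2))) (𝓝 (L z)) := by
        have hder : HasDerivAt (fun t : ℝ => f (u₀ + t • z)) (L z) 0 := by
          have h3 : HasDerivAt (fun t : ℝ => u₀ + t • z) z 0 := by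
            have := ((hasDerivAt_id (0 : ℝ)).smul_const z).const_add u₀
            simpa using this
          have h4 : HasFDerivAt f L (u₀ + (0 : ℝ) • z) := by simpa only [zero_smul, add_zero] using hfd
          exact h4.comp_hasDerivAt 0 h3
        have h5 := hder.tendsto_slope_zero
        simp only [zero_add, zero_smul, add_zero] at h5
        have h6 : Tendsto cc (nhdsWithin (Real.pi / 2) (Set.Iio (Real.pi / 2)))
            (nhdsWithin 0 {0}ᶜ) := tendsto_nhdsWithin_iff.mpr ⟨hcct, hne⟩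
        exact h5.comp h6
      exact h2
    have hreal : Tendsto (fun φ => (2 * (1 + Real.sin φ)) ^ ((m : ℝ) / 2) /
        (1 + Real.sin φ * ‖(cc φ)⁻¹ • (f (u₀ + cc φ • z) - f u₀)‖ ^ 2) ^ m *
        D (u₀ + cc φ • z)) (nhdsWithin (Real.pi / 2) (Set.Iio (Real.pi / 2)))
        (𝓝 ((2 * (1 + 1)) ^ ((m : ℝ) / 2) / (1 + 1 * ‖L z‖ ^ 2) ^ m * D u₀)) := by
      apply Tendsto.mul
      · apply Tendsto.div
        · exact ((hsint.const_add 1).const_mul 2).rpow_const (Or.inl (by norm_num))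
        · exact ((hsint.mul (hquot.norm.pow 2)).const_add 1).pow m
        · (clear * -; positivity)
      · exact ((hDc.continuousAt (hU.mem_nhds hu)).tendsto).comp hu'
    have hval : (2 * (1 + 1) : ℝ) ^ ((m : ℝ) / 2) / (1 + 1 * ‖L z‖ ^ 2) ^ m * D u₀
        = (2 / (1 + ‖L z‖ ^ 2)) ^ m * D u₀ := by
      have : (2 * (1 + 1) : ℝ) ^ ((m : ℝ) / 2) = 2 ^ m := by
        rw [show (2 * (1 + 1) : ℝ) = 2 ^ (2 : ℝ) by norm_num, ← Real.rpow_mul (by norm_num)]
        rw [show (2 : ℝ) * ((m : ℝ) / 2) = m by ring, Real.rpow_natCast]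
      rw [this, one_mul, div_pow]
    rw [hval] at hreal
    refine (ENNReal.tendsto_ofReal hreal).congr' ?_
    filter_upwards [hsin, hball, hccpos] with φ hφ hb hc
    simp only [hK]
    rw [indicator_of_mem hb]
    simp only [hg]
    rw [← ENNReal.ofReal_mul (pow_nonneg hc.le m), ← mul_assoc]
    congr 2
    -- algebra
    set κ : ℝ := 1 - Real.sin φ with hκ
    have hκ0 : 0 < κ := by rw [hκ]; linarith only [hφ]
    have hc2 : cc φ ^ 2 = 2 * κ := Real.sq_sqrt (by (clear * - hκ0; positivity))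
    have hcos2 : Real.cos φ ^ 2 = κ * (1 + Real.sin φ) := by
      rw [hκ]
      have := Real.sin_sq_add_cos_sq φ
      linear_combination this
    have hs : 1 - Real.sin φ * ⟪f (u₀ + cc φ • z), f u₀⟫ = κ * (1 + Real.sin φ *
        ‖(cc φ)⁻¹ • (f (u₀ + cc φ • z) - f u₀)‖ ^ 2) := by
      rw [norm_smul, mul_pow, norm_inv, Real.norm_eq_abs, inv_pow, sq_abs, hc2,
        @norm_sub_sq ℝ, hn _ (hsub hb), hn _ hu]
      simp only [RCLike.re_to_real]
      rw [hκ] at hκ0 ⊢
      field_simp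
      ring
    rw [hs, mul_pow]
    have h7 : (2 * (1 + Real.sin φ)) ^ ((m : ℝ) / 2) = cc φ ^ m * Real.cos φ ^ m / κ ^ m := by
      have h8 : 2 * (1 + Real.sin φ) = (cc φ * Real.cos φ / κ) ^ (2 : ℝ) := by
        rw [Real.rpow_two, div_pow, mul_pow, hc2, hcos2]
        (clear * - hκ0; field_simp)
      rw [h8, ← Real.rpow_mul (div_nonneg (mul_nonneg hc.le hφ.2.2.le) hκ0.le),
        show (2 : ℝ) * ((m : ℝ) / 2) = m by ring,
        Real.rpow_natCast, div_pow, mul_pow]
    rw [h7]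
    (clear * - hκ0 hc; field_simp)
  -- domination
  have hev2 : ∀ᶠ φ in nhdsWithin (Real.pi / 2) (Set.Iio (Real.pi / 2)), 1 / 2 ≤ Real.sin φ :=
    (hsint.eventually (lt_mem_nhds (by norm_num : (1 / 2 : ℝ) < 1))).mono fun φ h => h.le
  set c' : ℝ := c * Real.sqrt (1 / 2) with hc'
  have hc'0 : 0 < c' := mul_pos hc0 (Real.sqrt_pos.2 (by norm_num))
  have hc'2 : c' ^ 2 = c ^ 2 / 2 := by
    rw [hc', mul_pow, Real.sq_sqrt (by norm_num)]
    ring
  have hbound : ∀ᶠ φ in nhdsWithin (Real.pi / 2) (Set.Iio (Real.pi / 2)), ∀ᵐ z, K φ z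
      ≤ ENNReal.ofReal ((2 / (1 + (c' * ‖z‖) ^ 2)) ^ m * C) := by
    filter_upwards [hsin, hccpos, hev2] with φ hφ hc h12
    refine Eventually.of_forall fun z => ?_
    by_cases hb : u₀ + cc φ • z ∈ Metric.ball u₀ δ
    swap
    · simp only [hK]
      rw [indicator_of_notMem hb, mul_zero]
      exact zero_le
    simp only [hK]
    rw [indicator_of_mem hb]
    simp only [hg]
    rw [← ENNReal.ofReal_mul (pow_nonneg hc.le m), ← mul_assoc]
    refine ENNReal.ofReal_le_ofReal ?_
    set κ : ℝ := 1 - Real.sin φ with hκ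
    have hκ0 : 0 < κ := by rw [hκ]; linarith only [hφ]
    have hc2 : cc φ ^ 2 = 2 * κ := Real.sq_sqrt (by positivity)
    have hcos2 : Real.cos φ ^ 2 = κ * (1 + Real.sin φ) := by
      rw [hκ]
      have := Real.sin_sq_add_cos_sq φ
      linear_combination this
    have hs : 1 - Real.sin φ * ⟪f (u₀ + cc φ • z), f u₀⟫ = κ * (1 + Real.sin φ *
        ‖(cc φ)⁻¹ • (f (u₀ + cc φ • z) - f u₀)‖ ^ 2) := by
      rw [norm_smul, mul_pow, norm_inv, Real.norm_eq_abs, inv_pow, sq_abs, hc2,
        @norm_sub_sq ℝ, hn _ (hsub hb), hn _ hu]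
      simp only [RCLike.re_to_real]
      rw [hκ] at hκ0 ⊢
      field_simp
      ring
    set y := ‖(cc φ)⁻¹ • (f (u₀ + cc φ • z) - f u₀)‖ with hy
    have hy0 : c * ‖z‖ ≤ y := by
      have h1 := hlow _ hb
      rw [add_sub_cancel_left, norm_smul, Real.norm_eq_abs, abs_of_pos hc] at h1
      rw [hy, norm_smul, norm_inv, Real.norm_eq_abs, abs_of_pos hc]
      rw [le_inv_mul_iff₀ hc]
      linarith
    have hD0 : 0 ≤ D (u₀ + cc φ • z) := Real.sqrt_nonneg _
    have hDC : D (u₀ + cc φ • z) ≤ C := hDle _ hb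
    have hz0 := norm_nonneg z
    have e1 : cc φ ^ m * (Real.cos φ ^ m / (1 - Real.sin φ * ⟪f (u₀ + cc φ • z), f u₀⟫) ^ m)
        = (cc φ * Real.cos φ / κ / (1 + Real.sin φ * y ^ 2)) ^ m := by
      rw [hs, mul_pow, div_pow, div_pow, mul_pow]
      field_simp
    rw [e1]
    have h2 : cc φ * Real.cos φ / κ ≤ 2 := by
      rw [div_le_iff₀ hκ0]
      have h3 : (cc φ * Real.cos φ) ^ 2 ≤ (2 * κ) ^ 2 := by
        rw [mul_pow, hc2, hcos2]
        have : Real.sin φ ≤ 1 := hφ.2.1.le
        nlinarith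
      exact (abs_le_of_sq_le_sq' h3 (by positivity)).2
    have h4 : 1 + (c' * ‖z‖) ^ 2 ≤ 1 + Real.sin φ * y ^ 2 := by
      rw [mul_pow, hc'2]
      have h5 : (c * ‖z‖) ^ 2 ≤ y ^ 2 := pow_le_pow_left₀ (by positivity) hy0 2
      have h6 : 0 ≤ y ^ 2 := sq_nonneg _
      nlinarith
    have h7 : cc φ * Real.cos φ / κ / (1 + Real.sin φ * y ^ 2) ≤ 2 / (1 + (c' * ‖z‖) ^ 2) :=
      div_le_div₀ (by norm_num) h2 (by positivity) h4
    have h8 : 0 ≤ cc φ * Real.cos φ / κ / (1 + Real.sin φ * y ^ 2) := by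
      have := hφ.1
      have := hφ.2.2
      positivity
    exact mul_le_mul (pow_le_pow_left₀ h8 h7 m) hDC hD0 (by positivity)
  have hdom := tendsto_lintegral_filter_of_dominated_convergence'
    (μ := (volume : Measure (EuclideanSpace ℝ (Fin m))))
    (fun z => ENNReal.ofReal ((2 / (1 + (c' * ‖z‖) ^ 2)) ^ m * C))
    (Eventually.of_forall hmeas) hbound (lint_bound hm hc'0 C) (Eventually.of_forall hlim)
  rw [lint_linear hm L hinj] at hdom
  refine hdom.congr' ?_
  filter_upwards [hccpos] with φ hc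
  rw [← lintegral_indicator Metric.isOpen_ball.measurableSet]
  rw [lint_scale u₀ hc ((Metric.ball u₀ δ).indicator (g φ)),
    ← lintegral_const_mul' _ _ ENNReal.ofReal_ne_top]

end Vale.Agent.P224.R2.H925
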