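import Vale.Agent.P224.R2.H925.Dens

/-!
The conformal volume of an embedded hypersurface at one of its points tends to the volume of the
unit sphere.
-/

namespace Vale.Agent.P224.R2.H925

open MeasureTheory Filter Topology Set Module Vale.Agent.P224 Vale.Agent.P224.FV
open scoped RealInnerProductSpace ContDiff ENNReal Manifold

set_option linter.unusedSectionVars false

section

variable {V W M : Type*} [NormedAddCommGroup V] [InnerProductSpace ℝ V] [FiniteDimensional ℝ V]
  [NormedAddCommGroup W] [InnerProductSpace ℝ W] [FiniteDimensional ℝ W]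
  [TopologicalSpace M] [ChartedSpace V M] {F : M → W}
  [MeasurableSpace V] [BorelSpace V] [MeasurableSpace M] [BorelSpace M]
  [IsManifold 𝓘(ℝ, V) ∞ M]

/-- lower bound of the chord -/
lemma chord_lower {E G : Type*} [NormedAddCommGroup E] [NormedSpace ℝ E] [FiniteDimensional ℝ E]
    [NormedAddCommGroup G] [NormedSpace ℝ G] {f : E → G} {u₀ : E} {L : E →L[ℝ] G}
    (hf : HasFDerivAt f L u₀) (hinj : Function.Injective L) :
    ∃ c : ℝ, 0 < c ∧ ∀ᶠ u in 𝓝 u₀, c * ‖u - u₀‖ ≤ ‖f u - f u₀‖ := by
  obtain ⟨K, hK0, hK⟩ := L.exists_antilipschitzWith (LinearMap.ker_eq_bot.2 hinj)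
  have hK0' : (0 : ℝ) < K := hK0
  have hKi : (0 : ℝ) < (K : ℝ)⁻¹ := inv_pos.2 hK0'
  refine ⟨(K : ℝ)⁻¹ / 2, by positivity, ?_⟩
  have h1 := hf.isLittleO.def (c := (K : ℝ)⁻¹ / 2) (by positivity)
  filter_upwards [h1] with u hu
  have h2 : ‖u - u₀‖ ≤ K * ‖L (u - u₀)‖ := by
    have := hK.le_mul_dist (u - u₀) 0
    simpa only [dist_zero_right, map_zero, sub_zero, ContinuousLinearMap.coe_coe] using this
  have h3 : (K : ℝ)⁻¹ * ‖u - u₀‖ ≤ ‖L (u - u₀)‖ := by
    rw [inv_mul_le_iff₀ hK0']
    exact h2
  have h4 : ‖L (u - u₀)‖ ≤ ‖f u - f u₀‖ + ‖f u - f u₀ - L (u - u₀)‖ := by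
    have := norm_sub_le (f u - f u₀) (f u - f u₀ - L (u - u₀))
    rwa [sub_sub_cancel] at this
  linarith

/-- the conformal volume of a small piece around a point -/
theorem piece_lim (hm : 0 < finrank ℝ V) (hW : finrank ℝ W = finrank ℝ V + 2)
    (hF : SphImm V F) (p : M) :
    ∃ N : Set M, IsOpen N ∧ p ∈ N ∧
      Tendsto (fun φ => ∫⁻ x in N, ENNReal.ofReal ((Real.cos φ / (1 - ⟪F x, F p⟫ * Real.sin φ))
        ^ (finrank ℝ V)) ∂(volM V F)) (𝓝[<] (Real.pi / 2))
        (𝓝 (ENNReal.ofReal (sphereVol (finrank ℝ V)))) := by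
  set χ := chartAt V p with hχ
  have hps := mem_chart_source V p
  have hut : χ p ∈ χ.target := χ.map_source hps
  have hI' := (immV_rep hF p).imm hW
  set f := tr hW (rep (V := V) F p) with hf
  set U : Set (EuclideanSpace ℝ (Fin (finrank ℝ V))) := (iV V).symm ⁻¹' χ.target with hU
  have hmem : iV V (χ p) ∈ U := by
    rw [hU, mem_preimage, (iV V).symm_apply_apply]; exact hut
  have hf1 : ContDiffOn ℝ 1 f U := hI'.smooth.of_le (by norm_cast)
  have hfd : HasFDerivAt f (fderiv ℝ f (iV V (χ p))) (iV V (χ p)) :=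
    ((hf1.differentiableOn (by norm_num)).differentiableAt (hI'.isOpen.mem_nhds hmem)).hasFDerivAt
  obtain ⟨c, hc0, hc⟩ := chord_lower hfd (hI'.inj _ hmem)
  set D : EuclideanSpace ℝ (Fin (finrank ℝ V)) → ℝ := fun u =>
    Real.sqrt (Matrix.det (Matrix.of fun i j => ⟪fderiv ℝ f u (EuclideanSpace.single i 1),
      fderiv ℝ f u (EuclideanSpace.single j 1)⟫)) with hD
  have hfdc : ContinuousOn (fderiv ℝ f) U :=
    (hf1.fderiv_of_isOpen (m := 0) hI'.isOpen (by norm_num)).continuousOn
  have hDc : ContinuousOn D U := by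
    apply Continuous.comp_continuousOn Real.continuous_sqrt
    apply (continuous_id.matrix_det).comp_continuousOn
    apply continuousOn_mat
    intro i j
    exact (hfdc.clm_apply continuousOn_const).inner (𝕜 := ℝ) (hfdc.clm_apply continuousOn_const)
  have hD1 : ∀ᶠ u in 𝓝 (iV V (χ p)), D u ≤ D (iV V (χ p)) + 1 :=
    ((hDc.continuousAt (hI'.isOpen.mem_nhds hmem)).eventually
      (gt_mem_nhds (lt_add_one _))).mono fun u h => h.le
  obtain ⟨δ, hδ, hball⟩ := Metric.eventually_nhds_iff_ball.1
    ((hc.and hD1).and (hI'.isOpen.eventually_mem hmem))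
  have hsub : Metric.ball (iV V (χ p)) δ ⊆ U := fun u hu => (hball u hu).2
  have hd := density_local_lim hm f U hI'.isOpen (iV V (χ p)) hmem hf1 hI'.unit
    (hI'.inj _ hmem) hδ hsub hc0 (fun u hu => (hball u hu).1.1)
    (C := D (iV V (χ p)) + 1) (fun u hu => (hball u hu).1.2)
  set N : Set M := χ.source ∩ χ ⁻¹' (Metric.ball (χ p) δ) with hN
  have hNo : IsOpen N := χ.isOpen_inter_preimage Metric.isOpen_ball
  refine ⟨N, hNo, ⟨hps, Metric.mem_ball_self hδ⟩, ?_⟩
  refine hd.congr fun φ => ?_
  have hNm := hNo.measurableSet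
  set K : M → ℝ≥0∞ := fun x =>
    ENNReal.ofReal ((Real.cos φ / (1 - ⟪F x, F p⟫ * Real.sin φ)) ^ (finrank ℝ V)) with hK
  have hKm : Measurable K := by
    have hFc : Continuous F := hF.1.continuous
    exact ENNReal.measurable_ofReal.comp ((measurable_const.div
      (measurable_const.sub ((hFc.inner continuous_const).measurable.mul_const _))).pow_const _)
  have h1 : ∫⁻ x in N, K x ∂(volM V F) = ∫⁻ x in N, K x ∂(chartMeas (V := V) F p) := by
    rw [← volM_restrict_source hF p, Measure.restrict_restrict hNm,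
      inter_eq_self_of_subset_left (inter_subset_left : N ⊆ χ.source)]
  rw [h1, ← lintegral_indicator hNm]
  have hTm := χ.open_target.measurableSet
  unfold chartMeas
  rw [lintegral_map' (hKm.indicator hNm).aemeasurable
      (χ.continuousOn_symm.aemeasurable hTm), restrict_withDensity hTm,
      lintegral_withDensity_eq_lintegral_mul₀]
  · have hbt : Metric.ball (χ p) δ ⊆ χ.target := by
      intro u hu
      have h2 : iV V u ∈ Metric.ball (iV V (χ p)) δ := by
        rw [Metric.mem_ball] at hu ⊢
        rwa [(iV V).dist_map]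
      have h3 := hsub h2
      rw [hU, mem_preimage, (iV V).symm_apply_apply] at h3
      exact h3
    have h2 : ∫⁻ u in χ.target, ((fun u : V =>
        ENNReal.ofReal (Real.sqrt (metricMat (rep F p) u).det)) *
          fun a => N.indicator K (χ.symm a)) u
        = ∫⁻ u in Metric.ball (χ p) δ, ((fun u : V =>
        ENNReal.ofReal (Real.sqrt (metricMat (rep F p) u).det)) *
          fun a => K (χ.symm a)) u := by
      rw [← lintegral_indicator hTm, ← lintegral_indicator measurableSet_ball]
      refine lintegral_congr fun u => ?_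
      by_cases hu : u ∈ Metric.ball (χ p) δ
      · rw [indicator_of_mem (hbt hu), indicator_of_mem hu, Pi.mul_apply, Pi.mul_apply,
          indicator_of_mem]
        refine ⟨χ.map_target (hbt hu), ?_⟩
        rw [mem_preimage, χ.right_inv (hbt hu)]
        exact hu
      · rw [indicator_of_notMem hu]
        by_cases hu2 : u ∈ χ.target
        · rw [indicator_of_mem hu2, Pi.mul_apply, indicator_of_notMem, mul_zero]
          rintro ⟨-, h4⟩
          rw [mem_preimage, χ.right_inv hu2] at h4
          exact hu h4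
        · rw [indicator_of_notMem hu2]
    rw [h2]
    have hmp : MeasurePreserving (iV V) := (iV V).measurePreserving
    have hme : MeasurableEmbedding (iV V) := (iV V).toHomeomorph.measurableEmbedding
    have hpre : (iV V) ⁻¹' (Metric.ball (iV V (χ p)) δ) = Metric.ball (χ p) δ := by
      ext u
      rw [mem_preimage, Metric.mem_ball, Metric.mem_ball, (iV V).dist_map]
    rw [← hmp.setLIntegral_comp_preimage_emb hme, hpre]
    refine lintegral_congr fun u => ?_
    rw [Pi.mul_apply]
    have e1 : f (iV V u) = iW hW (F (χ.symm u)) := by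
      rw [hf]
      unfold tr rep
      rw [(iV V).symm_apply_apply]
    have e2 : f (iV V (χ p)) = iW hW (F p) := by
      rw [hf]
      unfold tr rep
      rw [(iV V).symm_apply_apply, χ.left_inv hps]
    have e3 : (Matrix.of fun i j => ⟪fderiv ℝ f (iV V u)
        (EuclideanSpace.single i 1), fderiv ℝ f (iV V u)
        (EuclideanSpace.single j 1)⟫) = metricMat (rep F p) u := by
      rw [← G_tr hW (rep F p) u]
      rfl
    rw [e1, e2, e3, (iW hW).inner_map_map, hK]
    beta_reduce
    rw [mul_comm (Real.cos φ ^ finrank ℝ V / _), ENNReal.ofReal_mul (Real.sqrt_nonneg _),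
      div_pow, mul_comm (Real.sin φ)]
  · exact ((measurable_rep_det hF p).aemeasurable hTm).ennreal_ofReal
  · exact (hKm.indicator hNm).comp_aemeasurable (χ.continuousOn_symm.aemeasurable hTm)

end

end Vale.Agent.P224.R2.H925
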