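import Vale.Agent.P224.R2.H925.Dens2

/-!
The limits of the one point and two point conformal volumes of an embedded hypersurface.
-/

namespace Vale.Agent.P224.R2.H925

open MeasureTheory Filter Topology Set Module Function Real Vale.Agent.P224 Vale.Agent.P224.FV
open scoped RealInnerProductSpace ContDiff ENNReal Manifold

set_option linter.unusedSectionVars false

section

variable {V W M : Type*} [NormedAddCommGroup V] [InnerProductSpace ℝ V] [FiniteDimensional ℝ V]
  [NormedAddCommGroup W] [InnerProductSpace ℝ W] [FiniteDimensional ℝ W]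
  [TopologicalSpace M] [ChartedSpace V M] {F : M → W}
  [MeasurableSpace V] [BorelSpace V] [MeasurableSpace M] [BorelSpace M]
  [IsManifold 𝓘(ℝ, V) ∞ M] [CompactSpace M]

lemma Ioo_half : ∀ᶠ φ : ℝ in 𝓝[<] (π / 2), φ ∈ Ioo 0 (π / 2) :=
  Ioo_mem_nhdsLT (by have := pi_pos; linarith)

lemma tendsto_cos_half : Tendsto cos (𝓝[<] (π / 2)) (𝓝 0) := by
  have := (continuous_cos.tendsto (π / 2)).mono_left (nhdsWithin_le_nhds (s := Iio (π / 2)))
  rwa [cos_pi_div_two] at this

/-- **the conformal density is one**: the conformal volume of an embedded compact hypersurface of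
the sphere at one of its points tends to the volume of the unit sphere -/
theorem V1_lim (hm : 0 < finrank ℝ V) (hW : finrank ℝ W = finrank ℝ V + 2)
    (hF : SphImm V F) (hinj : Injective F) (z : M) :
    Tendsto (fun φ => V1 (volM V F) (finrank ℝ V) F z φ) (𝓝[<] (π / 2))
      (𝓝 (sphereVol (finrank ℝ V))) := by
  have hfin : IsFiniteMeasure (volM V F) := isFiniteMeasure_volM hF
  have hFc : Continuous F := hF.smooth.continuous
  obtain ⟨N, hNo, hzN, hN⟩ := piece_lim hm hW hF z
  -- the far part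
  obtain ⟨η, hη0, hη1, hη⟩ : ∃ η : ℝ, 0 < η ∧ η ≤ 1 ∧ ∀ x ∉ N, ⟪F x, F z⟫ ≤ 1 - η := by
    by_cases hne : (Nᶜ).Nonempty
    · have hK : IsCompact (Nᶜ) := hNo.isClosed_compl.isCompact
      obtain ⟨x0, hx0, hmax⟩ := hK.exists_isMaxOn hne
        (f := fun x => ⟪F x, F z⟫) (hFc.inner continuous_const).continuousOn
      have hlt : ⟪F x0, F z⟫ < 1 := by
        have h1 : F x0 ≠ F z := fun h => hx0 (by rw [hinj h]; exact hzN)
        exact (inner_lt_one_iff_real_of_norm_eq_one (hF.unit x0) (hF.unit z)).2 h1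
      refine ⟨min (1 - ⟪F x0, F z⟫) 1, lt_min (by linarith) one_pos, min_le_right _ _, ?_⟩
      intro x hx
      have h2 : ⟪F x, F z⟫ ≤ ⟪F x0, F z⟫ := hmax hx
      have h3 := min_le_left (1 - ⟪F x0, F z⟫) 1
      linarith
    · refine ⟨1, one_pos, le_rfl, fun x hx => ?_⟩
      exact absurd ⟨x, hx⟩ hne
  have hcf : ∀ φ ∈ Ioo 0 (π / 2), ∀ x, 0 ≤ cf φ ⟪F x, F z⟫ := by
    intro φ hφ x
    have h1 := den_pos (φ := φ) (s := ⟪F x, F z⟫) ⟨by linarith [hφ.1, pi_pos], hφ.2⟩
      (by have := abs_real_inner_le_norm (F x) (F z); rwa [hF.unit, hF.unit, one_mul] at this)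
    have h2 := cos_pos_of_mem_Ioo ⟨by linarith [hφ.1, pi_pos], hφ.2⟩
    unfold cf
    positivity
  have hcont : ∀ φ ∈ Ioo 0 (π / 2), Continuous fun x => cf φ ⟪F x, F z⟫ ^ (finrank ℝ V) := by
    intro φ hφ
    unfold cf
    refine ((continuous_const).div (continuous_const.sub ((hFc.inner continuous_const).mul
      continuous_const)) fun x => ?_).pow _
    exact (den_pos (φ := φ) (s := ⟪F x, F z⟫) ⟨by linarith [hφ.1, pi_pos], hφ.2⟩
      (by have := abs_real_inner_le_norm (F x) (F z); rwa [hF.unit, hF.unit, one_mul] at this)).ne'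
  have hint : ∀ φ ∈ Ioo 0 (π / 2), Integrable (fun x => cf φ ⟪F x, F z⟫ ^ (finrank ℝ V))
      (volM V F) := fun φ hφ =>
    (hcont φ hφ).integrable_of_hasCompactSupport (HasCompactSupport.of_compactSpace _)
  have hNm := hNo.measurableSet
  have hnear : Tendsto (fun φ => ∫ x in N, cf φ ⟪F x, F z⟫ ^ (finrank ℝ V) ∂(volM V F))
      (𝓝[<] (π / 2)) (𝓝 (sphereVol (finrank ℝ V))) := by
    have h1 := (ENNReal.tendsto_toReal ENNReal.ofReal_ne_top).comp hN
    rw [ENNReal.toReal_ofReal (sphereVol_pos' _).le] at h1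
    refine h1.congr' ?_
    filter_upwards [Ioo_half] with φ hφ
    rw [comp_apply, integral_eq_lintegral_of_nonneg_ae
      (Eventually.of_forall fun x => pow_nonneg (hcf φ hφ x) _)
      (hcont φ hφ).aestronglyMeasurable]
    rfl
  have hfar : Tendsto (fun φ => ∫ x in Nᶜ, cf φ ⟪F x, F z⟫ ^ (finrank ℝ V) ∂(volM V F))
      (𝓝[<] (π / 2)) (𝓝 0) := by
    have h0 : Tendsto (fun φ : ℝ => (cos φ / η) ^ (finrank ℝ V) * (volM V F).real univ)
        (𝓝[<] (π / 2)) (𝓝 0) := by
      have h1 := ((tendsto_cos_half.div_const η).pow (finrank ℝ V)).mul_const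
        ((volM V F).real univ)
      rw [zero_div, zero_pow hm.ne', zero_mul] at h1
      exact h1
    refine squeeze_zero_norm' ?_ h0
    filter_upwards [Ioo_half] with φ hφ
    have hcos := cos_pos_of_mem_Ioo (x := φ) ⟨by linarith [hφ.1, pi_pos], hφ.2⟩
    have h2 : ‖∫ x in Nᶜ, cf φ ⟪F x, F z⟫ ^ (finrank ℝ V) ∂(volM V F)‖
        ≤ (cos φ / η) ^ (finrank ℝ V) * (volM V F).real Nᶜ := by
      refine norm_setIntegral_le_of_norm_le_const (measure_lt_top _ _) fun x hx => ?_
      rw [Real.norm_eq_abs, abs_of_nonneg (pow_nonneg (hcf φ hφ x) _)]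
      refine pow_le_pow_left₀ (hcf φ hφ x) ?_ _
      unfold cf
      refine div_le_div_of_nonneg_left hcos.le hη0 ?_
      have h3 := hη x hx
      have h4 : 0 ≤ sin φ := (sin_pos_of_pos_of_lt_pi hφ.1 (by linarith [hφ.2, pi_pos])).le
      have h5 : sin φ ≤ 1 := sin_le_one φ
      have h6 : ⟪F x, F z⟫ * sin φ ≤ (1 - η) * sin φ := mul_le_mul_of_nonneg_right h3 h4
      have h7 : (1 - η) * sin φ ≤ (1 - η) * 1 := mul_le_mul_of_nonneg_left h5 (by linarith)
      linarith
    refine h2.trans ?_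
    exact mul_le_mul_of_nonneg_left (measureReal_mono (subset_univ _)) (by positivity)
  have hsum := hnear.add hfar
  rw [add_zero] at hsum
  refine hsum.congr' ?_
  filter_upwards [Ioo_half] with φ hφ
  unfold V1
  exact integral_add_compl hNm (hint φ hφ)

end

end Vale.Agent.P224.R2.H925
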