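import Vale.Agent.P224.R2.H925.Blk
import Vale.Agent.P224.R2.H582.WnIn

/-!
The near range of one dimension `m ≥ 17` for any admissible threshold function: from the kernel
checked numbers, the checked table and the tails to the output of the near range.
-/

namespace Vale.Agent.P224.R2.H925

open MeasureTheory Set Filter Function Real Module Matrix Vale.Agent.P224
  Vale.Agent.P224.R2.H820 Vale.Agent.P224.R2.H582 Vale.Agent.P224.R2.H627
  Vale.Agent.P224.R2.H728 Vale.Agent.P224.R2.H484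
open Vale.Agent.P224.SM2 hiding ker
open Vale.Agent.P224.R2.H176 (NearData NearOut)
open scoped Topology RealInnerProductSpace ContDiff Manifold

set_option linter.unusedSectionVars false

/-- the threshold is admissible -/
def AdmF (m : ℕ) (lam : ℝ → ℝ) : Prop :=
  ∀ T ∈ Ioo (0 : ℝ) 1, Adm (2 / m) (1 - T ^ 2) ((1 - T ^ 2) * lam T)

/-- the conditions of the law from the admissibility -/
theorem fraM {m : ℕ} (hm : 17 ≤ m) {lam : ℝ → ℝ} (ha : AdmF m lam) {T1 : ℝ} (hT1 : T1 ≤ 1) :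
    Fra m lam (beM m) T1 where
  hβ T hT := abs_M hm hT
  hrel T hT := by
    have h1 := pos_M hm hT (ha T hT)
    have h2 : 0 ≤ al m T (yM m T) (rM m T) (lam T) * T :=
      mul_nonneg (al_nonneg_M hm hT (ha T hT)) hT.1.le
    linarith
  hconv T hT := conv_M hm ⟨hT.1, hT.2.trans_le hT1⟩ (ha T ⟨hT.1, hT.2.trans_le hT1⟩)
  hpos T hT := by
    rcases eq_or_lt_of_le hT.1 with h | h
    · rw [← h]
      have hr : 0 ≤ m * rM m 0 := by
        rw [mr0_eq]
        exact le_trans (by norm_num) ((g_ge hm).trans (R0_ge hm))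
      unfold beM be al
      have : 0 ≤ (m : ℝ) * (m * rM m 0) := by positivity
      simpa using this
    · exact pos_M hm ⟨h, hT.2⟩ (ha T ⟨h, hT.2⟩)

/-- the number of the crude law -/
theorem cnumM {m : ℕ} (hm : 17 ≤ m) {lam : ℝ → ℝ}
    (hl : ∀ T ∈ Ioo (0 : ℝ) (3 / 10), (1 - T ^ 2) * lam T ≤ 94 / 5) {T1 : ℝ}
    (hT1 : 3 / 10 ≤ T1) : CNum m lam (beM m) T1 (9 / 50) := by
  obtain ⟨B0, i0, h1, h2⟩ := WU_ge (m := m) hm (κ := 31 / 10) (by norm_num) (lam := lam) hl
  exact ⟨3 / 10, B0, by norm_num, hT1, i0, h2, h1⟩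

/-- checked numbers of the law: parameters of the evaluation, lower bound of the first weight,
upper bound of the second one -/
structure NumE where
  P : NumP
  w0 : ℚ
  w1 : ℚ

/-- the parameters of a block: level, polynomials above and below the threshold, absolute tail,
relative tails with the bound of the weights where they hold -/
structure BlkQ where
  t1 : ℚ
  la : List ℚ
  lb : List ℚ
  ab : ℚ
  rels : List (ℚ × ℚ)

/-- the numbers are checked and fit to the block -/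
def numOK (B : BlkQ) (m : ℕ) (n : NumE) : Bool :=
  chk0 m n.P n.w0 && chk1 m n.P n.w1 && decide (n.P.kap = 31 / 10) && decide (n.P.t1 = B.t1)
    && decide (n.P.la = B.la) && decide (n.P.lb = B.lb)

/-- an instance of the law fits to the numbers -/
def lawE (B : BlkQ) (m : ℕ) (nums : List NumE) (q : LawQ) : Bool :=
  decide (0 ≤ q.σ) && decide (q.σ ≤ 1) && decide (B.ab ≤ q.ab) && decide (q.d < 1)
    && decide (0 ≤ q.d)
    && nums.any (fun n => decide (q.σ = n.P.s) && decide (q.W0 ≤ n.w0) && decide (n.w1 ≤ q.W1))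
    && B.rels.any (fun k => decide (1 + ((m : ℚ) + 2) * (q.d / (1 - q.d)) ≤ k.1 * (m + 1))
      && decide (k.2 ≤ q.rel))

/-- the parameters fit -/
def parE (B : BlkQ) (m : ℕ) (p : ParQ) : Bool :=
  decide (p.m = m) && chkE m p.EL p.E && decide (gq2 m ≤ p.Γ) && decide (p.WU ≤ 9 / 50)
    && decide (B.ab ≤ p.tU) && decide (B.ab ≤ p.tV)

/-- everything but the table -/
def inOK (B : BlkQ) (m : ℕ) (nums : List NumE) (p : ParQ) (laws : List LawQ) : Bool :=
  decide (17 ≤ m) && decide (3 / 10 ≤ B.t1) && decide (B.t1 ≤ 1) && parE B m p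
    && nums.all (numOK B m) && laws.all (lawE B m nums)

section

variable {V W M : Type*} [NormedAddCommGroup V] [InnerProductSpace ℝ V] [FiniteDimensional ℝ V]
  [NormedAddCommGroup W] [InnerProductSpace ℝ W] [FiniteDimensional ℝ W]
  [TopologicalSpace M] [ChartedSpace V M]
  [MeasurableSpace V] [BorelSpace V] [MeasurableSpace M] [BorelSpace M]
  [MeasurableSpace W] [BorelSpace W] [IsManifold 𝓘(ℝ, V) ∞ M]
  [CompactSpace M] [T2Space M]

/-- the tails of a block -/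
structure TailB (V : Type*) {W M : Type*} [NormedAddCommGroup V] [InnerProductSpace ℝ V]
    [FiniteDimensional ℝ V] [MeasurableSpace V] [BorelSpace V] [NormedAddCommGroup W]
    [InnerProductSpace ℝ W] [FiniteDimensional ℝ W] [TopologicalSpace M] [ChartedSpace V M]
    [MeasurableSpace M] [MeasurableSpace W] [BorelSpace W]
    (F N : M → W) (m : ℕ) (lam : ℝ → ℝ) (b : OrthonormalBasis (Fin (finrank ℝ W)) ℝ W)
    (j : Fin (finrank ℝ W) → ℝ) (B : BlkQ) : Prop where
  abs : AbsTail (volM V F) m F N (fun T => (1 - T ^ 2) * lam T) B.ab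
  rel : ∀ k ∈ B.rels, (∀ a, j a ^ 2 ≤ (k.1 : ℝ) * (m + 1)) →
    AbsTail (volM V F) m F N (fun T => (1 - T ^ 2) * lam T)
      (k.2 * hh (nrm (volM V F)) (diagonal j) (co b F) (co b N))

/-- all instances of the law for the checker -/
theorem lawIn_blk [Nonempty M] {B : BlkQ} {m : ℕ} {nums : List NumE} {p : ParQ}
    {laws : List LawQ} (hin : inOK B m nums p laws = true) (hmm : m = finrank ℝ V)
    (hW : finrank ℝ W = finrank ℝ V + 2)
    {F : M → W} (hF : SphImm V F) (hmin : ∀ x n, IsUnitNormal V F x n → meanCurv V F x n = 0)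
    {lam : ℝ → ℝ} (hfr : Fra m lam (beM m) B.t1)
    (hl : ∀ T ∈ Ioo (0 : ℝ) (3 / 10), (1 - T ^ 2) * lam T ≤ 94 / 5)
    (hla : ∀ T ∈ Ioo (0 : ℝ) B.t1, lam T ≤ pe B.la 0 T)
    (hlb : ∀ T ∈ Ioo (0 : ℝ) B.t1, pe B.lb 0 T ≤ lam T)
    {N : M → W} (hNs : ContMDiff 𝓘(ℝ, V) 𝓘(ℝ, W) ∞ N) (hN : ∀ x, IsUnitNormal V F x (N x))
    (hinj : Injective F) (b : OrthonormalBasis (Fin (finrank ℝ W)) ℝ W)
    (j : Fin (finrank ℝ W) → ℝ)
    (hT : T0Data (nrm (volM V F)) (finrank ℝ V) (co b F) (co b N))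
    (hL : LSq (nrm (volM V F)) (Matrix.diagonal j) (co b F) (co b N))
    (ht : TailB V F N m lam b j B) :
    LawIn V F N m p laws b j := by
  have hfin : IsFiniteMeasure (volM V F) := isFiniteMeasure_volM hF
  simp only [inOK, Bool.and_eq_true, decide_eq_true_eq, List.all_eq_true] at hin
  obtain ⟨⟨⟨⟨⟨h17, ht1⟩, ht1'⟩, hpar⟩, hnums⟩, hlaws⟩ := hin
  simp only [parE, Bool.and_eq_true, decide_eq_true_eq] at hpar
  obtain ⟨⟨⟨⟨⟨-, -⟩, -⟩, c4⟩, c5⟩, c6⟩ := hpar
  have t1R : (3 / 10 : ℝ) ≤ B.t1 := by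
    have h' := castQ ht1
    push_cast at h'
    exact h'
  have t1R' : (B.t1 : ℝ) ≤ 1 := by
    have h' := castQ ht1'
    push_cast at h'
    exact h'
  have hh0 := hT.hh_nonneg (diagonal j)
  have hf0 : 0 ≤ fro (De (nrm (volM V F)) (co b F) (co b N)) := fro_nonneg _
  refine lawIn_of (T1 := B.t1) (by omega) hW hF hmin hNs hN hinj b j hmm (by linarith) t1R' hfr
    (fun q hq => ?_) ?_ (absTail_mono ht.abs (castQ c5)) (absTail_mono ht.abs (castQ c6))
  · have hq' := hlaws q hq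
    simp only [lawE, Bool.and_eq_true, decide_eq_true_eq, List.any_eq_true] at hq'
    obtain ⟨⟨⟨⟨⟨⟨d1, d2⟩, d3⟩, d4⟩, d5⟩, ⟨n, hn, ⟨⟨e1, e2⟩, e3⟩⟩⟩, ⟨k, hk, ⟨g1, g2⟩⟩⟩ := hq'
    have hn' := hnums n hn
    simp only [numOK, Bool.and_eq_true, decide_eq_true_eq] at hn'
    obtain ⟨⟨⟨⟨⟨f1, f2⟩, f3⟩, f4⟩, f5⟩, f6⟩ := hn'
    have hw : WNum m lam (beM m) n.P.t1 n.P.s n.w0 n.w1 := by
      refine wnum_of h17 f1 f2 (fun T hT => ?_) ?_ ?_
      · rw [f3]
        unfold beM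
        push_cast
        rfl
      · rw [f4, f5]
        exact hla
      · rw [f4, f6]
        exact hlb
    refine ⟨d1, d2, ?_, absTail_mono ht.abs (castQ d3), fun hd hh1 => ?_⟩
    · obtain ⟨B0, B1, i0, i1, b0, b1, v0, v1⟩ := hw
      rw [f4, ← e1] at *
      exact ⟨B0, B1, i0, i1, b0, b1, (castQ e2).trans v0, v1.trans (castQ e3)⟩
    · refine absTail_mono (ht.rel k hk fun a => ?_) (mul_le_mul_of_nonneg_right (castQ g2) hh0)
      have d4R : (q.d : ℝ) < 1 := by exact_mod_cast d4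
      have d5R : (0 : ℝ) ≤ q.d := by exact_mod_cast d5
      have hfb : fro (De (nrm (volM V F)) (co b F) (co b N)) ≤ (q.d : ℝ) ^ 2 := by
        rw [← Real.sq_sqrt hf0]
        exact pow_le_pow_left₀ (Real.sqrt_nonneg _) hd 2
      have k1 := hT.w_le (by positivity) hL d5R d4R hfb a
      have k2 := castQ g1
      push_cast at k2
      rw [← hmm] at k1
      linarith
  · obtain ⟨T0, B0, e1, e2, e3, e4, e5⟩ := cnumM h17 hl t1R
    have hWUR : (p.WU : ℝ) ≤ 9 / 50 := by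
      have h' := castQ c4
      push_cast at h'
      exact h'
    exact ⟨T0, B0, e1, e2, e3, e4, hWUR.trans e5⟩

/-- **the near range of one dimension** -/
theorem near_blk [Nonempty M] {B : BlkQ} {m : ℕ} {nums : List NumE} {p : ParQ}
    {laws : List LawQ} {els : List (ElQ × ℚ × ℚ)} {cols : List ColQ}
    (hin : inOK B m nums p laws = true)
    (hok : nearOK p laws (els.map Prod.fst) cols = true) (hels : e7All p.m els = true)
    (hmm : m = finrank ℝ V) (hW : finrank ℝ W = finrank ℝ V + 2)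
    {F : M → W} (hF : SphImm V F) (hmin : ∀ x n, IsUnitNormal V F x n → meanCurv V F x n = 0)
    {lam : ℝ → ℝ} (hfr : Fra m lam (beM m) B.t1)
    (hl : ∀ T ∈ Ioo (0 : ℝ) (3 / 10), (1 - T ^ 2) * lam T ≤ 94 / 5)
    (hla : ∀ T ∈ Ioo (0 : ℝ) B.t1, lam T ≤ pe B.la 0 T)
    (hlb : ∀ T ∈ Ioo (0 : ℝ) B.t1, pe B.lb 0 T ≤ lam T) {ν : ℝ} (hν : ν ≤ p.ν)
    (ht : ∀ (N : M → W) (b : OrthonormalBasis (Fin (finrank ℝ W)) ℝ W)
      (j : Fin (finrank ℝ W) → ℝ), NearData V F N b j ν → TailB V F N m lam b j B)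
    (N : M → W) (b : OrthonormalBasis (Fin (finrank ℝ W)) ℝ W) (j : Fin (finrank ℝ W) → ℝ)
    (hd : NearData V F N b j ν) : NearOut V F N b j p.gp p.h1 p.d1 := by
  have hlaw := lawIn_blk hin hmm hW hF hmin hfr hl hla hlb hd.smooth hd.unit hd.inj b j hd.t0
    hd.lsq (ht N b j hd)
  simp only [inOK, Bool.and_eq_true, decide_eq_true_eq] at hin
  obtain ⟨⟨⟨⟨⟨h17, -⟩, -⟩, hpar⟩, -⟩, -⟩ := hin
  simp only [parE, Bool.and_eq_true, decide_eq_true_eq] at hpar
  obtain ⟨⟨⟨⟨⟨c1, c2⟩, c3⟩, -⟩, -⟩, -⟩ := hpar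
  obtain ⟨n1, n2⟩ := chkE_sound h17 c2
  have n3 := (le_gq2 h17).trans (castQ c3)
  have hpmR : (p.m : ℝ) = (finrank ℝ V : ℝ) := by
    rw [c1, ← hmm]
    push_cast
    rfl
  exact nearOut_of hmm hok c1 n3 n1 n2 hν hd hlaw
    (e7All_sound els hels (by rw [hpmR]; exact hd.t0) hd.lsq)

end

end Vale.Agent.P224.R2.H925
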