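import Vale.Agent.P224.R2.H925.Alg
import Vale.Agent.P224.SM2.Anti

/-!
Two point functionals of power type for a law of pair data.
-/

namespace Vale.Agent.P224.R2.H925

open MeasureTheory Set Filter Function Real Vale.Agent.P224.SM2
open scoped Topology

set_option linter.unusedSectionVars false

/-- the rows as a function of pair data -/
noncomputable def rK (m : ℕ) (T f0 f2 f3 x0 x1 x2 h0 h1 h2 h3 : ℝ) (k : R4) : ℝ :=
  rV m T f0 f2 f3 x0 x1 x2 h0 h1 h2 h3 k.1 k.2.1 k.2.2.1 k.2.2.2 (1 - T * k.1) (ker T m k.1)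

/-- the defect as a function of pair data -/
noncomputable def fK (m : ℕ) (T d x1 x2 h0 k1 f2 f3 : ℝ) (k : R4) : ℝ :=
  fV m T d x1 x2 h0 k1 f2 f3 k.1 k.2.1 k.2.2.1 k.2.2.2 (1 - T * k.1) (ker T m k.1)

/-- a law of pair data with all the rows -/
structure PL {Q : Type*} [MeasurableSpace Q] (ν : Measure Q) (m : ℕ) (κ : Q → R4) : Prop where
  meas : Measurable κ
  mem : ∀ x, κ x ∈ KK
  b1 : ∀ x, (κ x).1 ^ 2 + (κ x).2.1 ^ 2 ≤ 1
  b2 : ∀ x, (κ x).1 ^ 2 + (κ x).2.2.1 ^ 2 ≤ 1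
  row : ∀ T ∈ Ioo (0 : ℝ) 1, ∀ f0 f2 f3 x0 x1 x2 h0 h1 h2 h3 : ℝ,
    ∫ x, rK m T f0 f2 f3 x0 x1 x2 h0 h1 h2 h3 (κ x) ∂ν = 0
  row' : ∀ T ∈ Ioo (0 : ℝ) 1, ∀ f0 f2 f3 x0 x1 x2 h0 h1 h2 h3 : ℝ,
    ∫ x, rK m T f0 f2 f3 x0 x1 x2 h0 h1 h2 h3 (sw (κ x)) ∂ν = 0

section

variable {Q : Type*} [MeasurableSpace Q] {ν : Measure Q} [IsFiniteMeasure ν] {m : ℕ} {κ : Q → R4}

/-- the moments of the law -/
noncomputable def Mo (ν : Measure Q) (κ : Q → R4) (f : R4 → ℝ) (q : ℕ) (T : ℝ) : ℝ :=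
  ∫ x, f (κ x) * ker T q (κ x).1 ∂ν

lemma integrable_Mo (hκ : Measurable κ) (hm : ∀ x, κ x ∈ KK) {f : R4 → ℝ} (hf : Continuous f)
    (q : ℕ) {T : ℝ} (hT : T ∈ Ico (0 : ℝ) 1) :
    Integrable (fun x => f (κ x) * ker T q (κ x).1) ν :=
  integrable_param ν hκ isCompact_KK hm (f := fun k => f k * ker T q k.1)
    (hf.measurable.mul ((measurable_ker T q).comp measurable_fst))
    (hf.continuousOn.mul (contOn_ker' hT q))

lemma contOn_mo {f : R4 → ℝ} (hf : Continuous f) (q : ℕ) :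
    ContinuousOn (uncurry fun (T : ℝ) (k : R4) => f k * ker T q k.1) (Ico 0 1 ×ˢ KK) :=
  (hf.comp continuous_snd).continuousOn.mul (contOn_ker q)

lemma continuousOn_Mo (hκ : Measurable κ) (hm : ∀ x, κ x ∈ KK) {f : R4 → ℝ} (hf : Continuous f)
    (q : ℕ) : ContinuousOn (Mo ν κ f q) (Ico 0 1) :=
  contOn_param ν hκ isCompact_KK hm (g := fun T k => f k * ker T q k.1)
    (fun T => hf.measurable.mul ((measurable_ker T q).comp measurable_fst)) (contOn_mo hf q)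

lemma hasDerivAt_Mo (hκ : Measurable κ) (hm : ∀ x, κ x ∈ KK) {f : R4 → ℝ} (hf : Continuous f)
    (q : ℕ) {T : ℝ} (hT : T ∈ Ioo (0 : ℝ) 1) :
    HasDerivAt (Mo ν κ f q) (q * Mo ν κ (fun k => k.1 * f k) (q + 1) T) T := by
  have hf' : Continuous fun k : R4 => k.1 * f k := continuous_fst.mul hf
  have h := deriv_param ν hκ isCompact_KK hm (g := fun T k => f k * ker T q k.1)
    (g' := fun T k => q * ((k.1 * f k) * ker T (q + 1) k.1))
    (fun T => hf.measurable.mul ((measurable_ker T q).comp measurable_fst))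
    (fun T => measurable_const.mul
      (hf'.measurable.mul ((measurable_ker T (q + 1)).comp measurable_fst)))
    (contOn_mo hf q)
    (continuousOn_const.mul ((contOn_mo hf' (q + 1)).mono
      (prod_mono Ioo_subset_Ico_self subset_rfl)))
    (fun T hT k hk => by
      have hv : 1 - T * k.1 ≠ 0 := (one_sub_pos' ⟨hT.1.le, hT.2⟩ hk.1.2).ne'
      refine ((hasDerivAt_ker_T (q := q) hv).const_mul (f k)).congr_deriv ?_
      ring) hT
  refine h.congr_deriv ?_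
  rw [integral_const_mul]
  rfl

lemma tendsto_Mo_zero (hκ : Measurable κ) (hm : ∀ x, κ x ∈ KK) {f : R4 → ℝ} (hf : Continuous f)
    (q : ℕ) : Tendsto (Mo ν κ f q) (𝓝[>] 0) (𝓝 (∫ x, f (κ x) ∂ν)) := by
  have h0 := (continuousOn_Mo (ν := ν) hκ hm hf q) 0 ⟨le_rfl, one_pos⟩
  have e0 : Mo ν κ f q 0 = ∫ x, f (κ x) ∂ν := by
    unfold Mo SM2.ker
    simp
  unfold ContinuousWithinAt at h0
  rw [e0] at h0
  refine h0.mono_left ?_
  rw [← nhdsWithin_Ioo_eq_nhdsGT (one_pos : (0 : ℝ) < 1)]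
  exact nhdsWithin_mono _ Ioo_subset_Ico_self

/-- the shift of the exponent -/
lemma Mo_shift (hκ : Measurable κ) (hm : ∀ x, κ x ∈ KK) {f : R4 → ℝ} (hf : Continuous f)
    (q : ℕ) {T : ℝ} (hT : T ∈ Ico (0 : ℝ) 1) :
    Mo ν κ f (q + 1) T - Mo ν κ f q T = T * Mo ν κ (fun k => k.1 * f k) (q + 1) T := by
  have hf' : Continuous fun k : R4 => k.1 * f k := continuous_fst.mul hf
  have i1 := integrable_Mo (ν := ν) hκ hm hf (q + 1) hT
  have i2 := integrable_Mo (ν := ν) hκ hm hf q hT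
  unfold Mo
  rw [← integral_sub i1 i2, ← integral_const_mul]
  refine integral_congr_ae (Eventually.of_forall fun x => ?_)
  have hv := (one_sub_pos' hT (hm x).1.2).ne'
  have h1 := ker_succ_div T (κ x).1 q 1
  simp only
  rw [h1, pow_one]
  field_simp
  ring

/-- the monomials -/
noncomputable def tau (j : ℕ) (k : R4) : ℝ := (k.2.1 ^ j + k.2.2.1 ^ j) / 2

lemma continuous_tau (j : ℕ) : Continuous (tau j) := by
  unfold tau
  fun_prop

lemma continuous_ctau (j : ℕ) : Continuous fun k : R4 => k.2.2.2 * tau j k := by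
  unfold tau
  fun_prop

/-- the functional -/
noncomputable def Gf (ν : Measure Q) (m : ℕ) (κ : Q → R4) (a b c : Fin 4 → ℝ → ℝ) (T : ℝ) : ℝ :=
  ∑ j : Fin 4, (a j T * Mo ν κ (tau j) (m + j) T + b j T * Mo ν κ (tau j) (m + j - 1) T
    + c j T * Mo ν κ (fun k => k.2.2.2 * tau j k) (m + j) T)

/-- the integrand of the derivative -/
noncomputable def gf' (m : ℕ) (a b c a' b' c' : Fin 4 → ℝ) (T : ℝ) (k : R4) : ℝ :=
  gV' m (a 0) (a 1) (a 2) (a 3) (b 0) (b 1) (b 2) (b 3) (c 0) (c 1) (c 2) (c 3)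
    (a' 0) (a' 1) (a' 2) (a' 3) (b' 0) (b' 1) (b' 2) (b' 3) (c' 0) (c' 1) (c' 2) (c' 3)
    k.1 k.2.1 k.2.2.1 k.2.2.2 (1 - T * k.1) (ker T m k.1)

lemma contOn_gf' (a b c a' b' c' : Fin 4 → ℝ) {T : ℝ} (hT : T ∈ Ico (0 : ℝ) 1) :
    ContinuousOn (gf' m a b c a' b' c' T) KK := by
  have h0 := contOn_ker' hT m
  have hv : ContinuousOn (fun k : R4 => 1 - T * k.1) KK := by fun_prop
  have hv0 : ∀ k ∈ KK, (1 - T * k.1) ≠ 0 := fun k hk => (one_sub_pos' hT hk.1.2).ne'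
  have h1 : ContinuousOn (fun k : R4 => ker T m k.1 / (1 - T * k.1)) KK := h0.div hv hv0
  have h2 : ContinuousOn (fun k : R4 => ker T m k.1 / (1 - T * k.1) ^ 2) KK :=
    h0.div (hv.pow 2) fun a ha => pow_ne_zero _ (hv0 a ha)
  have h3 : ContinuousOn (fun k : R4 => ker T m k.1 / (1 - T * k.1) ^ 3) KK :=
    h0.div (hv.pow 3) fun a ha => pow_ne_zero _ (hv0 a ha)
  have h4 : ContinuousOn (fun k : R4 => ker T m k.1 / (1 - T * k.1) ^ 4) KK :=
    h0.div (hv.pow 4) fun a ha => pow_ne_zero _ (hv0 a ha)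
  unfold gf' gV'
  fun_prop

lemma measurable_gf' (a b c a' b' c' : Fin 4 → ℝ) (T : ℝ) :
    Measurable (gf' m a b c a' b' c' T) := by
  have h1 := measurable_ker T m
  unfold gf' gV'
  fun_prop

lemma contOn_rK (T f0 f2 f3 x0 x1 x2 h0 h1 h2 h3 : ℝ) (hT : T ∈ Ico (0 : ℝ) 1) :
    ContinuousOn (rK m T f0 f2 f3 x0 x1 x2 h0 h1 h2 h3) KK := by
  have k0 := contOn_ker' hT m
  have hv : ContinuousOn (fun k : R4 => 1 - T * k.1) KK := by fun_prop
  have hv0 : ∀ k ∈ KK, (1 - T * k.1) ≠ 0 := fun k hk => (one_sub_pos' hT hk.1.2).ne'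
  have k1 : ContinuousOn (fun k : R4 => ker T m k.1 / (1 - T * k.1)) KK := k0.div hv hv0
  have k2 : ContinuousOn (fun k : R4 => ker T m k.1 / (1 - T * k.1) ^ 2) KK :=
    k0.div (hv.pow 2) fun a ha => pow_ne_zero _ (hv0 a ha)
  have k3 : ContinuousOn (fun k : R4 => ker T m k.1 / (1 - T * k.1) ^ 3) KK :=
    k0.div (hv.pow 3) fun a ha => pow_ne_zero _ (hv0 a ha)
  have k4 : ContinuousOn (fun k : R4 => ker T m k.1 / (1 - T * k.1) ^ 4) KK :=
    k0.div (hv.pow 4) fun a ha => pow_ne_zero _ (hv0 a ha)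
  unfold rK rV S1 S2 CC
  fun_prop

lemma measurable_rK (T f0 f2 f3 x0 x1 x2 h0 h1 h2 h3 : ℝ) :
    Measurable (rK m T f0 f2 f3 x0 x1 x2 h0 h1 h2 h3) := by
  have k1 := measurable_ker T m
  unfold rK rV S1 S2 CC
  fun_prop

lemma contOn_fK (T d x1 x2 h0 k1 f2 f3 : ℝ) (hT : T ∈ Ico (0 : ℝ) 1) :
    ContinuousOn (fK m T d x1 x2 h0 k1 f2 f3) KK := by
  have k0 := contOn_ker' hT m
  have hv : ContinuousOn (fun k : R4 => 1 - T * k.1) KK := by fun_prop
  have hv0 : ∀ k ∈ KK, (1 - T * k.1) ≠ 0 := fun k hk => (one_sub_pos' hT hk.1.2).ne'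
  have k1 : ContinuousOn (fun k : R4 => ker T m k.1 / (1 - T * k.1)) KK := k0.div hv hv0
  have k2 : ContinuousOn (fun k : R4 => ker T m k.1 / (1 - T * k.1) ^ 2) KK :=
    k0.div (hv.pow 2) fun a ha => pow_ne_zero _ (hv0 a ha)
  have k3 : ContinuousOn (fun k : R4 => ker T m k.1 / (1 - T * k.1) ^ 3) KK :=
    k0.div (hv.pow 3) fun a ha => pow_ne_zero _ (hv0 a ha)
  have k4 : ContinuousOn (fun k : R4 => ker T m k.1 / (1 - T * k.1) ^ 4) KK :=
    k0.div (hv.pow 4) fun a ha => pow_ne_zero _ (hv0 a ha)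
  unfold fK fV
  fun_prop

lemma measurable_fK (T d x1 x2 h0 k1 f2 f3 : ℝ) :
    Measurable (fK m T d x1 x2 h0 k1 f2 f3) := by
  have k1 := measurable_ker T m
  unfold fK fV
  fun_prop

lemma measurable_sw : Measurable sw := by
  unfold sw
  fun_prop

lemma sw_mem {k : R4} (hk : k ∈ KK) : sw k ∈ KK := ⟨hk.1, hk.2.2.1, hk.2.1, hk.2.2.2⟩

lemma integrable_rK (h : PL ν m κ) {T : ℝ} (hT : T ∈ Ico (0 : ℝ) 1)
    (f0 f2 f3 x0 x1 x2 h0 h1 h2 h3 : ℝ) :
    Integrable (fun x => rK m T f0 f2 f3 x0 x1 x2 h0 h1 h2 h3 (κ x)) ν :=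
  integrable_param ν h.meas isCompact_KK h.mem (measurable_rK ..) (contOn_rK _ _ _ _ _ _ _ _ _ _ _ hT)

lemma integrable_rK' (h : PL ν m κ) {T : ℝ} (hT : T ∈ Ico (0 : ℝ) 1)
    (f0 f2 f3 x0 x1 x2 h0 h1 h2 h3 : ℝ) :
    Integrable (fun x => rK m T f0 f2 f3 x0 x1 x2 h0 h1 h2 h3 (sw (κ x))) ν :=
  integrable_param ν (measurable_sw.comp h.meas) isCompact_KK (fun x => sw_mem (h.mem x))
    (measurable_rK ..) (contOn_rK _ _ _ _ _ _ _ _ _ _ _ hT)

lemma integrable_fK (h : PL ν m κ) {T : ℝ} (hT : T ∈ Ico (0 : ℝ) 1)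
    (d x1 x2 h0 k1 f2 f3 : ℝ) :
    Integrable (fun x => fK m T d x1 x2 h0 k1 f2 f3 (κ x)) ν :=
  integrable_param ν h.meas isCompact_KK h.mem (measurable_fK ..) (contOn_fK _ _ _ _ _ _ _ _ hT)

lemma integral_comb6 {f1 f2 f3 f4 f5 f6 : Q → ℝ}
    (i1 : Integrable f1 ν) (i2 : Integrable f2 ν) (i3 : Integrable f3 ν) (i4 : Integrable f4 ν)
    (i5 : Integrable f5 ν) (i6 : Integrable f6 ν) (a1 a2 a3 a4 a5 a6 : ℝ) :
    Integrable (fun x => a1 * f1 x + a2 * f2 x + a3 * f3 x + a4 * f4 x + a5 * f5 x + a6 * f6 x) ν ∧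
    ∫ x, (a1 * f1 x + a2 * f2 x + a3 * f3 x + a4 * f4 x + a5 * f5 x + a6 * f6 x) ∂ν
      = a1 * ∫ x, f1 x ∂ν + a2 * ∫ x, f2 x ∂ν + a3 * ∫ x, f3 x ∂ν + a4 * ∫ x, f4 x ∂ν
        + a5 * ∫ x, f5 x ∂ν + a6 * ∫ x, f6 x ∂ν := by
  have j1 : Integrable (fun x => a1 * f1 x) ν := i1.const_mul a1
  have j2 : Integrable (fun x => a2 * f2 x) ν := i2.const_mul a2
  have j3 : Integrable (fun x => a3 * f3 x) ν := i3.const_mul a3
  have j4 : Integrable (fun x => a4 * f4 x) ν := i4.const_mul a4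
  have j5 : Integrable (fun x => a5 * f5 x) ν := i5.const_mul a5
  have j6 : Integrable (fun x => a6 * f6 x) ν := i6.const_mul a6
  have h2 : Integrable (fun x => a1 * f1 x + a2 * f2 x) ν := j1.add j2
  have h3 : Integrable (fun x => a1 * f1 x + a2 * f2 x + a3 * f3 x) ν := h2.add j3
  have h4 : Integrable (fun x => a1 * f1 x + a2 * f2 x + a3 * f3 x + a4 * f4 x) ν := h3.add j4
  have h5 : Integrable (fun x => a1 * f1 x + a2 * f2 x + a3 * f3 x + a4 * f4 x + a5 * f5 x) ν :=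
    h4.add j5
  refine ⟨h5.add j6, ?_⟩
  rw [integral_add h5 j6, integral_add h4 j5, integral_add h3 j4, integral_add h2 j3,
    integral_add j1 j2]
  simp only [integral_const_mul]

/-- the derivative of the functional -/
theorem hasDerivAt_Gf (hκ : Measurable κ) (hmem : ∀ x, κ x ∈ KK) (hm : 1 ≤ m)
    {a b c : Fin 4 → ℝ → ℝ} {a' b' c' : Fin 4 → ℝ} {T : ℝ} (hT : T ∈ Ioo (0 : ℝ) 1)
    (ha : ∀ j, HasDerivAt (a j) (a' j) T) (hb : ∀ j, HasDerivAt (b j) (b' j) T)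
    (hc : ∀ j, HasDerivAt (c j) (c' j) T) :
    HasDerivAt (Gf ν m κ a b c)
      (∫ x, gf' m (fun j => a j T) (fun j => b j T) (fun j => c j T) a' b' c' T (κ x) ∂ν) T := by
  have hT' : T ∈ Ico (0 : ℝ) 1 := ⟨hT.1.le, hT.2⟩
  have ct := continuous_tau
  have cc := continuous_ctau
  have cst : ∀ j, Continuous fun k : R4 => k.1 * tau j k := fun j => continuous_fst.mul (ct j)
  have csc : ∀ j, Continuous fun k : R4 => k.1 * (k.2.2.2 * tau j k) := fun j =>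
    continuous_fst.mul (cc j)
  have hd : HasDerivAt (Gf ν m κ a b c)
      (∑ j : Fin 4, ((a' j * Mo ν κ (tau j) (m + j) T
          + a j T * (((m + j : ℕ) : ℝ) * Mo ν κ (fun k => k.1 * tau j k) (m + j + 1) T))
        + (b' j * Mo ν κ (tau j) (m + j - 1) T
          + b j T * (((m + j - 1 : ℕ) : ℝ) * Mo ν κ (fun k => k.1 * tau j k) (m + j - 1 + 1) T))
        + (c' j * Mo ν κ (fun k => k.2.2.2 * tau j k) (m + j) T
          + c j T * (((m + j : ℕ) : ℝ)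
            * Mo ν κ (fun k => k.1 * (k.2.2.2 * tau j k)) (m + j + 1) T)))) T := by
    unfold Gf
    refine HasDerivAt.fun_sum fun j _ => ?_
    exact (((ha j).fun_mul (hasDerivAt_Mo hκ hmem (ct j) _ hT)).fun_add
      ((hb j).fun_mul (hasDerivAt_Mo hκ hmem (ct j) _ hT))).fun_add
      ((hc j).fun_mul (hasDerivAt_Mo hκ hmem (cc j) _ hT))
  refine hd.congr_deriv ?_
  have hi := fun j : Fin 4 => integral_comb6
    (integrable_Mo (ν := ν) hκ hmem (ct j) (m + j) hT')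
    (integrable_Mo (ν := ν) hκ hmem (cst j) (m + j + 1) hT')
    (integrable_Mo (ν := ν) hκ hmem (ct j) (m + j - 1) hT')
    (integrable_Mo (ν := ν) hκ hmem (cst j) (m + j - 1 + 1) hT')
    (integrable_Mo (ν := ν) hκ hmem (cc j) (m + j) hT')
    (integrable_Mo (ν := ν) hκ hmem (csc j) (m + j + 1) hT')
    (a' j) (a j T * ((m + j : ℕ) : ℝ)) (b' j) (b j T * ((m + j - 1 : ℕ) : ℝ))
    (c' j) (c j T * ((m + j : ℕ) : ℝ))
  have e1 : ∀ x, gf' m (fun j => a j T) (fun j => b j T) (fun j => c j T) a' b' c' T (κ x)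
      = ∑ j : Fin 4, (a' j * (tau j (κ x) * SM2.ker T (m + j) (κ x).1)
        + a j T * ((m + j : ℕ) : ℝ) * ((κ x).1 * tau j (κ x) * SM2.ker T (m + j + 1) (κ x).1)
        + b' j * (tau j (κ x) * SM2.ker T (m + j - 1) (κ x).1)
        + b j T * ((m + j - 1 : ℕ) : ℝ)
          * ((κ x).1 * tau j (κ x) * SM2.ker T (m + j - 1 + 1) (κ x).1)
        + c' j * ((κ x).2.2.2 * tau j (κ x) * SM2.ker T (m + j) (κ x).1)
        + c j T * ((m + j : ℕ) : ℝ)
          * ((κ x).1 * ((κ x).2.2.2 * tau j (κ x)) * SM2.ker T (m + j + 1) (κ x).1)) := by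
    intro x
    have hv := (one_sub_pos' hT' (hmem x).1.2).ne'
    have k0 : SM2.ker T (m - 1) (κ x).1 = SM2.ker T m (κ x).1 * (1 - T * (κ x).1) := by
      have h1 := ker_succ_div T (κ x).1 (m - 1) 1
      rw [Nat.sub_add_cancel hm] at h1
      rw [h1, pow_one, div_mul_cancel₀ _ hv]
    have k1 := ker_succ_div T (κ x).1 m 1
    have k2 := ker_succ_div T (κ x).1 m 2
    have k3 := ker_succ_div T (κ x).1 m 3
    have k4 := ker_succ_div T (κ x).1 m 4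
    rw [pow_one] at k1
    have n0 : m + 1 - 1 = m := by omega
    have n1 : m + 2 - 1 = m + 1 := by omega
    have n2 : m + 3 - 1 = m + 2 := by omega
    have n3 : m - 1 + 1 = m := by omega
    have c0 : ((m - 1 : ℕ) : ℝ) = (m : ℝ) - 1 := by rw [Nat.cast_sub hm]; simp
    simp only [Fin.sum_univ_four, Fin.val_zero, Fin.val_one, Fin.val_two, Fin.isValue,
      show ((3 : Fin 4) : ℕ) = 3 from rfl, add_zero, n0, n1, n2, n3, k0, k1, k2, k3, k4,
      show m + 1 + 1 = m + 2 from rfl, show m + 2 + 1 = m + 3 from rfl,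
      show m + 3 + 1 = m + 4 from rfl, c0, Nat.cast_add, Nat.cast_one, Nat.cast_ofNat]
    unfold gf' gV' tau
    ring
  simp only [e1]
  rw [integral_finsetSum _ fun j _ => (hi j).1]
  refine Finset.sum_congr rfl fun j _ => ?_
  rw [(hi j).2]
  unfold Mo
  ring

end

end Vale.Agent.P224.R2.H925
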