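import Vale.Agent.P224.R2.H925.LawT1

/-!
The crude law: the kernel is replaced by its value at `s = -1`.
-/

namespace Vale.Agent.P224.R2.H925

open MeasureTheory Set Filter Function Real Module Vale.Agent.P224 Vale.Agent.P224.FV
open Vale.Agent.P224.SM2 Vale.Agent.P224.R2.H820 Vale.Agent.P224.R2.H728
open Vale.Agent.P224.R2.H627 Vale.Agent.P224.R2.H582
open scoped Topology RealInnerProductSpace ContDiff Manifold

set_option linter.unusedSectionVars false

/-- `α a^q - β a^(q+1)` is increasing as long as `(q+1) β a ≤ q α` -/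
lemma pow_mono_aux (q : ℕ) {a b α β : ℝ} (hb : 0 < b) (hab : b ≤ a) (hα : 0 ≤ α)
    (h : ((q : ℝ) + 1) * β * a ≤ q * α) :
    α * b ^ q - β * b ^ (q + 1) ≤ α * a ^ q - β * a ^ (q + 1) := by
  have ha : 0 < a := hb.trans_le hab
  have h1 : b ^ q ≤ a ^ q := pow_le_pow_left₀ hb.le hab q
  rcases le_or_gt β 0 with hβ | hβ
  · have h2 : b ^ (q + 1) ≤ a ^ (q + 1) := pow_le_pow_left₀ hb.le hab (q + 1)
    nlinarith
  · have hq : (0 : ℝ) < q := by
      rcases Nat.eq_zero_or_pos q with hq | hq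
      · subst hq
        have : 0 < β * a := mul_pos hβ ha
        simp at h
        linarith
      · exact_mod_cast hq
    -- weighted AM-GM
    have h3 : ((q : ℝ) + 1) * a * b ^ q ≤ a ^ (q + 1) + q * b ^ (q + 1) := by
      have h4 := one_add_mul_le_pow (a := a / b - 1) (by
        have : 0 < a / b := div_pos ha hb
        linarith) (q + 1)
      have e1 : 1 + (a / b - 1) = a / b := by ring
      rw [e1, div_pow] at h4
      have hbq : 0 < b ^ (q + 1) := pow_pos hb _
      rw [le_div_iff₀ hbq] at h4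
      have e2 : (1 + ((q + 1 : ℕ) : ℝ) * (a / b - 1)) * b ^ (q + 1)
          = ((q : ℝ) + 1) * a * b ^ q - q * b ^ (q + 1) := by
        push_cast
        rw [pow_succ]
        field_simp
        ring
      rw [e2] at h4
      linarith
    -- q (a^(q+1) - b^(q+1)) ≤ (q+1) a (a^q - b^q)
    have h5 : q * (a ^ (q + 1) - b ^ (q + 1)) ≤ (q + 1) * a * (a ^ q - b ^ q) := by
      have e3 : a ^ (q + 1) = a * a ^ q := by rw [pow_succ, mul_comm]
      nlinarith [h3, e3]
    have h6 : q * (β * (a ^ (q + 1) - b ^ (q + 1))) ≤ q * (α * (a ^ q - b ^ q)) := by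
      calc q * (β * (a ^ (q + 1) - b ^ (q + 1))) = β * (q * (a ^ (q + 1) - b ^ (q + 1))) := by ring
        _ ≤ β * ((q + 1) * a * (a ^ q - b ^ q)) := mul_le_mul_of_nonneg_left h5 hβ.le
        _ = ((q : ℝ) + 1) * β * a * (a ^ q - b ^ q) := by ring
        _ ≤ q * α * (a ^ q - b ^ q) := mul_le_mul_of_nonneg_right h (by linarith)
        _ = q * (α * (a ^ q - b ^ q)) := by ring
    have h7 := le_of_mul_le_mul_left h6 hq
    linarith

/-- the kernel is bounded below by its value at `-1` -/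
lemma ker_ge_neg_one {m : ℕ} {T s α β : ℝ} (hT : T ∈ Ioo (0 : ℝ) 1) (hs : s ∈ Icc (-1 : ℝ) 1)
    (hα : 0 ≤ α) (hconv : (m + 3) * β ≤ (m + 1) * α * (1 - T)) :
    α * ((1 + T) ^ (m + 1))⁻¹ - β * ((1 + T) ^ (m + 2))⁻¹
      ≤ α * SM2.ker T (m + 1) s - β * SM2.ker T (m + 2) s := by
  have hv : 0 < 1 - T * s := one_sub_pos' ⟨hT.1.le, hT.2⟩ hs.2
  have hV : 0 < 1 + T := by linarith [hT.1]
  have h1T : 0 < 1 - T := by linarith [hT.2]
  have hab : (1 + T)⁻¹ ≤ (1 - T * s)⁻¹ := by
    refine inv_anti₀ hv ?_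
    nlinarith [hT.1, hs.1]
  have h1 := pow_mono_aux (m + 1) (a := (1 - T * s)⁻¹) (b := (1 + T)⁻¹) (α := α) (β := β)
    (inv_pos.2 hV) hab hα ?_
  · unfold SM2.ker
    rw [← inv_pow, ← inv_pow, ← inv_pow, ← inv_pow]
    exact h1
  · push_cast
    rcases le_or_gt β 0 with hβ | hβ
    · have h2 : ((m : ℝ) + 1 + 1) * β * (1 - T * s)⁻¹ ≤ 0 :=
        mul_nonpos_of_nonpos_of_nonneg (mul_nonpos_of_nonneg_of_nonpos (by positivity) hβ)
          (inv_pos.2 hv).le
      have : 0 ≤ ((m : ℝ) + 1) * α := by positivity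
      linarith
    · have h3 : ((m : ℝ) + 1 + 1) * β ≤ (m + 1) * α * (1 - T) := by nlinarith
      have h4 : 1 - T ≤ 1 - T * s := by nlinarith [hT.1, hs.2]
      rw [← div_eq_mul_inv, div_le_iff₀ hv]
      refine h3.trans ?_
      exact mul_le_mul_of_nonneg_left h4 (by positivity)

section

variable {V W M : Type*} [NormedAddCommGroup V] [InnerProductSpace ℝ V] [FiniteDimensional ℝ V]
  [NormedAddCommGroup W] [InnerProductSpace ℝ W] [FiniteDimensional ℝ W]
  [TopologicalSpace M] [ChartedSpace V M]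
  [MeasurableSpace V] [BorelSpace V] [MeasurableSpace M] [BorelSpace M]
  [MeasurableSpace W] [BorelSpace W] [IsManifold 𝓘(ℝ, V) ∞ M]
  [CompactSpace M] [T2Space M]

/-- **the crude law** -/
theorem law_U [Nonempty M] (hm : 4 ≤ finrank ℝ V) (hW : finrank ℝ W = finrank ℝ V + 2)
    {F : M → W} (hF : SphImm V F) (hmin : ∀ x n, IsUnitNormal V F x n → meanCurv V F x n = 0)
    {N : M → W} (hNs : ContMDiff 𝓘(ℝ, V) 𝓘(ℝ, W) ∞ N) (hN : ∀ x, IsUnitNormal V F x (N x))
    (hinj : Injective F) {ι : Type*} [Fintype ι] [DecidableEq ι] (b : OrthonormalBasis ι ℝ W)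
    {T1 : ℝ} (hT1 : 0 ≤ T1) (hT1' : T1 ≤ 1) {m : ℕ} (hmm : m = finrank ℝ V)
    {lam be' B0 τ : ℝ → ℝ}
    (hβ : ∀ T ∈ Ioo (0 : ℝ) 1,
      m * (m + 1) * (T * |2 * rM m T - eM m T| - 2 * T ^ 2 * rM m T) ≤ be' T)
    (hα : ∀ T ∈ Ioo (0 : ℝ) 1, 0 ≤ al m T (yM m T) (rM m T) (lam T))
    (hconv : ∀ T ∈ Ioo (0 : ℝ) T1, (m + 3) * be' T
      ≤ (m + 1) * al m T (yM m T) (rM m T) (lam T) * (1 - T))
    (hpos : ∀ T ∈ Ico T1 1, be' T ≤ al m T (yM m T) (rM m T) (lam T) * (1 - T))
    (i0 : IntervalIntegrable B0 volume 0 T1)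
    (hB0 : ∀ T ∈ Ioo (0 : ℝ) T1,
      B0 T ≤ 1 / 2 * (al m T (yM m T) (rM m T) (lam T) * ((1 + T) ^ (m + 1))⁻¹
        - be' T * ((1 + T) ^ (m + 2))⁻¹))
    (hτi : IntervalIntegrable τ volume 0 1)
    (hτ : ∀ T ∈ Ioo (0 : ℝ) 1, (m + 1) * (m + 2) * T ^ 2 * rM m T / (1 - T ^ 2) / 2
      * E2 (volM V F) F N (TK m T ((1 - T ^ 2) * lam T))
      ≤ τ T * (volM V F).real univ ^ 2) :
    2 * lamM m * (sphereVol m / (volM V F).real univ)
        + ((∫ T in (0 : ℝ)..T1, B0 T) * Qpt (nrm (volM V F)) m (co b F) (co b N)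
        - ∫ T in (0 : ℝ)..1, τ T)
      ≤ 1 + m * rM m 0 * ∑ i, m1 (nrm (volM V F)) (co b N) i ^ 2 := by
  subst hmm
  set m := finrank ℝ V with hmdef
  have hfin : IsFiniteMeasure (volM V F) := isFiniteMeasure_volM hF
  have hm1 : 1 ≤ m := by omega
  have hvpos : 0 < volM V F univ := volM_pos_of_isOpen hW hF isOpen_univ univ_nonempty
  have hnz : NeZero (volM V F) := ⟨fun h => by rw [h] at hvpos; simp at hvpos⟩
  have hA : 0 < (volM V F).real univ := ENNReal.toReal_pos hvpos.ne' (measure_ne_top _ _)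
  have hT0 : T0Data (nrm (volM V F)) m (co b F) (co b N) :=
    t0Data_of_min hm1 hW hF hmin hNs hN b
  have hmR : (m : ℝ) + 1 ≠ 0 := by positivity
  have h2p : Two (volM V F) m F N := two_of_min hW hF hmin hNs hN
  have hc := certO_M hm
  set A := (volM V F).real univ with hAdef
  obtain ⟨j0, e0⟩ := int_cut hT1 hT1' i0
  have e2 := E2_Xk b hmR hT0
  set X0 := E2 (volM V F) F N Xk with hX0
  have hX0n : 0 ≤ X0 := integral_nonneg fun q => sq_nonneg _
  have mX : Measurable Xk := by unfold Xk; fun_prop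
  have cX : ContinuousOn Xk KK := by unfold Xk; fun_prop
  -- the pointwise bound
  have key : ∀ T ∈ Ioo (0 : ℝ) 1, cut T1 B0 T * X0 - τ T * A ^ 2 ≤ DM V F N T := by
    intro T hT
    have hT' : T ∈ Ico (0 : ℝ) 1 := ⟨hT.1.le, hT.2⟩
    have he := hc.e0 T hT
    have hk : 0 < 1 - T ^ 2 := by nlinarith [hT.1, hT.2]
    have q9 := hτ T hT
    have hal : al m T (yM m T) (rM m T) (lam T) ≤ m * (T * yM m T + m * rM m T)
        - (m + 1) * (m + 2) * T ^ 2 * rM m T / (1 - T ^ 2) * ((1 - T ^ 2) * lam T) := by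
      unfold al
      rw [show (m + 1) * (m + 2) * T ^ 2 * rM m T / (1 - T ^ 2) * ((1 - T ^ 2) * lam T)
        = (m + 1) * (m + 2) * T ^ 2 * rM m T * lam T by
          field_simp]
    have q1 := DF_ge_level h2p hc (T := T) (l := (1 - T ^ 2) * lam T)
      (α := al m T (yM m T) (rM m T) (lam T)) (β := be' T)
      (ε := m * eM m T) (G := (m + 1) * (m + 2) * T ^ 2 * rM m T / (1 - T ^ 2) / 2)
      hT hal (hβ T hT) le_rfl le_rfl
    have q2 : 0 ≤ m * eM m T * E2 (volM V F) F N (fun k => ker T (m + 1) k.1 * Ck k) := by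
      refine mul_nonneg (by positivity) (integral_nonneg fun q => ?_)
      have hv := one_sub_pos' hT' (h2p.pr_mem q).1.2
      refine mul_nonneg (ker_pos (m + 1) hv).le ?_
      unfold Ck
      positivity
    have m1 := measurable_ker T (m + 1)
    have m2 := measurable_ker T (m + 2)
    have c1 := contOn_ker' hT' (m + 1)
    have c2 := contOn_ker' hT' (m + 2)
    have b1 : Measurable (fun k : R4 => Xk k * (al m T (yM m T) (rM m T) (lam T)
        * ker T (m + 1) k.1 - be' T * ker T (m + 2) k.1)) := by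
      unfold Xk; fun_prop
    have b2 : ContinuousOn (fun k : R4 => Xk k * (al m T (yM m T) (rM m T) (lam T)
        * ker T (m + 1) k.1 - be' T * ker T (m + 2) k.1)) KK :=
      cX.mul ((continuousOn_const.mul c1).sub (continuousOn_const.mul c2))
    unfold DM
    rw [← hmdef]
    refine le_trans ?_ q1
    rcases lt_or_ge T T1 with hlt | hge
    · have hTT : T ∈ Ioo 0 T1 := ⟨hT.1, hlt⟩
      rw [cut_lt B0 hlt]
      have q3 := hB0 T hTT
      have q4 : (al m T (yM m T) (rM m T) (lam T) * ((1 + T) ^ (m + 1))⁻¹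
          - be' T * ((1 + T) ^ (m + 2))⁻¹) * X0
          ≤ E2 (volM V F) F N (fun k => Xk k * (al m T (yM m T) (rM m T) (lam T)
            * ker T (m + 1) k.1 - be' T * ker T (m + 2) k.1)) := by
        rw [hX0, ← E2_mul]
        refine E2_mono h2p (mX.const_mul _) (continuousOn_const.mul cX) b1 b2 fun q => ?_
        have hs := (h2p.pr_mem q).1
        have q5 := ker_ge_neg_one (m := m) hT hs (hα T hT) (hconv T hTT)
        have q6 : 0 ≤ Xk (SM2.pr F N q) := sq_nonneg _
        have q7 := mul_le_mul_of_nonneg_right q5 q6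
        linarith
      have q8 := mul_le_mul_of_nonneg_right q3 hX0n
      linarith
    · rw [cut_ge B0 hge, zero_mul]
      have q4 : 0 ≤ E2 (volM V F) F N (fun k => Xk k * (al m T (yM m T) (rM m T) (lam T)
            * ker T (m + 1) k.1 - be' T * ker T (m + 2) k.1)) := by
        refine integral_nonneg fun q => ?_
        have hv := one_sub_pos' hT' (h2p.pr_mem q).1.2
        have q6 : 0 ≤ Xk (SM2.pr F N q) := sq_nonneg _
        refine mul_nonneg q6 ?_
        have e1 : ker T (m + 1) (SM2.pr F N q).1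
            = ker T (m + 2) (SM2.pr F N q).1 * (1 - T * (SM2.pr F N q).1) := by
          have h3 := ker_succ_div T (SM2.pr F N q).1 (m + 1) 1
          rw [pow_one] at h3
          rw [show m + 2 = m + 1 + 1 from rfl, h3, div_mul_cancel₀ _ hv.ne']
        rw [e1]
        have hkp := (ker_pos (m + 2) hv).le
        have h4 : 1 - T ≤ 1 - T * (SM2.pr F N q).1 := by
          nlinarith [hT.1, (h2p.pr_mem q).1.2]
        have h5 := hpos T ⟨hge, hT.2⟩
        have h6 := mul_le_mul_of_nonneg_left h4 (hα T hT)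
        have h7 : 0 ≤ al m T (yM m T) (rM m T) (lam T) * (1 - T * (SM2.pr F N q).1) - be' T := by
          linarith
        have h8 := mul_nonneg hkp h7
        linarith
      linarith
  have iB : IntervalIntegrable (fun T => cut T1 B0 T * X0 - τ T * A ^ 2) volume 0 1 :=
    (j0.mul_const _).sub (hτi.mul_const _)
  have hL := sharp_defect hm hW hF hmin hNs hN hinj iB key
  have eI : ∫ T in (0 : ℝ)..1, (cut T1 B0 T * X0 - τ T * A ^ 2)
      = (∫ T in (0 : ℝ)..T1, B0 T) * X0 - (∫ T in (0 : ℝ)..1, τ T) * A ^ 2 := by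
    rw [intervalIntegral.integral_sub (j0.mul_const _) (hτi.mul_const _)]
    simp only [intervalIntegral.integral_mul_const]
    rw [e0]
  have hcN : Continuous N := hNs.continuous
  have e6 : ‖∫ x, N x ∂(volM V F)‖ ^ 2 = A ^ 2 * ∑ i, m1 (nrm (volM V F)) (co b N) i ^ 2 :=
    sum_m1_sq b (hcN.integrable_of_hasCompactSupport (HasCompactSupport.of_compactSpace N))
  have hA2 : 0 < A ^ 2 := pow_pos hA 2
  have e8 : X0 = A ^ 2 * Qpt (nrm (volM V F)) m (co b F) (co b N) := e2
  rw [eI, e8, e6] at hL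
  refine le_of_mul_le_mul_left (a := A ^ 2) ?_ hA2
  refine le_trans (le_of_eq ?_) (hL.trans (le_of_eq ?_))
  · have e10 : A ^ 2 * (2 * lamM m * (sphereVol m / A)) = 2 * lamM m * (sphereVol m * A) := by
      field_simp
    rw [mul_add, e10]
    ring
  · ring

end

end Vale.Agent.P224.R2.H925
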