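import Vale.Agent.P224.R2.H925.Gen
import Vale.Agent.P224.SM2.Lim

/-!
The limits of the functionals at T = 0 and T = 1.
-/

namespace Vale.Agent.P224.R2.H925

open MeasureTheory Set Filter Function Real Vale.Agent.P224.SM2
open scoped Topology

set_option linter.unusedSectionVars false

section

variable {Q : Type*} [MeasurableSpace Q] {ν : Measure Q} [IsFiniteMeasure ν] {m : ℕ} {κ : Q → R4}

/-- the value at T = 0 -/
noncomputable def G0 (ν : Measure Q) (κ : Q → R4) (α β γ : Fin 4 → ℝ) : ℝ :=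
  ∑ j : Fin 4, (α j * ∫ x, tau j (κ x) ∂ν + β j * ∫ x, (κ x).1 * tau j (κ x) ∂ν
    + γ j * ∫ x, (κ x).2.2.2 * tau j (κ x) ∂ν)

theorem tendsto_Gf_zero (hκ : Measurable κ) (hmem : ∀ x, κ x ∈ KK) (hm : 1 ≤ m)
    {a b c : Fin 4 → ℝ → ℝ} {α β γ : Fin 4 → ℝ}
    (hab : ∀ j, Tendsto (fun T => a j T + b j T) (𝓝[>] 0) (𝓝 (α j)))
    (haT : ∀ j, Tendsto (fun T => T * a j T) (𝓝[>] 0) (𝓝 (β j)))
    (hc : ∀ j, Tendsto (c j) (𝓝[>] 0) (𝓝 (γ j))) :
    Tendsto (Gf ν m κ a b c) (𝓝[>] 0) (𝓝 (G0 ν κ α β γ)) := by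
  have ct := continuous_tau
  have cc := continuous_ctau
  have cst : ∀ j, Continuous fun k : R4 => k.1 * tau j k := fun j => continuous_fst.mul (ct j)
  have h1 : Tendsto (fun T => ∑ j : Fin 4, ((a j T + b j T) * Mo ν κ (tau j) (m + j - 1) T
      + (T * a j T) * Mo ν κ (fun k => k.1 * tau j k) (m + j) T
      + c j T * Mo ν κ (fun k => k.2.2.2 * tau j k) (m + j) T)) (𝓝[>] 0)
      (𝓝 (G0 ν κ α β γ)) := by
    unfold G0
    refine tendsto_finsetSum _ fun j _ => ?_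
    exact (((hab j).mul (tendsto_Mo_zero hκ hmem (ct j) _)).add
      ((haT j).mul (tendsto_Mo_zero hκ hmem (cst j) _))).add
      ((hc j).mul (tendsto_Mo_zero hκ hmem (cc j) _))
  refine h1.congr' ?_
  have h2 : Ioo (0 : ℝ) 1 ∈ 𝓝[>] (0 : ℝ) := Ioo_mem_nhdsGT one_pos
  filter_upwards [h2] with T hT
  unfold Gf
  refine Finset.sum_congr rfl fun j _ => ?_
  have h3 := Mo_shift (ν := ν) hκ hmem (ct j) (m + j - 1) (T := T) ⟨hT.1.le, hT.2⟩
  have n1 : m + (j : ℕ) - 1 + 1 = m + j := Nat.sub_add_cancel (by omega)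
  rw [n1] at h3
  linear_combination (-(a j T)) * h3

/-- comparison of moments -/
lemma abs_Mo_le (hκ : Measurable κ) (hmem : ∀ x, κ x ∈ KK) {f : R4 → ℝ} (hf : Continuous f)
    {q : ℕ} {T C : ℝ} (hT : T ∈ Ico (0 : ℝ) 1)
    (hC : ∀ x, |f (κ x)| * SM2.ker T q (κ x).1 ≤ C * SM2.ker T m (κ x).1) :
    |Mo ν κ f q T| ≤ C * Mo ν κ (fun _ => 1) m T := by
  have i1 := integrable_Mo (ν := ν) hκ hmem hf q hT
  have i2 := integrable_Mo (ν := ν) hκ hmem (f := fun _ => 1) continuous_const m hT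
  have h1 : |Mo ν κ f q T| ≤ ∫ x, |f (κ x) * SM2.ker T q (κ x).1| ∂ν := by
    unfold Mo
    exact abs_integral_le_integral_abs
  refine h1.trans ?_
  have h2 : C * Mo ν κ (fun _ => 1) m T = ∫ x, C * (1 * SM2.ker T m (κ x).1) ∂ν := by
    unfold Mo
    exact (integral_const_mul C _).symm
  rw [h2]
  refine integral_mono i1.abs (i2.const_mul C) fun x => ?_
  simp only
  have hv := one_sub_pos' hT (hmem x).1.2
  have hk : 0 ≤ SM2.ker T q (κ x).1 := inv_nonneg.2 (pow_nonneg hv.le _)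
  rw [abs_mul, abs_of_nonneg hk, one_mul]
  exact hC x

/-- the pointwise bound of the monomials -/
lemma pow_ker_le {s t φ : ℝ} (hφ : φ ∈ Ioo 0 (π / 2)) (hs : s ≤ 1) (h1 : s ^ 2 + t ^ 2 ≤ 1) (j : ℕ) :
    cos φ ^ j * |t| ^ j * SM2.ker (sin φ) (m + j) s ≤ 2 ^ j * SM2.ker (sin φ) m s := by
  have hpi := pi_pos
  have hφI : φ ∈ Ioo (-(π / 2)) (π / 2) := ⟨by linarith [hφ.1], hφ.2⟩
  have hcos := cos_pos_of_mem_Ioo hφI
  have hsin0 : 0 < sin φ := sin_pos_of_pos_of_lt_pi hφ.1 (by linarith [hφ.2])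
  have hsin1 : sin φ < 1 := (abs_lt.1 (FV.abs_sin_lt_one hφI)).2
  have hv := one_sub_pos' (T := sin φ) ⟨hsin0.le, hsin1⟩ hs
  have hσ : 1 - s ^ 2 ≤ 2 * (1 - sin φ * s) := aux_sigma hsin0 hsin1 hs
  have hv1 : 1 - sin φ ≤ 1 - sin φ * s := by
    have := mul_le_mul_of_nonneg_left hs hsin0.le
    linarith
  have hc2 : cos φ ^ 2 ≤ 2 * (1 - sin φ * s) := by
    have h2 := sin_sq_add_cos_sq φ
    nlinarith
  have hk : 0 ≤ SM2.ker (sin φ) m s := inv_nonneg.2 (pow_nonneg hv.le _)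
  have h3 : cos φ * |t| ≤ 2 * (1 - sin φ * s) := by
    have h4 : (cos φ * |t|) ^ 2 ≤ (2 * (1 - sin φ * s)) ^ 2 := by
      rw [mul_pow, sq_abs, mul_pow]
      have h5 : t ^ 2 ≤ 2 * (1 - sin φ * s) := by linarith
      calc cos φ ^ 2 * t ^ 2 ≤ (2 * (1 - sin φ * s)) * (2 * (1 - sin φ * s)) :=
            mul_le_mul hc2 h5 (sq_nonneg _) (by positivity)
        _ = _ := by ring
    exact (abs_le_of_sq_le_sq' h4 (by positivity)).2
  rw [ker_succ_div, ← mul_pow]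
  have h6 : (cos φ * |t|) ^ j ≤ 2 ^ j * (1 - sin φ * s) ^ j := by
    rw [← mul_pow]
    exact pow_le_pow_left₀ (mul_nonneg hcos.le (abs_nonneg _)) h3 j
  calc (cos φ * |t|) ^ j * (SM2.ker (sin φ) m s / (1 - sin φ * s) ^ j)
      ≤ (2 ^ j * (1 - sin φ * s) ^ j) * (SM2.ker (sin φ) m s / (1 - sin φ * s) ^ j) :=
        mul_le_mul_of_nonneg_right h6 (by positivity)
    _ = _ := by field_simp

/-- the pointwise bound of the monomials, both variables -/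
lemma tau_ker_le {k : R4} {φ : ℝ} (hφ : φ ∈ Ioo 0 (π / 2)) (hk : k ∈ KK)
    (h1 : k.1 ^ 2 + k.2.1 ^ 2 ≤ 1) (h2 : k.1 ^ 2 + k.2.2.1 ^ 2 ≤ 1) (j : ℕ) :
    cos φ ^ j * |tau j k| * SM2.ker (sin φ) (m + j) k.1 ≤ 2 ^ j * SM2.ker (sin φ) m k.1 := by
  have hpi := pi_pos
  have hφI : φ ∈ Ioo (-(π / 2)) (π / 2) := ⟨by linarith [hφ.1], hφ.2⟩
  have hcos := cos_pos_of_mem_Ioo hφI
  have hsin0 : 0 < sin φ := sin_pos_of_pos_of_lt_pi hφ.1 (by linarith [hφ.2])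
  have hsin1 : sin φ < 1 := (abs_lt.1 (FV.abs_sin_lt_one hφI)).2
  have hv := one_sub_pos' (T := sin φ) ⟨hsin0.le, hsin1⟩ hk.1.2
  have e1 := pow_ker_le (m := m) hφ hk.1.2 h1 j
  have e2 := pow_ker_le (m := m) hφ hk.1.2 h2 j
  have hk0 : 0 ≤ SM2.ker (sin φ) (m + j) k.1 := inv_nonneg.2 (pow_nonneg hv.le _)
  have h3 : |tau j k| ≤ (|k.2.1| ^ j + |k.2.2.1| ^ j) / 2 := by
    unfold tau
    rw [abs_div, abs_two, ← abs_pow, ← abs_pow]
    have := abs_add_le (k.2.1 ^ j) (k.2.2.1 ^ j)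
    linarith
  calc cos φ ^ j * |tau j k| * SM2.ker (sin φ) (m + j) k.1
      ≤ cos φ ^ j * ((|k.2.1| ^ j + |k.2.2.1| ^ j) / 2) * SM2.ker (sin φ) (m + j) k.1 :=
        mul_le_mul_of_nonneg_right (mul_le_mul_of_nonneg_left h3 (pow_nonneg hcos.le _)) hk0
    _ ≤ _ := by linarith

lemma ker_pred_le {T s : ℝ} (hT : T ∈ Ico (0 : ℝ) 1) (hs : s ∈ Icc (-1 : ℝ) 1) {q : ℕ} (hq : 1 ≤ q) :
    SM2.ker T (q - 1) s ≤ 2 * SM2.ker T q s := by
  have hv := one_sub_pos' hT hs.2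
  have h1 := ker_succ_div T s (q - 1) 1
  rw [Nat.sub_add_cancel hq, pow_one] at h1
  have h2 : SM2.ker T (q - 1) s = SM2.ker T q s * (1 - T * s) := by
    rw [h1, div_mul_cancel₀ _ hv.ne']
  have hk : 0 ≤ SM2.ker T q s := inv_nonneg.2 (pow_nonneg hv.le _)
  have hv2 : 1 - T * s ≤ 2 := by nlinarith [hT.1, hT.2, hs.1, mul_nonneg hT.1 (by linarith [hs.1] : 0 ≤ 1 + s)]
  rw [h2]
  nlinarith

/-- the comparison integral -/
noncomputable def Jf (ν : Measure Q) (m : ℕ) (κ : Q → R4) (φ : ℝ) : ℝ :=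
  cos φ ^ m * Mo ν κ (fun _ => 1) m (sin φ)

/-- the comparison integral with the normals -/
noncomputable def Bf (ν : Measure Q) (m : ℕ) (κ : Q → R4) (φ : ℝ) : ℝ :=
  cos φ ^ m * Mo ν κ (fun k => k.2.2.2) m (sin φ)

lemma tendsto_mul_bdd {f g : ℝ → ℝ} {F : Filter ℝ} (hf : Tendsto f F (𝓝 0)) {C : ℝ}
    (hg : ∀ᶠ φ in F, |g φ| ≤ C) : Tendsto (fun φ => f φ * g φ) F (𝓝 0) := by
  have h1 : Tendsto (fun φ => |f φ| * C) F (𝓝 0) := by
    have := hf.abs.mul_const C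
    simpa using this
  refine squeeze_zero_norm' ?_ h1
  filter_upwards [hg] with φ hφ
  rw [Real.norm_eq_abs, abs_mul]
  exact mul_le_mul_of_nonneg_left hφ (abs_nonneg _)

theorem tendsto_Gf_one (h : PL ν m κ) (hm : 1 ≤ m) {a b c : Fin 4 → ℝ → ℝ} {lam M : ℝ}
    (ha0 : Tendsto (fun φ => a 0 (sin φ) / cos φ ^ m) (𝓝[<] (π / 2)) (𝓝 lam))
    (hc0 : Tendsto (fun φ => c 0 (sin φ) / cos φ ^ m) (𝓝[<] (π / 2)) (𝓝 lam))
    (hb : ∀ j : Fin 4, Tendsto (fun φ => b j (sin φ) / cos φ ^ (m + (j : ℕ))) (𝓝[<] (π / 2)) (𝓝 0))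
    (ha : ∀ j : Fin 4, j ≠ 0 →
      Tendsto (fun φ => a j (sin φ) / cos φ ^ (m + (j : ℕ))) (𝓝[<] (π / 2)) (𝓝 0))
    (hc : ∀ j : Fin 4, j ≠ 0 →
      Tendsto (fun φ => c j (sin φ) / cos φ ^ (m + (j : ℕ))) (𝓝[<] (π / 2)) (𝓝 0))
    (hJ : ∀ᶠ φ in 𝓝[<] (π / 2), |Jf ν m κ φ| ≤ M)
    (hJB : Tendsto (fun φ => Jf ν m κ φ - Bf ν m κ φ) (𝓝[<] (π / 2)) (𝓝 0)) :
    Tendsto (fun φ => Gf ν m κ a b c (sin φ) - 2 * lam * Jf ν m κ φ) (𝓝[<] (π / 2)) (𝓝 0) := by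
  have hpi := pi_pos
  set F := 𝓝[<] (π / 2) with hF
  have h0 : ∀ᶠ φ in F, φ ∈ Ioo 0 (π / 2) := Ioo_mem_nhdsLT (by positivity)
  have hsT : ∀ φ ∈ Ioo 0 (π / 2), sin φ ∈ Ico (0 : ℝ) 1 := by
    intro φ hφ
    have hφI : φ ∈ Ioo (-(π / 2)) (π / 2) := ⟨by linarith [hφ.1], hφ.2⟩
    exact ⟨(sin_pos_of_pos_of_lt_pi hφ.1 (by linarith [hφ.2])).le,
      (abs_lt.1 (FV.abs_sin_lt_one hφI)).2⟩
  have hcos : ∀ φ ∈ Ioo 0 (π / 2), 0 < cos φ := fun φ hφ =>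
    cos_pos_of_mem_Ioo ⟨by linarith [hφ.1], hφ.2⟩
  have ct := continuous_tau
  have cc := continuous_ctau
  have hker0 : ∀ φ ∈ Ioo 0 (π / 2), ∀ q x, 0 ≤ SM2.ker (sin φ) q (κ x).1 := fun φ hφ q x =>
    inv_nonneg.2 (pow_nonneg (one_sub_pos' (hsT φ hφ) (h.mem x).1.2).le _)
  have hc1 : ∀ x, |(κ x).2.2.2| ≤ 1 := fun x => abs_le.2 (h.mem x).2.2.2
  -- bounds of the moments
  have bA : ∀ j : Fin 4, ∀ φ ∈ Ioo 0 (π / 2), |Jf ν m κ φ| ≤ M →
      |cos φ ^ (m + (j : ℕ)) * Mo ν κ (tau j) (m + j) (sin φ)| ≤ 2 ^ (j : ℕ) * M := by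
    intro j φ hφ h3
    have hc' := hcos φ hφ
    have h1 := abs_Mo_le (ν := ν) (m := m) (f := fun k => cos φ ^ (j : ℕ) * tau j k)
      (q := m + j) (C := 2 ^ (j : ℕ)) h.meas h.mem (continuous_const.mul (ct j)) (hsT φ hφ) (by
        intro x
        rw [abs_mul, abs_of_nonneg (pow_nonneg hc'.le _)]
        exact tau_ker_le hφ (h.mem x) (h.b1 x) (h.b2 x) j)
    have h2 : Mo ν κ (fun k => cos φ ^ (j : ℕ) * tau j k) (m + j) (sin φ)
        = cos φ ^ (j : ℕ) * Mo ν κ (tau j) (m + j) (sin φ) := by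
      unfold Mo
      rw [← integral_const_mul]
      refine integral_congr_ae (Eventually.of_forall fun x => ?_)
      simp only
      ring
    rw [h2] at h1
    unfold Jf at h3
    have h4 := (le_abs_self _).trans h3
    calc |cos φ ^ (m + (j : ℕ)) * Mo ν κ (tau j) (m + j) (sin φ)|
        = cos φ ^ m * |cos φ ^ (j : ℕ) * Mo ν κ (tau j) (m + j) (sin φ)| := by
          rw [pow_add, mul_assoc, abs_mul, abs_of_nonneg (pow_nonneg hc'.le _)]
      _ ≤ cos φ ^ m * (2 ^ (j : ℕ) * Mo ν κ (fun _ => 1) m (sin φ)) :=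
          mul_le_mul_of_nonneg_left h1 (pow_nonneg hc'.le _)
      _ = 2 ^ (j : ℕ) * (cos φ ^ m * Mo ν κ (fun _ => 1) m (sin φ)) := by ring
      _ ≤ _ := mul_le_mul_of_nonneg_left h4 (by positivity)
  have bB : ∀ j : Fin 4, ∀ φ ∈ Ioo 0 (π / 2), |Jf ν m κ φ| ≤ M →
      |cos φ ^ (m + (j : ℕ)) * Mo ν κ (tau j) (m + j - 1) (sin φ)| ≤ 2 * 2 ^ (j : ℕ) * M := by
    intro j φ hφ h3
    have hc' := hcos φ hφ
    have h1 := abs_Mo_le (ν := ν) (m := m) (f := fun k => cos φ ^ (j : ℕ) * tau j k)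
      (q := m + j - 1) (C := 2 * 2 ^ (j : ℕ)) h.meas h.mem (continuous_const.mul (ct j))
      (hsT φ hφ) (by
        intro x
        rw [abs_mul, abs_of_nonneg (pow_nonneg hc'.le _)]
        have h5 := tau_ker_le (m := m) hφ (h.mem x) (h.b1 x) (h.b2 x) j
        have h6 := ker_pred_le (hsT φ hφ) (h.mem x).1 (q := m + j) (by omega)
        have h7 : 0 ≤ cos φ ^ (j : ℕ) * |tau j (κ x)| := by positivity
        have h8 := mul_le_mul_of_nonneg_left h6 h7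
        linarith)
    have h2 : Mo ν κ (fun k => cos φ ^ (j : ℕ) * tau j k) (m + j - 1) (sin φ)
        = cos φ ^ (j : ℕ) * Mo ν κ (tau j) (m + j - 1) (sin φ) := by
      unfold Mo
      rw [← integral_const_mul]
      refine integral_congr_ae (Eventually.of_forall fun x => ?_)
      simp only
      ring
    rw [h2] at h1
    unfold Jf at h3
    have h4 := (le_abs_self _).trans h3
    calc |cos φ ^ (m + (j : ℕ)) * Mo ν κ (tau j) (m + j - 1) (sin φ)|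
        = cos φ ^ m * |cos φ ^ (j : ℕ) * Mo ν κ (tau j) (m + j - 1) (sin φ)| := by
          rw [pow_add, mul_assoc, abs_mul, abs_of_nonneg (pow_nonneg hc'.le _)]
      _ ≤ cos φ ^ m * (2 * 2 ^ (j : ℕ) * Mo ν κ (fun _ => 1) m (sin φ)) :=
          mul_le_mul_of_nonneg_left h1 (pow_nonneg hc'.le _)
      _ = 2 * 2 ^ (j : ℕ) * (cos φ ^ m * Mo ν κ (fun _ => 1) m (sin φ)) := by ring
      _ ≤ _ := mul_le_mul_of_nonneg_left h4 (by positivity)
  have bC : ∀ j : Fin 4, ∀ φ ∈ Ioo 0 (π / 2), |Jf ν m κ φ| ≤ M →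
      |cos φ ^ (m + (j : ℕ)) * Mo ν κ (fun k => k.2.2.2 * tau j k) (m + j) (sin φ)|
        ≤ 2 ^ (j : ℕ) * M := by
    intro j φ hφ h3
    have hc' := hcos φ hφ
    have h1 := abs_Mo_le (ν := ν) (m := m) (f := fun k => cos φ ^ (j : ℕ) * (k.2.2.2 * tau j k))
      (q := m + j) (C := 2 ^ (j : ℕ)) h.meas h.mem (continuous_const.mul (cc j)) (hsT φ hφ) (by
        intro x
        rw [abs_mul, abs_of_nonneg (pow_nonneg hc'.le _), abs_mul]
        refine le_trans ?_ (tau_ker_le hφ (h.mem x) (h.b1 x) (h.b2 x) j)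
        refine mul_le_mul_of_nonneg_right ?_ (hker0 φ hφ _ x)
        refine mul_le_mul_of_nonneg_left ?_ (pow_nonneg hc'.le _)
        exact mul_le_of_le_one_left (abs_nonneg _) (hc1 x))
    have h2 : Mo ν κ (fun k => cos φ ^ (j : ℕ) * (k.2.2.2 * tau j k)) (m + j) (sin φ)
        = cos φ ^ (j : ℕ) * Mo ν κ (fun k => k.2.2.2 * tau j k) (m + j) (sin φ) := by
      unfold Mo
      rw [← integral_const_mul]
      refine integral_congr_ae (Eventually.of_forall fun x => ?_)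
      simp only
      ring
    rw [h2] at h1
    unfold Jf at h3
    have h4 := (le_abs_self _).trans h3
    calc |cos φ ^ (m + (j : ℕ)) * Mo ν κ (fun k => k.2.2.2 * tau j k) (m + j) (sin φ)|
        = cos φ ^ m * |cos φ ^ (j : ℕ)
          * Mo ν κ (fun k => k.2.2.2 * tau j k) (m + j) (sin φ)| := by
          rw [pow_add, mul_assoc, abs_mul, abs_of_nonneg (pow_nonneg hc'.le _)]
      _ ≤ cos φ ^ m * (2 ^ (j : ℕ) * Mo ν κ (fun _ => 1) m (sin φ)) :=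
          mul_le_mul_of_nonneg_left h1 (pow_nonneg hc'.le _)
      _ = 2 ^ (j : ℕ) * (cos φ ^ m * Mo ν κ (fun _ => 1) m (sin φ)) := by ring
      _ ≤ _ := mul_le_mul_of_nonneg_left h4 (by positivity)
  -- the terms which disappear
  have tb : ∀ j : Fin 4, Tendsto (fun φ => b j (sin φ) * Mo ν κ (tau j) (m + j - 1) (sin φ)) F
      (𝓝 0) := by
    intro j
    have h1 := tendsto_mul_bdd (hb j) (g := fun φ => cos φ ^ (m + (j : ℕ))
      * Mo ν κ (tau j) (m + j - 1) (sin φ)) (C := 2 * 2 ^ (j : ℕ) * M)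
      (by filter_upwards [h0, hJ] with φ hφ h3 using bB j φ hφ h3)
    refine h1.congr' ?_
    filter_upwards [h0] with φ hφ
    have := (pow_pos (hcos φ hφ) (m + (j : ℕ))).ne'
    field_simp
  have ta : ∀ j : Fin 4, j ≠ 0 → Tendsto (fun φ => a j (sin φ)
      * Mo ν κ (tau j) (m + j) (sin φ)) F (𝓝 0) := by
    intro j hj
    have h1 := tendsto_mul_bdd (ha j hj) (g := fun φ => cos φ ^ (m + (j : ℕ))
      * Mo ν κ (tau j) (m + j) (sin φ)) (C := 2 ^ (j : ℕ) * M)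
      (by filter_upwards [h0, hJ] with φ hφ h3 using bA j φ hφ h3)
    refine h1.congr' ?_
    filter_upwards [h0] with φ hφ
    have := (pow_pos (hcos φ hφ) (m + (j : ℕ))).ne'
    field_simp
  have tc : ∀ j : Fin 4, j ≠ 0 → Tendsto (fun φ => c j (sin φ)
      * Mo ν κ (fun k => k.2.2.2 * tau j k) (m + j) (sin φ)) F (𝓝 0) := by
    intro j hj
    have h1 := tendsto_mul_bdd (hc j hj) (g := fun φ => cos φ ^ (m + (j : ℕ))
      * Mo ν κ (fun k => k.2.2.2 * tau j k) (m + j) (sin φ)) (C := 2 ^ (j : ℕ) * M)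
      (by filter_upwards [h0, hJ] with φ hφ h3 using bC j φ hφ h3)
    refine h1.congr' ?_
    filter_upwards [h0] with φ hφ
    have := (pow_pos (hcos φ hφ) (m + (j : ℕ))).ne'
    field_simp
  -- the main terms
  have t1 : Tendsto (fun φ => (a 0 (sin φ) / cos φ ^ m - lam) * Jf ν m κ φ) F (𝓝 0) :=
    tendsto_mul_bdd (by simpa using ha0.sub_const lam)
      hJ
  have t2 : Tendsto (fun φ => (c 0 (sin φ) / cos φ ^ m - lam) * Jf ν m κ φ) F (𝓝 0) :=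
    tendsto_mul_bdd (by simpa using hc0.sub_const lam)
      hJ
  have t3 : Tendsto (fun φ => c 0 (sin φ) / cos φ ^ m * (Jf ν m κ φ - Bf ν m κ φ)) F (𝓝 0) := by
    have := hc0.mul hJB
    simpa using this
  have tsum := ((((((((((t1.add t2).sub t3).add (tb 0)).add (tb 1)).add (tb 2)).add (tb 3)).add
    (ta 1 (by decide))).add (ta 2 (by decide))).add (ta 3 (by decide))).add
    (tc 1 (by decide))).add ((tc 2 (by decide)).add (tc 3 (by decide)))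
  simp only [add_zero, sub_zero] at tsum
  refine tsum.congr' ?_
  filter_upwards [h0] with φ hφ
  have hcm := (pow_pos (hcos φ hφ) m).ne'
  have e1 : Mo ν κ (tau 0) m (sin φ) = Mo ν κ (fun _ => 1) m (sin φ) := by
    unfold Mo tau
    norm_num
  have e2 : Mo ν κ (fun k => k.2.2.2 * tau 0 k) m (sin φ) = Mo ν κ (fun k => k.2.2.2) m (sin φ) := by
    unfold Mo tau
    norm_num
  unfold Gf Jf Bf
  simp only [Fin.sum_univ_four, Fin.val_zero, Fin.val_one, Fin.val_two, Fin.isValue,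
    show ((3 : Fin 4) : ℕ) = 3 from rfl, add_zero, e1, e2]
  field_simp
  ring

end

end Vale.Agent.P224.R2.H925
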