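import Vale.Agent.P224.R2.H925.MlRow
import Vale.Agent.P224.R2.H925.Gen
import Vale.Agent.P224.R2.H728.T0

/-!
Moments `∫ g (1 - T s)^(-j)` of bounded functions of a pair.
-/

namespace Vale.Agent.P224.R2.H925

open MeasureTheory Set Filter Function Real Vale.Agent.P224.R2.H470 Vale.Agent.P224.R2.H728
open Vale.Agent.P224.SM2 hiding ker
open scoped RealInnerProductSpace Topology ContDiff

set_option linter.unusedSectionVars false

section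

variable {Q : Type*} [MeasurableSpace Q] {ν : Measure Q} [IsFiniteMeasure ν] {s g : Q → ℝ}

/-- the moments -/
noncomputable def Mj (ν : Measure Q) (s : Q → ℝ) (j : ℕ) (g : Q → ℝ) (T : ℝ) : ℝ :=
  ∫ x, g x * SM2.ker T j (s x) ∂ν

/-- an admissible scalar product function -/
structure SOK (s : Q → ℝ) : Prop where
  meas : Measurable s
  mem : ∀ x, s x ∈ Icc (-1 : ℝ) 1

lemma contOn_k2 (j : ℕ) (C : ℝ) :
    ContinuousOn (uncurry fun (T : ℝ) (k : ℝ × ℝ) => k.2 * SM2.ker T j k.1)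
      (Ico 0 1 ×ˢ (Icc (-1) 1 ×ˢ Icc (-C) C)) := by
  have h1 : ContinuousOn (fun z : ℝ × ℝ × ℝ => SM2.ker z.1 j z.2.1)
      (Ico 0 1 ×ˢ (Icc (-1) 1 ×ˢ Icc (-C) C)) := by
    unfold SM2.ker
    refine ContinuousOn.inv₀ (by fun_prop) fun z hz => ?_
    exact pow_ne_zero _ (one_sub_pos' hz.1 hz.2.1.2).ne'
  have h2 : ContinuousOn (fun z : ℝ × ℝ × ℝ => z.2.2) (Ico 0 1 ×ˢ (Icc (-1) 1 ×ˢ Icc (-C) C)) := by
    fun_prop
  exact h2.mul h1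

lemma meas_k2 (j : ℕ) (T : ℝ) : Measurable fun k : ℝ × ℝ => k.2 * SM2.ker T j k.1 :=
  measurable_snd.mul ((measurable_ker T j).comp measurable_fst)

lemma BM.mem2 (hs : SOK s) (hg : BM g) : ∃ C : ℝ, Measurable (fun x => (s x, g x)) ∧
    (∀ x, (s x, g x) ∈ Icc (-1 : ℝ) 1 ×ˢ Icc (-C) C) ∧
    (∀ x, (s x, s x * g x) ∈ Icc (-1 : ℝ) 1 ×ˢ Icc (-C) C) := by
  obtain ⟨h1, C, hC⟩ := hg
  refine ⟨C, hs.meas.prodMk h1, fun x => ⟨hs.mem x, abs_le.1 (hC x)⟩, fun x =>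
    ⟨hs.mem x, abs_le.1 ?_⟩⟩
  rw [abs_mul]
  calc |s x| * |g x| ≤ 1 * |g x| :=
        mul_le_mul_of_nonneg_right (abs_le.2 (hs.mem x)) (abs_nonneg _)
    _ ≤ C := by rw [one_mul]; exact hC x

lemma int_Mj (hs : SOK s) (hg : BM g) (j : ℕ) {T : ℝ} (hT : T ∈ Ico (0 : ℝ) 1) :
    Integrable (fun x => g x * SM2.ker T j (s x)) ν := by
  obtain ⟨C, h1, h2, -⟩ := BM.mem2 hs hg
  exact integrable_param ν h1 (isCompact_Icc.prod isCompact_Icc) h2 (meas_k2 j T)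
    (contOn_slice (contOn_k2 j C) hT)

lemma contOn_Mj (hs : SOK s) (hg : BM g) (j : ℕ) : ContinuousOn (Mj ν s j g) (Ico 0 1) := by
  obtain ⟨C, h1, h2, -⟩ := BM.mem2 hs hg
  exact contOn_param ν h1 (isCompact_Icc.prod isCompact_Icc) h2
    (g := fun T k => k.2 * SM2.ker T j k.1) (fun T => meas_k2 j T) (contOn_k2 j C)

lemma deriv_Mj (hs : SOK s) (hg : BM g) (j : ℕ) {T : ℝ} (hT : T ∈ Ioo (0 : ℝ) 1) :
    HasDerivAt (Mj ν s j g) (j * Mj ν s (j + 1) (fun x => s x * g x) T) T := by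
  obtain ⟨C, h1, h2, -⟩ := BM.mem2 hs hg
  have h := deriv_param ν h1 (isCompact_Icc.prod isCompact_Icc) h2
    (g := fun T k => k.2 * SM2.ker T j k.1)
    (g' := fun T k => j * (k.1 * (k.2 * SM2.ker T (j + 1) k.1)))
    (fun T => meas_k2 j T)
    (fun T => measurable_const.mul (measurable_fst.mul (meas_k2 (j + 1) T)))
    (contOn_k2 j C)
    (by
      have hsub : Ioo (0 : ℝ) 1 ×ˢ (Icc (-1 : ℝ) 1 ×ˢ Icc (-C) C)
          ⊆ Ico (0 : ℝ) 1 ×ˢ (Icc (-1 : ℝ) 1 ×ˢ Icc (-C) C) :=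
        prod_mono Ioo_subset_Ico_self Subset.rfl
      have h3 := (contOn_k2 (j + 1) C).mono hsub
      have h4 : ContinuousOn (fun z : ℝ × ℝ × ℝ => (j : ℝ) * z.2.1)
        (Ioo (0 : ℝ) 1 ×ˢ (Icc (-1) 1 ×ˢ Icc (-C) C)) := by fun_prop
      refine (h4.mul h3).congr fun z _ => ?_
      simp only [uncurry, Pi.mul_apply]
      ring)
    (fun T hT k hk => by
      have hv : 1 - T * k.1 ≠ 0 := (one_sub_pos' ⟨hT.1.le, hT.2⟩ hk.1.2).ne'
      refine ((hasDerivAt_ker_T (q := j) hv).const_mul k.2).congr_deriv ?_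
      ring) hT
  refine h.congr_deriv ?_
  rw [integral_const_mul]
  unfold Mj
  congr 1
  refine integral_congr_ae (Eventually.of_forall fun x => ?_)
  simp only
  ring

lemma Mj_zero (j : ℕ) : Mj ν s j g 0 = ∫ x, g x ∂ν := by
  unfold Mj SM2.ker
  simp

lemma BM.sg (hs : SOK s) (hg : BM g) : BM (fun x => s x * g x) :=
  BM.mul ⟨hs.meas, 1, fun x => abs_le.2 (hs.mem x)⟩ hg

lemma shift_Mj (hs : SOK s) (hg : BM g) (j : ℕ) {T : ℝ} (hT : T ∈ Ico (0 : ℝ) 1) :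
    Mj ν s j g T = Mj ν s (j + 1) g T - T * Mj ν s (j + 1) (fun x => s x * g x) T := by
  have i1 := int_Mj (ν := ν) hs hg (j + 1) hT
  have i2 := int_Mj (ν := ν) hs (BM.sg hs hg) (j + 1) hT
  unfold Mj
  rw [← integral_const_mul, ← integral_sub i1 (i2.const_mul T)]
  refine integral_congr_ae (Eventually.of_forall fun x => ?_)
  have hv := (one_sub_pos' hT (hs.mem x).2).ne'
  have h1 := ker_succ_div T (s x) j 1
  simp only
  rw [h1, pow_one]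
  field_simp

/-- six terms -/
lemma six_Mj (hs : SOK s) {g1 g2 g3 g4 g5 g6 : Q → ℝ} (b1 : BM g1) (b2 : BM g2) (b3 : BM g3)
    (b4 : BM g4) (b5 : BM g5) (b6 : BM g6) (j1 j2 j3 j4 j5 j6 : ℕ) {T : ℝ}
    (hT : T ∈ Ico (0 : ℝ) 1) (a1 a2 a3 a4 a5 a6 : ℝ) :
    a1 * Mj ν s j1 g1 T + a2 * Mj ν s j2 g2 T + a3 * Mj ν s j3 g3 T + a4 * Mj ν s j4 g4 T
      + a5 * Mj ν s j5 g5 T + a6 * Mj ν s j6 g6 T
      = ∫ x, (a1 * (g1 x * SM2.ker T j1 (s x)) + a2 * (g2 x * SM2.ker T j2 (s x))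
        + a3 * (g3 x * SM2.ker T j3 (s x)) + a4 * (g4 x * SM2.ker T j4 (s x))
        + a5 * (g5 x * SM2.ker T j5 (s x)) + a6 * (g6 x * SM2.ker T j6 (s x))) ∂ν :=
  (integral_comb6 (int_Mj hs b1 j1 hT) (int_Mj hs b2 j2 hT) (int_Mj hs b3 j3 hT)
    (int_Mj hs b4 j4 hT) (int_Mj hs b5 j5 hT) (int_Mj hs b6 j6 hT) a1 a2 a3 a4 a5 a6).2.symm

/-- three terms -/
lemma three_Mj (hs : SOK s) {g1 g2 g3 : Q → ℝ} (b1 : BM g1) (b2 : BM g2) (b3 : BM g3)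
    (j1 j2 j3 : ℕ) {T : ℝ} (hT : T ∈ Ico (0 : ℝ) 1) (a1 a2 a3 : ℝ) :
    a1 * Mj ν s j1 g1 T + a2 * Mj ν s j2 g2 T + a3 * Mj ν s j3 g3 T
      = ∫ x, (a1 * (g1 x * SM2.ker T j1 (s x)) + a2 * (g2 x * SM2.ker T j2 (s x))
        + a3 * (g3 x * SM2.ker T j3 (s x))) ∂ν := by
  have h := six_Mj (ν := ν) hs b1 b2 b3 b3 b3 b3 j1 j2 j3 j3 j3 j3 hT a1 a2 a3 0 0 0
  simp only [zero_mul, add_zero] at h
  exact h

end

section

variable {X : Type*} [MeasurableSpace X] {μ : Measure X} [IsFiniteMeasure μ]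

/-- a row integrated over the second point -/
lemma fub {F : X × X → ℝ} (hi : Integrable F (μ.prod μ)) (h : ∀ y, ∫ x, F (x, y) ∂μ = 0) :
    ∫ q, F q ∂(μ.prod μ) = 0 := by
  rw [integral_prod_symm _ hi]
  simp only [h, integral_zero]

end

end Vale.Agent.P224.R2.H925
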