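import Vale.Agent.P224.R2.H925.Ml0

/-!
Two point identities at level `T`.
-/

namespace Vale.Agent.P224.R2.H925

open MeasureTheory Set Filter Function Real Vale.Agent.P224.R2.H470 Vale.Agent.P224.R2.H728
open Vale.Agent.P224.SM2 hiding ker
open scoped RealInnerProductSpace Topology ContDiff

set_option linter.unusedSectionVars false

section

variable {X : Type*} {E : Type*} [NormedAddCommGroup E] [InnerProductSpace ℝ E]

/-- `⟪x, y⟫` -/
noncomputable def vS (p : X → E) (q : X × X) : ℝ := ⟪p q.1, p q.2⟫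
/-- `⟪N_x, y⟫` -/
noncomputable def vP (p n : X → E) (q : X × X) : ℝ := ⟪n q.1, p q.2⟫
/-- `⟪x, N_y⟫` -/
noncomputable def vT (p n : X → E) (q : X × X) : ℝ := ⟪p q.1, n q.2⟫
/-- `⟪N_x, N_y⟫` -/
noncomputable def vC (n : X → E) (q : X × X) : ℝ := ⟪n q.1, n q.2⟫

variable [TopologicalSpace X] [MeasurableSpace X] [CompactSpace X] [BorelSpace X]
  [MeasurableSpace E] [BorelSpace E] [SecondCountableTopology E]
  {μ : Measure X} [IsFiniteMeasure μ] {m : ℕ} {p n : X → E}

lemma abs_inner_le_one {u v : E} (hu : ‖u‖ = 1) (hv : ‖v‖ = 1) : |⟪u, v⟫| ≤ 1 := by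
  have := abs_real_inner_le_norm u v
  rwa [hu, hv, one_mul] at this

lemma BM.cong {Ω : Type*} [MeasurableSpace Ω] {f g : Ω → ℝ} (hf : BM f) (h : ∀ x, f x = g x) :
    BM g := by
  have : f = g := funext h
  rwa [← this]

section

variable (h : OneP μ m p n)
include h

lemma sok : SOK (vS p) where
  meas := (h.cp.measurable.comp measurable_fst).inner (h.cp.measurable.comp measurable_snd)
  mem := fun q => abs_le.1 (abs_inner_le_one (h.np _) (h.np _))

lemma bmS : BM (vS p) := ⟨(sok h).meas, 1, fun q => abs_inner_le_one (h.np _) (h.np _)⟩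

lemma bmP : BM (vP p n) :=
  ⟨(h.cn.measurable.comp measurable_fst).inner (h.cp.measurable.comp measurable_snd), 1,
    fun q => abs_inner_le_one (h.nn _) (h.np _)⟩

lemma bmT : BM (vT p n) :=
  ⟨(h.cp.measurable.comp measurable_fst).inner (h.cn.measurable.comp measurable_snd), 1,
    fun q => abs_inner_le_one (h.np _) (h.nn _)⟩

lemma bmC : BM (vC n) :=
  ⟨(h.cn.measurable.comp measurable_fst).inner (h.cn.measurable.comp measurable_snd), 1,
    fun q => abs_inner_le_one (h.nn _) (h.nn _)⟩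

lemma bmp (a : E) : BM (fun x => ⟪p x, a⟫) :=
  ⟨h.cp.measurable.inner measurable_const, ‖a‖, fun x => by
    have := abs_real_inner_le_norm (p x) a
    rwa [h.np, one_mul] at this⟩

lemma bmn (a : E) : BM (fun x => ⟪n x, a⟫) :=
  ⟨h.cn.measurable.inner measurable_const, ‖a‖, fun x => by
    have := abs_real_inner_le_norm (n x) a
    rwa [h.nn, one_mul] at this⟩

lemma bmp1 (a : E) : BM (fun q : X × X => ⟪p q.1, a⟫) := (bmp h a).fst
lemma bmp2 (a : E) : BM (fun q : X × X => ⟪p q.2, a⟫) := (bmp h a).snd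
lemma bmn1 (a : E) : BM (fun q : X × X => ⟪n q.1, a⟫) := (bmn h a).fst
lemma bmn2 (a : E) : BM (fun q : X × X => ⟪n q.2, a⟫) := (bmn h a).snd

end

/-- exchange of the two points -/
lemma Mj_swap (j : ℕ) (g : X × X → ℝ) (T : ℝ) :
    Mj (μ.prod μ) (vS p) j g T = Mj (μ.prod μ) (vS p) j (fun q => g q.swap) T := by
  unfold Mj
  have h1 := integral_prod_swap (μ := μ) (ν := μ)
    (fun q : X × X => g q * SM2.ker T j (vS p q))
  rw [← h1]
  refine integral_congr_ae (Eventually.of_forall fun q => ?_)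
  simp only [vS, Prod.fst_swap, Prod.snd_swap]
  rw [real_inner_comm]

section

variable (h : OneP μ m p n) (hm : 1 ≤ m) {T : ℝ} (hT : T ∈ Ico (0 : ℝ) 1)
include h hT

/-- the shape of all the rows -/
lemma row_zero {j : ℕ} {G : X × X → ℝ} (hG : BM G)
    (hr : ∀ y, ∫ x, G (x, y) * SM2.ker T j ⟪p x, p y⟫ ∂μ = 0) :
    Mj (μ.prod μ) (vS p) j G T = 0 :=
  fub (F := fun q => G q * SM2.ker T j (vS p q)) (int_Mj (sok h) hG j hT) hr

/-- rows with a factor depending on the second point only -/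
lemma row_of {j : ℕ} {G : X × X → ℝ} (hG : BM G) {R : X → X → ℝ} {k : ℝ} (hk : k ≠ 0)
    {g2 : X → ℝ} (hr : ∀ y, ∫ x, R x y ∂μ = 0)
    (e : ∀ x y, g2 y * R x y = k * (G (x, y) * SM2.ker T j ⟪p x, p y⟫)) :
    Mj (μ.prod μ) (vS p) j G T = 0 := by
  refine row_zero h hT hG fun y => ?_
  have h1 : ∫ x, g2 y * R x y ∂μ = 0 := by rw [integral_const_mul, hr, mul_zero]
  simp only [e] at h1
  rw [integral_const_mul] at h1
  exact (mul_eq_zero.1 h1).resolve_left hk

lemma kerm (x y : X) (q : ℕ) : SM2.ker T q ⟪p x, p y⟫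
    = (1 - T * ⟪p x, p y⟫) * SM2.ker T (q + 1) ⟪p x, p y⟫ := by
  have hv := (one_sub_pos' hT (inner_le_one' (h.np y) (h.np x))).ne'
  rw [ker_succ_div, pow_one]
  field_simp

include hm

/-- `R1` with a constant vector -/
lemma rowA {g2 : X → ℝ} (hg : BM g2) (a : E) :
    Mj (μ.prod μ) (vS p) (m + 1) (fun q => g2 q.2 * (T * ⟪p q.2, a⟫ - T * (vP p n q * ⟪n q.1, a⟫)
      - ⟪p q.1, a⟫)) T = 0 := by
  have hm0 : (m : ℝ) ≠ 0 := by positivity
  refine row_of h hT (hg.snd.mul ((((bmp2 h a).const_mul T).sub (((bmP h).mul (bmn1 h a)).const_mul T)).sub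
    (bmp1 h a))) hm0 (g2 := g2) (fun y => row1 h (h.np y) hT m a) fun x y => ?_
  simp only [vP]
  rw [kerm h hT x y m]
  ring

/-- `R1` with the second normal -/
lemma rowB {g2 : X → ℝ} (hg : BM g2) :
    Mj (μ.prod μ) (vS p) (m + 1) (fun q => g2 q.2 * (T * (vP p n q * vC n q) + vT p n q)) T = 0 := by
  have hm0 : -(m : ℝ) ≠ 0 := by
    have : (m : ℝ) ≠ 0 := by positivity
    exact neg_ne_zero.2 this
  refine row_of h hT (hg.snd.mul ((((bmP h).mul (bmC h)).const_mul T).add (bmT h))) hm0 (g2 := g2)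
    (fun y => row1 h (h.np y) hT m (n y)) fun x y => ?_
  simp only [vP, vC, vT]
  rw [kerm h hT x y m, h.pn y]
  ring

/-- `R1` with the second point -/
lemma rowY {g2 : X → ℝ} (hg : BM g2) :
    Mj (μ.prod μ) (vS p) (m + 1) (fun q => g2 q.2 * (T - T * (vP p n q * vP p n q) - vS p q)) T
      = 0 := by
  have hm0 : (m : ℝ) ≠ 0 := by positivity
  refine row_of h hT (hg.snd.mul (((BM.const T).sub (((bmP h).mul (bmP h)).const_mul T)).sub
    (bmS h))) hm0 (g2 := g2) (fun y => row1 h (h.np y) hT m (p y)) fun x y => ?_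
  simp only [vP, vS]
  rw [kerm h hT x y m, h.pp y]
  ring

/-- `R2` with a constant vector and the second normal -/
lemma rowC {g2 : X → ℝ} (hg : BM g2) (a : E) :
    Mj (μ.prod μ) (vS p) (m + 1) (fun q => g2 q.2 * (vC n q * ⟪p q.1, a⟫ - T * (vC n q * ⟪p q.2, a⟫)
      - vT p n q * ⟪n q.1, a⟫)) T = 0 := by
  have hm0 : (m : ℝ) ≠ 0 := by positivity
  refine row_of h hT (hg.snd.mul ((((bmC h).mul (bmp1 h a)).sub (((bmC h).mul (bmp2 h a)).const_mul
    T)).sub ((bmT h).mul (bmn1 h a)))) hm0 (g2 := g2) (fun y => row2 h (h.np y) hT m a (n y))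
    fun x y => ?_
  simp only [vC, vT]
  rw [kerm h hT x y m, h.pn y]
  ring

/-- `R2` with a constant vector and the second point -/
lemma rowD {g2 : X → ℝ} (hg : BM g2) (a : E) :
    Mj (μ.prod μ) (vS p) (m + 1) (fun q => g2 q.2 * (T * ⟪n q.1, a⟫ - vS p q * ⟪n q.1, a⟫
      - T * (vP p n q * ⟪p q.2, a⟫) + vP p n q * ⟪p q.1, a⟫)) T = 0 := by
  have hm0 : (m : ℝ) ≠ 0 := by positivity
  refine row_of h hT (hg.snd.mul (((((bmn1 h a).const_mul T).sub ((bmS h).mul (bmn1 h a))).sub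
    (((bmP h).mul (bmp2 h a)).const_mul T)).add ((bmP h).mul (bmp1 h a)))) hm0 (g2 := g2)
    (fun y => row2 h (h.np y) hT m a (p y)) fun x y => ?_
  simp only [vP, vS]
  rw [kerm h hT x y m, h.pp y]
  ring

/-- `R2` with the second normal and the second point -/
lemma rowE {g2 : X → ℝ} (hg : BM g2) :
    Mj (μ.prod μ) (vS p) (m + 1) (fun q => g2 q.2 * (T * vC n q - vS p q * vC n q
      + vP p n q * vT p n q)) T = 0 := by
  have hm0 : (m : ℝ) ≠ 0 := by positivity
  refine row_of h hT (hg.snd.mul ((((bmC h).const_mul T).sub ((bmS h).mul (bmC h))).add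
    ((bmP h).mul (bmT h)))) hm0 (g2 := g2) (fun y => row2 h (h.np y) hT m (n y) (p y)) fun x y => ?_
  simp only [vP, vS, vC, vT]
  rw [kerm h hT x y m, h.pp y, h.pn y]
  ring

omit hm in
/-- `R3` with a constant vector and the second normal -/
lemma rowF {g2 : X → ℝ} (hg : BM g2) (a : E) :
    Mj (μ.prod μ) (vS p) (m + 1) (fun q => g2 q.2 * (-(m : ℝ) * (T * (vC n q * vP p n q * ⟪p q.1, a⟫)
      + vT p n q * ⟪p q.1, a⟫) + (1 - T * vS p q) * (⟪n q.2, a⟫ - vT p n q * ⟪p q.1, a⟫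
      - vC n q * ⟪n q.1, a⟫))) T = 0 := by
  have b1 := (((((bmC h).mul (bmP h)).mul (bmp1 h a)).const_mul T).add ((bmT h).mul
    (bmp1 h a))).const_mul (-(m : ℝ))
  have b2 := ((BM.const (Ω := X × X) 1).sub ((bmS h).const_mul T)).mul (((bmn2 h a).sub
    ((bmT h).mul (bmp1 h a))).sub ((bmC h).mul (bmn1 h a)))
  refine row_of h hT (hg.snd.mul (b1.add b2)) one_ne_zero (g2 := g2)
    (fun y => row3 h (h.np y) hT m a (n y)) fun x y => ?_
  simp only [vP, vS, vC, vT]
  rw [kerm h hT x y m, h.pn y, real_inner_comm (n y) a]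
  ring

omit hm in
/-- `R3` with the second normal and a constant vector -/
lemma rowG {g2 : X → ℝ} (hg : BM g2) (a : E) :
    Mj (μ.prod μ) (vS p) (m + 1) (fun q => g2 q.2 * ((m : ℝ) * (T * (vT p n q * ⟪p q.2, a⟫)
      - T * (vT p n q * vP p n q * ⟪n q.1, a⟫) - vT p n q * ⟪p q.1, a⟫)
      + (1 - T * vS p q) * (⟪n q.2, a⟫ - vT p n q * ⟪p q.1, a⟫ - vC n q * ⟪n q.1, a⟫))) T = 0 := by
  have b1 := (((((bmT h).mul (bmp2 h a)).const_mul T).sub ((((bmT h).mul (bmP h)).mul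
    (bmn1 h a)).const_mul T)).sub ((bmT h).mul (bmp1 h a))).const_mul (m : ℝ)
  have b2 := ((BM.const (Ω := X × X) 1).sub ((bmS h).const_mul T)).mul (((bmn2 h a).sub
    ((bmT h).mul (bmp1 h a))).sub ((bmC h).mul (bmn1 h a)))
  refine row_of h hT (hg.snd.mul (b1.add b2)) one_ne_zero (g2 := g2)
    (fun y => row3 h (h.np y) hT m (n y) a) fun x y => ?_
  simp only [vP, vS, vC, vT]
  rw [kerm h hT x y m]
  ring

end

end

end Vale.Agent.P224.R2.H925
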