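import Vale.Agent.P224.R2.H925.Ml1

/-!
The mean normal flow: derivative of the functional.
-/

namespace Vale.Agent.P224.R2.H925

open MeasureTheory Set Filter Function Real Vale.Agent.P224.R2.H470 Vale.Agent.P224.R2.H728
open Vale.Agent.P224.SM2 hiding ker
open scoped RealInnerProductSpace Topology ContDiff

set_option linter.unusedSectionVars false

section

variable {X : Type*} {E : Type*} [NormedAddCommGroup E] [InnerProductSpace ℝ E]

lemma vP_swap (p n : X → E) (q : X × X) : vP p n q.swap = vT p n q := by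
  simp only [vP, vT, Prod.fst_swap, Prod.snd_swap, real_inner_comm]
lemma vT_swap (p n : X → E) (q : X × X) : vT p n q.swap = vP p n q := by
  simp only [vP, vT, Prod.fst_swap, Prod.snd_swap, real_inner_comm]
lemma vC_swap (n : X → E) (q : X × X) : vC n q.swap = vC n q := by
  simp only [vC, Prod.fst_swap, Prod.snd_swap, real_inner_comm]
lemma vS_swap (p : X → E) (q : X × X) : vS p q.swap = vS p q := by
  simp only [vS, Prod.fst_swap, Prod.snd_swap, real_inner_comm]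

variable [TopologicalSpace X] [MeasurableSpace X] [CompactSpace X] [BorelSpace X]
  [MeasurableSpace E] [BorelSpace E] [SecondCountableTopology E]
  {μ : Measure X} [IsFiniteMeasure μ] {m : ℕ} {p n : X → E}

lemma Mj_cong {Q : Type*} [MeasurableSpace Q] {ν : Measure Q} {s g g' : Q → ℝ} {j : ℕ} {T : ℝ}
    (h : ∀ q, g q = g' q) : Mj ν s j g T = Mj ν s j g' T := by
  rw [funext h]


section

variable {Q : Type*} [MeasurableSpace Q] {ν : Measure Q} [IsFiniteMeasure ν] {s f g k : Q → ℝ}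
  {T : ℝ}

lemma Mj_add (hs : SOK s) (hf : BM f) (hg : BM g) (j : ℕ) (hT : T ∈ Ico (0 : ℝ) 1) :
    Mj ν s j (fun q => f q + g q) T = Mj ν s j f T + Mj ν s j g T := by
  unfold Mj
  rw [← integral_add (int_Mj hs hf j hT) (int_Mj hs hg j hT)]
  refine integral_congr_ae (Eventually.of_forall fun q => ?_)
  simp only
  ring

lemma Mj_cmul (c : ℝ) (j : ℕ) : Mj ν s j (fun q => c * f q) T = c * Mj ν s j f T := by
  unfold Mj
  rw [← integral_const_mul]
  refine integral_congr_ae (Eventually.of_forall fun q => ?_)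
  simp only
  ring

lemma Mj_lin (hs : SOK s) (hf : BM f) (hg : BM g) (j : ℕ) (hT : T ∈ Ico (0 : ℝ) 1) (c : ℝ) :
    Mj ν s j (fun q => f q + c * g q) T = Mj ν s j f T + c * Mj ν s j g T := by
  rw [Mj_add hs hf (hg.const_mul c) j hT, Mj_cmul]

end

/-- the eleven moments -/
noncomputable def g1 (n : X → E) (a : E) (q : X × X) : ℝ := ⟪n q.1, a⟫
noncomputable def g2 (p n : X → E) (a : E) (q : X × X) : ℝ := vS p q * ⟪n q.1, a⟫
noncomputable def g3 (n : X → E) (a : E) (q : X × X) : ℝ := vC n q * ⟪n q.1, a⟫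
noncomputable def g4 (p n : X → E) (a : E) (q : X × X) : ℝ := vS p q * (vC n q * ⟪n q.1, a⟫)
noncomputable def g5 (p n : X → E) (a : E) (q : X × X) : ℝ := vT p n q * ⟪p q.1, a⟫
noncomputable def g6 (p n : X → E) (a : E) (q : X × X) : ℝ := vS p q * (vT p n q * ⟪p q.1, a⟫)
noncomputable def g7 (p n : X → E) (a : E) (q : X × X) : ℝ := vT p n q * ⟪p q.2, a⟫
noncomputable def g8 (p n : X → E) (a : E) (q : X × X) : ℝ := vP p n q ^ 2 * ⟪n q.2, a⟫
noncomputable def g9 (p n : X → E) (a : E) (q : X × X) : ℝ := vP p n q * vT p n q * ⟪n q.1, a⟫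
noncomputable def g10 (p n : X → E) (a : E) (q : X × X) : ℝ := vC n q * vP p n q * ⟪p q.1, a⟫
noncomputable def g11 (p n : X → E) (a : E) (q : X × X) : ℝ := vC n q * vT p n q * ⟪p q.1, a⟫

section

variable (h : OneP μ m p n)
include h

lemma bg1 (a : E) : BM (g1 (X := X) n a) := bmn1 h a
lemma bg2 (a : E) : BM (g2 p n a) := (bmS h).mul (bmn1 h a)
lemma bg3 (a : E) : BM (g3 (X := X) n a) := (bmC h).mul (bmn1 h a)
lemma bg4 (a : E) : BM (g4 p n a) := (bmS h).mul ((bmC h).mul (bmn1 h a))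
lemma bg5 (a : E) : BM (g5 p n a) := (bmT h).mul (bmp1 h a)
lemma bg6 (a : E) : BM (g6 p n a) := (bmS h).mul ((bmT h).mul (bmp1 h a))
lemma bg7 (a : E) : BM (g7 p n a) := (bmT h).mul (bmp2 h a)
lemma bg8 (a : E) : BM (g8 p n a) := ((bmP h).pow 2).mul (bmn2 h a)
lemma bg9 (a : E) : BM (g9 p n a) := ((bmP h).mul (bmT h)).mul (bmn1 h a)
lemma bg10 (a : E) : BM (g10 p n a) := ((bmC h).mul (bmP h)).mul (bmp1 h a)
lemma bg11 (a : E) : BM (g11 p n a) := ((bmC h).mul (bmT h)).mul (bmp1 h a)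

variable {T : ℝ} (hT : T ∈ Ico (0 : ℝ) 1)
include hT

lemma mrel1 (hm : 1 ≤ m) (a : E) :
    T * Mj (μ.prod μ) (vS p) (m + 1) (g1 n a) T - Mj (μ.prod μ) (vS p) (m + 1) (g2 p n a) T
      - T * Mj (μ.prod μ) (vS p) (m + 1) (g5 p n a) T + Mj (μ.prod μ) (vS p) (m + 1) (g7 p n a) T
      = 0 := by
  have r := rowD h hm hT (BM.const 1) a
  have e5 : Mj (μ.prod μ) (vS p) (m + 1) (g5 p n a) T
      = Mj (μ.prod μ) (vS p) (m + 1) (fun q => vP p n q * ⟪p q.2, a⟫) T := by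
    rw [Mj_swap]
    refine Mj_cong fun q => ?_
    simp only [g5, vT_swap, Prod.fst_swap]
  have e7 : Mj (μ.prod μ) (vS p) (m + 1) (g7 p n a) T
      = Mj (μ.prod μ) (vS p) (m + 1) (fun q => vP p n q * ⟪p q.1, a⟫) T := by
    rw [Mj_swap]
    refine Mj_cong fun q => ?_
    simp only [g7, vT_swap, Prod.snd_swap]
  have s := six_Mj (ν := μ.prod μ) (sok h) (bg1 h a) (bg2 h a) ((bmP h).mul (bmp2 h a))
    ((bmP h).mul (bmp1 h a)) (bg1 h a) (bg1 h a) (m + 1) (m + 1) (m + 1) (m + 1) (m + 1) (m + 1) hT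
    T (-1) (-T) 1 0 0
  rw [e5, e7]
  have s2 := s.trans (Eq.trans (integral_congr_ae (Eventually.of_forall fun q => ?_)) r)
  · linarith
  · simp only [g1, g2]
    ring

lemma mrel2 (hm : 1 ≤ m) (a : E) :
    T * Mj (μ.prod μ) (vS p) (m + 1) (g1 n a) T - Mj (μ.prod μ) (vS p) (m + 1) (g2 p n a) T
      - T * Mj (μ.prod μ) (vS p) (m + 1) (g8 p n a) T = 0 := by
  have r := rowY h hm hT (bmn h a)
  have e1 : Mj (μ.prod μ) (vS p) (m + 1) (g1 n a) T
      = Mj (μ.prod μ) (vS p) (m + 1) (fun q => ⟪n q.2, a⟫) T := by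
    rw [Mj_swap]
    rfl
  have e2 : Mj (μ.prod μ) (vS p) (m + 1) (g2 p n a) T
      = Mj (μ.prod μ) (vS p) (m + 1) (fun q => vS p q * ⟪n q.2, a⟫) T := by
    rw [Mj_swap]
    refine Mj_cong fun q => ?_
    simp only [g2, vS_swap, Prod.fst_swap]
  have s := three_Mj (ν := μ.prod μ) (sok h) (bmn2 h a) ((bmS h).mul (bmn2 h a)) (bg8 h a)
    (m + 1) (m + 1) (m + 1) hT T (-1) (-T)
  rw [e1, e2]
  have s2 := s.trans (Eq.trans (integral_congr_ae (Eventually.of_forall fun q => ?_)) r)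
  · linarith
  · simp only [g8]
    ring

lemma mrel3 (hm : 1 ≤ m) (a : E) :
    T * Mj (μ.prod μ) (vS p) (m + 1) (g3 n a) T - Mj (μ.prod μ) (vS p) (m + 1) (g4 p n a) T
      + Mj (μ.prod μ) (vS p) (m + 1) (g9 p n a) T = 0 := by
  have r := rowE h hm hT (bmn h a)
  have e3 : Mj (μ.prod μ) (vS p) (m + 1) (g3 n a) T
      = Mj (μ.prod μ) (vS p) (m + 1) (fun q => vC n q * ⟪n q.2, a⟫) T := by
    rw [Mj_swap]
    refine Mj_cong fun q => ?_
    simp only [g3, vC_swap, Prod.fst_swap]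
  have e4 : Mj (μ.prod μ) (vS p) (m + 1) (g4 p n a) T
      = Mj (μ.prod μ) (vS p) (m + 1) (fun q => vS p q * (vC n q * ⟪n q.2, a⟫)) T := by
    rw [Mj_swap]
    refine Mj_cong fun q => ?_
    simp only [g4, vS_swap, vC_swap, Prod.fst_swap]
  have e9 : Mj (μ.prod μ) (vS p) (m + 1) (g9 p n a) T
      = Mj (μ.prod μ) (vS p) (m + 1) (fun q => vP p n q * vT p n q * ⟪n q.2, a⟫) T := by
    rw [Mj_swap]
    refine Mj_cong fun q => ?_
    simp only [g9, vP_swap, vT_swap, Prod.fst_swap]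
    ring
  have s := three_Mj (ν := μ.prod μ) (sok h) ((bmC h).mul (bmn2 h a))
    ((bmS h).mul ((bmC h).mul (bmn2 h a))) (((bmP h).mul (bmT h)).mul (bmn2 h a))
    (m + 1) (m + 1) (m + 1) hT T (-1) 1
  rw [e3, e4, e9]
  have s2 := s.trans (Eq.trans (integral_congr_ae (Eventually.of_forall fun q => ?_)) r)
  · linarith
  · ring

lemma mrel4 (a : E) :
    m * (T * Mj (μ.prod μ) (vS p) (m + 1) (g7 p n a) T
        - T * Mj (μ.prod μ) (vS p) (m + 1) (g9 p n a) T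
        - Mj (μ.prod μ) (vS p) (m + 1) (g5 p n a) T)
      + (Mj (μ.prod μ) (vS p) (m + 1) (g1 n a) T
        - T * Mj (μ.prod μ) (vS p) (m + 1) (g2 p n a) T)
      - (Mj (μ.prod μ) (vS p) (m + 1) (g5 p n a) T
        - T * Mj (μ.prod μ) (vS p) (m + 1) (g6 p n a) T)
      - (Mj (μ.prod μ) (vS p) (m + 1) (g3 n a) T
        - T * Mj (μ.prod μ) (vS p) (m + 1) (g4 p n a) T) = 0 := by
  have r := rowG h hT (BM.const 1) a
  have e1 : Mj (μ.prod μ) (vS p) (m + 1) (g1 n a) T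
      = Mj (μ.prod μ) (vS p) (m + 1) (fun q => ⟪n q.2, a⟫) T := by
    rw [Mj_swap]
    rfl
  have e2 : Mj (μ.prod μ) (vS p) (m + 1) (g2 p n a) T
      = Mj (μ.prod μ) (vS p) (m + 1) (fun q => vS p q * ⟪n q.2, a⟫) T := by
    rw [Mj_swap]
    refine Mj_cong fun q => ?_
    simp only [g2, vS_swap, Prod.fst_swap]
  have hs := sok h
  have b0 := bmn2 h a
  have c1 := b0.add ((bg7 h a).const_mul (m * T))
  have c2 := c1.add ((bg9 h a).const_mul (-(m * T)))
  have c3 := c2.add ((bg5 h a).const_mul (-(m : ℝ) - 1))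
  have c4 := c3.add (((bmS h).mul (bmn2 h a)).const_mul (-T))
  have c5 := c4.add ((bg6 h a).const_mul T)
  have c6 := c5.add ((bg3 h a).const_mul (-1))
  have s := Mj_lin (ν := μ.prod μ) hs c6 (bg4 h a) (m + 1) hT T
  rw [Mj_lin hs c5 (bg3 h a) (m + 1) hT, Mj_lin hs c4 (bg6 h a) (m + 1) hT,
    Mj_lin hs c3 ((bmS h).mul (bmn2 h a)) (m + 1) hT, Mj_lin hs c2 (bg5 h a) (m + 1) hT,
    Mj_lin hs c1 (bg9 h a) (m + 1) hT, Mj_lin hs b0 (bg7 h a) (m + 1) hT] at s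
  rw [e1, e2]
  have s2 := s.symm.trans (Eq.trans (Mj_cong fun q => ?_) r)
  · linarith
  · simp only [g3, g4, g5, g6, g7, g9]
    ring

lemma mrel5 (a : E) :
    m * (-(T * Mj (μ.prod μ) (vS p) (m + 1) (g10 p n a) T)
        - Mj (μ.prod μ) (vS p) (m + 1) (g5 p n a) T)
      + (Mj (μ.prod μ) (vS p) (m + 1) (g1 n a) T
        - T * Mj (μ.prod μ) (vS p) (m + 1) (g2 p n a) T)
      - (Mj (μ.prod μ) (vS p) (m + 1) (g5 p n a) T
        - T * Mj (μ.prod μ) (vS p) (m + 1) (g6 p n a) T)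
      - (Mj (μ.prod μ) (vS p) (m + 1) (g3 n a) T
        - T * Mj (μ.prod μ) (vS p) (m + 1) (g4 p n a) T) = 0 := by
  have r := rowF h hT (BM.const 1) a
  have e1 : Mj (μ.prod μ) (vS p) (m + 1) (g1 n a) T
      = Mj (μ.prod μ) (vS p) (m + 1) (fun q => ⟪n q.2, a⟫) T := by
    rw [Mj_swap]
    rfl
  have e2 : Mj (μ.prod μ) (vS p) (m + 1) (g2 p n a) T
      = Mj (μ.prod μ) (vS p) (m + 1) (fun q => vS p q * ⟪n q.2, a⟫) T := by
    rw [Mj_swap]
    refine Mj_cong fun q => ?_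
    simp only [g2, vS_swap, Prod.fst_swap]
  have hs := sok h
  have b0 := bmn2 h a
  have c2 := b0.add ((bg10 h a).const_mul (-(m * T)))
  have c3 := c2.add ((bg5 h a).const_mul (-(m : ℝ) - 1))
  have c4 := c3.add (((bmS h).mul (bmn2 h a)).const_mul (-T))
  have c5 := c4.add ((bg6 h a).const_mul T)
  have c6 := c5.add ((bg3 h a).const_mul (-1))
  have s := Mj_lin (ν := μ.prod μ) hs c6 (bg4 h a) (m + 1) hT T
  rw [Mj_lin hs c5 (bg3 h a) (m + 1) hT, Mj_lin hs c4 (bg6 h a) (m + 1) hT,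
    Mj_lin hs c3 ((bmS h).mul (bmn2 h a)) (m + 1) hT, Mj_lin hs c2 (bg5 h a) (m + 1) hT,
    Mj_lin hs b0 (bg10 h a) (m + 1) hT] at s
  rw [e1, e2]
  have s2 := s.symm.trans (Eq.trans (Mj_cong fun q => ?_) r)
  · linarith
  · simp only [g3, g4, g5, g6, g10]
    ring

lemma mrel6 (hm : 1 ≤ m) (a : E) :
    Mj (μ.prod μ) (vS p) (m + 1) (g7 p n a) T
      + T * Mj (μ.prod μ) (vS p) (m + 1) (g11 p n a) T = 0 := by
  have r := rowB h hm hT (bmp h a)
  have e11 : Mj (μ.prod μ) (vS p) (m + 1) (g11 p n a) T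
      = Mj (μ.prod μ) (vS p) (m + 1) (fun q => vC n q * vP p n q * ⟪p q.2, a⟫) T := by
    rw [Mj_swap]
    refine Mj_cong fun q => ?_
    simp only [g11, vC_swap, vT_swap, Prod.fst_swap]
  have s := Mj_lin (ν := μ.prod μ) (sok h) (bg7 h a) (((bmC h).mul (bmP h)).mul (bmp2 h a))
    (m + 1) hT T
  rw [e11]
  have s2 := s.symm.trans (Eq.trans (Mj_cong fun q => ?_) r)
  · linarith
  · simp only [g7]
    ring

end

end

end Vale.Agent.P224.R2.H925
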