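import Vale.Agent.P224.R2.H925.Ml2

/-!
The mean normal flow: the functional and its derivative.
-/

namespace Vale.Agent.P224.R2.H925

open MeasureTheory Set Filter Function Real Vale.Agent.P224.R2.H470 Vale.Agent.P224.R2.H728
open Vale.Agent.P224.SM2 hiding ker
open scoped RealInnerProductSpace Topology ContDiff

set_option linter.unusedSectionVars false

/-- the conformal weight `(1 - T²)^(m/2)` -/
noncomputable def wf (m : ℕ) (T : ℝ) : ℝ := √(1 - T ^ 2) ^ m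

lemma hasDerivAt_wf (m : ℕ) {T : ℝ} (hT : T ∈ Ioo (0 : ℝ) 1) :
    HasDerivAt (wf m) (-(m * T / (1 - T ^ 2)) * wf m T) T := by
  have hk : 0 < 1 - T ^ 2 := by nlinarith [hT.1, hT.2]
  have h1 : HasDerivAt (fun T : ℝ => 1 - T ^ 2) (-(2 * T)) T := by
    have := ((hasDerivAt_id T).fun_pow 2).const_sub 1
    refine this.congr_deriv ?_
    simp
  have h2 := (h1.sqrt hk.ne').fun_pow m
  refine h2.congr_deriv ?_
  unfold wf
  have hs : √(1 - T ^ 2) ≠ 0 := (sqrt_pos.2 hk).ne'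
  have hs2 : √(1 - T ^ 2) ^ 2 = 1 - T ^ 2 := sq_sqrt hk.le
  rcases m with _ | m
  · simp
  · rw [Nat.add_sub_cancel, pow_succ (√(1 - T ^ 2)) m]
    generalize √(1 - T ^ 2) = w at hs hs2 ⊢
    rw [← hs2]
    field_simp

/-- the coefficient of `c (x₁ - x₂)` -/
noncomputable def cA (m : ℕ) (T : ℝ) : ℝ := (1 + T * (2 + T) / m) / (2 * (1 + T))
/-- the coefficient of `p n₂ - t n₁` -/
noncomputable def cB (m : ℕ) (T : ℝ) : ℝ :=
  1 / (2 * (1 + T) * (1 - T ^ 2)) + T * (2 + T) / (2 * m * (1 + T) ^ 2)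

section

variable {X : Type*} {E : Type*} [NormedAddCommGroup E] [InnerProductSpace ℝ E]
variable [TopologicalSpace X] [MeasurableSpace X] [CompactSpace X] [BorelSpace X]
  [MeasurableSpace E] [BorelSpace E] [SecondCountableTopology E]
  {μ : Measure X} [IsFiniteMeasure μ] {m : ℕ} {p n : X → E}

variable (μ p n m) in
/-- the functional -/
noncomputable def Wf (a : E) (T : ℝ) : ℝ :=
  wf m T * (Mj (μ.prod μ) (vS p) m (g1 n a) T
    - T / (1 + T) * (Mj (μ.prod μ) (vS p) m (g1 n a) T - Mj (μ.prod μ) (vS p) m (g3 n a) T)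
    + T * (1 - T) / ((1 + T) * m) * (Mj (μ.prod μ) (vS p) m (g1 n a) T
      - Mj (μ.prod μ) (vS p) m (g3 n a) T - Mj (μ.prod μ) (vS p) m (g5 p n a) T))

/-- the integrand of the derivative -/
noncomputable def psi (m : ℕ) (T : ℝ) (p n : X → E) (a : E) (q : X × X) : ℝ :=
  (vP p n q - vT p n q) * (cA m T * (vC n q * (⟪p q.1, a⟫ - ⟪p q.2, a⟫))
    + cB m T * (vP p n q * ⟪n q.2, a⟫ - vT p n q * ⟪n q.1, a⟫))

variable (h : OneP μ m p n)
include h

lemma bpsi (T : ℝ) (a : E) : BM (psi m T p n a) :=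
  ((bmP h).sub (bmT h)).mul ((((bmC h).mul ((bmp1 h a).sub (bmp2 h a))).const_mul _).add
    ((((bmP h).mul (bmn2 h a)).sub ((bmT h).mul (bmn1 h a))).const_mul _))

lemma Mj_psi {T : ℝ} (hT : T ∈ Ico (0 : ℝ) 1) (a : E) :
    Mj (μ.prod μ) (vS p) (m + 1) (psi m T p n a) T
      = 2 * cA m T * (Mj (μ.prod μ) (vS p) (m + 1) (g10 p n a) T
          - Mj (μ.prod μ) (vS p) (m + 1) (g11 p n a) T)
        + 2 * cB m T * (Mj (μ.prod μ) (vS p) (m + 1) (g8 p n a) T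
          - Mj (μ.prod μ) (vS p) (m + 1) (g9 p n a) T) := by
  have hs := sok h
  -- the swapped monomials
  have b10 : BM (fun q : X × X => vC n q * vT p n q * ⟪p q.2, a⟫) :=
    ((bmC h).mul (bmT h)).mul (bmp2 h a)
  have b11 : BM (fun q : X × X => vC n q * vP p n q * ⟪p q.2, a⟫) :=
    ((bmC h).mul (bmP h)).mul (bmp2 h a)
  have b8 : BM (fun q : X × X => vT p n q ^ 2 * ⟪n q.1, a⟫) := ((bmT h).pow 2).mul (bmn1 h a)
  have b9 : BM (fun q : X × X => vP p n q * vT p n q * ⟪n q.2, a⟫) :=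
    ((bmP h).mul (bmT h)).mul (bmn2 h a)
  have e10 : Mj (μ.prod μ) (vS p) (m + 1) (fun q => vC n q * vT p n q * ⟪p q.2, a⟫) T
      = Mj (μ.prod μ) (vS p) (m + 1) (g10 p n a) T := by
    rw [Mj_swap]
    refine Mj_cong fun q => ?_
    simp only [g10, vC_swap, vT_swap, Prod.snd_swap]
  have e11 : Mj (μ.prod μ) (vS p) (m + 1) (fun q => vC n q * vP p n q * ⟪p q.2, a⟫) T
      = Mj (μ.prod μ) (vS p) (m + 1) (g11 p n a) T := by
    rw [Mj_swap]
    refine Mj_cong fun q => ?_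
    simp only [g11, vC_swap, vP_swap, Prod.snd_swap]
  have e8 : Mj (μ.prod μ) (vS p) (m + 1) (fun q => vT p n q ^ 2 * ⟪n q.1, a⟫) T
      = Mj (μ.prod μ) (vS p) (m + 1) (g8 p n a) T := by
    rw [Mj_swap]
    refine Mj_cong fun q => ?_
    simp only [g8, vT_swap, Prod.fst_swap]
  have e9 : Mj (μ.prod μ) (vS p) (m + 1) (fun q => vP p n q * vT p n q * ⟪n q.2, a⟫) T
      = Mj (μ.prod μ) (vS p) (m + 1) (g9 p n a) T := by
    rw [Mj_swap]
    refine Mj_cong fun q => ?_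
    simp only [g9, vP_swap, vT_swap, Prod.snd_swap]
    ring
  have b0 := (bg10 h a).const_mul (cA m T)
  have c1 := b0.add ((bg11 h a).const_mul (-cA m T))
  have c2 := c1.add (b11.const_mul (-cA m T))
  have c3 := c2.add (b10.const_mul (cA m T))
  have c4 := c3.add ((bg8 h a).const_mul (cB m T))
  have c5 := c4.add (b8.const_mul (cB m T))
  have c6 := c5.add ((bg9 h a).const_mul (-cB m T))
  have s := Mj_lin (ν := μ.prod μ) hs c6 b9 (m + 1) hT (-cB m T)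
  rw [Mj_lin hs c5 (bg9 h a) (m + 1) hT, Mj_lin hs c4 b8 (m + 1) hT,
    Mj_lin hs c3 (bg8 h a) (m + 1) hT, Mj_lin hs c2 b10 (m + 1) hT,
    Mj_lin hs c1 b11 (m + 1) hT, Mj_lin hs b0 (bg11 h a) (m + 1) hT, Mj_cmul] at s
  rw [e8, e9, e10, e11] at s
  have s2 : Mj (μ.prod μ) (vS p) (m + 1) (psi m T p n a) T = _ := (Mj_cong fun q => ?_).trans s
  · rw [s2]
    ring
  · simp only [psi, g8, g9, g10, g11]
    ring

/-- **the mean normal flow** -/
theorem hasDerivAt_Wf (hm : 1 ≤ m) {T : ℝ} (hT : T ∈ Ioo (0 : ℝ) 1) (a : E) :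
    HasDerivAt (Wf μ m p n a)
      (-(m * (wf m T * Mj (μ.prod μ) (vS p) (m + 1) (psi m T p n a) T))) T := by
  have hT' : T ∈ Ico (0 : ℝ) 1 := ⟨hT.1.le, hT.2⟩
  have hmR : (m : ℝ) ≠ 0 := by positivity
  have hs := sok h
  have hk : 0 < 1 - T ^ 2 := by nlinarith [hT.1, hT.2]
  have h1T : (1 : ℝ) + T ≠ 0 := by linarith [hT.1]
  have d1 := deriv_Mj (ν := μ.prod μ) hs (bg1 h a) m hT
  have d3 := deriv_Mj (ν := μ.prod μ) hs (bg3 h a) m hT
  have d5 := deriv_Mj (ν := μ.prod μ) hs (bg5 h a) m hT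
  have s1 := shift_Mj (ν := μ.prod μ) hs (bg1 h a) m hT'
  have s3 := shift_Mj (ν := μ.prod μ) hs (bg3 h a) m hT'
  have s5 := shift_Mj (ν := μ.prod μ) hs (bg5 h a) m hT'
  have f1 : HasDerivAt (fun T : ℝ => T / (1 + T)) (1 / (1 + T) ^ 2) T := by
    have := (hasDerivAt_id T).fun_div ((hasDerivAt_id T).const_add 1) h1T
    refine this.congr_deriv ?_
    simp only [id]
    ring
  have f2 : HasDerivAt (fun T : ℝ => T * (1 - T) / ((1 + T) * m))
      ((1 - 2 * T - T ^ 2) / ((1 + T) ^ 2 * m)) T := by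
    have h2 := ((hasDerivAt_id T).fun_mul ((hasDerivAt_id T).const_sub 1)).fun_div
      (((hasDerivAt_id T).const_add 1).mul_const (m : ℝ)) (mul_ne_zero h1T hmR)
    refine h2.congr_deriv ?_
    simp only [id]
    field_simp
    ring
  have key := (hasDerivAt_wf m hT).fun_mul ((d1.fun_sub (f1.fun_mul (d1.fun_sub d3))).fun_add
    (f2.fun_mul ((d1.fun_sub d3).fun_sub d5)))
  refine key.congr_deriv ?_
  rw [Mj_psi h hT' a]
  have i1 := mrel1 h hT' hm a
  have i2 := mrel2 h hT' hm a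
  have i3 := mrel3 h hT' hm a
  have i4 := mrel4 h hT' a
  have i5 := mrel5 h hT' a
  have i6 := mrel6 h hT' hm a
  simp only [s1, s3, s5]
  change _ * (_ : ℝ) + _ = _
  have q2 : Mj (μ.prod μ) (vS p) (m + 1) (fun x => vS p x * g1 n a x) T
      = Mj (μ.prod μ) (vS p) (m + 1) (g2 p n a) T := rfl
  have q4 : Mj (μ.prod μ) (vS p) (m + 1) (fun x => vS p x * g3 n a x) T
      = Mj (μ.prod μ) (vS p) (m + 1) (g4 p n a) T := rfl
  have q6 : Mj (μ.prod μ) (vS p) (m + 1) (fun x => vS p x * g5 p n a x) T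
      = Mj (μ.prod μ) (vS p) (m + 1) (g6 p n a) T := rfl
  simp only [q2, q4, q6]
  set a1 := Mj (μ.prod μ) (vS p) (m + 1) (g1 n a) T
  set a2 := Mj (μ.prod μ) (vS p) (m + 1) (g2 p n a) T
  set a3 := Mj (μ.prod μ) (vS p) (m + 1) (g3 n a) T
  set a4 := Mj (μ.prod μ) (vS p) (m + 1) (g4 p n a) T
  set a5 := Mj (μ.prod μ) (vS p) (m + 1) (g5 p n a) T
  set a6 := Mj (μ.prod μ) (vS p) (m + 1) (g6 p n a) T
  set a7 := Mj (μ.prod μ) (vS p) (m + 1) (g7 p n a) T
  set a8 := Mj (μ.prod μ) (vS p) (m + 1) (g8 p n a) T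
  set a9 := Mj (μ.prod μ) (vS p) (m + 1) (g9 p n a) T
  set a10 := Mj (μ.prod μ) (vS p) (m + 1) (g10 p n a) T
  set a11 := Mj (μ.prod μ) (vS p) (m + 1) (g11 p n a) T
  have hT0 : T ≠ 0 := hT.1.ne'
  have j7 : a7 = a2 - T * a1 + T * a5 := by linarith
  have j8 : a8 = (T * a1 - a2) / T := by
    field_simp
    linarith
  have j9 : a9 = a4 - T * a3 := by linarith
  have j6 : a6 = (-(m * (T * a7 - T * a9 - a5)) - (a1 - T * a2) + a5 + (a3 - T * a4)) / T := by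
    field_simp
    linarith
  have j10 : a10 = (((a1 - T * a2) - (a5 - T * a6) - (a3 - T * a4)) / m - a5) / T := by
    field_simp
    linarith
  have j11 : a11 = -a7 / T := by
    field_simp
    linarith
  rw [j11, j10, j6, j8, j9, j7]
  unfold cA cB
  have hk' : (1 : ℝ) - T ^ 2 ≠ 0 := hk.ne'
  have h2T : (1 : ℝ) - T ≠ 0 := by linarith [hT.2]
  have ek : (1 : ℝ) - T ^ 2 = (1 - T) * (1 + T) := by ring
  rw [ek]
  field_simp
  ring

end

end Vale.Agent.P224.R2.H925
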