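import Vale.Agent.P224.R2.H925.Ml3
import Vale.Agent.P224.R2.H925.Dens3
import Vale.Agent.P224.R2.H925.SOne
import Vale.Agent.P224.SM2.Fin
import Vale.Agent.P224.SM2.Geo

/-!
The mean normal flow: the integrated law.
-/

namespace Vale.Agent.P224.R2.H925

open MeasureTheory Set Filter Function Real Module Vale.Agent.P224 Vale.Agent.P224.FV
  Vale.Agent.P224.R2.H470 Vale.Agent.P224.R2.H728
open Vale.Agent.P224.SM2 hiding ker
open scoped RealInnerProductSpace Topology ContDiff Manifold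

set_option linter.unusedSectionVars false

/-- integration of a flow -/
theorem flow_le {Wt Ψ B : ℝ → ℝ} {w0 w1 : ℝ} (hd : ∀ T ∈ Ioo (0 : ℝ) 1, HasDerivAt Wt (-Ψ T) T)
    (h0 : Tendsto Wt (𝓝[>] 0) (𝓝 w0)) (h1 : Tendsto (fun φ => Wt (sin φ)) (𝓝[<] (π / 2)) (𝓝 w1))
    (hBi : IntervalIntegrable B volume 0 1) (hB : ∀ T ∈ Ioo (0 : ℝ) 1, Ψ T ≤ B T) :
    w0 - w1 ≤ ∫ T in (0 : ℝ)..1, B T := by
  have hcont : ContinuousOn (fun T => ∫ τ in (0 : ℝ)..T, B τ) (Icc 0 1) := by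
    have h1 : IntegrableOn B (uIcc 0 1) volume := by
      rw [uIcc_of_le zero_le_one]
      exact (integrableOn_Icc_iff_integrableOn_Ioc).2
        ((intervalIntegrable_iff_integrableOn_Ioc_of_le zero_le_one).1 hBi)
    have := intervalIntegral.continuousOn_primitive_interval h1
    rwa [uIcc_of_le zero_le_one] at this
  -- compact intervals
  have hcomp : ∀ T1 T2 : ℝ, 0 < T1 → T1 ≤ T2 → T2 < 1 →
      Wt T1 - Wt T2 ≤ (∫ τ in (0 : ℝ)..T2, B τ) - ∫ τ in (0 : ℝ)..T1, B τ := by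
    intro T1 T2 k1 k12 k2
    have hsub : Icc T1 T2 ⊆ Ioo 0 1 := fun x hx => ⟨k1.trans_le hx.1, hx.2.trans_lt k2⟩
    have hi : IntegrableOn B (Icc T1 T2) volume := by
      have h3 := (intervalIntegrable_iff_integrableOn_Ioc_of_le zero_le_one).1 hBi
      have h4 : IntegrableOn B (Icc 0 1) volume := (integrableOn_Icc_iff_integrableOn_Ioc).2 h3
      exact h4.mono_set (Icc_subset_Icc k1.le k2.le)
    have h5 := intervalIntegral.integral_le_sub_of_hasDeriv_right_of_le k12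
      (g := fun T => Wt T) (g' := fun T => -Ψ T) (φ := fun T => -B T)
      (fun x hx => (hd x (hsub hx)).continuousAt.continuousWithinAt)
      (fun x hx => (hd x (hsub ⟨hx.1.le, hx.2.le⟩)).hasDerivWithinAt) hi.neg
      (fun x hx => neg_le_neg (hB x (hsub ⟨hx.1.le, hx.2.le⟩)))
    rw [intervalIntegral.integral_neg] at h5
    have i1 : IntervalIntegrable B volume 0 T1 := by
      refine hBi.mono_set ?_
      rw [uIcc_of_le k1.le, uIcc_of_le zero_le_one]
      exact Icc_subset_Icc le_rfl (k12.trans k2.le)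
    have i2 : IntervalIntegrable B volume T1 T2 := by
      refine hBi.mono_set ?_
      rw [uIcc_of_le k12, uIcc_of_le zero_le_one]
      exact Icc_subset_Icc k1.le k2.le
    have h2 := intervalIntegral.integral_add_adjacent_intervals i1 i2
    linarith
  -- from zero
  have hzero : ∀ T2 ∈ Ioo (0 : ℝ) 1, w0 - Wt T2 ≤ ∫ τ in (0 : ℝ)..T2, B τ := by
    intro T2 hT2
    have hprim : Tendsto (fun T => ∫ τ in (0 : ℝ)..T, B τ) (𝓝[>] 0) (𝓝 0) := by
      have h1 := hcont 0 ⟨le_rfl, zero_le_one⟩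
      unfold ContinuousWithinAt at h1
      simp only [intervalIntegral.integral_same] at h1
      refine h1.mono_left ?_
      rw [← nhdsWithin_Ioo_eq_nhdsGT (one_pos : (0 : ℝ) < 1)]
      exact nhdsWithin_mono _ Ioo_subset_Icc_self
    have hL := h0.sub_const (Wt T2)
    have hR := hprim.const_sub (∫ τ in (0 : ℝ)..T2, B τ)
    rw [sub_zero] at hR
    refine le_of_tendsto_of_tendsto hL hR ?_
    have hev : Ioo (0 : ℝ) T2 ∈ 𝓝[>] (0 : ℝ) := Ioo_mem_nhdsGT hT2.1
    filter_upwards [hev] with T hT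
    exact hcomp T T2 hT.1 hT.2.le hT2.2
  have hsin : Tendsto (fun φ => sin φ) (𝓝[<] (π / 2)) (𝓝[Icc 0 1] 1) := by
    refine tendsto_nhdsWithin_iff.2 ⟨tendsto_sin_one, ?_⟩
    filter_upwards [Ioo_pi] with φ hφ
    exact ⟨(sin_pos_Ioo hφ).le, sin_le_one φ⟩
  have hBlim : Tendsto (fun φ => ∫ τ in (0 : ℝ)..(sin φ), B τ) (𝓝[<] (π / 2))
      (𝓝 (∫ τ in (0 : ℝ)..1, B τ)) := (hcont 1 ⟨zero_le_one, le_rfl⟩).tendsto.comp hsin
  refine le_of_tendsto_of_tendsto (h1.const_sub w0) hBlim ?_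
  filter_upwards [Ioo_pi] with φ hφ
  exact hzero _ ⟨sin_pos_Ioo hφ, sin_lt_one_Ioo hφ⟩

lemma wf_sin {φ : ℝ} (hφ : φ ∈ Ioo 0 (π / 2)) (m : ℕ) : wf m (sin φ) = cos φ ^ m := by
  unfold wf
  have h1 : 1 - sin φ ^ 2 = cos φ ^ 2 := by
    have := sin_sq_add_cos_sq φ
    linarith
  rw [h1, sqrt_sq (cos_pos_Ioo hφ).le]

lemma wf_ker {φ : ℝ} (hφ : φ ∈ Ioo 0 (π / 2)) (m : ℕ) (s : ℝ) :
    wf m (sin φ) * SM2.ker (sin φ) m s = cf φ s ^ m := by
  rw [wf_sin hφ]
  unfold SM2.ker cf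
  rw [div_pow, mul_comm s]
  rfl

section

variable {V W M : Type*} [NormedAddCommGroup V] [InnerProductSpace ℝ V] [FiniteDimensional ℝ V]
  [NormedAddCommGroup W] [InnerProductSpace ℝ W] [FiniteDimensional ℝ W]
  [TopologicalSpace M] [ChartedSpace V M]
  [MeasurableSpace V] [BorelSpace V] [MeasurableSpace M] [BorelSpace M]
  [MeasurableSpace W] [BorelSpace W] [IsManifold 𝓘(ℝ, V) ∞ M]
  [CompactSpace M] [T2Space M] {F N : M → W}

/-- the conformal volume at a point is at most the volume -/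
lemma V1_le (hm : 1 ≤ finrank ℝ V) (hF : SphImm V F) (hT : TwoPt (volM V F) (finrank ℝ V) F N)
    (z : M) {φ : ℝ} (hφ : φ ∈ Ico 0 (π / 2)) :
    V1 (volM V F) (finrank ℝ V) F z φ ≤ (volM V F).real univ := by
  have hfin : IsFiniteMeasure (volM V F) := isFiniteMeasure_volM hF
  have hpi := pi_pos
  have hanti : AntitoneOn (V1 (volM V F) (finrank ℝ V) F z) (Ico 0 (π / 2)) := by
    have hder : ∀ ψ ∈ Ico 0 (π / 2), HasDerivAt (V1 (volM V F) (finrank ℝ V) F z) _ ψ :=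
      fun ψ hψ => hT.hasDerivAt_V1 z ⟨by linarith only [hpi, hψ.1], hψ.2⟩
    refine antitoneOn_of_deriv_nonpos (convex_Ico 0 (π / 2)) ?_ ?_ ?_
    · exact fun ψ hψ => (hder ψ hψ).continuousAt.continuousWithinAt
    · intro ψ hψ
      rw [interior_Ico] at hψ
      exact (hder ψ ⟨hψ.1.le, hψ.2⟩).differentiableAt.differentiableWithinAt
    · intro ψ hψ
      rw [interior_Ico] at hψ
      rw [(hder ψ ⟨hψ.1.le, hψ.2⟩).deriv]
      have h1 : 0 ≤ sin ψ := sin_nonneg_of_nonneg_of_le_pi hψ.1.le (by linarith only [hpi, hψ.2])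
      have h2 : 0 ≤ cos ψ := cos_nonneg_of_neg_pi_div_two_le_of_le (by linarith only [hpi, hψ.1])
        hψ.2.le
      have h3 : 0 ≤ ∫ x, ⟪N x, F z⟫ ^ 2 /
          (1 - ⟪F x, F z⟫ * sin ψ) ^ (finrank ℝ V + 1) ∂(volM V F) := by
        apply integral_nonneg
        intro x
        have := den_pos (φ := ψ) ⟨by linarith only [hpi, hψ.1], hψ.2⟩ (abs_FF_le hF x z)
        positivity
      have : 0 ≤ sin ψ * ((finrank ℝ V : ℝ) * cos ψ ^ (finrank ℝ V - 1) *
          ∫ x, ⟪N x, F z⟫ ^ 2 /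
          (1 - ⟪F x, F z⟫ * sin ψ) ^ (finrank ℝ V + 1) ∂(volM V F)) := by positivity
      linarith
  have := hanti ⟨le_rfl, by linarith⟩ hφ hφ.1
  rwa [V1_zero] at this

/-- the limit of the first term -/
theorem tendsto_g1 (hm : 1 ≤ finrank ℝ V) (hW : finrank ℝ W = finrank ℝ V + 2) (hF : SphImm V F)
    (hT : TwoPt (volM V F) (finrank ℝ V) F N) (h1 : OneP (volM V F) (finrank ℝ V) F N)
    (hinj : Injective F) (a : W) :
    Tendsto (fun φ => wf (finrank ℝ V) (sin φ) * Mj ((volM V F).prod (volM V F)) (vS F)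
      (finrank ℝ V) (g1 N a) (sin φ)) (𝓝[<] (π / 2))
      (𝓝 (sphereVol (finrank ℝ V) * ∫ x, ⟪N x, a⟫ ∂(volM V F))) := by
  have hfin : IsFiniteMeasure (volM V F) := isFiniteMeasure_volM hF
  have cn := h1.cn
  have key : Tendsto (fun φ => ∫ x, ⟪N x, a⟫ * V1 (volM V F) (finrank ℝ V) F x φ ∂(volM V F))
      (𝓝[<] (π / 2)) (𝓝 (∫ x, ⟪N x, a⟫ * sphereVol (finrank ℝ V) ∂(volM V F))) := by
    refine tendsto_integral_filter_of_dominated_convergence
      (fun _ => ‖a‖ * (volM V F).real univ) ?_ ?_ (integrable_const _) ?_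
    · filter_upwards [Ioo_pi] with φ hφ
      have h2 := (JJ_fubini hF hT (φ := φ) ⟨by linarith [hφ.1, pi_pos], hφ.2⟩).1
      exact (cn.inner continuous_const).aestronglyMeasurable.mul h2.aestronglyMeasurable
    · filter_upwards [Ioo_pi] with φ hφ
      refine Eventually.of_forall fun x => ?_
      have h3 := V1_le hm hF hT x (φ := φ) ⟨hφ.1.le, hφ.2⟩
      have h4 : 0 ≤ V1 (volM V F) (finrank ℝ V) F x φ := by
        unfold V1
        refine integral_nonneg fun y => pow_nonneg ?_ _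
        have := den_pos (φ := φ) ⟨by linarith [hφ.1, pi_pos], hφ.2⟩ (abs_FF_le hF y x)
        have := cos_pos_Ioo hφ
        unfold cf
        positivity
      have h5 : |⟪N x, a⟫| ≤ ‖a‖ := by
        have := abs_real_inner_le_norm (N x) a
        rwa [h1.nn, one_mul] at this
      rw [norm_mul, Real.norm_eq_abs, Real.norm_eq_abs, abs_of_nonneg h4]
      exact mul_le_mul h5 h3 h4 (norm_nonneg a)
    · exact Eventually.of_forall fun x => (V1_lim (by omega) hW hF hinj x).const_mul _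
  have e0 : ∫ x, ⟪N x, a⟫ * sphereVol (finrank ℝ V) ∂(volM V F)
      = sphereVol (finrank ℝ V) * ∫ x, ⟪N x, a⟫ ∂(volM V F) := by
    rw [integral_mul_const, mul_comm]
  rw [e0] at key
  refine tt1 key (fun φ hφ => ?_) rfl
  have hT' : sin φ ∈ Ico (0 : ℝ) 1 := ⟨(sin_pos_Ioo hφ).le, sin_lt_one_Ioo hφ⟩
  have i1 := int_Mj (ν := (volM V F).prod (volM V F)) (sok h1) (bg1 h1 a) (finrank ℝ V) hT'
  unfold Mj
  rw [integral_prod _ i1, ← integral_const_mul]
  refine integral_congr_ae (Eventually.of_forall fun x => ?_)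
  simp only
  unfold V1
  rw [← integral_const_mul, ← integral_const_mul]
  refine integral_congr_ae (Eventually.of_forall fun y => ?_)
  simp only [g1, vS]
  rw [← wf_ker hφ, real_inner_comm (F x) (F y)]
  ring

/-- a weighted moment is bounded by the two point conformal volume -/
lemma wf_Mj_abs (h1 : OneP (volM V F) (finrank ℝ V) F N) [IsFiniteMeasure (volM V F)]
    {g : M × M → ℝ} {C : ℝ} (hg : BM g) (hC : ∀ q, |g q| ≤ C) {φ : ℝ} (hφ : φ ∈ Ioo 0 (π / 2)) :
    |wf (finrank ℝ V) (sin φ) * Mj ((volM V F).prod (volM V F)) (vS F) (finrank ℝ V) g (sin φ)|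
      ≤ C * JJ (volM V F) (finrank ℝ V) F φ := by
  have hT' : sin φ ∈ Ico (0 : ℝ) 1 := ⟨(sin_pos_Ioo hφ).le, sin_lt_one_Ioo hφ⟩
  have i1 := int_Mj (ν := (volM V F).prod (volM V F)) (sok h1) hg (finrank ℝ V) hT'
  have i2 := int_Mj (ν := (volM V F).prod (volM V F)) (sok h1) (BM.const 1) (finrank ℝ V) hT'
  unfold Mj JJ
  rw [← integral_const_mul, ← integral_const_mul]
  have e2 : ∀ q : M × M, C * cf φ ⟪F q.1, F q.2⟫ ^ finrank ℝ V
      = C * (wf (finrank ℝ V) (sin φ) * (1 * SM2.ker (sin φ) (finrank ℝ V) (vS F q))) := by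
    intro q
    rw [one_mul, ← wf_ker hφ]
    rfl
  refine (abs_integral_le_integral_abs).trans ?_
  refine integral_mono (i1.const_mul _).abs ?_ fun q => ?_
  · simp only [e2]
    exact (i2.const_mul _).const_mul _
  · simp only
    rw [e2, one_mul]
    have hk : 0 ≤ SM2.ker (sin φ) (finrank ℝ V) (vS F q) := by
      unfold SM2.ker
      have := (one_sub_pos' hT' ((sok h1).mem q).2)
      positivity
    have hw : 0 ≤ wf (finrank ℝ V) (sin φ) := by
      unfold wf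
      positivity
    rw [abs_mul, abs_mul, abs_of_nonneg hw, abs_of_nonneg hk]
    have := mul_le_mul_of_nonneg_right (hC q) (mul_nonneg hw hk)
    linarith

/-- the limit of the correlation term -/
theorem tendsto_g13 (hm : 1 ≤ finrank ℝ V) (hW : finrank ℝ W = finrank ℝ V + 2) (hF : SphImm V F)
    (hT : TwoPt (volM V F) (finrank ℝ V) F N) (h1 : OneP (volM V F) (finrank ℝ V) F N)
    (hinj : Injective F) (a : W) :
    Tendsto (fun φ => wf (finrank ℝ V) (sin φ) * (Mj ((volM V F).prod (volM V F)) (vS F)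
      (finrank ℝ V) (g1 N a) (sin φ) - Mj ((volM V F).prod (volM V F)) (vS F)
      (finrank ℝ V) (g3 N a) (sin φ))) (𝓝[<] (π / 2)) (𝓝 0) := by
  have hfin : IsFiniteMeasure (volM V F) := isFiniteMeasure_volM hF
  obtain ⟨-, hJB⟩ := limits hm hW hF h1.cn hT hinj
  have h0 : Tendsto (fun φ => ‖a‖ * (JJ (volM V F) (finrank ℝ V) F φ
      - BB (volM V F) (finrank ℝ V) F N φ)) (𝓝[<] (π / 2)) (𝓝 0) := by
    have h2 : Tendsto (fun φ => JJ (volM V F) (finrank ℝ V) F φ
      - BB (volM V F) (finrank ℝ V) F N φ) (𝓝[<] (π / 2)) (𝓝 0) :=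
      tendsto_zero_of_eventually_le hJB
    have := h2.const_mul ‖a‖
    rwa [mul_zero] at this
  refine squeeze_zero_norm' ?_ h0
  filter_upwards [Ioo_pi] with φ hφ
  have hT' : sin φ ∈ Ico (0 : ℝ) 1 := ⟨(sin_pos_Ioo hφ).le, sin_lt_one_Ioo hφ⟩
  have hs := sok h1
  have i0 := int_Mj (ν := (volM V F).prod (volM V F)) hs (BM.const 1) (finrank ℝ V) hT'
  have iC := int_Mj (ν := (volM V F).prod (volM V F)) hs (bmC h1) (finrank ℝ V) hT'
  have i1 := int_Mj (ν := (volM V F).prod (volM V F)) hs (bg1 h1 a) (finrank ℝ V) hT'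
  have i3 := int_Mj (ν := (volM V F).prod (volM V F)) hs (bg3 h1 a) (finrank ℝ V) hT'
  have eJ : JJ (volM V F) (finrank ℝ V) F φ = wf (finrank ℝ V) (sin φ)
      * ∫ q, 1 * SM2.ker (sin φ) (finrank ℝ V) (vS F q) ∂((volM V F).prod (volM V F)) := by
    unfold JJ
    rw [← integral_const_mul]
    refine integral_congr_ae (Eventually.of_forall fun q => ?_)
    simp only [one_mul]
    rw [← wf_ker hφ]
    rfl
  have eB : BB (volM V F) (finrank ℝ V) F N φ = wf (finrank ℝ V) (sin φ)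
      * ∫ q, vC N q * SM2.ker (sin φ) (finrank ℝ V) (vS F q) ∂((volM V F).prod (volM V F)) := by
    unfold BB
    rw [← integral_const_mul]
    refine integral_congr_ae (Eventually.of_forall fun q => ?_)
    simp only
    have := wf_ker hφ (m := finrank ℝ V) (s := vS F q)
    simp only [vC, vS] at this ⊢
    rw [← this]
    ring
  have e1 : ‖a‖ * (JJ (volM V F) (finrank ℝ V) F φ - BB (volM V F) (finrank ℝ V) F N φ)
      = ∫ q, ‖a‖ * wf (finrank ℝ V) (sin φ) * (1 * SM2.ker (sin φ) (finrank ℝ V) (vS F q)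
        - vC N q * SM2.ker (sin φ) (finrank ℝ V) (vS F q)) ∂((volM V F).prod (volM V F)) := by
    rw [integral_const_mul, integral_sub i0 iC, eJ, eB]
    ring
  rw [e1]
  unfold Mj
  rw [← integral_sub i1 i3, ← integral_const_mul, Real.norm_eq_abs]
  refine (abs_integral_le_integral_abs).trans ?_
  refine integral_mono ((i1.sub i3).const_mul _).abs ((i0.sub iC).const_mul _) fun q => ?_
  simp only [g1, g3]
  have hk : 0 ≤ SM2.ker (sin φ) (finrank ℝ V) (vS F q) := by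
    unfold SM2.ker
    have := (one_sub_pos' hT' ((sok h1).mem q).2)
    positivity
  have hw : 0 ≤ wf (finrank ℝ V) (sin φ) := by
    unfold wf
    positivity
  have hc : vC N q ≤ 1 := (abs_le.1 (abs_inner_le_one (h1.nn q.1) (h1.nn q.2))).2
  have hn : |⟪N q.1, a⟫| ≤ ‖a‖ := by
    have := abs_real_inner_le_norm (N q.1) a
    rwa [h1.nn, one_mul] at this
  have e2 : wf (finrank ℝ V) (sin φ) * (⟪N q.1, a⟫ * SM2.ker (sin φ) (finrank ℝ V) (vS F q)
      - vC N q * ⟪N q.1, a⟫ * SM2.ker (sin φ) (finrank ℝ V) (vS F q))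
      = ⟪N q.1, a⟫ * (wf (finrank ℝ V) (sin φ) * (SM2.ker (sin φ) (finrank ℝ V) (vS F q)
        * (1 - vC N q))) := by ring
  have h4 : 0 ≤ wf (finrank ℝ V) (sin φ) * (SM2.ker (sin φ) (finrank ℝ V) (vS F q)
        * (1 - vC N q)) := by
    have : 0 ≤ 1 - vC N q := by linarith
    positivity
  rw [e2, abs_mul, abs_of_nonneg h4]
  have := mul_le_mul_of_nonneg_right hn h4
  linarith

/-- **the limit of the functional at `T = 1`** -/
theorem tendsto_Wf_one (hm : 1 ≤ finrank ℝ V) (hW : finrank ℝ W = finrank ℝ V + 2)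
    (hF : SphImm V F) (hT : TwoPt (volM V F) (finrank ℝ V) F N)
    (h1 : OneP (volM V F) (finrank ℝ V) F N) (hinj : Injective F) (a : W) :
    Tendsto (fun φ => Wf (volM V F) (finrank ℝ V) F N a (sin φ)) (𝓝[<] (π / 2))
      (𝓝 (sphereVol (finrank ℝ V) * ∫ x, ⟪N x, a⟫ ∂(volM V F))) := by
  have hfin : IsFiniteMeasure (volM V F) := isFiniteMeasure_volM hF
  have t1 := tendsto_g1 hm hW hF hT h1 hinj a
  have t2 := tendsto_g13 hm hW hF hT h1 hinj a
  have hmR : (finrank ℝ V : ℝ) ≠ 0 := by positivity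
  have s1 : Tendsto (fun φ => sin φ / (1 + sin φ)) (𝓝[<] (π / 2)) (𝓝 (1 / (1 + 1))) :=
    tendsto_sin_one.div (tendsto_sin_one.const_add 1) (by norm_num)
  have s2 : Tendsto (fun φ => sin φ * (1 - sin φ) / ((1 + sin φ) * finrank ℝ V)) (𝓝[<] (π / 2))
      (𝓝 (1 * (1 - 1) / ((1 + 1) * finrank ℝ V))) :=
    (tendsto_sin_one.mul (tendsto_sin_one.const_sub 1)).div
      ((tendsto_sin_one.const_add 1).mul_const _) (by positivity)
  -- the bounded term
  have hb : ∀ᶠ φ in 𝓝[<] (π / 2), ‖wf (finrank ℝ V) (sin φ)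
      * (Mj ((volM V F).prod (volM V F)) (vS F) (finrank ℝ V) (g1 N a) (sin φ)
      - Mj ((volM V F).prod (volM V F)) (vS F) (finrank ℝ V) (g3 N a) (sin φ)
      - Mj ((volM V F).prod (volM V F)) (vS F) (finrank ℝ V) (g5 F N a) (sin φ))‖
      ≤ 3 * ‖a‖ * (volM V F).real univ ^ 2 := by
    filter_upwards [Ioo_pi] with φ hφ
    have hJ := JJ_le hF hT φ ⟨hφ.1.le, hφ.2⟩
    have hJ0 : 0 ≤ JJ (volM V F) (finrank ℝ V) F φ := by
      unfold JJ
      refine integral_nonneg fun q => pow_nonneg ?_ _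
      have := den_pos (φ := φ) ⟨by linarith [hφ.1, pi_pos], hφ.2⟩ (abs_FF_le hF q.1 q.2)
      have := cos_pos_Ioo hφ
      unfold cf
      positivity
    have hn : ∀ q : M × M, |⟪N q.1, a⟫| ≤ ‖a‖ := fun q => by
      have := abs_real_inner_le_norm (N q.1) a
      rwa [h1.nn, one_mul] at this
    have hp : ∀ q : M × M, |⟪F q.1, a⟫| ≤ ‖a‖ := fun q => by
      have := abs_real_inner_le_norm (F q.1) a
      rwa [h1.np, one_mul] at this
    have b1 := wf_Mj_abs h1 (bg1 h1 a) (C := ‖a‖) (fun q => hn q) hφ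
    have b3 := wf_Mj_abs h1 (bg3 h1 a) (C := ‖a‖) (fun q => by
      unfold g3
      rw [abs_mul]
      calc |vC N q| * |⟪N q.1, a⟫| ≤ 1 * ‖a‖ :=
            mul_le_mul (abs_inner_le_one (h1.nn _) (h1.nn _)) (hn q) (abs_nonneg _) zero_le_one
        _ = ‖a‖ := one_mul _) hφ
    have b5 := wf_Mj_abs h1 (bg5 h1 a) (C := ‖a‖) (fun q => by
      unfold g5
      rw [abs_mul]
      calc |vT F N q| * |⟪F q.1, a⟫| ≤ 1 * ‖a‖ :=
            mul_le_mul (abs_inner_le_one (h1.np _) (h1.nn _)) (hp q) (abs_nonneg _) zero_le_one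
        _ = ‖a‖ := one_mul _) hφ
    have hna := norm_nonneg a
    have hJ2 : ‖a‖ * JJ (volM V F) (finrank ℝ V) F φ ≤ ‖a‖ * (volM V F).real univ ^ 2 :=
      mul_le_mul_of_nonneg_left hJ hna
    rw [Real.norm_eq_abs, mul_sub, mul_sub]
    rw [abs_le] at b1 b3 b5 ⊢
    constructor <;> nlinarith
  have t3 : Tendsto (fun φ => (sin φ * (1 - sin φ) / ((1 + sin φ) * finrank ℝ V))
      * (wf (finrank ℝ V) (sin φ)
      * (Mj ((volM V F).prod (volM V F)) (vS F) (finrank ℝ V) (g1 N a) (sin φ)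
      - Mj ((volM V F).prod (volM V F)) (vS F) (finrank ℝ V) (g3 N a) (sin φ)
      - Mj ((volM V F).prod (volM V F)) (vS F) (finrank ℝ V) (g5 F N a) (sin φ))))
      (𝓝[<] (π / 2)) (𝓝 0) := by
    have e0 : (1 : ℝ) * (1 - 1) / ((1 + 1) * finrank ℝ V) = 0 := by simp
    rw [e0] at s2
    exact s2.zero_mul_isBoundedUnder_le (isBoundedUnder_of_eventually_le hb)
  have key := (t1.sub (s1.mul t2)).add t3
  refine tt1 key (fun φ hφ => ?_) (by ring)
  unfold Wf
  ring

/-- the value at `T = 0` -/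
theorem tendsto_Wf_zero (h1 : OneP (volM V F) (finrank ℝ V) F N) [IsFiniteMeasure (volM V F)]
    (a : W) :
    Tendsto (Wf (volM V F) (finrank ℝ V) F N a) (𝓝[>] 0)
      (𝓝 ((volM V F).real univ * ∫ x, ⟪N x, a⟫ ∂(volM V F))) := by
  have hs := sok h1
  have c1 := contOn_Mj (ν := (volM V F).prod (volM V F)) hs (bg1 h1 a) (finrank ℝ V)
  have c3 := contOn_Mj (ν := (volM V F).prod (volM V F)) hs (bg3 h1 a) (finrank ℝ V)
  have c5 := contOn_Mj (ν := (volM V F).prod (volM V F)) hs (bg5 h1 a) (finrank ℝ V)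
  have hle : (𝓝[>] (0 : ℝ)) ≤ 𝓝[Ico 0 1] 0 := by
    rw [← nhdsWithin_Ioo_eq_nhdsGT (one_pos : (0 : ℝ) < 1)]
    exact nhdsWithin_mono _ Ioo_subset_Ico_self
  have t1 := (c1 0 ⟨le_rfl, one_pos⟩).tendsto.mono_left hle
  have t3 := (c3 0 ⟨le_rfl, one_pos⟩).tendsto.mono_left hle
  have t5 := (c5 0 ⟨le_rfl, one_pos⟩).tendsto.mono_left hle
  have tid : Tendsto (fun T : ℝ => T) (𝓝[>] 0) (𝓝 0) := nhdsWithin_le_nhds
  have tw : Tendsto (wf (finrank ℝ V)) (𝓝[>] 0) (𝓝 1) := by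
    have hc : Continuous (wf (finrank ℝ V)) := by
      unfold wf
      fun_prop
    have := (hc.tendsto 0).mono_left (nhdsWithin_le_nhds (s := Ioi 0))
    have e0 : wf (finrank ℝ V) 0 = 1 := by
      unfold wf
      simp
    rwa [e0] at this
  have s1 : Tendsto (fun T : ℝ => T / (1 + T)) (𝓝[>] 0) (𝓝 (0 / (1 + 0))) :=
    tid.div (tid.const_add 1) (by norm_num)
  have s2 : Tendsto (fun T : ℝ => T * (1 - T) / ((1 + T) * finrank ℝ V)) (𝓝[>] 0)
      (𝓝 (0 * (1 - 0) / ((1 + 0) * finrank ℝ V))) := by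
    by_cases h0 : (finrank ℝ V : ℝ) = 0
    · rw [h0]
      simp
    · exact (tid.mul (tid.const_sub 1)).div ((tid.const_add 1).mul_const _) (by simpa using h0)
  have key := tw.mul ((t1.sub (s1.mul (t1.sub t3))).add (s2.mul ((t1.sub t3).sub t5)))
  have e1 : Mj ((volM V F).prod (volM V F)) (vS F) (finrank ℝ V) (g1 N a) 0
      = (volM V F).real univ * ∫ x, ⟪N x, a⟫ ∂(volM V F) := by
    rw [Mj_zero]
    unfold g1
    rw [integral_prod_symm _ (bmn1 h1 a).int]
    simp only [integral_const, smul_eq_mul]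
  rw [e1] at key
  have e2 : ∀ z1 z3 z5 : ℝ, 1 * (z1 - 0 / (1 + 0) * (z1 - z3)
      + 0 * (1 - 0) / ((1 + 0) * (finrank ℝ V : ℝ)) * (z1 - z3 - z5)) = z1 := by
    intro z1 z3 z5
    simp
  rw [e2] at key
  exact key

end

end Vale.Agent.P224.R2.H925
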