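import Vale.Agent.P224.R2.H925.Ml4
import Vale.Agent.P224.R2.H579.NullRow
import Mathlib.Topology.ContinuousMap.Polynomial
import Mathlib.Topology.ContinuousMap.Weierstrass

/-!
The mean normal flow: the free gauge, and the integrated law.
-/

namespace Vale.Agent.P224.R2.H925

open MeasureTheory Set Filter Function Real Module Vale.Agent.P224 Vale.Agent.P224.FV
  Vale.Agent.P224.R2.H470 Vale.Agent.P224.R2.H728
open Vale.Agent.P224.SM2 hiding ker
open scoped RealInnerProductSpace Topology ContDiff Manifold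

set_option linter.unusedSectionVars false

section

variable {Q : Type*} [MeasurableSpace Q] {ν : Measure Q} [IsFiniteMeasure ν] {s g : Q → ℝ}

/-- a function whose moments of one exponent vanish at every level is orthogonal to every power -/
lemma pow_null (hs : SOK s) (hg : BM g) {k : ℕ} (hk : 1 ≤ k)
    (h0 : ∀ T ∈ Ioo (0 : ℝ) 1, Mj ν s k g T = 0) (j : ℕ) :
    ∫ x, s x ^ j * g x ∂ν = 0 := by
  have hgj : ∀ j : ℕ, BM (fun x => s x ^ j * g x) := fun j =>
    BM.mul (BM.pow ⟨hs.meas, 1, fun x => abs_le.2 (hs.mem x)⟩ j) hg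
  have key : ∀ j : ℕ, ∀ T ∈ Ioo (0 : ℝ) 1, Mj ν s (k + j) (fun x => s x ^ j * g x) T = 0 := by
    intro j
    induction j with
    | zero =>
      intro T hT
      simpa using h0 T hT
    | succ j ih =>
      intro T hT
      have h1 := deriv_Mj (ν := ν) hs (hgj j) (k + j) hT
      have h2 : HasDerivAt (Mj ν s (k + j) (fun x => s x ^ j * g x)) 0 T := by
        refine (hasDerivAt_const T (0 : ℝ)).congr_of_eventuallyEq ?_
        filter_upwards [Ioo_mem_nhds hT.1 hT.2] with τ hτ
        exact ih τ hτ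
      have h3 := h1.unique h2
      have hkj : ((k + j : ℕ) : ℝ) ≠ 0 := by positivity
      have h4 := (mul_eq_zero.1 h3).resolve_left hkj
      rw [← h4, ← add_assoc]
      unfold Mj
      refine integral_congr_ae (Eventually.of_forall fun x => ?_)
      simp only
      ring
  have hc := contOn_Mj (ν := ν) hs (hgj j) (k + j)
  have hle : (𝓝[>] (0 : ℝ)) ≤ 𝓝[Ico 0 1] 0 := by
    rw [← nhdsWithin_Ioo_eq_nhdsGT (one_pos : (0 : ℝ) < 1)]
    exact nhdsWithin_mono _ Ioo_subset_Ico_self
  have t1 := (hc 0 ⟨le_rfl, one_pos⟩).tendsto.mono_left hle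
  have t2 : Tendsto (Mj ν s (k + j) (fun x => s x ^ j * g x)) (𝓝[>] 0) (𝓝 0) := by
    refine tendsto_const_nhds.congr' ?_
    filter_upwards [Ioo_mem_nhdsGT (one_pos : (0 : ℝ) < 1)] with τ hτ
    exact (key j τ hτ).symm
  have t3 := tendsto_nhds_unique t1 t2
  rwa [Mj_zero] at t3

/-- and to every continuous function of `s` -/
theorem cont_null (hs : SOK s) (hg : BM g) {k : ℕ} (hk : 1 ≤ k)
    (h0 : ∀ T ∈ Ioo (0 : ℝ) 1, Mj ν s k g T = 0) {f : ℝ → ℝ} (hf : ContinuousOn f (Icc (-1) 1)) :
    ∫ x, f (s x) * g x ∂ν = 0 := by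
  obtain ⟨gm, C, hC⟩ := hg
  have hC0 : 0 ≤ C ∨ IsEmpty Q := by
    rcases isEmpty_or_nonempty Q with hQ | ⟨⟨x⟩⟩
    · exact Or.inr hQ
    · exact Or.inl ((abs_nonneg _).trans (hC x))
  rcases hC0 with hC0 | hQ
  swap
  · simp [Measure.eq_zero_of_isEmpty ν]
  have hpow := pow_null hs ⟨gm, C, hC⟩ hk h0
  have gi : Integrable g ν := BM.int ⟨gm, C, hC⟩
  -- polynomials
  have hpoly : ∀ P : Polynomial ℝ, ∫ x, P.eval (s x) * g x ∂ν = 0 := by
    intro P
    have e1 : ∀ x, P.eval (s x) * g x
        = ∑ i ∈ Finset.range (P.natDegree + 1), P.coeff i * (s x ^ i * g x) := by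
      intro x
      rw [Polynomial.eval_eq_sum_range, Finset.sum_mul]
      refine Finset.sum_congr rfl fun i _ => ?_
      ring
    simp only [e1]
    have hi : ∀ i ∈ Finset.range (P.natDegree + 1),
        Integrable (fun x => P.coeff i * (s x ^ i * g x)) ν := fun i _ =>
      (BM.int (BM.mul (BM.pow ⟨hs.meas, 1, fun x => abs_le.2 (hs.mem x)⟩ i)
        ⟨gm, C, hC⟩)).const_mul _
    rw [integral_finsetSum _ hi]
    refine Finset.sum_eq_zero fun i _ => ?_
    rw [integral_const_mul, hpow i, mul_zero]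
  -- measurability
  have hfm : AEStronglyMeasurable (fun x => f (s x)) ν := by
    have h1 : Measurable ((Icc (-1 : ℝ) 1).indicator f) := by
      classical
      rw [← piecewise_eq_indicator]
      exact hf.measurable_piecewise continuousOn_const measurableSet_Icc
    have h2 : (fun x => f (s x)) = fun x => (Icc (-1 : ℝ) 1).indicator f (s x) :=
      funext fun x => (indicator_of_mem (hs.mem x) f).symm
    rw [h2]
    exact (h1.comp hs.meas).aestronglyMeasurable
  refine abs_eq_zero.1 (le_antisymm ?_ (abs_nonneg _))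
  refine le_of_forall_pos_le_add fun ε hε => ?_
  have hK : 0 < C * ν.real univ + 1 := by positivity
  obtain ⟨P, hP⟩ := exists_polynomial_near_of_continuousOn (-1) 1 f hf
    (ε / (C * ν.real univ + 1)) (by positivity)
  have hi1 : Integrable (fun x => (f (s x) - P.eval (s x)) * g x) ν := by
    refine Integrable.mono' (integrable_const (ε / (C * ν.real univ + 1) * C)) ?_ ?_
    · refine (hfm.sub ?_).mul gm.aestronglyMeasurable
      exact (P.continuous.measurable.comp hs.meas).aestronglyMeasurable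
    · refine Eventually.of_forall fun x => ?_
      rw [norm_mul, Real.norm_eq_abs, Real.norm_eq_abs]
      have := hP (s x) (hs.mem x)
      rw [abs_sub_comm] at this
      exact mul_le_mul this.le (hC x) (abs_nonneg _) (by positivity)
  have hi2 : Integrable (fun x => P.eval (s x) * g x) ν := by
    obtain ⟨B, hB⟩ := isCompact_Icc.exists_bound_of_continuousOn
      (P.continuous.continuousOn (s := Icc (-1 : ℝ) 1))
    exact BM.int (BM.mul ⟨P.continuous.measurable.comp hs.meas, B, fun x => hB _ (hs.mem x)⟩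
      ⟨gm, C, hC⟩)
  have e2 : ∫ x, f (s x) * g x ∂ν = ∫ x, (f (s x) - P.eval (s x)) * g x ∂ν := by
    have e3 : ∫ x, f (s x) * g x ∂ν
        = ∫ x, ((f (s x) - P.eval (s x)) * g x + P.eval (s x) * g x) ∂ν := by
      refine integral_congr_ae (Eventually.of_forall fun x => ?_)
      simp only
      ring
    rw [e3, integral_add hi1 hi2, hpoly P, add_zero]
  rw [e2, zero_add]
  have h5 : ‖∫ x, (f (s x) - P.eval (s x)) * g x ∂ν‖
      ≤ ε / (C * ν.real univ + 1) * C * ν.real univ := by
    refine norm_integral_le_of_norm_le_const (Eventually.of_forall fun x => ?_)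
    rw [norm_mul, Real.norm_eq_abs, Real.norm_eq_abs]
    have := hP (s x) (hs.mem x)
    rw [abs_sub_comm] at this
    exact mul_le_mul this.le (hC x) (abs_nonneg _) (by positivity)
  rw [Real.norm_eq_abs] at h5
  refine h5.trans ?_
  rw [mul_assoc, div_mul_eq_mul_div, div_le_iff₀ hK]
  have : 0 ≤ C * ν.real univ := by positivity
  nlinarith

end

section

variable {X : Type*} {E : Type*} [NormedAddCommGroup E] [InnerProductSpace ℝ E]
variable [TopologicalSpace X] [MeasurableSpace X] [CompactSpace X] [BorelSpace X]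
  [MeasurableSpace E] [BorelSpace E] [SecondCountableTopology E]
  {μ : Measure X} [IsFiniteMeasure μ] {m : ℕ} {p n : X → E}

/-- the null function -/
noncomputable def nul (p n : X → E) (a : E) (q : X × X) : ℝ :=
  (vP p n q - vT p n q) * ((1 + vC n q) * (⟪p q.1, a⟫ - ⟪p q.2, a⟫)
    + (vP p n q * ⟪n q.2, a⟫ - vT p n q * ⟪n q.1, a⟫))

lemma bnul (h : OneP μ m p n) (a : E) : BM (nul p n a) :=
  ((bmP h).sub (bmT h)).mul ((((BM.const 1).add (bmC h)).mul ((bmp1 h a).sub (bmp2 h a))).add
    (((bmP h).mul (bmn2 h a)).sub ((bmT h).mul (bmn1 h a))))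

/-- **the free gauge**: the null function is orthogonal to every continuous function of the scalar
product -/
theorem nul_row (h : OneP μ m p n) (h2 : UE.TwoE μ m p n) (a : E) {f : ℝ → ℝ}
    (hf : ContinuousOn f (Icc (-1) 1)) :
    ∫ q, f (vS p q) * nul p n a q ∂(μ.prod μ) = 0 := by
  refine cont_null (sok h) (bnul h a) (k := m + 2) (by omega) (fun T hT => ?_) hf
  have h1 := (H579.null_row204 h2 a hT).2
  rw [← h1]
  unfold Mj
  refine integral_congr_ae (Eventually.of_forall fun q => ?_)
  simp only [nul, vP, vT, vC, vS, UE.dat, UE.dv, Matrix.cons_val_zero, Matrix.cons_val_one,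
    Matrix.cons_val]
  ring

end

section

variable {V W M : Type*} [NormedAddCommGroup V] [InnerProductSpace ℝ V] [FiniteDimensional ℝ V]
  [NormedAddCommGroup W] [InnerProductSpace ℝ W] [FiniteDimensional ℝ W]
  [TopologicalSpace M] [ChartedSpace V M]
  [MeasurableSpace V] [BorelSpace V] [MeasurableSpace M] [BorelSpace M]
  [MeasurableSpace W] [BorelSpace W] [IsManifold 𝓘(ℝ, V) ∞ M] [CompactSpace M] [T2Space M]
  {F N : M → W}

/-- **the integrated mean normal flow** with a free gauge `f T` (a continuous function of the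
scalar product at each level) -/
theorem mean_flow (hm : 1 ≤ finrank ℝ V) (hW : finrank ℝ W = finrank ℝ V + 2) (hF : SphImm V F)
    (hT : TwoPt (volM V F) (finrank ℝ V) F N) (h1 : OneP (volM V F) (finrank ℝ V) F N)
    (h2 : UE.TwoE (volM V F) (finrank ℝ V) F N) (hinj : Injective F) (a : W)
    {f : ℝ → ℝ → ℝ} (hf : ∀ T ∈ Ioo (0 : ℝ) 1, ContinuousOn (f T) (Icc (-1) 1))
    {B : ℝ → ℝ} (hBi : IntervalIntegrable B volume 0 1)
    (hB : ∀ T ∈ Ioo (0 : ℝ) 1, (finrank ℝ V : ℝ) * (wf (finrank ℝ V) T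
      * ∫ q, (psi (finrank ℝ V) T F N a q + f T (vS F q) * nul F N a q)
        * SM2.ker T (finrank ℝ V + 1) (vS F q) ∂((volM V F).prod (volM V F))) ≤ B T) :
    ((volM V F).real univ - sphereVol (finrank ℝ V)) * ∫ x, ⟪N x, a⟫ ∂(volM V F)
      ≤ ∫ T in (0 : ℝ)..1, B T := by
  have hfin : IsFiniteMeasure (volM V F) := isFiniteMeasure_volM hF
  rw [sub_mul]
  refine flow_le (Ψ := fun T => (finrank ℝ V : ℝ) * (wf (finrank ℝ V) T
    * Mj ((volM V F).prod (volM V F)) (vS F) (finrank ℝ V + 1) (psi (finrank ℝ V) T F N a) T))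
    (fun T hT' => hasDerivAt_Wf h1 hm hT' a) (tendsto_Wf_zero h1 a)
    (tendsto_Wf_one hm hW hF hT h1 hinj a) hBi fun T hT' => ?_
  have hT2 : T ∈ Ico (0 : ℝ) 1 := ⟨hT'.1.le, hT'.2⟩
  have hs := sok h1
  refine le_trans (le_of_eq ?_) (hB T hT')
  have hk : ContinuousOn (fun s => f T s * SM2.ker T (finrank ℝ V + 1) s) (Icc (-1) 1) := by
    refine (hf T hT').mul ?_
    unfold SM2.ker
    exact ContinuousOn.inv₀ (by fun_prop) fun s hs' => pow_ne_zero _ (one_sub_pos' hT2 hs'.2).ne'
  have hn := nul_row h1 h2 a hk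
  have i1 := int_Mj (ν := (volM V F).prod (volM V F)) hs (bpsi h1 T a) (finrank ℝ V + 1) hT2
  have i2 : Integrable (fun q => f T (vS F q) * SM2.ker T (finrank ℝ V + 1) (vS F q)
      * nul F N a q) ((volM V F).prod (volM V F)) := by
    have hmeas : Measurable (fun q => f T (vS F q) * SM2.ker T (finrank ℝ V + 1) (vS F q)) := by
      have h3 : Measurable ((Icc (-1 : ℝ) 1).indicator
          (fun s => f T s * SM2.ker T (finrank ℝ V + 1) s)) := by
        classical
        rw [← piecewise_eq_indicator]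
        exact hk.measurable_piecewise continuousOn_const measurableSet_Icc
      have h4 : (fun q => f T (vS F q) * SM2.ker T (finrank ℝ V + 1) (vS F q))
          = fun q => (Icc (-1 : ℝ) 1).indicator
            (fun s => f T s * SM2.ker T (finrank ℝ V + 1) s) (vS F q) :=
        funext fun q => (indicator_of_mem (hs.mem q)
          (fun s => f T s * SM2.ker T (finrank ℝ V + 1) s)).symm
      rw [h4]
      exact h3.comp hs.meas
    obtain ⟨C, hC⟩ := isCompact_Icc.exists_bound_of_continuousOn hk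
    exact BM.int (BM.mul ⟨hmeas, C, fun q => hC _ (hs.mem q)⟩ (bnul h1 a))
  have e1 : ∫ q, (psi (finrank ℝ V) T F N a q + f T (vS F q) * nul F N a q)
        * SM2.ker T (finrank ℝ V + 1) (vS F q) ∂((volM V F).prod (volM V F))
      = Mj ((volM V F).prod (volM V F)) (vS F) (finrank ℝ V + 1) (psi (finrank ℝ V) T F N a) T
        + ∫ q, f T (vS F q) * SM2.ker T (finrank ℝ V + 1) (vS F q) * nul F N a q
          ∂((volM V F).prod (volM V F)) := by
    unfold Mj
    rw [← integral_add i1 i2]
    refine integral_congr_ae (Eventually.of_forall fun q => ?_)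
    simp only
    ring
  rw [e1, hn, add_zero]

end

end Vale.Agent.P224.R2.H925
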