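import Vale.Agent.P224.R2.H925.Ml5

/-!
The exact flux of the conformal volume with a weight of the second point, and the mean normal
flow of a minimal hypersurface.
-/

namespace Vale.Agent.P224.R2.H925

open MeasureTheory Set Filter Function Real Module Vale.Agent.P224 Vale.Agent.P224.FV
  Vale.Agent.P224.R2.H470 Vale.Agent.P224.R2.H728
open Vale.Agent.P224.SM2 hiding ker
open scoped RealInnerProductSpace Topology ContDiff Manifold

set_option linter.unusedSectionVars false

lemma tendsto_of_sin {G : ℝ → ℝ} {l : Filter ℝ}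
    (h : Tendsto (fun φ => G (sin φ)) (𝓝[<] (π / 2)) l) : Tendsto G (𝓝[<] 1) l := by
  have h1 : Tendsto arcsin (𝓝[<] 1) (𝓝[<] (π / 2)) := by
    refine tendsto_nhdsWithin_iff.2 ⟨?_, ?_⟩
    · have := (continuous_arcsin.tendsto 1).mono_left (nhdsWithin_le_nhds (s := Iio (1 : ℝ)))
      rwa [arcsin_one] at this
    · filter_upwards [self_mem_nhdsWithin] with T hT
      exact arcsin_lt_pi_div_two.2 hT
  refine (h.comp h1).congr' ?_
  filter_upwards [Ioo_mem_nhdsLT (show (-1 : ℝ) < 1 by norm_num)] with T hT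
  simp only [comp_apply]
  rw [sin_arcsin hT.1.le hT.2.le]

/-- a flow of constant sign is integrable, with the integral given by the limits -/
theorem flow_eq {G D : ℝ → ℝ} {g0 g1 : ℝ} (hd : ∀ T ∈ Ioo (0 : ℝ) 1, HasDerivAt G (-D T) T)
    (hD : ∀ T ∈ Ioo (0 : ℝ) 1, 0 ≤ D T) (h0 : Tendsto G (𝓝[>] 0) (𝓝 g0))
    (h1 : Tendsto G (𝓝[<] 1) (𝓝 g1)) :
    IntervalIntegrable D volume 0 1 ∧ ∫ T in (0 : ℝ)..1, D T = g0 - g1 := by
  have hc : ContinuousOn (fun T => -G T) (Ioo 0 1) := fun T hT =>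
    (hd T hT).continuousAt.continuousWithinAt.neg
  have hce := continuousOn_Icc_extendFrom_Ioo (f := fun T => -G T) hc h0.neg h1.neg
  have hde : ∀ T ∈ Ioo (0 : ℝ) 1, HasDerivAt (extendFrom (Ioo 0 1) fun T => -G T) (D T) T := by
    intro T hT
    have h2 := (hd T hT).neg
    rw [neg_neg] at h2
    refine h2.congr_of_eventuallyEq ?_
    filter_upwards [Ioo_mem_nhds hT.1 hT.2] with τ hτ
    exact extendFrom_extends hc τ hτ
  have hi := intervalIntegral.integrableOn_deriv_of_nonneg hce hde hD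
  have hii : IntervalIntegrable D volume 0 1 :=
    (intervalIntegrable_iff_integrableOn_Ioc_of_le zero_le_one).2 hi
  refine ⟨hii, ?_⟩
  have h3 := intervalIntegral.integral_eq_sub_of_hasDerivAt_of_tendsto (zero_lt_one)
    (f := fun T => -G T) (fun T hT => by
      have h2 := (hd T hT).neg
      rw [neg_neg] at h2
      exact h2) hii h0.neg h1.neg
  rw [h3]
  ring

section

variable {X : Type*} {E : Type*} [NormedAddCommGroup E] [InnerProductSpace ℝ E]
variable [TopologicalSpace X] [MeasurableSpace X] [CompactSpace X] [BorelSpace X]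
  [MeasurableSpace E] [BorelSpace E] [SecondCountableTopology E]
  {μ : Measure X} [IsFiniteMeasure μ] {m : ℕ} {p n : X → E}

/-- the derivative of the weighted conformal volume -/
theorem hasDerivAt_vol (h : OneP μ m p n) (hm : 1 ≤ m) {g2 : X → ℝ} (hg : BM g2) {T : ℝ}
    (hT : T ∈ Ioo (0 : ℝ) 1) :
    HasDerivAt (fun T => wf m T * Mj (μ.prod μ) (vS p) m (fun q => g2 q.2) T)
      (-(m * (T / (1 - T ^ 2)) * (wf m T
        * Mj (μ.prod μ) (vS p) (m + 1) (fun q => g2 q.2 * vP p n q ^ 2) T))) T := by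
  have hT' : T ∈ Ico (0 : ℝ) 1 := ⟨hT.1.le, hT.2⟩
  have hs := sok h
  have hk : 0 < 1 - T ^ 2 := by nlinarith [hT.1, hT.2]
  have d1 := deriv_Mj (ν := μ.prod μ) hs hg.snd m hT
  have s1 := shift_Mj (ν := μ.prod μ) hs hg.snd m hT'
  refine ((hasDerivAt_wf m hT).fun_mul d1).congr_deriv ?_
  have bS : BM (fun q : X × X => g2 q.2 * vS p q) := hg.snd.mul (bmS h)
  have bP : BM (fun q : X × X => g2 q.2 * vP p n q ^ 2) := hg.snd.mul ((bmP h).pow 2)
  have r := rowY h hm hT' hg
  have c1 := hg.snd.const_mul T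
  have c2 := c1.add (bP.const_mul (-T))
  have s := Mj_lin (ν := μ.prod μ) hs c2 bS (m + 1) hT' (-1)
  rw [Mj_lin hs c1 bP (m + 1) hT', Mj_cmul] at s
  have e1 : Mj (μ.prod μ) (vS p) (m + 1) (fun q => g2 q.2 * (T - T * (vP p n q * vP p n q)
      - vS p q)) T = _ := (Mj_cong fun q => ?_).trans s
  · rw [r] at e1
    rw [s1]
    have e2 : Mj (μ.prod μ) (vS p) (m + 1) (fun x => vS p x * g2 x.2) T
        = Mj (μ.prod μ) (vS p) (m + 1) (fun x => g2 x.2 * vS p x) T :=
      Mj_cong fun q => mul_comm _ _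
    rw [e2]
    set z1 := Mj (μ.prod μ) (vS p) (m + 1) (fun x => g2 x.2 * vS p x) T
    set z2 := Mj (μ.prod μ) (vS p) (m + 1) (fun x => g2 x.2 * vP p n x ^ 2) T
    set z0 := Mj (μ.prod μ) (vS p) (m + 1) (fun x => g2 x.2) T
    have hz : z1 = T * z0 - T * z2 := by linarith
    rw [hz]
    field_simp
    ring
  · ring

end

section

variable {V W M : Type*} [NormedAddCommGroup V] [InnerProductSpace ℝ V] [FiniteDimensional ℝ V]
  [NormedAddCommGroup W] [InnerProductSpace ℝ W] [FiniteDimensional ℝ W]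
  [TopologicalSpace M] [ChartedSpace V M]
  [MeasurableSpace V] [BorelSpace V] [MeasurableSpace M] [BorelSpace M]
  [MeasurableSpace W] [BorelSpace W] [IsManifold 𝓘(ℝ, V) ∞ M] [CompactSpace M] [T2Space M]
  {F N : M → W}

/-- the weighted conformal volume at `T = 1` -/
theorem tendsto_vol_one (hm : 1 ≤ finrank ℝ V) (hW : finrank ℝ W = finrank ℝ V + 2)
    (hF : SphImm V F) (hT : TwoPt (volM V F) (finrank ℝ V) F N)
    (h1 : OneP (volM V F) (finrank ℝ V) F N) (hinj : Injective F) {g2 : M → ℝ} (hg : BM g2) :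
    Tendsto (fun φ => wf (finrank ℝ V) (sin φ) * Mj ((volM V F).prod (volM V F)) (vS F)
      (finrank ℝ V) (fun q => g2 q.2) (sin φ)) (𝓝[<] (π / 2))
      (𝓝 (sphereVol (finrank ℝ V) * ∫ x, g2 x ∂(volM V F))) := by
  have hfin : IsFiniteMeasure (volM V F) := isFiniteMeasure_volM hF
  obtain ⟨gm, C, hC⟩ := hg
  have key : Tendsto (fun φ => ∫ x, g2 x * V1 (volM V F) (finrank ℝ V) F x φ ∂(volM V F))
      (𝓝[<] (π / 2)) (𝓝 (∫ x, g2 x * sphereVol (finrank ℝ V) ∂(volM V F))) := by
    refine tendsto_integral_filter_of_dominated_convergence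
      (fun _ => C * (volM V F).real univ) ?_ ?_ (integrable_const _) ?_
    · filter_upwards [Ioo_pi] with φ hφ
      have h2 := (JJ_fubini hF hT (φ := φ) ⟨by linarith [hφ.1, pi_pos], hφ.2⟩).1
      exact gm.aestronglyMeasurable.mul h2.aestronglyMeasurable
    · filter_upwards [Ioo_pi] with φ hφ
      refine Eventually.of_forall fun x => ?_
      have h3 := V1_le hm hF hT x (φ := φ) ⟨hφ.1.le, hφ.2⟩
      have h4 : 0 ≤ V1 (volM V F) (finrank ℝ V) F x φ := by
        unfold V1
        refine integral_nonneg fun y => pow_nonneg ?_ _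
        have := den_pos (φ := φ) ⟨by linarith [hφ.1, pi_pos], hφ.2⟩ (abs_FF_le hF y x)
        have := cos_pos_Ioo hφ
        unfold cf
        positivity
      rw [norm_mul, Real.norm_eq_abs, Real.norm_eq_abs, abs_of_nonneg h4]
      exact mul_le_mul (hC x) h3 h4 ((abs_nonneg _).trans (hC x))
    · exact Eventually.of_forall fun x => (V1_lim (by omega) hW hF hinj x).const_mul _
  have e0 : ∫ x, g2 x * sphereVol (finrank ℝ V) ∂(volM V F)
      = sphereVol (finrank ℝ V) * ∫ x, g2 x ∂(volM V F) := by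
    rw [integral_mul_const, mul_comm]
  rw [e0] at key
  refine tt1 key (fun φ hφ => ?_) rfl
  have hT' : sin φ ∈ Ico (0 : ℝ) 1 := ⟨(sin_pos_Ioo hφ).le, sin_lt_one_Ioo hφ⟩
  have i1 := int_Mj (ν := (volM V F).prod (volM V F)) (sok h1) (BM.snd ⟨gm, C, hC⟩)
    (finrank ℝ V) hT'
  unfold Mj
  rw [integral_prod_symm _ i1, ← integral_const_mul]
  refine integral_congr_ae (Eventually.of_forall fun x => ?_)
  simp only
  unfold V1
  rw [← integral_const_mul, ← integral_const_mul]
  refine integral_congr_ae (Eventually.of_forall fun y => ?_)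
  simp only [vS]
  rw [← wf_ker hφ]
  ring

/-- the weighted volume at `T = 0` -/
theorem tendsto_vol_zero (h1 : OneP (volM V F) (finrank ℝ V) F N) [IsFiniteMeasure (volM V F)]
    {g2 : M → ℝ} (hg : BM g2) :
    Tendsto (fun T => wf (finrank ℝ V) T * Mj ((volM V F).prod (volM V F)) (vS F)
      (finrank ℝ V) (fun q => g2 q.2) T) (𝓝[>] 0)
      (𝓝 ((volM V F).real univ * ∫ x, g2 x ∂(volM V F))) := by
  have hs := sok h1
  have c1 := contOn_Mj (ν := (volM V F).prod (volM V F)) hs hg.snd (finrank ℝ V)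
  have hle : (𝓝[>] (0 : ℝ)) ≤ 𝓝[Ico 0 1] 0 := by
    rw [← nhdsWithin_Ioo_eq_nhdsGT (one_pos : (0 : ℝ) < 1)]
    exact nhdsWithin_mono _ Ioo_subset_Ico_self
  have t1 := (c1 0 ⟨le_rfl, one_pos⟩).tendsto.mono_left hle
  have tw : Tendsto (wf (finrank ℝ V)) (𝓝[>] 0) (𝓝 1) := by
    have hc : Continuous (wf (finrank ℝ V)) := by
      unfold wf
      fun_prop
    have := (hc.tendsto 0).mono_left (nhdsWithin_le_nhds (s := Ioi 0))
    have e0 : wf (finrank ℝ V) 0 = 1 := by
      unfold wf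
      simp
    rwa [e0] at this
  have key := tw.mul t1
  have e1 : Mj ((volM V F).prod (volM V F)) (vS F) (finrank ℝ V) (fun q => g2 q.2) 0
      = (volM V F).real univ * ∫ x, g2 x ∂(volM V F) := by
    rw [Mj_zero, integral_prod _ hg.snd.int]
    simp only [integral_const, smul_eq_mul]
  rw [e1, one_mul] at key
  exact key

/-- **the exact flux** with a weight of the second point -/
theorem flux_weight (hm : 1 ≤ finrank ℝ V) (hW : finrank ℝ W = finrank ℝ V + 2)
    (hF : SphImm V F) (hT : TwoPt (volM V F) (finrank ℝ V) F N)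
    (h1 : OneP (volM V F) (finrank ℝ V) F N) (hinj : Injective F) {g2 : M → ℝ} (hg : BM g2)
    (hg0 : ∀ x, 0 ≤ g2 x) :
    IntervalIntegrable (fun T => (finrank ℝ V : ℝ) * (T / (1 - T ^ 2)) * (wf (finrank ℝ V) T
        * Mj ((volM V F).prod (volM V F)) (vS F) (finrank ℝ V + 1)
          (fun q => g2 q.2 * vP F N q ^ 2) T)) volume 0 1 ∧
      ∫ T in (0 : ℝ)..1, (finrank ℝ V : ℝ) * (T / (1 - T ^ 2)) * (wf (finrank ℝ V) T
        * Mj ((volM V F).prod (volM V F)) (vS F) (finrank ℝ V + 1)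
          (fun q => g2 q.2 * vP F N q ^ 2) T)
        = ((volM V F).real univ - sphereVol (finrank ℝ V)) * ∫ x, g2 x ∂(volM V F) := by
  have hfin : IsFiniteMeasure (volM V F) := isFiniteMeasure_volM hF
  have h3 := flow_eq (fun T hT' => hasDerivAt_vol h1 hm hg hT') (fun T hT' => ?_)
    (tendsto_vol_zero h1 hg) (tendsto_of_sin (tendsto_vol_one hm hW hF hT h1 hinj hg))
  · refine ⟨h3.1, h3.2.trans (by ring)⟩
  · have hk : 0 < 1 - T ^ 2 := by nlinarith [hT'.1, hT'.2]
    have hT0 := hT'.1.le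
    have hw : 0 ≤ wf (finrank ℝ V) T := by
      unfold wf
      positivity
    refine mul_nonneg (by positivity) (mul_nonneg hw ?_)
    unfold Mj
    refine integral_nonneg fun q => ?_
    have hv := one_sub_pos' ⟨hT'.1.le, hT'.2⟩ ((sok h1).mem q).2
    have := hg0 q.2
    simp only [Pi.zero_apply]
    unfold SM2.ker
    positivity

end

end Vale.Agent.P224.R2.H925
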