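import Vale.Agent.P224.R2.H470.OneInst
import Vale.Agent.P224.SM2.Row
import Vale.Agent.P224.SM2.Mono

/-!
The one point rows at level `T`: kernels `(1 - T ⟪p x, y⟫)^(-q)` with and without a linear factor.
-/

namespace Vale.Agent.P224.R2.H925

open MeasureTheory Set Filter Function Real Vale.Agent.P224.R2.H470
open Vale.Agent.P224.SM2 hiding ker
open scoped RealInnerProductSpace Topology ContDiff

set_option linter.unusedSectionVars false

section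

variable {E : Type*} [NormedAddCommGroup E] [InnerProductSpace ℝ E]

lemma inner_le_one' {y u : E} (hy : ‖y‖ = 1) (hu : ‖u‖ = 1) : ⟪u, y⟫ ≤ 1 := by
  have := real_inner_le_norm u y
  rwa [hu, hy, one_mul] at this

lemma hasFDerivAt_kerI {y u : E} {T : ℝ} {q : ℕ} (hv : 1 - T * ⟪u, y⟫ ≠ 0) :
    HasFDerivAt (fun u => SM2.ker T q ⟪u, y⟫)
      ((q * T * SM2.ker T (q + 1) ⟪u, y⟫) • (innerSL ℝ y)) u := by
  have h1 : HasFDerivAt (fun u : E => ⟪u, y⟫) (innerSL ℝ y) u := by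
    have h2 := (innerSL ℝ y).hasFDerivAt (x := u)
    refine h2.congr_of_eventuallyEq (Eventually.of_forall fun w => ?_)
    simp only [innerSL_apply_apply]
    rw [real_inner_comm]
  exact HasDerivAt.comp_hasFDerivAt (h₂ := SM2.ker T q) (f := fun u : E => ⟪u, y⟫) u (hasDerivAt_ker hv) h1

lemma contDiffAt_kerI {y u : E} {T : ℝ} {q : ℕ} (hv : 1 - T * ⟪u, y⟫ ≠ 0) :
    ContDiffAt ℝ ∞ (fun u => SM2.ker T q ⟪u, y⟫) u := by
  unfold SM2.ker
  have h0 : ContDiffAt ℝ ∞ (fun u : E => ⟪u, y⟫) u := contDiffAt_id.inner ℝ contDiffAt_const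
  have h1 : ContDiffAt ℝ ∞ (fun u : E => (1 - T * ⟪u, y⟫) ^ q) u :=
    (contDiffAt_const.sub (contDiffAt_const.mul h0)).pow q
  exact h1.inv (pow_ne_zero _ hv)

variable {X : Type*} [TopologicalSpace X] [MeasurableSpace X] [CompactSpace X] [BorelSpace X]
  {μ : Measure X} [IsFiniteMeasure μ] {m : ℕ} {p n : X → E}

lemma inner_tg (x : X) (b y : E) :
    ⟪y, tg p n x b⟫ = ⟪y, b⟫ - ⟪p x, b⟫ * ⟪p x, y⟫ - ⟪n x, b⟫ * ⟪n x, y⟫ := by
  unfold tg
  rw [inner_sub_right, inner_sub_right, inner_smul_right, inner_smul_right, real_inner_comm (p x) y,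
    real_inner_comm (n x) y]

section

variable (h : OneP μ m p n) {y : E} (hy : ‖y‖ = 1) {T : ℝ} (hT : T ∈ Ico (0 : ℝ) 1)
include h hy hT

lemma v_ne {u : E} (hu : ‖u‖ = 1) : 1 - T * ⟪u, y⟫ ≠ 0 :=
  (one_sub_pos' hT (inner_le_one' hy hu)).ne'

lemma continuous_kerp (q : ℕ) : Continuous fun x => SM2.ker T q ⟪p x, y⟫ := by
  have h1 := h.cp
  unfold SM2.ker
  refine Continuous.inv₀ (by fun_prop) fun x => pow_ne_zero _ (v_ne h hy hT (h.np x))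

/-- the first row, with the kernel of exponent `q` -/
theorem row1 (q : ℕ) (b : E) :
    ∫ x, (q * T * SM2.ker T (q + 1) ⟪p x, y⟫
        * (⟪y, b⟫ - ⟪p x, b⟫ * ⟪p x, y⟫ - ⟪n x, b⟫ * ⟪n x, y⟫)
      - m * ⟪p x, b⟫ * SM2.ker T q ⟪p x, y⟫) ∂μ = 0 := by
  have cp := h.cp
  have cn := h.cn
  have r := h.r1 (fun u => SM2.ker T q ⟪u, y⟫) (fun u hu => contDiffAt_kerI (v_ne h hy hT hu)) b
  have e1 : ∀ x, fderiv ℝ (fun u => SM2.ker T q ⟪u, y⟫) (p x) (tg p n x b)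
      = q * T * SM2.ker T (q + 1) ⟪p x, y⟫
        * (⟪y, b⟫ - ⟪p x, b⟫ * ⟪p x, y⟫ - ⟪n x, b⟫ * ⟪n x, y⟫) := by
    intro x
    rw [(hasFDerivAt_kerI (v_ne h hy hT (h.np x))).fderiv]
    simp only [smul_apply, innerSL_apply_apply, smul_eq_mul]
    rw [inner_tg]
  simp only [e1] at r
  have c1 := continuous_kerp h hy hT q
  have c2 := continuous_kerp h hy hT (q + 1)
  rw [integral_sub (int_of_cont (by fun_prop)) (int_of_cont (by fun_prop)), r,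
    ← integral_const_mul, sub_eq_zero]
  refine integral_congr_ae (Eventually.of_forall fun x => ?_)
  simp only
  ring

/-- the second row, with the kernel of exponent `q` -/
theorem row2 (q : ℕ) (b c : E) :
    ∫ x, (q * T * SM2.ker T (q + 1) ⟪p x, y⟫ * (⟪n x, b⟫ * (⟪y, c⟫ - ⟪p x, c⟫ * ⟪p x, y⟫)
        - ⟪n x, c⟫ * (⟪y, b⟫ - ⟪p x, b⟫ * ⟪p x, y⟫))
      - m * (⟪n x, b⟫ * ⟪p x, c⟫ - ⟪n x, c⟫ * ⟪p x, b⟫) * SM2.ker T q ⟪p x, y⟫) ∂μ = 0 := by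
  have cp := h.cp
  have cn := h.cn
  have r := h.r2 (fun u => SM2.ker T q ⟪u, y⟫) (fun u hu => contDiffAt_kerI (v_ne h hy hT hu)) b c
  have e1 : ∀ b x, fderiv ℝ (fun u => SM2.ker T q ⟪u, y⟫) (p x) (tg p n x b)
      = q * T * SM2.ker T (q + 1) ⟪p x, y⟫
        * (⟪y, b⟫ - ⟪p x, b⟫ * ⟪p x, y⟫ - ⟪n x, b⟫ * ⟪n x, y⟫) := by
    intro b x
    rw [(hasFDerivAt_kerI (v_ne h hy hT (h.np x))).fderiv]
    simp only [smul_apply, innerSL_apply_apply, smul_eq_mul]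
    rw [inner_tg]
  simp only [e1] at r
  have c1 := continuous_kerp h hy hT q
  have c2 := continuous_kerp h hy hT (q + 1)
  rw [integral_sub (int_of_cont (by fun_prop)) (int_of_cont (by fun_prop)), sub_eq_zero]
  refine Eq.trans ?_ (r.trans ?_)
  · refine integral_congr_ae (Eventually.of_forall fun x => ?_)
    simp only
    ring
  · rw [← integral_const_mul]
    refine integral_congr_ae (Eventually.of_forall fun x => ?_)
    simp only
    ring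

/-- the third row: a linear factor -/
theorem row3 (q : ℕ) (a b : E) :
    ∫ x, (q * T * SM2.ker T (q + 1) ⟪p x, y⟫ * ⟪p x, a⟫
        * (⟪y, b⟫ - ⟪p x, b⟫ * ⟪p x, y⟫ - ⟪n x, b⟫ * ⟪n x, y⟫)
      + SM2.ker T q ⟪p x, y⟫ * (⟪a, b⟫ - ⟪p x, b⟫ * ⟪p x, a⟫ - ⟪n x, b⟫ * ⟪n x, a⟫)
      - m * ⟪p x, a⟫ * ⟪p x, b⟫ * SM2.ker T q ⟪p x, y⟫) ∂μ = 0 := by
  have cp := h.cp
  have cn := h.cn
  have hl : ∀ u : E, HasFDerivAt (fun u : E => ⟪u, a⟫) (innerSL ℝ a) u := by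
    intro u
    have h2 := (innerSL ℝ a).hasFDerivAt (x := u)
    refine h2.congr_of_eventuallyEq (Eventually.of_forall fun w => ?_)
    simp only [innerSL_apply_apply]
    rw [real_inner_comm]
  have r := h.r1 (fun u => SM2.ker T q ⟪u, y⟫ * ⟪u, a⟫) (fun u hu =>
    (contDiffAt_kerI (v_ne h hy hT hu)).mul (contDiffAt_id.inner ℝ contDiffAt_const)) b
  have e1 : ∀ x, fderiv ℝ (fun u => SM2.ker T q ⟪u, y⟫ * ⟪u, a⟫) (p x) (tg p n x b)
      = q * T * SM2.ker T (q + 1) ⟪p x, y⟫ * ⟪p x, a⟫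
        * (⟪y, b⟫ - ⟪p x, b⟫ * ⟪p x, y⟫ - ⟪n x, b⟫ * ⟪n x, y⟫)
        + SM2.ker T q ⟪p x, y⟫ * (⟪a, b⟫ - ⟪p x, b⟫ * ⟪p x, a⟫ - ⟪n x, b⟫ * ⟪n x, a⟫) := by
    intro x
    rw [((hasFDerivAt_kerI (v_ne h hy hT (h.np x))).fun_mul (hl (p x))).fderiv]
    simp only [ContinuousLinearMap.add_apply, smul_apply, innerSL_apply_apply,
      smul_eq_mul]
    rw [inner_tg, inner_tg]
    ring
  simp only [e1] at r
  have c1 := continuous_kerp h hy hT q
  have c2 := continuous_kerp h hy hT (q + 1)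
  rw [integral_sub (int_of_cont (by fun_prop)) (int_of_cont (by fun_prop)), r,
    ← integral_const_mul, sub_eq_zero]
  refine integral_congr_ae (Eventually.of_forall fun x => ?_)
  simp only
  ring

/-- the fourth row: a linear factor in the second row -/
theorem row4 (q : ℕ) (a b c : E) :
    ∫ x, (q * T * SM2.ker T (q + 1) ⟪p x, y⟫ * ⟪p x, a⟫
        * (⟪n x, b⟫ * (⟪y, c⟫ - ⟪p x, c⟫ * ⟪p x, y⟫)
          - ⟪n x, c⟫ * (⟪y, b⟫ - ⟪p x, b⟫ * ⟪p x, y⟫))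
      + SM2.ker T q ⟪p x, y⟫ * (⟪n x, b⟫ * (⟪a, c⟫ - ⟪p x, c⟫ * ⟪p x, a⟫)
          - ⟪n x, c⟫ * (⟪a, b⟫ - ⟪p x, b⟫ * ⟪p x, a⟫))
      - m * (⟪n x, b⟫ * ⟪p x, c⟫ - ⟪n x, c⟫ * ⟪p x, b⟫) * ⟪p x, a⟫ * SM2.ker T q ⟪p x, y⟫) ∂μ = 0 := by
  have cp := h.cp
  have cn := h.cn
  have hl : ∀ u : E, HasFDerivAt (fun u : E => ⟪u, a⟫) (innerSL ℝ a) u := by
    intro u
    have h2 := (innerSL ℝ a).hasFDerivAt (x := u)
    refine h2.congr_of_eventuallyEq (Eventually.of_forall fun w => ?_)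
    simp only [innerSL_apply_apply]
    rw [real_inner_comm]
  have r := h.r2 (fun u => SM2.ker T q ⟪u, y⟫ * ⟪u, a⟫) (fun u hu =>
    (contDiffAt_kerI (v_ne h hy hT hu)).mul (contDiffAt_id.inner ℝ contDiffAt_const)) b c
  have e1 : ∀ b x, fderiv ℝ (fun u => SM2.ker T q ⟪u, y⟫ * ⟪u, a⟫) (p x) (tg p n x b)
      = q * T * SM2.ker T (q + 1) ⟪p x, y⟫ * ⟪p x, a⟫
        * (⟪y, b⟫ - ⟪p x, b⟫ * ⟪p x, y⟫ - ⟪n x, b⟫ * ⟪n x, y⟫)
        + SM2.ker T q ⟪p x, y⟫ * (⟪a, b⟫ - ⟪p x, b⟫ * ⟪p x, a⟫ - ⟪n x, b⟫ * ⟪n x, a⟫) := by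
    intro b x
    rw [((hasFDerivAt_kerI (v_ne h hy hT (h.np x))).fun_mul (hl (p x))).fderiv]
    simp only [ContinuousLinearMap.add_apply, smul_apply, innerSL_apply_apply,
      smul_eq_mul]
    rw [inner_tg, inner_tg]
    ring
  simp only [e1] at r
  have c1 := continuous_kerp h hy hT q
  have c2 := continuous_kerp h hy hT (q + 1)
  rw [integral_sub (int_of_cont (by fun_prop)) (int_of_cont (by fun_prop)), sub_eq_zero]
  refine Eq.trans ?_ (r.trans ?_)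
  · refine integral_congr_ae (Eventually.of_forall fun x => ?_)
    simp only
    ring
  · rw [← integral_const_mul]
    refine integral_congr_ae (Eventually.of_forall fun x => ?_)
    simp only
    ring

end

end

end Vale.Agent.P224.R2.H925
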