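import Vale.Agent.P224.R2.H925.Cl6
import Vale.Agent.P224.R2.H742.SpecT0
import Vale.Agent.P224.R2.H582.Conv
import Vale.Agent.P224.R2.H728.T0g
import Vale.Agent.P224.TP.Top
import Vale.Agent.P224.Bdl.B5

/-!
Final assembly in odd dimension: the near law for the adapted flow gives the sharp volume bound.
-/

namespace Vale.Agent.P224.R2.H925

open MeasureTheory Set Filter Function Real Module Vale.Agent.P224 Vale.Agent.P224.SM2
  Vale.Agent.P224.R2.H582 Vale.Agent.P224.R2.H728 Vale.Agent.P224.R2.H742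
open scoped Topology RealInnerProductSpace ENNReal ContDiff Manifold

set_option linter.unusedSectionVars false

/-- the adapted flow with its two end conditions; `rr = √(m² - 1)`, `d = 2 / rr` -/
structure OddFlow (m : ℕ) (rr : ℝ) (u : St) (ε0 r0 c0 lam : ℝ) : Prop where
  hr : 0 < rr
  hr2 : rr ^ 2 = (m : ℝ) ^ 2 - 1
  sys : Sys m (2 / rr) u
  lim0 : Lim0 m (2 / rr) u ε0 r0 c0
  lim1 : Lim1 m u lam
  lam_pos : 0 < lam
  ε0_nonpos : ε0 ≤ 0

/-- the normalised value at `T = 0` of the Clifford product -/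
noncomputable def Fc (m : ℕ) (rr ε0 c0 : ℝ) : ℝ := c0 + 4 * ε0 / (rr * (m + 1)) * Jkl m rr

section

variable {m k : ℕ} {rr ε0 r0 c0 lam : ℝ} {u : St}

lemma cd_odd (hk : 1 ≤ k) (hm : m = 2 * k + 1) (hr2 : rr ^ 2 = (m : ℝ) ^ 2 - 1) :
    CD (k + 1) k m (((k : ℝ) + 1) / m) ((k : ℝ) / m) (rr / (2 * m)) := by
  have hkR : (0 : ℝ) < k := by exact_mod_cast hk
  have hmR : (m : ℝ) = 2 * k + 1 := by rw [hm]; push_cast; ring
  have hm0 : (0 : ℝ) < m := by rw [hmR]; positivity
  refine { hk := by omega, hl := hk, ha := by positivity, hb := by positivity, hab := ?_,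
           hq := ?_, hka := ?_, hlb := ?_ }
  · field_simp
    rw [hmR]
    ring
  · rw [div_pow, hr2]
    field_simp
    rw [hmR]
    ring
  · push_cast
    field_simp
  · field_simp

/-- the flux ratio of the adapted flow in odd dimension -/
theorem OddFlow.ratio (h : OddFlow m rr u ε0 r0 c0 lam) (hk : 1 ≤ k) (hm : m = 2 * k + 1) :
    Fc m rr ε0 c0 * cliffordVol m (k + 1) = 2 * lam * sphereVol m := by
  have hkR : (1 : ℝ) ≤ k := by exact_mod_cast hk
  have hmR : (m : ℝ) = 2 * k + 1 := by rw [hm]; push_cast; ring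
  have hm0 : (0 : ℝ) < m := by rw [hmR]; positivity
  have hr := h.hr
  have hr2 := h.hr2
  have hd : 2 / rr = (((k : ℝ) + 1) / m - (k : ℝ) / m) / (rr / (2 * m)) := by
    field_simp
    ring
  have hd2 : (2 / rr) ^ 2 < 4 := by
    rw [div_pow, hr2, div_lt_iff₀ (by rw [hmR]; nlinarith), hmR]
    nlinarith
  have h1 := (cd_odd hk hm hr2).ratio (by omega) hd hd2 h.sys h.lim0 h.lim1
  rw [← h1]
  congr 1
  unfold Fc F0C Jkl al be
  have hkm : (k : ℝ) = (m - 1) / 2 := by rw [hmR]; ring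
  have e1 : (m : ℝ) + 1 ≠ 0 := by positivity
  have e2 : (m : ℝ) + 3 ≠ 0 := by positivity
  have e3 : (m : ℝ) - 1 ≠ 0 := by rw [hmR]; have : (k : ℝ) ≠ 0 := by positivity
                                  intro h0; apply this; linarith
  have e4 : ((m : ℝ) - 1) / 2 + 1 = (m + 1) / 2 := by ring
  have e5 : ((m : ℝ) - 1) / 2 + 1 + 1 = (m + 3) / 2 := by ring
  push_cast
  rw [hkm, e5, e4, div_pow 2 rr, hr2, show (m : ℝ) ^ 2 - 1 = (m - 1) * (m + 1) by ring]
  field_simp
  rw [hr2]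
  ring

end

/-- the quadratic defect of the adapted flow -/
noncomputable def Qk (d : ℝ) (k : R4) : ℝ := (k.2.2.2 - k.1 - d / 2 * (k.2.1 + k.2.2.1)) ^ 2

section

variable {X : Type*} [MeasurableSpace X] {E : Type*} [NormedAddCommGroup E]
  [InnerProductSpace ℝ E] {μ : Measure X} [IsFiniteMeasure μ] [NeZero μ] {p n : X → E}
  {ι : Type*} [Fintype ι] [DecidableEq ι] (b : OrthonormalBasis ι ℝ E) {m : ℕ}

/-- **the value at `T = 0`** is at most its value at the Clifford product, up to the mean normal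
and the two defects; one of the two orientations -/
theorem side [CompleteSpace E] (h : T0Data (nrm μ) m (co b p) (co b n)) (hm : 3 ≤ m)
    (ho : Odd (Fintype.card ι)) {rr : ℝ} (hr : 0 < rr) (hr2 : rr ^ 2 = (m : ℝ) ^ 2 - 1)
    (hi : Integrable n μ) {ε0 r0 c0 : ℝ} (hε : ε0 ≤ 0) :
    ∃ σ : ℝ, (σ = 1 ∨ σ = -1) ∧
      E2 μ p (fun x => σ • n x) (f0K m (2 / rr) ε0 r0 c0)
        ≤ Fc m rr ε0 c0 * μ.real univ ^ 2 + m * r0 * ‖∫ x, n x ∂μ‖ ^ 2
          + 4 * (-ε0) / (rr * (m + 1)) *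
            ((m + 1) * (2 * m - 1) / rr * E2 μ p (fun x => σ • n x) (Qk (2 / rr))
              + 7 / rr * ((m + 1) / 2 * E2 μ p (fun x => σ • n x) Xk)) := by
  have hmR : (3 : ℝ) ≤ m := by exact_mod_cast hm
  have hm1 : (m : ℝ) + 1 ≠ 0 := by positivity
  obtain ⟨σ, hσ, hs⟩ := odd_spectral h hmR ho hr hr2
  refine ⟨σ, hσ, ?_⟩
  have hσ2 : σ ^ 2 = 1 := by rcases hσ with h | h <;> rw [h] <;> norm_num
  have hp := h.prob
  have h2 := hs ((m + 1) * (2 * m - 1) / rr) (7 / rr) (by field_simp; exact le_rfl)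
    (by field_simp; exact le_rfl)
  set ν := (nrm μ).prod (nrm μ) with hν
  set A := μ.real univ with hA
  -- the three functionals
  have q0 : ∀ q : X × X, SM2.pr p (fun x => σ • n x) q
      = (ip (co b p) (co b p) q.1 q.2, σ * ip (co b p) (co b n) q.1 q.2,
        σ * ip (co b n) (co b p) q.1 q.2, ip (co b n) (co b n) q.1 q.2) := by
    intro q
    simp only [SM2.pr, ip_co, inner_smul_left, inner_smul_right, RCLike.conj_to_real]
    rw [← mul_assoc, ← sq, hσ2, one_mul]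
  have eQ : E2 μ p (fun x => σ • n x) (Qk (2 / rr)) = A ^ 2 *
      ∫ q, (ip (co b n) (co b n) q.1 q.2 - ip (co b p) (co b p) q.1 q.2
        - σ / rr * (ip (co b p) (co b n) q.1 q.2 + ip (co b n) (co b p) q.1 q.2)) ^ 2 ∂ν := by
    rw [E2_nrm]
    congr 1
    refine integral_congr_ae (Eventually.of_forall fun q => ?_)
    simp only [q0, Qk]
    congr 1
    field_simp
  have eX : E2 μ p (fun x => σ • n x) Xk = A ^ 2 *
      ∫ q, (ip (co b n) (co b p) q.1 q.2 - ip (co b p) (co b n) q.1 q.2) ^ 2 ∂ν := by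
    rw [E2_nrm]
    congr 1
    refine integral_congr_ae (Eventually.of_forall fun q => ?_)
    simp only [q0, Xk]
    rw [← mul_sub, mul_pow, hσ2, one_mul]
  have e1 : ∫ q, ip (co b n) (co b n) q.1 q.2 ∂ν = ∑ i, m1 (nrm μ) (co b n) i ^ 2 := by
    unfold ip
    rw [hν, E2_sum h.bN h.bN]
    refine Finset.sum_congr rfl fun i _ => ?_
    unfold m1
    ring
  have bnn : BM (fun q : X × X => ip (co b n) (co b n) q.1 q.2) := BM.ip2 h.bN h.bN
  have bpn : BM (fun q : X × X => ip (co b p) (co b n) q.1 q.2) := BM.ip2 h.bx h.bN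
  have bnp : BM (fun q : X × X => ip (co b n) (co b p) q.1 q.2) := BM.ip2 h.bN h.bx
  have bpp : BM (fun q : X × X => ip (co b p) (co b p) q.1 q.2) := BM.ip2 h.bx h.bx
  have bL : BM (fun q : X × X => ((m : ℝ) + 3 - 4 / (m ^ 2 - 1)) * (ip (co b n) (co b n) q.1 q.2
            * (σ * (ip (co b p) (co b n) q.1 q.2 + ip (co b n) (co b p) q.1 q.2)) / 2)
          - ip (co b p) (co b p) q.1 q.2
            * (σ * (ip (co b p) (co b n) q.1 q.2 + ip (co b n) (co b p) q.1 q.2)) / 2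
          - 4 * (m + 2) / rr * ((ip (co b p) (co b n) q.1 q.2 ^ 2
            + ip (co b n) (co b p) q.1 q.2 ^ 2) / 2)) := by
    have b1 := (bpn.add bnp).const_mul σ
    have b2 := ((bnn.mul b1).const_mul (1 / 2)).const_mul ((m : ℝ) + 3 - 4 / (m ^ 2 - 1))
    have b3 := (bpp.mul b1).const_mul (1 / 2)
    have b4 := (((bpn.pow 2).add (bnp.pow 2)).const_mul (1 / 2)).const_mul (4 * ((m : ℝ) + 2) / rr)
    have b5 := (b2.sub b3).sub b4
    refine cast (congrArg _ (funext fun q => ?_)) b5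
    ring
  have eF : E2 μ p (fun x => σ • n x) (f0K m (2 / rr) ε0 r0 c0)
      = A ^ 2 * (c0 + m * r0 * (∑ i, m1 (nrm μ) (co b n) i ^ 2) + 4 * ε0 / (rr * (m + 1))
        * ∫ q, (((m : ℝ) + 3 - 4 / (m ^ 2 - 1)) * (ip (co b n) (co b n) q.1 q.2
            * (σ * (ip (co b p) (co b n) q.1 q.2 + ip (co b n) (co b p) q.1 q.2)) / 2)
          - ip (co b p) (co b p) q.1 q.2
            * (σ * (ip (co b p) (co b n) q.1 q.2 + ip (co b n) (co b p) q.1 q.2)) / 2
          - 4 * (m + 2) / rr * ((ip (co b p) (co b n) q.1 q.2 ^ 2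
            + ip (co b n) (co b p) q.1 q.2 ^ 2) / 2)) ∂ν) := by
    rw [E2_nrm, ← e1]
    congr 1
    have i1 : Integrable (fun _ : X × X => c0) ν := integrable_const _
    have i2 := (bnn.const_mul (m * r0)).int (μ := ν)
    have i3 := (bL.const_mul (4 * ε0 / (rr * (m + 1)))).int (μ := ν)
    have i12 : Integrable (fun q : X × X => c0 + m * r0 * ip (co b n) (co b n) q.1 q.2) ν :=
      i1.add i2
    have e2 : c0 = ∫ _ : X × X, c0 ∂ν := by simp
    rw [← integral_const_mul, ← integral_const_mul]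
    nth_rewrite 2 [e2]
    rw [← integral_add i1 i2, ← integral_add i12 i3]
    refine integral_congr_ae (Eventually.of_forall fun q => ?_)
    simp only [q0, f0K]
    rw [div_pow, hr2]
    have : rr ≠ 0 := hr.ne'
    have hm2 : (m : ℝ) ^ 2 - 1 ≠ 0 := by nlinarith
    have hσ3 : ∀ z : ℝ, (σ * z) ^ 2 = z ^ 2 := fun z => by rw [mul_pow, hσ2, one_mul]
    simp only [hσ3]
    field_simp
    ring
  rw [eF, eQ, eX, sum_m1_sq b hi]
  set J := ∫ q, (((m : ℝ) + 3 - 4 / (m ^ 2 - 1)) * (ip (co b n) (co b n) q.1 q.2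
            * (σ * (ip (co b p) (co b n) q.1 q.2 + ip (co b n) (co b p) q.1 q.2)) / 2)
          - ip (co b p) (co b p) q.1 q.2
            * (σ * (ip (co b p) (co b n) q.1 q.2 + ip (co b n) (co b p) q.1 q.2)) / 2
          - 4 * (m + 2) / rr * ((ip (co b p) (co b n) q.1 q.2 ^ 2
            + ip (co b n) (co b p) q.1 q.2 ^ 2) / 2)) ∂ν with hJ
  set Q := ∫ q, (ip (co b n) (co b n) q.1 q.2 - ip (co b p) (co b p) q.1 q.2
        - σ / rr * (ip (co b p) (co b n) q.1 q.2 + ip (co b n) (co b p) q.1 q.2)) ^ 2 ∂ν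
  set Y := ∫ q, (ip (co b n) (co b p) q.1 q.2 - ip (co b p) (co b n) q.1 q.2) ^ 2 ∂ν
  have hX : 0 ≤ 4 * (-ε0) / (rr * (m + 1)) := by
    apply div_nonneg <;> [linarith; positivity]
  have h3 := mul_le_mul_of_nonneg_left h2 hX
  have hA2 : 0 ≤ A ^ 2 := sq_nonneg _
  have h4 := mul_le_mul_of_nonneg_left h3 hA2
  have e5 : 4 * ε0 / (rr * (m + 1)) = -(4 * (-ε0) / (rr * (m + 1))) := by ring
  unfold Fc
  rw [e5]
  set Z := 4 * (-ε0) / (rr * (m + 1))
  nlinarith [h4]

end

section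

variable {V W M : Type*} [NormedAddCommGroup V] [InnerProductSpace ℝ V] [FiniteDimensional ℝ V]
  [NormedAddCommGroup W] [InnerProductSpace ℝ W] [FiniteDimensional ℝ W]
  [TopologicalSpace M] [ChartedSpace V M]
  [MeasurableSpace V] [BorelSpace V] [MeasurableSpace M] [BorelSpace M]
  [IsManifold 𝓘(ℝ, V) ∞ M] [CompactSpace M] [T2Space M] [ConnectedSpace M]
  [MeasurableSpace W] [BorelSpace W]

/-- **the near law of the adapted flow**: the defect absorbs the mean normal term and the two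
losses of the spectral inequality -/
def NearOdd (V : Type*) {W M : Type*} [NormedAddCommGroup V] [InnerProductSpace ℝ V]
    [FiniteDimensional ℝ V] [MeasurableSpace V] [BorelSpace V] [NormedAddCommGroup W]
    [InnerProductSpace ℝ W] [TopologicalSpace M] [ChartedSpace V M] [MeasurableSpace M]
    (F N : M → W) (rr : ℝ) (u : St) (ε0 r0 : ℝ) : Prop :=
  ∃ B : ℝ → ℝ, IntervalIntegrable B volume 0 1 ∧
    (∀ T ∈ Ioo (0 : ℝ) 1,
      B T ≤ DS ((volM V F).prod (volM V F)) (finrank ℝ V) (SM2.pr F N) (2 / rr) u T) ∧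
    finrank ℝ V * r0 * ‖∫ x, N x ∂(volM V F)‖ ^ 2
      + 4 * (-ε0) / (rr * (finrank ℝ V + 1)) *
        ((finrank ℝ V + 1) * (2 * finrank ℝ V - 1) / rr * E2 (volM V F) F N (Qk (2 / rr))
          + 7 / rr * ((finrank ℝ V + 1) / 2 * E2 (volM V F) F N Xk))
      ≤ ∫ T in (0 : ℝ)..1, B T

lemma unitNormal_smul {F : M → W} {x : M} {n : W} (h : IsUnitNormal V F x n) {σ : ℝ}
    (hσ : σ = 1 ∨ σ = -1) : IsUnitNormal V F x (σ • n) := by
  obtain ⟨h1, h2, h3⟩ := h
  refine ⟨?_, ?_, fun i => ?_⟩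
  · rw [norm_smul, h1, mul_one]
    rcases hσ with h | h <;> rw [h] <;> simp
  · rw [inner_smul_right, h2, mul_zero]
  · rw [inner_smul_right, h3 i, mul_zero]

/-- **Final assembly, odd dimension.** -/
theorem odd_final {k : ℕ} (hk : 1 ≤ k) (hV : finrank ℝ V = 2 * k + 1)
    (hW : finrank ℝ W = finrank ℝ V + 2) {rr ε0 r0 c0 lam : ℝ} {u : St}
    (hu : OddFlow (finrank ℝ V) rr u ε0 r0 c0 lam)
    {F : M → W} (hF : SphImm V F) (hmin : ∀ x n, IsUnitNormal V F x n → meanCurv V F x n = 0)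
    (hng : ¬ ∃ a : W, a ≠ 0 ∧ ∀ x, ⟪F x, a⟫ = 0)
    (hcase : ∀ N : M → W, ContMDiff 𝓘(ℝ, V) 𝓘(ℝ, W) ∞ N → (∀ x, IsUnitNormal V F x (N x)) →
      Injective F → ‖∫ x, N x ∂(volM V F)‖ ≤ sphereVol (finrank ℝ V) →
      (volM V F).real univ < leastClifford (finrank ℝ V) →
      6 / 5 * sphereVol (finrank ℝ V) ≤ (volM V F).real univ → NearOdd V F N rr u ε0 r0) :
    ENNReal.ofReal (leastClifford (finrank ℝ V)) ≤ volM V F univ := by
  have hm : 0 < finrank ℝ V := by omega
  have hm2 : 2 ≤ finrank ℝ V := by omega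
  have hfin : IsFiniteMeasure (volM V F) := isFiniteMeasure_volM hF
  have hS0 : 0 < sphereVol (finrank ℝ V) := sphereVol_pos' _
  have hconv : ∀ c : ℝ, c ≤ (volM V F).real univ → ENNReal.ofReal c ≤ volM V F univ :=
    fun c hc => ENNReal.ofReal_le_of_le_toReal hc
  refine hconv _ ?_
  by_cases hinj : Injective F
  swap
  · have h2 := TwoSide.two_le (by omega) hW hF hmin hinj
    exact (FV.leastClifford_lt_two hm2).trans h2
  by_contra hlt
  rw [not_le] at hlt
  have h65 : 6 / 5 * sphereVol (finrank ℝ V) ≤ (volM V F).real univ := by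
    have h1 := (PM.main_frac (by omega) hW hF hmin hng).1
    have h2 := ENNReal.toReal_mono (measure_ne_top _ _) h1
    rwa [ENNReal.toReal_ofReal (by positivity)] at h2
  have hA0 : 0 < (volM V F).real univ := by linarith
  have hne : NeZero (volM V F) := ⟨fun h0 => by
    rw [h0] at hA0
    simp at hA0⟩
  have : Nonempty M := by
    by_contra h0
    rw [not_nonempty_iff] at h0
    have : (volM V F) univ = 0 := by
      rw [univ_eq_empty_iff.2 h0, measure_empty]
    unfold Measure.real at hA0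
    rw [this] at hA0
    simp at hA0
  obtain ⟨N, hNs, hN, htop⟩ := TP.exists_normal_le hW hm hF hinj
  have hcN : Continuous N := hNs.continuous
  have hT0 : T0Data (nrm (volM V F)) (finrank ℝ V) (co (stdOrthonormalBasis ℝ W) F)
      (co (stdOrthonormalBasis ℝ W) N) := t0Data_of_min (by omega) hW hF hmin hNs hN _
  have hodd : Odd (Fintype.card (Fin (finrank ℝ W))) := by
    rw [Fintype.card_fin, hW, hV]
    exact ⟨k + 1, by ring⟩
  obtain ⟨σ, hσ, hside⟩ := side (stdOrthonormalBasis ℝ W) hT0 (by omega) hodd hu.hr hu.hr2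
    (hcN.integrable_of_hasCompactSupport (HasCompactSupport.of_compactSpace N)) hu.ε0_nonpos (r0 := r0) (c0 := c0)
  have hNs' : ContMDiff 𝓘(ℝ, V) 𝓘(ℝ, W) ∞ (fun x => σ • N x) := by
    have h1 : ContDiff ℝ ∞ (fun w : W => σ • w) := contDiff_const.smul contDiff_id
    exact h1.contMDiff.comp hNs
  have hN' : ∀ x, IsUnitNormal V F x (σ • N x) := fun x => unitNormal_smul (hN x) hσ
  have hnorm : ‖∫ x, σ • N x ∂(volM V F)‖ = ‖∫ x, N x ∂(volM V F)‖ := by
    rw [integral_smul, norm_smul]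
    rcases hσ with h | h <;> rw [h] <;> simp
  obtain ⟨B, hBi, hB, hBu⟩ := hcase _ hNs' hN' hinj (by rw [hnorm]; exact htop) hlt h65
  have hd2 : (2 / rr) ^ 2 < 4 := by
    have h3 : (3 : ℝ) ≤ finrank ℝ V := by
      have : 3 ≤ finrank ℝ V := by omega
      exact_mod_cast this
    rw [div_pow, hu.hr2, div_lt_iff₀ (by nlinarith)]
    nlinarith
  have hlaw := adapted_defect (by omega) hW hF hmin hNs' hN' hinj hd2 hu.sys hu.lim0 hu.lim1
    hu.lam_pos.le hBi hB
  rw [hnorm] at hBu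
  have e1 : ∫ q, f0K (finrank ℝ V) (2 / rr) ε0 r0 c0 (SM2.pr F (fun x => σ • N x) q)
      ∂((volM V F).prod (volM V F))
      = E2 (volM V F) F (fun x => σ • N x) (f0K (finrank ℝ V) (2 / rr) ε0 r0 c0) := rfl
  rw [e1] at hlaw
  have hratio := hu.ratio hk hV
  have hle : leastClifford (finrank ℝ V) ≤ cliffordVol (finrank ℝ V) (k + 1) :=
    Vale.Agent.P224.leastClifford_le (by omega) (by omega)
  set A := (volM V F).real univ with hA
  set S := sphereVol (finrank ℝ V) with hS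
  set f := Fc (finrank ℝ V) rr ε0 c0 with hf
  set C := cliffordVol (finrank ℝ V) (k + 1) with hC
  have h1 : 2 * lam * (S * A) ≤ f * A ^ 2 := by linarith
  have h2 : (2 * lam * S) * A ≤ (f * A) * A := by nlinarith
  have h3 := le_of_mul_le_mul_right h2 hA0
  rw [← hratio] at h3
  have hC0 : 0 < C := lt_of_lt_of_le (hA0.trans hlt) hle
  have hf0 : 0 < f := by
    have h4 : 0 < f * C := by
      rw [hratio]
      have := hu.lam_pos
      positivity
    exact pos_of_mul_pos_left h4 hC0.le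
  have h5 : C ≤ A := le_of_mul_le_mul_left h3 hf0
  linarith

end

end Vale.Agent.P224.R2.H925
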