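import Vale.Agent.P224.R2.H925.LawU
import Vale.Agent.P224.R2.H627.Const
import Vale.Agent.P224.R2.H627.DCondM

/-!
A lower bound of the weight of the crude law, all `m ≥ 17`.
-/

namespace Vale.Agent.P224.R2.H925

open MeasureTheory Set Filter Function Real Module Vale.Agent.P224 Vale.Agent.P224.FV
open Vale.Agent.P224.SM2 Vale.Agent.P224.R2.H820 Vale.Agent.P224.R2.H728
open Vale.Agent.P224.R2.H627 Vale.Agent.P224.R2.H582
open scoped Topology RealInnerProductSpace ContDiff Manifold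

set_option linter.unusedSectionVars false

/-- the variable `ω = (1 - T) / (1 + T)` -/
noncomputable def om (T : ℝ) : ℝ := (1 - T) / (1 + T)

lemma om_pos {T : ℝ} (hT : T ∈ Ico (0 : ℝ) 1) : 0 < om T :=
  div_pos (by linarith [hT.2]) (by linarith [hT.1])

lemma om_le_one {T : ℝ} (hT : 0 ≤ T) : om T ≤ 1 := by
  unfold om
  rw [div_le_one (by linarith)]
  linarith

lemma om_zero : om 0 = 1 := by
  unfold om
  norm_num

lemma hasDerivAt_om {T : ℝ} (hT : 0 ≤ T) : HasDerivAt om (-(2 / (1 + T) ^ 2)) T := by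
  have h1 : (1 : ℝ) + T ≠ 0 := by linarith
  have h := ((hasDerivAt_id' T).const_sub 1).fun_div ((hasDerivAt_id' T).const_add 1) h1
  refine h.congr_deriv ?_
  field_simp
  ring

/-- primitive of a power of `ω` -/
lemma hasDerivAt_pw {b T : ℝ} (hb : b ≠ 0) (hT : T ∈ Ico (0 : ℝ) 1) :
    HasDerivAt (fun T => om T ^ b / b) (-(om T ^ (b - 1) * (2 / (1 + T) ^ 2))) T := by
  have h1 := ((hasDerivAt_om hT.1).rpow_const (p := b) (Or.inl (om_pos hT).ne')).div_const b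
  refine h1.congr_deriv ?_
  field_simp

/-- the conformal kernel in the variable `ω` -/
lemma kap_om {m : ℕ} {T : ℝ} (hT : T ∈ Ico (0 : ℝ) 1) :
    (1 - T ^ 2) ^ ((m : ℝ) / 2 - 1) * ((1 + T) ^ (m + 1))⁻¹
      = om T ^ ((m : ℝ) / 2 - 1) * ((1 + T) ^ 3)⁻¹ := by
  have h1 : (0 : ℝ) < 1 + T := by linarith [hT.1]
  have e1 : 1 - T ^ 2 = om T * (1 + T) ^ 2 := by
    unfold om
    field_simp
    ring
  have e2 : ((1 + T) ^ 2) ^ ((m : ℝ) / 2 - 1) = (1 + T) ^ m / (1 + T) ^ 2 := by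
    rw [← rpow_natCast (1 + T) 2, ← rpow_mul h1.le]
    rw [show ((2 : ℕ) : ℝ) * ((m : ℝ) / 2 - 1) = (m : ℝ) - (2 : ℕ) by push_cast; ring,
      rpow_sub h1, rpow_natCast]
  rw [e1, mul_rpow (om_pos hT).le (sq_nonneg _), e2]
  have h2 := h1.ne'
  rw [pow_succ (1 + T) m]
  field_simp

/-- the polynomial of the lower bound -/
noncomputable def qw (m R0 s1 w : ℝ) : ℝ :=
  m * R0 * w * (1 + w) - m * (s1 - 19 / 20) * w * (1 - w)
    - 94 / 5 * (m + 1) * (m + 2) / (4 * m) * (1 - w) ^ 2 * (1 + w)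
      * (R0 - 89 / 200 + 89 / 200 * w)
    - 2 * (m + 1) * w ^ 2 * (1 - w) * (R0 - 89 / 200 + 89 / 200 * w)

/-- the lower bound of the weight -/
noncomputable def B0w (m R0 s1 T : ℝ) : ℝ :=
  1 / 8 * (om T ^ (m / 2 - 2) * qw m R0 s1 (om T)) * (2 / (1 + T) ^ 2)

lemma B0w_eq {m R0 s1 T : ℝ} (hm : 0 < m) (hT : T ∈ Ico (0 : ℝ) 1) :
    B0w m R0 s1 T = 1 / 2 * (om T ^ (m / 2 - 1) * ((1 + T) ^ 3)⁻¹ * (m * (R0 - s1 * T)
      + 19 / 20 * m * T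
      - 94 / 5 * ((m + 1) * (m + 2) / m) * (T ^ 2 / (1 - T ^ 2))
        * (R0 - 89 / 200 * (1 - om T))
      - 2 * (m + 1) * T * om T * (R0 - 89 / 200 * (1 - om T)))) := by
  have h1 : (0 : ℝ) < 1 + T := by linarith [hT.1]
  have h2 : (0 : ℝ) < 1 - T := by linarith [hT.2]
  have h3 : 1 - T ^ 2 = (1 - T) * (1 + T) := by ring
  have e1 : om T ^ (m / 2 - 1) = om T ^ (m / 2 - 2) * om T := by
    rw [← rpow_add_one (om_pos hT).ne']
    ring_nf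
  rw [e1, h3]
  unfold B0w
  generalize om T ^ (m / 2 - 2) = W
  unfold qw om
  have h4 := h1.ne'
  have h5 := h2.ne'
  field_simp
  ring

/-- primitives of the powers of `ω` -/
noncomputable def Pn (a : ℝ) (n : ℕ) (T : ℝ) : ℝ := om T ^ (a - 1 + n) / (a - 1 + n)

lemma hasDerivAt_Pn {a T : ℝ} (ha : 1 < a) (n : ℕ) (hT : T ∈ Ico (0 : ℝ) 1) :
    HasDerivAt (Pn a n) (-(om T ^ (a - 2) * om T ^ n * (2 / (1 + T) ^ 2))) T := by
  have hb : a - 1 + n ≠ 0 := by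
    have : (0 : ℝ) ≤ n := n.cast_nonneg
    linarith
  refine (hasDerivAt_pw hb hT).congr_deriv ?_
  rw [show a - 1 + (n : ℝ) - 1 = a - 2 + n by ring, rpow_add_natCast (om_pos hT).ne']

/-- the primitive of the lower bound -/
noncomputable def Gw (m R0 s1 T : ℝ) : ℝ :=
  1 / 8 * (m * R0 * (Pn (m / 2) 1 T + Pn (m / 2) 2 T)
    - m * (s1 - 19 / 20) * (Pn (m / 2) 1 T - Pn (m / 2) 2 T)
    - 94 / 5 * (m + 1) * (m + 2) / (4 * m) * ((R0 - 89 / 200) * (Pn (m / 2) 0 T - Pn (m / 2) 1 T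
      - Pn (m / 2) 2 T + Pn (m / 2) 3 T) + 89 / 200 * (Pn (m / 2) 1 T - Pn (m / 2) 2 T
      - Pn (m / 2) 3 T + Pn (m / 2) 4 T))
    - 2 * (m + 1) * ((R0 - 89 / 200) * (Pn (m / 2) 2 T - Pn (m / 2) 3 T)
      + 89 / 200 * (Pn (m / 2) 3 T - Pn (m / 2) 4 T)))

lemma hasDerivAt_Gw {m R0 s1 T : ℝ} (hm : 2 < m) (hT : T ∈ Ico (0 : ℝ) 1) :
    HasDerivAt (Gw m R0 s1) (-B0w m R0 s1 T) T := by
  have ha : 1 < m / 2 := by linarith
  have p0 := hasDerivAt_Pn ha 0 hT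
  have p1 := hasDerivAt_Pn ha 1 hT
  have p2 := hasDerivAt_Pn ha 2 hT
  have p3 := hasDerivAt_Pn ha 3 hT
  have p4 := hasDerivAt_Pn ha 4 hT
  have h := ((((p1.fun_add p2).const_mul (m * R0)).fun_sub ((p1.fun_sub p2).const_mul
    (m * (s1 - 19 / 20)))).fun_sub (((((p0.fun_sub p1).fun_sub p2).fun_add p3).const_mul
      (R0 - 89 / 200)).fun_add ((((p1.fun_sub p2).fun_sub p3).fun_add p4).const_mul (89 / 200))
      |>.const_mul (94 / 5 * (m + 1) * (m + 2) / (4 * m)))).fun_sub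
    ((((p2.fun_sub p3).const_mul (R0 - 89 / 200)).fun_add
      ((p3.fun_sub p4).const_mul (89 / 200))).const_mul (2 * (m + 1)))
  have h2 := h.const_mul (1 / 8)
  refine h2.congr_deriv ?_
  unfold B0w qw
  ring

lemma contOn_B0w {m R0 s1 : ℝ} : ContinuousOn (B0w m R0 s1) (Ico 0 1) := by
  have hc : ContinuousOn om (Ico 0 1) := fun T hT =>
    (hasDerivAt_om hT.1).continuousAt.continuousWithinAt
  have h1 : ContinuousOn (fun T => om T ^ (m / 2 - 2)) (Ico 0 1) :=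
    hc.rpow_const fun T hT => Or.inl (om_pos hT).ne'
  have h2 : ContinuousOn (fun T => qw m R0 s1 (om T)) (Ico 0 1) := by
    have : Continuous (qw m R0 s1) := by
      unfold qw
      fun_prop
    exact this.comp_continuousOn hc
  have h3 : ContinuousOn (fun T : ℝ => 2 / (1 + T) ^ 2) (Ico 0 1) := by
    refine ContinuousOn.div (by fun_prop) (by fun_prop) fun T hT => ?_
    have : (0 : ℝ) < 1 + T := by linarith [hT.1]
    positivity
  unfold B0w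
  exact ((h1.mul h2).const_smul (1 / 8 : ℝ)).mul h3

lemma int_B0w {m R0 s1 T0 : ℝ} (hm : 2 < m) (h0 : 0 ≤ T0) (h1 : T0 < 1) :
    IntervalIntegrable (B0w m R0 s1) volume 0 T0 ∧
      ∫ T in (0 : ℝ)..T0, B0w m R0 s1 T = Gw m R0 s1 0 - Gw m R0 s1 T0 := by
  have hi : IntervalIntegrable (B0w m R0 s1) volume 0 T0 := by
    refine ContinuousOn.intervalIntegrable ?_
    rw [uIcc_of_le h0]
    exact contOn_B0w.mono fun T hT => ⟨hT.1, by linarith [hT.2]⟩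
  refine ⟨hi, ?_⟩
  have h := intervalIntegral.integral_eq_sub_of_hasDerivAt (f := fun T => -Gw m R0 s1 T)
    (f' := B0w m R0 s1) (a := 0) (b := T0) (fun T hT => ?_) hi
  · rw [h]
    ring
  · rw [uIcc_of_le h0] at hT
    have := (hasDerivAt_Gw (R0 := R0) (s1 := s1) hm ⟨hT.1, by linarith [hT.2]⟩).neg
    rw [neg_neg] at this
    exact this

lemma Pn_zero (a : ℝ) (n : ℕ) : Pn a n 0 = 1 / (a - 1 + n) := by
  unfold Pn
  rw [om_zero, one_rpow]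

lemma Pn_nonneg {a T : ℝ} (ha : 1 < a) (n : ℕ) (hT : T ∈ Ico (0 : ℝ) 1) : 0 ≤ Pn a n T := by
  unfold Pn
  have h1 := rpow_pos_of_pos (om_pos hT) (a - 1 + n)
  have : (0 : ℝ) ≤ n := n.cast_nonneg
  have h2 : 0 < a - 1 + n := by linarith
  positivity

lemma Pn_succ {a T : ℝ} (ha : 1 < a) (n : ℕ) (hT : T ∈ Ico (0 : ℝ) 1) :
    Pn a (n + 1) T ≤ om T * Pn a n T := by
  unfold Pn
  have h0 := om_pos hT
  have h1 := rpow_pos_of_pos h0 (a - 1 + n)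
  have : (0 : ℝ) ≤ n := n.cast_nonneg
  have h2 : 0 < a - 1 + n := by linarith
  have e1 : om T ^ (a - 1 + ((n + 1 : ℕ) : ℝ)) = om T * om T ^ (a - 1 + n) := by
    rw [mul_comm, ← rpow_add_one h0.ne']
    push_cast
    ring_nf
  rw [e1, ← mul_div_assoc]
  refine div_le_div_of_nonneg_left (by positivity) h2 ?_
  push_cast
  linarith

lemma om_three : om (3 / 10) = 7 / 13 := by
  unfold om
  norm_num

lemma pow_small {m : ℝ} (hm : 17 ≤ m) : (7 / 13 : ℝ) ^ (m / 2) ≤ 1 / 190 := by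
  have h1 : (7 / 13 : ℝ) ^ (m / 2) ≤ (7 / 13 : ℝ) ^ (17 / 2 : ℝ) :=
    rpow_le_rpow_of_exponent_ge (by norm_num) (by norm_num) (by linarith)
  refine h1.trans ?_
  have h2 : ((7 / 13 : ℝ) ^ (17 / 2 : ℝ)) ^ 2 ≤ (1 / 190) ^ 2 := by
    rw [← rpow_natCast, ← rpow_mul (by norm_num)]
    rw [show (17 / 2 : ℝ) * ((2 : ℕ) : ℝ) = ((17 : ℕ) : ℝ) by norm_num, rpow_natCast]
    norm_num
  exact le_of_sq_le_sq h2 (by norm_num)

/-- the value of the lower bound -/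
noncomputable def Fw (m R0 s1 : ℝ) : ℝ :=
  1 / 8 * (m * R0 * ((1 / (m / 2) + 1 / (m / 2 + 1)) * (189 / 190))
    - m * (s1 - 19 / 20) * (1 / (m / 2) - 1 / (m / 2 + 1))
    - 94 / 5 * (m + 1) * (m + 2) / (4 * m) * ((R0 - 89 / 200) * (1 / (m / 2 - 1) - 1 / (m / 2)
      - 1 / (m / 2 + 1) + 1 / (m / 2 + 2)) + 89 / 200 * (1 / (m / 2) - 1 / (m / 2 + 1)
      - 1 / (m / 2 + 2) + 1 / (m / 2 + 3)))
    - 2 * (m + 1) * ((R0 - 89 / 200) * (1 / (m / 2 + 1) - 1 / (m / 2 + 2))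
      + 89 / 200 * (1 / (m / 2 + 2) - 1 / (m / 2 + 3))))

lemma Fw_le {m R0 s1 : ℝ} (hm : 17 ≤ m) (hR : 89 / 200 ≤ R0) (hs : 19 / 20 ≤ s1) :
    Fw m R0 s1 ≤ Gw m R0 s1 0 - Gw m R0 s1 (3 / 10) := by
  have hT : (3 / 10 : ℝ) ∈ Ico (0 : ℝ) 1 := by constructor <;> norm_num
  have ha : 1 < m / 2 := by linarith
  have n0 := Pn_nonneg ha 0 hT
  have n1 := Pn_nonneg ha 1 hT
  have n2 := Pn_nonneg ha 2 hT
  have n3 := Pn_nonneg ha 3 hT
  have n4 := Pn_nonneg ha 4 hT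
  have s0 := Pn_succ ha 0 hT
  have s1' := Pn_succ ha 1 hT
  have s2 := Pn_succ ha 2 hT
  have s3 := Pn_succ ha 3 hT
  rw [om_three] at s0 s1' s2 s3
  simp only [zero_add, Nat.reduceAdd] at s0 s1' s2 s3
  -- the tail of the positive term
  have hp1 : Pn (m / 2) 1 (3 / 10) ≤ 1 / 190 * (1 / (m / 2)) := by
    unfold Pn
    rw [om_three, show m / 2 - 1 + ((1 : ℕ) : ℝ) = m / 2 by push_cast; ring, div_eq_mul_one_div]
    exact mul_le_mul_of_nonneg_right (pow_small hm) (by positivity)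
  have hp2 : Pn (m / 2) 2 (3 / 10) ≤ 1 / 190 * (1 / (m / 2 + 1)) := by
    unfold Pn
    rw [om_three, show m / 2 - 1 + ((2 : ℕ) : ℝ) = m / 2 + 1 by push_cast; ring,
      div_eq_mul_one_div]
    refine mul_le_mul_of_nonneg_right ?_ (by positivity)
    exact (rpow_le_rpow_of_exponent_ge (by norm_num) (by norm_num) (by linarith)).trans
      (pow_small hm)
  have q1 : 0 ≤ Pn (m / 2) 0 (3 / 10) - Pn (m / 2) 1 (3 / 10) - Pn (m / 2) 2 (3 / 10)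
      + Pn (m / 2) 3 (3 / 10) := by linarith
  have q2 : 0 ≤ Pn (m / 2) 1 (3 / 10) - Pn (m / 2) 2 (3 / 10) - Pn (m / 2) 3 (3 / 10)
      + Pn (m / 2) 4 (3 / 10) := by linarith
  have q3 : 0 ≤ Pn (m / 2) 1 (3 / 10) - Pn (m / 2) 2 (3 / 10) := by linarith
  have q4 : 0 ≤ Pn (m / 2) 2 (3 / 10) - Pn (m / 2) 3 (3 / 10) := by linarith
  have q5 : 0 ≤ Pn (m / 2) 3 (3 / 10) - Pn (m / 2) 4 (3 / 10) := by linarith
  have hm0 : 0 < m := by linarith
  have hR0 : 0 ≤ R0 := by linarith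
  have hR1 : 0 ≤ R0 - 89 / 200 := by linarith
  have hs1 : 0 ≤ s1 - 19 / 20 := by linarith
  have t1 : m * R0 * (Pn (m / 2) 1 (3 / 10) + Pn (m / 2) 2 (3 / 10))
      ≤ m * R0 * ((1 / (m / 2) + 1 / (m / 2 + 1)) * (1 / 190)) :=
    mul_le_mul_of_nonneg_left (by linarith) (by positivity)
  have t2 : 0 ≤ m * (s1 - 19 / 20) * (Pn (m / 2) 1 (3 / 10) - Pn (m / 2) 2 (3 / 10)) := by
    positivity
  have t3 : 0 ≤ 94 / 5 * (m + 1) * (m + 2) / (4 * m) * ((R0 - 89 / 200)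
      * (Pn (m / 2) 0 (3 / 10) - Pn (m / 2) 1 (3 / 10) - Pn (m / 2) 2 (3 / 10)
      + Pn (m / 2) 3 (3 / 10)) + 89 / 200 * (Pn (m / 2) 1 (3 / 10) - Pn (m / 2) 2 (3 / 10)
      - Pn (m / 2) 3 (3 / 10) + Pn (m / 2) 4 (3 / 10))) := by
    positivity
  have t4 : 0 ≤ 2 * (m + 1) * ((R0 - 89 / 200) * (Pn (m / 2) 2 (3 / 10) - Pn (m / 2) 3 (3 / 10))
      + 89 / 200 * (Pn (m / 2) 3 (3 / 10) - Pn (m / 2) 4 (3 / 10))) := by
    positivity
  unfold Fw Gw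
  simp only [Pn_zero]
  push_cast
  rw [show m / 2 - 1 + 0 = m / 2 - 1 by ring, show m / 2 - 1 + 1 = m / 2 by ring,
    show m / 2 - 1 + 2 = m / 2 + 1 by ring, show m / 2 - 1 + 3 = m / 2 + 2 by ring,
    show m / 2 - 1 + 4 = m / 2 + 3 by ring]
  linarith

lemma Fw_mono {m R0 R1 s1 : ℝ} (hm : 17 ≤ m) (hR : R0 ≤ R1) : Fw m R0 s1 ≤ Fw m R1 s1 := by
  obtain ⟨x, rfl, hx⟩ : ∃ x : ℝ, m = x + 17 ∧ 0 ≤ x := ⟨m - 17, by ring, by linarith⟩
  have e : Fw (x + 17) R1 s1 - Fw (x + 17) R0 s1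
      = (118035603 / 190 + 74721831 / 380 * x + 4588851 / 190 * x ^ 2 + 137757 / 95 * x ^ 3
        + 4063 / 95 * x ^ 4 + 189 / 380 * x ^ 5)
        / ((x + 17) ^ 2 * (x + 17 - 2) * (x + 17 + 2) * (x + 17 + 4)) * (R1 - R0) := by
    unfold Fw
    have h1 : (x + 17) / 2 - 1 ≠ 0 := by linarith
    have h2 : x + 17 - 2 ≠ 0 := by linarith
    have h3 : x + 15 ≠ 0 := by linarith
    field_simp
    ring
  have h4 : 0 < x + 17 - 2 := by linarith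
  have h5 : 0 ≤ R1 - R0 := by linarith
  have : 0 ≤ Fw (x + 17) R1 s1 - Fw (x + 17) R0 s1 := by
    rw [e]
    positivity
  linarith

lemma Fw_ge {m : ℝ} (hm : 17 ≤ m) :
    9 / 50 ≤ Fw m (7071 / 10000 * (2 / 3 + 7 / 10 / m - 105134 / 86625 / m ^ 2))
      (1 + 3 / 2 * (2 / m) + 59 / 25 * (2 / m) ^ 2) := by
  obtain ⟨x, rfl, hx⟩ : ∃ x : ℝ, m = x + 17 ∧ 0 ≤ x := ⟨m - 17, by ring, by linarith⟩
  have e : Fw (x + 17) (7071 / 10000 * (2 / 3 + 7 / 10 / (x + 17) - 105134 / 86625 / (x + 17) ^ 2))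
      (1 + 3 / 2 * (2 / (x + 17)) + 59 / 25 * (2 / (x + 17)) ^ 2) - 9 / 50
      = (214675025656452111 / 5225000000 + 4935354483713873677 / 73150000000 * x
        + 198515850536482977 / 9143750000 * x ^ 2 + 21646782492062513 / 6650000000 * x ^ 3
        + 30359669721545713 / 109725000000 * x ^ 4 + 3114944459512801 / 219450000000 * x ^ 5
        + 1142143984629 / 2612500000 * x ^ 6 + 283723433 / 38000000 * x ^ 7
        + 103473 / 1900000 * x ^ 8)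
        / ((x + 17) ^ 4 * (x + 17 - 2) * (x + 17 + 2) * (x + 17 + 4) * (x + 17 + 6)) := by
    unfold Fw
    have h1 : (x + 17) / 2 - 1 ≠ 0 := by linarith
    have h2 : x + 17 - 2 ≠ 0 := by linarith
    have h3 : x + 15 ≠ 0 := by linarith
    field_simp
    ring
  have h4 : 0 < x + 17 - 2 := by linarith
  have : 0 ≤ Fw (x + 17) (7071 / 10000 * (2 / 3 + 7 / 10 / (x + 17)
      - 105134 / 86625 / (x + 17) ^ 2)) (1 + 3 / 2 * (2 / (x + 17))
      + 59 / 25 * (2 / (x + 17)) ^ 2) - 9 / 50 := by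
    rw [e]
    positivity
  linarith

lemma XpU_le {T t : ℝ} (hT : 0 ≤ T) (hT1 : T ≤ 3 / 10) (ht : 0 ≤ t) :
    XpU T t ≤ (1 + 3 / 2 * t + 59 / 25 * t ^ 2) * T := by
  obtain ⟨S, hS⟩ : ∃ S, S = T ^ 2 := ⟨_, rfl⟩
  have hS0 : 0 ≤ S := hS ▸ sq_nonneg T
  have hS1 : S ≤ 9 / 100 := by
    rw [hS]
    nlinarith
  have e : (1 + 3 / 2 * t + 59 / 25 * t ^ 2) * T - XpU T t
      = T * S * ((7 / 2 + 1873 / 100 * t + 2182 / 25 * t ^ 2) / 3
        - (691 / 100 + 8851 / 100 * t + 76441 / 100 * t ^ 2) * S / 5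
        + (543 / 50 + 6202 / 25 * t + 239249 / 100 * t ^ 2) * S ^ 2 / 7
        - (1323 / 100 + 30087 / 100 * t + 242489 / 100 * t ^ 2) * S ^ 3 / 9) := by
    rw [hS]
    unfold XpU
    ring
  have h1 : (691 / 100 + 8851 / 100 * t + 76441 / 100 * t ^ 2) * S
      ≤ (691 / 100 + 8851 / 100 * t + 76441 / 100 * t ^ 2) * (9 / 100) :=
    mul_le_mul_of_nonneg_left hS1 (by positivity)
  have hS3 : S ^ 3 ≤ 9 / 100 * S ^ 2 := by nlinarith [sq_nonneg S]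
  have h2 : (1323 / 100 + 30087 / 100 * t + 242489 / 100 * t ^ 2) * S ^ 3
      ≤ (1323 / 100 + 30087 / 100 * t + 242489 / 100 * t ^ 2) * (9 / 100 * S ^ 2) :=
    mul_le_mul_of_nonneg_left hS3 (by positivity)
  have h3 : 0 ≤ (1 + t + t ^ 2) * S ^ 2 := by positivity
  have h4 : 0 ≤ T * S := by positivity
  have h5 : 0 ≤ t * S ^ 2 := by positivity
  have h6 : 0 ≤ t ^ 2 * S ^ 2 := by positivity
  have h7 : 0 ≤ S ^ 2 := by positivity
  have h8 : 0 ≤ t ^ 2 := by positivity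
  have : 0 ≤ (1 + 3 / 2 * t + 59 / 25 * t ^ 2) * T - XpU T t := by
    rw [e]
    refine mul_nonneg h4 ?_
    linarith
  linarith

lemma XpL_ge {T t : ℝ} (hT : 0 ≤ T) (hT1 : T ≤ 3 / 10) (ht : 0 ≤ t) (ht1 : t ≤ 2 / 17) :
    89 / 100 * T ≤ XpL T t := by
  obtain ⟨S, hS⟩ : ∃ S, S = T ^ 2 := ⟨_, rfl⟩
  have hS0 : 0 ≤ S := hS ▸ sq_nonneg T
  have hS1 : S ≤ 9 / 100 := by
    rw [hS]
    nlinarith
  have e : XpL T t - 89 / 100 * T
      = T * ((11 / 100 + 3 / 2 * t + 199 / 100 * t ^ 2)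
        - (7 / 2 + 377 / 20 * t + 2753 / 25 * t ^ 2) * S / 3
        + ((27 / 4 + 1841 / 20 * t + 31698 / 25 * t ^ 2) / 5
        - (531 / 50 + 17327 / 50 * t + 323137 / 50 * t ^ 2) * S / 7) * S ^ 2
        + ((311 / 20 + 55977 / 50 * t + 337689 / 25 * t ^ 2) / 9
        - (3097 / 100 + 14337 / 10 * t + 220473 / 25 * t ^ 2) * S / 11) * S ^ 4) := by
    rw [hS]
    unfold XpL
    ring
  have h1 : (7 / 2 + 377 / 20 * t + 2753 / 25 * t ^ 2) * S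
      ≤ (7 / 2 + 377 / 20 * t + 2753 / 25 * t ^ 2) * (9 / 100) :=
    mul_le_mul_of_nonneg_left hS1 (by positivity)
  have h2 : (531 / 50 + 17327 / 50 * t + 323137 / 50 * t ^ 2) * S
      ≤ (531 / 50 + 17327 / 50 * t + 323137 / 50 * t ^ 2) * (9 / 100) :=
    mul_le_mul_of_nonneg_left hS1 (by positivity)
  have h3 : (3097 / 100 + 14337 / 10 * t + 220473 / 25 * t ^ 2) * S
      ≤ (3097 / 100 + 14337 / 10 * t + 220473 / 25 * t ^ 2) * (9 / 100) :=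
    mul_le_mul_of_nonneg_left hS1 (by positivity)
  have h4 : 0 ≤ t ^ 2 := by positivity
  have h5 : t ^ 2 ≤ 2 / 17 * t := by nlinarith
  have h6 : 0 ≤ ((27 / 4 + 1841 / 20 * t + 31698 / 25 * t ^ 2) / 5
        - (531 / 50 + 17327 / 50 * t + 323137 / 50 * t ^ 2) * S / 7) * S ^ 2 := by
    refine mul_nonneg ?_ (by positivity)
    linarith
  have h7 : 0 ≤ ((311 / 20 + 55977 / 50 * t + 337689 / 25 * t ^ 2) / 9
        - (3097 / 100 + 14337 / 10 * t + 220473 / 25 * t ^ 2) * S / 11) * S ^ 4 := by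
    refine mul_nonneg ?_ (by positivity)
    linarith
  have : 0 ≤ XpL T t - 89 / 100 * T := by
    rw [e]
    refine mul_nonneg hT ?_
    linarith
  linarith

lemma one_le_Wm {t h : ℝ} (ht : 0 < t) (ht1 : t ≤ 2 / 17) (_h0 : 0 ≤ h) :
    1 ≤ evR (WmL t) h := by
  simp only [WmL, evR]
  have h1 : 0 ≤ 1 / 8 * t - 7 / 64 * t ^ 2 := by nlinarith
  have h2 : 0 ≤ (3 / 8 * t - 69 / 200 * t ^ 2) * h ^ 2 := by
    refine mul_nonneg ?_ (sq_nonneg _)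
    nlinarith
  have h3 : 0 ≤ t ^ 2 * h ^ 4 := by positivity
  have h4 : 0 ≤ t ^ 2 * h ^ 6 := by positivity
  nlinarith

lemma yh_ge {m : ℕ} (hm : 17 ≤ m) {T : ℝ} (hT : T ∈ Ioo (0 : ℝ) (3 / 10)) :
    19 / 20 ≤ yh m T := by
  have hT' : T ∈ Ioo (0 : ℝ) 1 := ⟨hT.1, by linarith [hT.2]⟩
  have ha := half17_le hm
  have h1 := sh_Wm ha (nrm_cn (m := m) (by omega)) T hT'
  have ht := inv_bds ha
  have h2 := one_le_Wm (h := hv T) ht.1 ht.2 (hv_pos hT').le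
  unfold yh
  have h3 : 0 < √(1 + T ^ 2) := by positivity
  rw [le_div_iff₀ h3]
  have h4 : √(1 + T ^ 2) ≤ 20 / 19 := by
    rw [Real.sqrt_le_left (by norm_num)]
    nlinarith [hT.1, hT.2]
  linarith

lemma R0_ge {m : ℕ} (hm : 17 ≤ m) :
    7071 / 10000 * (2 / 3 + 7 / 10 / m - 105134 / 86625 / m ^ 2) ≤ Rf (m / 2) (cn m) 0 := by
  rw [← mr0_eq]
  have h1 := rM_zero_ge2 hm
  have h2 : √(2 : ℝ) ≤ 10000 / 7071 := by
    rw [Real.sqrt_le_left (by norm_num)]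
    norm_num
  have h3 : 0 ≤ (m : ℝ) * rM m 0 := by
    rw [mr0_eq]
    exact Rf_nonneg ((nrm_cn (m := m) (by omega)).pos' (half17_le hm)).le
      (by linarith [half17_le hm]) ⟨le_rfl, zero_le_one⟩
  have h4 := mul_le_mul_of_nonneg_right h2 h3
  linarith

lemma g_ge {m : ℕ} (hm : 17 ≤ m) :
    (89 / 200 : ℝ) ≤ 7071 / 10000 * (2 / 3 + 7 / 10 / m - 105134 / 86625 / m ^ 2) := by
  have h17 : (17 : ℝ) ≤ m := by exact_mod_cast hm
  have hm0 : (0 : ℝ) < m := by linarith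
  have h1 : 105134 / 86625 / (m : ℝ) ^ 2 ≤ 7 / 10 / m := by
    rw [div_le_div_iff₀ (by positivity) hm0]
    nlinarith
  linarith

lemma fin_aux {Kv X Y Z aV bV : ℝ} (hK : 0 ≤ Kv) (hZ : Z ≤ X - Y) (ha : Kv * X ≤ aV)
    (hb : bV ≤ Y * Kv) : 1 / 2 * (Kv * Z) ≤ 1 / 2 * (aV - bV) := by
  have := mul_le_mul_of_nonneg_left hZ hK
  linarith

lemma fin_aux2 {a b c C D R R' e : ℝ} (b1 : a ≤ b) (b2 : C * R ≤ C * R') (b3 : D * R ≤ D * R')
    (hc : e = c) : a + c - C * R' - D * R' ≤ e + b - C * R - D * R := by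
  linarith

/-- the first coefficient -/
lemma al_low {m : ℕ} (hm : 17 ≤ m) {T lamT : ℝ} (hT : T ∈ Ioo (0 : ℝ) (3 / 10))
    (hl : (1 - T ^ 2) * lamT ≤ 94 / 5) :
    (1 - T ^ 2) ^ ((m : ℝ) / 2 - 1) * (19 / 20 * m * T + m * Rf (m / 2) (cn m) T
      - 94 / 5 * ((m + 1) * (m + 2) / m) * (T ^ 2 / (1 - T ^ 2)) * Rf (m / 2) (cn m) T)
      ≤ al m T (yM m T) (rM m T) lamT := by
  have h17 : (17 : ℝ) ≤ m := by exact_mod_cast hm
  have hm0 : (0 : ℝ) < m := by linarith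
  have hT' : T ∈ Ioo (0 : ℝ) 1 := ⟨hT.1, by linarith [hT.2]⟩
  have hk : 0 < 1 - T ^ 2 := by nlinarith [hT.1, hT'.2]
  have hT0 := hT.1
  have ey := yM_eq (m := m) T
  have er := rM_eq (m := m) T
  have hy := yh_ge hm hT
  have er' : rh m T = Rf (m / 2) (cn m) T := rfl
  rw [er'] at er
  have hr : 0 ≤ rM m T := (certO_M (m := m) (by omega)).r0 T hT'
  set R := Rf (m / 2) (cn m) T with hR
  set K := (1 - T ^ 2) ^ ((m : ℝ) / 2 - 1) with hK
  have hK0 : 0 < K := rpow_pos_of_pos hk _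
  have er2 : rM m T = K * R / m := by
    rw [← er]
    field_simp
  have h1 : lamT ≤ 94 / 5 / (1 - T ^ 2) := by
    rw [le_div_iff₀ hk]
    linarith
  have h2 : 0 ≤ ((m : ℝ) + 1) * (m + 2) * T ^ 2 * rM m T := by positivity
  have h3 := mul_le_mul_of_nonneg_left h1 h2
  have h4 : K * (19 / 20) ≤ yM m T := by
    rw [ey]
    exact mul_le_mul_of_nonneg_left hy hK0.le
  have h5 : m * T * (K * (19 / 20)) ≤ m * T * yM m T :=
    mul_le_mul_of_nonneg_left h4 (by positivity)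
  have h6 : ((m : ℝ) + 1) * (m + 2) * T ^ 2 * rM m T * (94 / 5 / (1 - T ^ 2))
      = K * (94 / 5 * ((m + 1) * (m + 2) / m) * (T ^ 2 / (1 - T ^ 2)) * R) := by
    rw [er2]
    field_simp
  unfold al
  rw [h6] at h3
  have h7 : m * (T * yM m T + m * rM m T) = m * T * yM m T + m * (K * R) := by
    rw [← er]
    ring
  rw [h7]
  linarith

/-- the second coefficient -/
lemma be_up {m : ℕ} (hm : 17 ≤ m) {T κ : ℝ} (hκ : κ ≤ 100) (hT : T ∈ Ioo (0 : ℝ) (3 / 10)) :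
    be m κ T (eM m T) (rM m T) * ((1 + T) ^ (m + 2))⁻¹
      ≤ 2 * (m + 1) * T * om T * Rf (m / 2) (cn m) T
        * ((1 - T ^ 2) ^ ((m : ℝ) / 2 - 1) * ((1 + T) ^ (m + 1))⁻¹) := by
  have h17 : (17 : ℝ) ≤ m := by exact_mod_cast hm
  have hm0 : (0 : ℝ) < m := by linarith
  have hT' : T ∈ Ioo (0 : ℝ) 1 := ⟨hT.1, by linarith [hT.2]⟩
  have hT0 := hT.1
  have h1T : 0 < 1 + T := by linarith [hT.1]
  have er := rM_eq (m := m) T
  have er' : rh m T = Rf (m / 2) (cn m) T := rfl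
  rw [er'] at er
  have he : 0 ≤ eM m T := (certO_M (m := m) (by omega)).e0 T hT'
  set R := Rf (m / 2) (cn m) T with hR
  set K := (1 - T ^ 2) ^ ((m : ℝ) / 2 - 1) with hK
  have hbe : be m κ T (eM m T) (rM m T) ≤ 2 * (m + 1) * T * (1 - T) * (K * R) := by
    have h1 : κ * T ^ 4 ≤ 1 := by
      have hT4 : T ^ 4 ≤ (3 / 10) ^ 4 := pow_le_pow_left₀ hT.1.le hT.2.le 4
      have h5 : 0 ≤ T ^ 4 := by positivity
      nlinarith
    have h2 : κ * T ^ 4 * eM m T ≤ 1 * eM m T := mul_le_mul_of_nonneg_right h1 he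
    have h3 : 0 ≤ (m : ℝ) * (m + 1) * T := by positivity
    have h4 := mul_le_mul_of_nonneg_left h2 h3
    unfold be
    rw [← er]
    linarith
  have eV2 : ((1 + T) ^ (m + 2))⁻¹ = ((1 + T) ^ (m + 1))⁻¹ / (1 + T) := by
    rw [pow_succ (1 + T) (m + 1)]
    field_simp
  have g2 : be m κ T (eM m T) (rM m T) * ((1 + T) ^ (m + 2))⁻¹
      ≤ 2 * (m + 1) * T * (1 - T) * (K * R) * ((1 + T) ^ (m + 2))⁻¹ :=
    mul_le_mul_of_nonneg_right hbe (by positivity)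
  refine g2.trans (le_of_eq ?_)
  rw [eV2]
  unfold om
  field_simp

/-- comparison of the brackets -/
lemma br_le {m : ℕ} (hm : 17 ≤ m) {T : ℝ} (hT : T ∈ Ioo (0 : ℝ) (3 / 10)) :
    m * (Rf (m / 2) (cn m) 0 - (1 + 3 / 2 * (2 / m) + 59 / 25 * (2 / m) ^ 2) * T)
      + 19 / 20 * m * T
      - 94 / 5 * ((m + 1) * (m + 2) / m) * (T ^ 2 / (1 - T ^ 2))
        * (Rf (m / 2) (cn m) 0 - 89 / 200 * (1 - om T))
      - 2 * (m + 1) * T * om T * (Rf (m / 2) (cn m) 0 - 89 / 200 * (1 - om T))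
      ≤ 19 / 20 * m * T + m * Rf (m / 2) (cn m) T
        - 94 / 5 * ((m + 1) * (m + 2) / m) * (T ^ 2 / (1 - T ^ 2)) * Rf (m / 2) (cn m) T
        - 2 * (m + 1) * T * om T * Rf (m / 2) (cn m) T := by
  have h17 : (17 : ℝ) ≤ m := by exact_mod_cast hm
  have hm0 : (0 : ℝ) < m := by linarith
  have ha := half17_le hm
  have hn := nrm_cn (m := m) (by omega)
  have ht := inv_bds ha
  rw [one_div_half] at ht
  have hT0 := hT.1
  have hT' : T ∈ Ioo (0 : ℝ) 1 := ⟨hT.1, by linarith [hT.2]⟩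
  have hT2 : T ∈ Ico (0 : ℝ) 1 := ⟨hT.1.le, hT'.2⟩
  have hTc : T ∈ Icc (0 : ℝ) 1 := ⟨hT.1.le, hT'.2.le⟩
  have h1T : 0 < 1 + T := by linarith [hT.1]
  have hk : 0 < 1 - T ^ 2 := by nlinarith [hT.1, hT'.2]
  have hRl := Rf_ge_X ha hn hTc
  have hRu := Rf_le_X ha hn hTc
  rw [one_div_half] at hRl hRu
  have hXU := XpU_le hT.1.le hT.2.le ht.1.le
  have hXL := XpL_ge hT.1.le hT.2.le ht.1.le ht.2
  have hom0 := om_pos hT2
  have hTom : (1 - om T) / 2 ≤ T := by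
    have : (1 - om T) / 2 = T / (1 + T) := by
      unfold om
      field_simp
      ring
    rw [this, div_le_iff₀ h1T]
    have := mul_nonneg hT0.le hT0.le
    linarith
  set R := Rf (m / 2) (cn m) T with hR
  set R0 := Rf (m / 2) (cn m) 0 with hR0
  have hRup : R ≤ R0 - 89 / 200 * (1 - om T) := by linarith
  have hRlo : R0 - (1 + 3 / 2 * (2 / m) + 59 / 25 * (2 / m) ^ 2) * T ≤ R := by linarith
  refine fin_aux2 (mul_le_mul_of_nonneg_left hRlo hm0.le)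
    (mul_le_mul_of_nonneg_left hRup (by positivity))
    (mul_le_mul_of_nonneg_left hRup (by positivity)) rfl

/-- **the weight of the crude law** -/
theorem WU_ge {m : ℕ} (hm : 17 ≤ m) {κ : ℝ} (hκ : κ ≤ 100) {lam : ℝ → ℝ}
    (hl : ∀ T ∈ Ioo (0 : ℝ) (3 / 10), (1 - T ^ 2) * lam T ≤ 94 / 5) :
    ∃ B0 : ℝ → ℝ, IntervalIntegrable B0 volume 0 (3 / 10) ∧
      9 / 50 ≤ ∫ T in (0 : ℝ)..(3 / 10), B0 T ∧
      ∀ T ∈ Ioo (0 : ℝ) (3 / 10), B0 T ≤ 1 / 2 * (al m T (yM m T) (rM m T) (lam T)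
        * ((1 + T) ^ (m + 1))⁻¹ - be m κ T (eM m T) (rM m T) * ((1 + T) ^ (m + 2))⁻¹) := by
  have h17 : (17 : ℝ) ≤ m := by exact_mod_cast hm
  have hm0 : (0 : ℝ) < m := by linarith
  have hR0g := R0_ge hm
  have hs1g : (19 / 20 : ℝ) ≤ 1 + 3 / 2 * (2 / m) + 59 / 25 * (2 / m) ^ 2 := by
    have : 0 ≤ 3 / 2 * (2 / (m : ℝ)) := by positivity
    have : 0 ≤ 59 / 25 * (2 / (m : ℝ)) ^ 2 := by positivity
    linarith
  have hRg : 89 / 200 ≤ Rf (m / 2) (cn m) 0 := (g_ge hm).trans hR0g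
  obtain ⟨hi, e1⟩ := int_B0w (m := m) (R0 := Rf (m / 2) (cn m) 0)
    (s1 := 1 + 3 / 2 * (2 / m) + 59 / 25 * (2 / m) ^ 2) (T0 := 3 / 10) (by linarith)
    (by norm_num) (by norm_num)
  refine ⟨_, hi, ?_, fun T hT => ?_⟩
  · rw [e1]
    exact (Fw_ge h17).trans ((Fw_mono h17 hR0g).trans (Fw_le h17 hRg hs1g))
  · have hT2 : T ∈ Ico (0 : ℝ) 1 := ⟨hT.1.le, by linarith [hT.2]⟩
    have h1T : 0 < 1 + T := by linarith [hT.1]
    have hk : 0 < 1 - T ^ 2 := by nlinarith [hT2.1, hT2.2]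
    have V1 : 0 < ((1 + T) ^ (m + 1))⁻¹ := by positivity
    have g1 := mul_le_mul_of_nonneg_right (al_low hm hT (hl T hT)) V1.le
    have hKV : 0 < (1 - T ^ 2) ^ ((m : ℝ) / 2 - 1) * ((1 + T) ^ (m + 1))⁻¹ :=
      mul_pos (rpow_pos_of_pos hk _) V1
    rw [B0w_eq hm0 hT2, ← kap_om hT2]
    refine fin_aux hKV.le (br_le hm hT) ?_ (be_up hm hκ hT)
    refine le_trans (le_of_eq ?_) g1
    ring

section

variable {V W M : Type*} [NormedAddCommGroup V] [InnerProductSpace ℝ V] [FiniteDimensional ℝ V]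
  [NormedAddCommGroup W] [InnerProductSpace ℝ W] [FiniteDimensional ℝ W]
  [TopologicalSpace M] [ChartedSpace V M]
  [MeasurableSpace V] [BorelSpace V] [MeasurableSpace M] [BorelSpace M]
  [MeasurableSpace W] [BorelSpace W] [IsManifold 𝓘(ℝ, V) ∞ M]
  [CompactSpace M] [T2Space M]

/-- **the crude law, explicit**, all `m ≥ 17` -/
theorem law_crude [Nonempty M] (hm : 17 ≤ finrank ℝ V) (hW : finrank ℝ W = finrank ℝ V + 2)
    {F : M → W} (hF : SphImm V F) (hmin : ∀ x n, IsUnitNormal V F x n → meanCurv V F x n = 0)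
    {N : M → W} (hNs : ContMDiff 𝓘(ℝ, V) 𝓘(ℝ, W) ∞ N) (hN : ∀ x, IsUnitNormal V F x (N x))
    (hinj : Injective F) {ι : Type*} [Fintype ι] [DecidableEq ι] (b : OrthonormalBasis ι ℝ W)
    {κ : ℝ} (hκ : κ ≤ 100) {m : ℕ} (hmm : m = finrank ℝ V) {lam τ : ℝ → ℝ}
    (hβ : ∀ T ∈ Ioo (0 : ℝ) 1,
      m * (m + 1) * (T * |2 * rM m T - eM m T| - 2 * T ^ 2 * rM m T)
        ≤ be m κ T (eM m T) (rM m T))
    (hα : ∀ T ∈ Ioo (0 : ℝ) 1, 0 ≤ al m T (yM m T) (rM m T) (lam T))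
    (hconv : ∀ T ∈ Ioo (0 : ℝ) 1, (m + 3) * be m κ T (eM m T) (rM m T)
      ≤ (m + 1) * al m T (yM m T) (rM m T) (lam T) * (1 - T))
    (hl : ∀ T ∈ Ioo (0 : ℝ) (3 / 10), (1 - T ^ 2) * lam T ≤ 94 / 5)
    (hτi : IntervalIntegrable τ volume 0 1)
    (hτ : ∀ T ∈ Ioo (0 : ℝ) 1, (m + 1) * (m + 2) * T ^ 2 * rM m T / (1 - T ^ 2) / 2
      * E2 (volM V F) F N (TK m T ((1 - T ^ 2) * lam T))
      ≤ τ T * (volM V F).real univ ^ 2) :
    2 * lamM m * (sphereVol m / (volM V F).real univ)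
        + (9 / 50 * Qpt (nrm (volM V F)) m (co b F) (co b N) - ∫ T in (0 : ℝ)..1, τ T)
      ≤ 1 + m * rM m 0 * ∑ i, m1 (nrm (volM V F)) (co b N) i ^ 2 := by
  have hfin : IsFiniteMeasure (volM V F) := isFiniteMeasure_volM hF
  have hvpos : 0 < volM V F univ := volM_pos_of_isOpen hW hF isOpen_univ univ_nonempty
  have hnz : NeZero (volM V F) := ⟨fun h => by rw [h] at hvpos; simp at hvpos⟩
  have hA : 0 < (volM V F).real univ := ENNReal.toReal_pos hvpos.ne' (measure_ne_top _ _)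
  obtain ⟨B0, i0, hW0, hB0⟩ := WU_ge (m := m) (by omega) hκ hl
  have hpos : ∀ T ∈ Ico (3 / 10 : ℝ) 1, be m κ T (eM m T) (rM m T)
      ≤ al m T (yM m T) (rM m T) (lam T) * (1 - T) := by
    intro T hT
    have hT' : T ∈ Ioo (0 : ℝ) 1 := ⟨by linarith [hT.1], hT.2⟩
    have h1 := hconv T hT'
    have h2 : 0 ≤ al m T (yM m T) (rM m T) (lam T) * (1 - T) :=
      mul_nonneg (hα T hT') (by linarith [hT.2])
    have h3 : (0 : ℝ) < m + 3 := by positivity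
    refine le_of_mul_le_mul_left (a := (m : ℝ) + 3) ?_ h3
    linarith
  have h := law_U (T1 := 3 / 10) (by omega) hW hF hmin hNs hN hinj b (by norm_num) (by norm_num)
    hmm (lam := lam) (be' := fun T => be m κ T (eM m T) (rM m T)) hβ hα
    (fun T hT => hconv T ⟨hT.1, by linarith [hT.2]⟩) hpos i0 hB0 hτi hτ
  have hT0 : T0Data (nrm (volM V F)) m (co b F) (co b N) := by
    rw [hmm]
    exact t0Data_of_min (by omega) hW hF hmin hNs hN b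
  have hmR : (m : ℝ) + 1 ≠ 0 := by positivity
  have e2 : E2 (volM V F) F N Xk = (volM V F).real univ ^ 2
      * Qpt (nrm (volM V F)) m (co b F) (co b N) := E2_Xk b hmR hT0
  have hX0n : 0 ≤ E2 (volM V F) F N Xk := integral_nonneg fun q => sq_nonneg _
  have hQ : 0 ≤ Qpt (nrm (volM V F)) m (co b F) (co b N) := by
    rw [e2] at hX0n
    exact nonneg_of_mul_nonneg_right hX0n (by positivity)
  have h5 := mul_le_mul_of_nonneg_right hW0 hQ
  linarith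

end

end Vale.Agent.P224.R2.H925
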